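import Crest.Agent.R128.Defs

/-!
# Row 128, Hier1: combinatorics of one step of the hierarchy (no analysis).
Keep the statements; add auxiliary lemmas freely (prefix `hier1_`).  `n = nn j`, `g = gg j` etc.; after
`unfold gg dd hh ta la de` everything is linear in `nn j`, and `nn (j+1) = 10 ^ 15 * nn j`.
-/

set_option autoImplicit false

noncomputable section

open scoped Classical
open MeasureTheory Set

namespace Crest.Agent.R128

theorem nn_pos (j : ℕ) : 1 ≤ nn j := by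
  exact one_le_pow₀ (by norm_num)

theorem nn_succ (j : ℕ) : nn (j + 1) = 10 ^ 15 * nn j := by
  exact pow_succ' _ _

theorem nn_ge (j : ℕ) : (j : ℤ) + 1 ≤ nn j := by
  induction j with
  | zero => simp [nn]
  | succ j ih => rw [nn_succ]; push_cast; omega

theorem cnt_nonneg (D : ℤ → Prop) (x y : ℤ) : 0 ≤ cnt D x y := by
  exact Int.natCast_nonneg _

theorem cnt_le (D : ℤ → Prop) {x y : ℤ} (h : x ≤ y) : cnt D x y ≤ y - x := by
  have := Finset.card_filter_le (Finset.Ico x y) D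
  rw [Int.card_Ico] at this
  unfold cnt
  omega

theorem cnt_add (D : ℤ → Prop) {x y z : ℤ} (h : x ≤ y) (h' : y ≤ z) : cnt D x z = cnt D x y + cnt D y z := by
  unfold cnt
  rw [← Finset.Ico_union_Ico_eq_Ico h h', Finset.filter_union, Finset.card_union_of_disjoint
    (Finset.disjoint_filter_filter (Finset.Ico_disjoint_Ico_consecutive x y z)), Nat.cast_add]

theorem cnt_mono {D D' : ℤ → Prop} {x y x' y' : ℤ} (hx : x' ≤ x) (hy : y ≤ y')
    (h : ∀ i, x ≤ i → i < y → D i → D' i) : cnt D x y ≤ cnt D' x' y' := by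
  refine Int.ofNat_le.2 (Finset.card_le_card fun i hi => ?_)
  simp only [Finset.mem_filter, Finset.mem_Ico] at hi ⊢
  exact ⟨⟨by omega, by omega⟩, h i hi.1.1 hi.1.2 hi.2⟩

theorem cnt_congr {D D' : ℤ → Prop} {x y : ℤ} (h : ∀ i, x ≤ i → i < y → (D i ↔ D' i)) :
    cnt D x y = cnt D' x y := by
  exact le_antisymm (cnt_mono le_rfl le_rfl fun i a b => (h i a b).1)
    (cnt_mono le_rfl le_rfl fun i a b => (h i a b).2)

theorem cnt_not (D : ℤ → Prop) {x y : ℤ} (h : x ≤ y) : cnt (fun i => ¬ D i) x y = y - x - cnt D x y := by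
  have := Finset.card_filter_add_card_filter_not (s := Finset.Ico x y) D
  rw [Int.card_Ico] at this
  have e : cnt (fun i => ¬ D i) x y = (((Finset.Ico x y).filter fun i => ¬ D i).card : ℤ) := by
    unfold cnt; congr
  rw [e]
  unfold cnt
  omega

theorem cnt_or (D D' : ℤ → Prop) (x y : ℤ) : cnt (fun i => D i ∨ D' i) x y ≤ cnt D x y + cnt D' x y := by
  unfold cnt
  rw [← Nat.cast_add]
  refine Int.ofNat_le.2 (le_trans (Finset.card_le_card fun i hi => ?_) (Finset.card_union_le _ _))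
  simp only [Finset.mem_filter, Finset.mem_union] at hi ⊢
  tauto

theorem cnt_shift (D : ℤ → Prop) (x y s : ℤ) : cnt (fun i => D (i + s)) x y = cnt D (x + s) (y + s) := by
  refine congrArg Nat.cast (Finset.card_nbij' (· + s) (· - s) ?_ ?_ ?_ ?_)
  · intro i hi
    simp only [Finset.coe_filter, Finset.mem_Ico, mem_ofPred_eq] at hi ⊢
    exact ⟨⟨by omega, by omega⟩, hi.2⟩
  · intro i hi
    simp only [Finset.coe_filter, Finset.mem_Ico, mem_ofPred_eq, sub_add_cancel] at hi ⊢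
    exact ⟨⟨by omega, by omega⟩, hi.2⟩
  · intro i _; simp
  · intro i _; simp

theorem cnt_neg (D : ℤ → Prop) (x y : ℤ) : cnt (fun i => D (-i)) x y = cnt D (-y + 1) (-x + 1) := by
  refine congrArg Nat.cast (Finset.card_nbij' (fun i => -i) (fun i => -i) ?_ ?_ ?_ ?_)
  · intro i hi
    simp only [Finset.coe_filter, Finset.mem_Ico, mem_ofPred_eq] at hi ⊢
    exact ⟨⟨by omega, by omega⟩, hi.2⟩
  · intro i hi
    simp only [Finset.coe_filter, Finset.mem_Ico, mem_ofPred_eq, neg_neg] at hi ⊢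
    exact ⟨⟨by omega, by omega⟩, hi.2⟩
  · intro i _; simp
  · intro i _; simp

theorem cnt_pos {D : ℤ → Prop} {x y i : ℤ} (hx : x ≤ i) (hy : i < y) (h : D i) : 1 ≤ cnt D x y := by
  have : 0 < ((Finset.Ico x y).filter D).card :=
    Finset.card_pos.2 ⟨i, Finset.mem_filter.2 ⟨Finset.mem_Ico.2 ⟨hx, hy⟩, h⟩⟩
  unfold cnt
  omega

theorem exists_of_cnt_pos {D : ℤ → Prop} {x y : ℤ} (h : 1 ≤ cnt D x y) : ∃ i, x ≤ i ∧ i < y ∧ D i := by
  obtain ⟨i, hi⟩ := Finset.card_pos.1 (show 0 < ((Finset.Ico x y).filter D).card by unfold cnt at h; omega)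
  rw [Finset.mem_filter, Finset.mem_Ico] at hi
  exact ⟨i, hi.1.1, hi.1.2, hi.2⟩

theorem cnt_eq_zero {D : ℤ → Prop} {x y : ℤ} (h : Free D x y) : cnt D x y = 0 := by
  have := cnt_nonneg D x y
  by_contra hne
  obtain ⟨i, a, b, c⟩ := exists_of_cnt_pos (show 1 ≤ cnt D x y by omega)
  exact h i a b c

/-- each damaged site spoils at most two bonds -/
theorem cnt_not_reg (D : ℤ → Prop) (x y : ℤ) : cnt (fun a => ¬ Reg D a) x y ≤ 2 * cnt D x (y + 1) := by
  have h1 : cnt (fun a => ¬ Reg D a) x y ≤ cnt (fun a => D a ∨ D (a + 1)) x y :=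
    cnt_mono le_rfl le_rfl fun i _ _ h => by unfold Reg at h; tauto
  have h2 := cnt_or D (fun a => D (a + 1)) x y
  have h3 := cnt_shift D x y 1
  have h4 : cnt D x y ≤ cnt D x (y + 1) := cnt_mono le_rfl (by omega) fun _ _ _ h => h
  have h5 : cnt D (x + 1) (y + 1) ≤ cnt D x (y + 1) := cnt_mono (by omega) le_rfl fun _ _ _ h => h
  omega

theorem B1.b2 {j : ℕ} {s : St} {y : ℤ} (h : B1 j s y) : B2 j s y := by
  have := nn_pos j
  exact ⟨y, y, le_rfl, le_rfl, by unfold gg; omega, h, h⟩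

theorem Abs.not_B {j : ℕ} {s : St} {y : ℤ} (h : Abs j s y) : ¬ s.B y := by
  obtain ⟨w, a, b, c, -⟩ := h
  exact c y a b

theorem abs_zero (ω : Bits) (y : ℤ) : ¬ Abs 0 (hier ω 0) y := by
  rintro ⟨w, -, -, -, h⟩
  rw [cnt_eq_zero (D := (hier ω 0).D) fun _ _ _ h => h] at h
  have := nn_pos 0
  omega

theorem Hl.b2 {ω : Bits} {j : ℕ} {s : St} {y : ℤ} (h : Hl ω j s y) : B2 j s y := by
  obtain ⟨l, r, a, b, c, -⟩ := h
  exact c.2.2.1 y a b

theorem Hl.damaged {ω : Bits} {j : ℕ} {s : St} {y : ℤ} (h : Hl ω j s y) : (step ω j s).D y := by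
  obtain ⟨l, r, a, b, c⟩ := h
  have := nn_pos j
  exact Or.inr ⟨l, r, c, by unfold dd; omega, by unfold dd; omega⟩

/-- A right end of `B2` is a right end of `B1`, followed by a `B2`-free stretch.  (If `u ≤ r ≤ u'` witnesses
`B2 r` and `r < u'` then `B2 (r+1)`.  The first point of `B2` after `r + 1` is a left end, hence in `B1`.) -/
theorem re_b2 {j : ℕ} {s : St} {r : ℤ} (h : RE (B2 j s) r) :
    RE (B1 j s) r ∧ Free (B2 j s) (r + 1) (r + gg j + 2) := by
  obtain ⟨⟨u, u', a, b, c, d, e⟩, h⟩ := h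
  obtain rfl : r = u' := by
    by_contra hne
    exact h ⟨u, u', by omega, by omega, c, d, e⟩
  refine ⟨⟨e, fun h' => h h'.b2⟩, ?_⟩
  rintro i hi hi' ⟨w, w', a', b', c', d', e'⟩
  rcases le_or_gt w (r + 1) with hw | hw
  · exact h ⟨w, w', hw, by omega, c', d', e'⟩
  · exact h ⟨r, w, by omega, by omega, by omega, e, d'⟩

theorem le_b2 {j : ℕ} {s : St} {l : ℤ} (h : LE (B2 j s) l) :
    LE (B1 j s) l ∧ Free (B2 j s) (l - gg j - 1) l := by
  obtain ⟨⟨u, u', a, b, c, d, e⟩, h⟩ := h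
  obtain rfl : l = u := by
    by_contra hne
    exact h ⟨u, u', by omega, by omega, c, d, e⟩
  refine ⟨⟨d, fun h' => h h'.b2⟩, ?_⟩
  rintro i hi hi' ⟨w, w', a', b', c', d', e'⟩
  rcases le_or_gt (l - 1) w' with hw | hw
  · exact h ⟨w, w', by omega, hw, c', d', e'⟩
  · exact h ⟨w', l, by omega, by omega, by omega, e', d⟩

theorem Comp.re {j : ℕ} {s : St} {l r : ℤ} (h : Comp j s l r) : RE (B2 j s) r := by
  exact ⟨h.2.2.1 r h.1 le_rfl, h.2.2.2.2⟩

theorem Comp.le {j : ℕ} {s : St} {l r : ℤ} (h : Comp j s l r) : LE (B2 j s) l := by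
  exact ⟨h.2.2.1 l le_rfl h.1, h.2.2.2.1⟩

/-- two components coincide or are far apart -/
theorem Comp.sep {j : ℕ} {s : St} {l r l' r' : ℤ} (h : Comp j s l r) (h' : Comp j s l' r') :
    (l = l' ∧ r = r') ∨ r + gg j + 2 ≤ l' ∨ r' + gg j + 2 ≤ l := by
  rcases lt_or_ge r l' with h1 | h1
  · refine Or.inr (Or.inl (not_lt.1 fun h2 => (re_b2 h.re).2 l' (by omega) h2 h'.le.1))
  rcases lt_or_ge r' l with h2 | h2
  · refine Or.inr (Or.inr (not_lt.1 fun h3 => (re_b2 h'.re).2 l (by omega) h3 h.le.1))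
  obtain ⟨a, -, b, c, d⟩ := h
  obtain ⟨a', -, b', c', d'⟩ := h'
  refine Or.inl ⟨le_antisymm (not_lt.1 fun h => c (b' _ (by omega) (by omega)))
    (not_lt.1 fun h => c' (b _ (by omega) (by omega))), le_antisymm
    (not_lt.1 fun h => d' (b _ (by omega) (by omega))) (not_lt.1 fun h => d (b' _ (by omega) (by omega)))⟩

/-- `Hl` is constant along runs of `B2` -/
theorem hl_succ {ω : Bits} {j : ℕ} {s : St} {y : ℤ} (h : B2 j s y) (h' : B2 j s (y + 1)) :
    Hl ω j s y ↔ Hl ω j s (y + 1) := by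
  constructor
  · rintro ⟨l, r, a, b, c⟩
    refine ⟨l, r, by omega, not_lt.1 fun hr => c.1.2.2.2.2 ?_, c⟩
    rwa [show r = y by omega]
  · rintro ⟨l, r, a, b, c⟩
    refine ⟨l, r, not_lt.1 fun hr => c.1.2.2.2.1 ?_, by omega, c⟩
    rwa [show l - 1 = y by omega]

/-- ends of the next bad set are ends of `B2` -/
theorem re_step {ω : Bits} {j : ℕ} {s : St} {y : ℤ} (h : RE (step ω j s).B y) : RE (B2 j s) y := by
  exact ⟨h.1.1, fun h' => h.2 ⟨h', fun h2 => h.1.2 ((hl_succ h.1.1 h').2 h2)⟩⟩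

theorem le_step {ω : Bits} {j : ℕ} {s : St} {y : ℤ} (h : LE (step ω j s).B y) : LE (B2 j s) y := by
  refine ⟨h.1.1, fun h' => h.2 ⟨h', fun h2 => h.1.2 ?_⟩⟩
  have := (hl_succ h' (by rw [sub_add_cancel]; exact h.1.1)).1 h2
  rwa [sub_add_cancel] at this

/-- a `B1`-free window of length `n` is not absorbed -/
theorem fresh0 {j : ℕ} {s : St} {w : ℤ} (h : Free (B1 j s) w (w + nn j)) :
    100 * cnt s.D w (w + nn j) < nn j := by
  have := nn_pos j
  exact not_le.1 fun h' => h w le_rfl (by omega)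
    (Or.inr ⟨w, le_rfl, by omega, fun i a b c => h i a b (Or.inl c), h'⟩)

theorem hier1_win {j : ℕ} {s : St} {x : ℤ} (m : ℕ) (h : Free (B1 j s) x (x + m * nn j)) :
    100 * cnt s.D x (x + m * nn j) + m ≤ m * nn j := by
  induction m with
  | zero => simp [cnt]
  | succ m ih =>
    have hn := nn_pos j
    have h0 : 0 ≤ m * nn j := by positivity
    rw [Nat.cast_succ, add_one_mul, ← add_assoc x] at h ⊢
    have h1 := ih fun i a b => h i a (by omega)
    have h2 := fresh0 (s := s) (w := x + m * nn j) fun i a b => h i (by omega) b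
    rw [cnt_add s.D (y := x + m * nn j) (by omega) (by omega)]
    omega

/-- cover `[x, y)` by windows of length `n` inside `[x, y)`; if `y - x < n` use `cnt_le` -/
theorem fresh1 {j : ℕ} {s : St} {x y : ℤ} (hxy : x ≤ y) (h : Free (B1 j s) x y) :
    100 * cnt s.D x y ≤ y - x + 100 * nn j := by
  have hn := nn_pos j
  obtain ⟨m, hm⟩ := Int.eq_ofNat_of_zero_le (Int.ediv_nonneg (sub_nonneg.2 hxy) (by omega : 0 ≤ nn j))
  have h1 := Int.ediv_mul_add_emod (y - x) (nn j)
  have h2 := Int.emod_nonneg (y - x) (by omega : nn j ≠ 0)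
  have h3 := Int.emod_lt_of_pos (y - x) (by omega : 0 < nn j)
  rw [hm] at h1
  have h0 : 0 ≤ m * nn j := by positivity
  have h4 := hier1_win (s := s) (x := x) m fun i a b => h i a (by omega)
  have h5 := cnt_le s.D (show x + m * nn j ≤ y by omega)
  rw [cnt_add s.D (show x ≤ x + m * nn j by omega) (by omega)]
  omega

/-- exact form for a whole number of windows -/
theorem fresh1' {j : ℕ} {s : St} {x : ℤ} {m : ℕ} (hm : 1 ≤ m) (h : Free (B1 j s) x (x + m * nn j)) :
    100 * cnt s.D x (x + m * nn j) < m * nn j := by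
  have := hier1_win m h
  omega

theorem exists_reg {j : ℕ} {s : St} {x : ℤ} (h : Free (B1 j s) x (x + 2 * nn j)) :
    ∃ a, x ≤ a ∧ a + 1 < x + 2 * nn j ∧ Reg s.D a := by
  by_contra hne
  have hn := nn_pos j
  have h1 := cnt_not (Reg s.D) (show x ≤ x + 2 * nn j - 1 by omega)
  rw [cnt_eq_zero (D := Reg s.D) fun a h1 h2 h3 => hne ⟨a, h1, by omega, h3⟩] at h1
  have h2 := cnt_not_reg s.D x (x + 2 * nn j - 1)
  have h3 := hier1_win 2 h
  rw [sub_add_cancel] at h2
  push_cast at h3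
  omega

theorem hier1_off {ω : Bits} {j : ℕ} {s : St} {x y : ℤ} (hxy : x ≤ y) (h : Free (step ω j s).B x y)
    (h' : ∀ i, x ≤ i → i < y → ¬ ∃ l r, Heal ω j s l r ∧ l - dd j ≤ i ∧ i ≤ r + dd j) :
    100 * cnt (step ω j s).D x y ≤ y - x + 100 * nn j := by
  have hn := nn_pos j
  rw [cnt_congr (D := (step ω j s).D) (D' := s.D) fun i a b => or_iff_left (h' i a b)]
  refine fresh1 hxy fun i a b c => h i a b ⟨c.b2, ?_⟩
  rintro ⟨l, r, d, e, f⟩
  exact h' i a b ⟨l, r, f, by unfold dd; omega, by unfold dd; omega⟩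

/-- A window of length `la j` free of the next bad set meets at most one damage zone `[l - dd, r + dd]`
(`Comp.sep`; `gg - 2 dd > la`), of length `≤ 2 dd + n`; off that zone the window is `B2`-free (a point of
`B2` which is not bad is healed, hence in a zone) and the two damage sets agree; use `fresh1` twice. -/
theorem fresh2 {ω : Bits} {j : ℕ} {s : St} {x y : ℤ} (hxy : x ≤ y) (hl : y - x ≤ la j)
    (h : Free (step ω j s).B x y) : cnt (step ω j s).D x y ≤ 2 * 10 ^ 6 * nn j := by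
  have hn := nn_pos j
  by_cases hz : ∃ z, x ≤ z ∧ z < y ∧ ∃ l r, Heal ω j s l r ∧ l - dd j ≤ z ∧ z ≤ r + dd j
  · obtain ⟨z, z1, z2, l, r, hc, z3, z4⟩ := hz
    have hlr := hc.1.2.1
    have key : ∀ i, x ≤ i → i < y → (i < l - dd j ∨ r + dd j < i) →
        ¬ ∃ l r, Heal ω j s l r ∧ l - dd j ≤ i ∧ i ≤ r + dd j := by
      rintro i i1 i2 i3 ⟨l', r', hc', i4, i5⟩
      have := hc.1.sep hc'.1
      unfold gg dd la at *
      omega
    have h1 := hier1_off (x := x) (y := max x (l - dd j)) (by omega) (fun i a b => h i a (by omega))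
      fun i a b => key i a (by omega) (by omega)
    have h2 := hier1_off (x := min y (r + dd j + 1)) (y := y) (by omega) (fun i a b => h i (by omega) b)
      fun i a b => key i (by omega) b (by omega)
    have h3 := cnt_le (step ω j s).D (show max x (l - dd j) ≤ min y (r + dd j + 1) by omega)
    rw [cnt_add _ (y := max x (l - dd j)) (by omega) (by omega),
      cnt_add _ (x := max x (l - dd j)) (y := min y (r + dd j + 1)) (by omega) (by omega)]
    unfold dd la at *
    omega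
  · have := hier1_off hxy h fun i a b c => hz ⟨i, a, b, c⟩
    unfold la at hl
    omega

/-- many regular bonds -/
theorem many_reg {ω : Bits} {j : ℕ} {s : St} {x : ℤ} (h : Free (step ω j s).B x (x + la j)) :
    9 * la j ≤ 10 * cnt (Reg (step ω j s).D) x (x + la j - 1) := by
  have hn := nn_pos j
  have h1 := cnt_not (Reg (step ω j s).D) (show x ≤ x + la j - 1 by unfold la; omega)
  have h2 := cnt_not_reg (step ω j s).D x (x + la j - 1)
  have h3 := fresh2 (by unfold la; omega) (by omega) h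
  rw [sub_add_cancel] at h2
  have h4 : la j = 10 ^ 8 * nn j := rfl
  omega

theorem not_defect {ω : Bits} {j : ℕ} {i : ℤ} (hB : ¬ (hier ω j).B i) (hD : ¬ (hier ω j).D i) : ¬ ω.df i := by
  induction j with
  | zero => exact hB
  | succ j ih =>
    exact ih (fun h => hB ⟨B1.b2 (Or.inl h), fun h' => hD h'.damaged⟩) fun h => hD (Or.inl h)

/-- gaps of the next bad set -/
theorem gap_step {ω : Bits} {j : ℕ} {s : St} {y : ℤ} (h : Gap (j + 1) (step ω j s) y) :
    ∃ G, gg j + 2 ≤ G ∧ G ≤ gg (j + 1) + 1 ∧ RE (B1 j s) y ∧ LE (B1 j s) (y + G) ∧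
      Free (step ω j s).B (y + 1) (y + G) := by
  obtain ⟨G, a, b, c, d, e⟩ := h
  have h1 := re_b2 (re_step ⟨c, e _ le_rfl (by omega)⟩)
  have h2 := le_b2 (le_step ⟨d, e _ (by omega) (by omega)⟩)
  exact ⟨G, not_lt.1 fun h => h1.2 (y + G) (by omega) (by omega) d.1, b, h1.1, h2.1, e⟩

end Crest.Agent.R128
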