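import Crest.Agent.R128.Lin2
import Crest.Agent.R128.Hier1

/-!
# Row 128, Good: cone conditions between regular bonds in regions free of the bad set.
Keep the statements; add auxiliary lemmas freely (prefix `good_`).
-/

set_option autoImplicit false

noncomputable section

open scoped Classical
open MeasureTheory Set

namespace Crest.Agent.R128

/-- the statement of `good` for a state of the hierarchy -/
def good_P (q : ℝ) (v : ℤ → ℝ) (s : St) : Prop :=
  ∀ a c : ℤ, a ≤ c → Reg s.D a → Reg s.D c → Free s.B (a + 1) (c + 1) →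
    UD q v a c (90 * (c - a) + 8 * cnt (fun i => ¬ s.D i) (a + 1) (c + 1))

theorem good_df {q t : ℝ} {v : ℤ → ℝ} (hq : 2 ≤ q) (ht : 1 ≤ t) {i : ℤ} (h : ¬ (bits q t v).df i) :
    q ^ 99 ≤ |v i| := by
  have hq0 : 0 < q ^ 99 := by positivity
  have h1 : t ≤ |v i| / q ^ 99 := not_lt.1 h
  rw [le_div_iff₀ hq0] at h1
  nlinarith

theorem good_ok {q t : ℝ} {v : ℤ → ℝ} (hq : 2 ≤ q) (ht : 1 ≤ t) {j : ℕ} {a m b : ℤ}
    (h : (bits q t v).ok j a m b) :
    q ^ (-ta j) * (nb (ph v a) m * nb (ph v b) m) ≤ |ph v a b| := by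
  have h1 : 0 < nb (ph v a) m := nb_pos (isSol_ph v a) (a := a + 1) (by rw [ph_succ]; norm_num) m
  have h2 : 0 < nb (ph v b) m := nb_pos (isSol_ph v b) (a := b + 1) (by rw [ph_succ]; norm_num) m
  have h3 : t ≤ q ^ ta j * |ph v a b| / (nb (ph v a) m * nb (ph v b) m) := h
  have h4 : 0 < q ^ ta j := zpow_pos (by linarith) _
  have h5 := mul_pos h1 h2
  rw [le_div_iff₀ h5] at h3
  rw [zpow_neg, inv_mul_le_iff₀ h4]
  nlinarith

theorem good_free_mono {B B' : ℤ → Prop} {x y x' y' : ℤ} (h : Free B x y) (hx : x ≤ x') (hy : y' ≤ y)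
    (hB : ∀ i, B' i → B i) : Free B' x' y' :=
  fun i h1 h2 h3 => h i (hx.trans h1) (h2.trans_le hy) (hB i h3)

theorem good_step {q t : ℝ} {v : ℤ → ℝ} (hq : 2 ≤ q) (ht : 1 ≤ t) (hv : Bdd q v) (j : ℕ) (s : St)
    (hP : good_P q v s) : good_P q v (step (bits q t v) j s) := by
  have hq1 : 1 ≤ q := by linarith
  set ω := bits q t v with hω
  have hn := nn_pos j
  have hDD : ∀ y, s.D y → (step ω j s).D y := fun y h => Or.inl h
  have hReg : ∀ y, Reg (step ω j s).D y → Reg s.D y := fun y h =>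
    ⟨fun h' => h.1 (hDD _ h'), fun h' => h.2 (hDD _ h')⟩
  have hB1 : ∀ y, B1 j s y → B2 j s y := fun y h => h.b2
  have hB0 : ∀ y, s.B y → B2 j s y := fun y h => B1.b2 (Or.inl h)
  have hcm : ∀ x y, cnt (fun i => ¬ (step ω j s).D i) x y ≤ cnt (fun i => ¬ s.D i) x y := fun x y =>
    cnt_mono le_rfl le_rfl fun i _ _ h h' => h (hDD i h')
  suffices H : ∀ k : ℕ, ∀ a c : ℤ, c - a < k → a ≤ c → Reg (step ω j s).D a → Reg (step ω j s).D c →
      Free (step ω j s).B (a + 1) (c + 1) →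
      UD q v a c (90 * (c - a) + 8 * cnt (fun i => ¬ (step ω j s).D i) (a + 1) (c + 1)) from
    fun a c hac => H ((c - a).toNat + 1) a c (by omega) hac
  intro k
  induction k with
  | zero => intro a c h1 h2; omega
  | succ k ih =>
  intro a c hk hac ha hc hF
  by_cases hfree : Free (B2 j s) (a + 1) (c + 1)
  · refine (hP a c hac (hReg a ha) (hReg c hc) (good_free_mono hfree le_rfl le_rfl hB0)).mono hq1 ?_
    have := hcm (a + 1) (c + 1)
    linarith
  -- the first point of `B2`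
  obtain ⟨y, ⟨hy1, hy2, hy3⟩, hymin⟩ := Int.exists_least_of_bdd
    (P := fun y => a + 1 ≤ y ∧ y < c + 1 ∧ B2 j s y) ⟨a + 1, fun z hz => hz.1⟩ (by
      by_contra h
      exact hfree fun i h1 h2 h3 => h ⟨i, h1, h2, h3⟩)
  have hHl : Hl ω j s y := by
    by_contra h
    exact hF y hy1 hy2 ⟨hy3, h⟩
  obtain ⟨l, r, hly, hyr, hheal⟩ := hHl
  have hzone : ∀ z, l - dd j ≤ z → z ≤ r + dd j → (step ω j s).D z := fun z h1 h2 =>
    Or.inr ⟨l, r, hheal, h1, h2⟩
  have hd0 : 0 ≤ dd j := by unfold dd; omega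
  have hal : a + 1 < l - dd j := by
    by_contra h
    exact ha.2 (hzone _ (by omega) (by omega))
  have hrc : r + dd j < c := by
    by_contra h
    exact hc.1 (hzone _ (by omega) (by omega))
  have hcomp := hheal.1
  have hlr := hcomp.1
  have hlen := hcomp.2.1
  have hL : Free (B2 j s) (a + 1) l := fun i h1 h2 h3 => by
    have := hymin i ⟨h1, by omega, h3⟩
    omega
  have hR0 := (re_b2 hcomp.re).2
  by_cases hR : Free (B2 j s) (r + 1) (c + 1)
  swap
  · obtain ⟨y', h1, h2, h3⟩ : ∃ y', r + 1 ≤ y' ∧ y' < c + 1 ∧ B2 j s y' := by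
      by_contra h
      exact hR fun i h1 h2 h3 => h ⟨i, h1, h2, h3⟩
    have h4 : r + gg j + 2 ≤ y' := by
      by_contra h
      exact hR0 y' h1 (by omega) h3
    obtain ⟨e, he1, he2, he3⟩ := exists_reg (j := j) (s := s) (x := r + dd j + 1)
      (good_free_mono hR0 (by omega) (by unfold gg dd; omega) hB1)
    have hnd : ∀ z, r + dd j + 1 ≤ z → z < r + dd j + 1 + 2 * nn j → ¬ s.D z →
        ¬ (step ω j s).D z := by
      rintro z hz1 hz2 hz3 (h | ⟨l', r', h', h5, h6⟩)
      · exact hz3 h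
      · have := hcomp.sep h'.1
        unfold gg dd at *
        omega
    have he : Reg (step ω j s).D e :=
      ⟨hnd _ he1 (by omega) he3.1, hnd _ (by omega) he2 he3.2⟩
    have hae : a < e := by omega
    have hec : e < c := by unfold gg dd at *; omega
    have u1 := ih a e (by omega) hae.le ha he (good_free_mono hF le_rfl (by omega) fun _ h => h)
    have u2 := ih e c (by omega) hec.le he hc (good_free_mono hF (by omega) le_rfl fun _ h => h)
    have c1 := cnt_nonneg (fun i => ¬ (step ω j s).D i) (a + 1) (e + 1)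
    have c2 := cnt_nonneg (fun i => ¬ (step ω j s).D i) (e + 1) (c + 1)
    refine (u1.concat hq1 hae.le hec.le u2 (by linarith) (by linarith)).mono hq1 ?_
    rw [cnt_add _ (x := a + 1) (y := e + 1) (z := c + 1) (by omega) (by omega)]
    linarith
  obtain ⟨a₀, ha1, ha2, ha3⟩ := exists_reg (j := j) (s := s) (x := l - hh j - 2 * nn j)
    (good_free_mono hL (by unfold dd hh at *; omega) (by unfold hh; omega) hB1)
  obtain ⟨a₁, hb1, hb2, hb3⟩ := exists_reg (j := j) (s := s) (x := l - 2 * nn j)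
    (good_free_mono hL (by unfold dd at *; omega) (by omega) hB1)
  obtain ⟨b₁, hc1, hc2, hc3⟩ := exists_reg (j := j) (s := s) (x := r + 1)
    (good_free_mono hR le_rfl (by unfold dd at *; omega) hB1)
  obtain ⟨b₀, hd1, hd2, hd3⟩ := exists_reg (j := j) (s := s) (x := r + hh j)
    (good_free_mono hR (by unfold hh; omega) (by unfold dd hh at *; omega) hB1)
  have o1 : a < a₀ := by unfold dd hh at *; omega
  have o2 : a₀ ≤ a₁ := by unfold dd hh at *; omega
  have o3 : b₁ ≤ b₀ := by unfold dd hh at *; omega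
  have o4 : b₀ < c := by unfold dd hh at *; omega
  have u1 := hP a a₀ o1.le (hReg a ha) ha3 (good_free_mono hL le_rfl (by omega) hB0)
  have u2 := hP a₀ a₁ o2 ha3 hb3 (good_free_mono hL (by omega) (by omega) hB0)
  have u3 := hP b₁ b₀ o3 hc3 hd3 (good_free_mono hR (by omega) (by omega) hB0)
  have u4 := hP b₀ c o4.le hd3 (hReg c hc) (good_free_mono hR (by omega) le_rfl hB0)
  have c1 : 1 ≤ cnt (fun i => ¬ s.D i) (a + 1) (a₀ + 1) :=
    cnt_pos (i := a + 1) le_rfl (by omega) (hReg a ha).2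
  have c4 : 1 ≤ cnt (fun i => ¬ s.D i) (b₀ + 1) (c + 1) :=
    cnt_pos (i := b₀ + 1) le_rfl (by omega) hd3.2
  have c2 : 3 * 10 ^ 5 * nn j ≤ 8 * cnt (fun i => ¬ s.D i) (a₀ + 1) (a₁ + 1) := by
    have := fresh1 (j := j) (s := s) (x := a₀ + 1) (y := a₁ + 1) (by omega)
      (good_free_mono hL (by omega) (by omega) hB1)
    rw [cnt_not _ (by omega)]
    unfold hh at *
    omega
  have c3 : 3 * 10 ^ 5 * nn j ≤ 8 * cnt (fun i => ¬ s.D i) (b₁ + 1) (b₀ + 1) := by
    have := fresh1 (j := j) (s := s) (x := b₁ + 1) (y := b₀ + 1) (by omega)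
      (good_free_mono hR (by omega) (by omega) hB1)
    rw [cnt_not _ (by omega)]
    unfold hh at *
    omega
  have hok := good_ok hq ht (hheal.2 a₀ b₀ ha1 (by omega) hd1 (by omega) ha3 hd3)
  have key := repair (m := l) (N := 5 * nn j) (x := 3 * 10 ^ 5 * nn j) hq hv o1.le o2 (by omega)
    (by omega) o3 o4.le (by omega) (by unfold ta; omega) u1 (u2.mono hq1 (by linarith))
    (u3.mono hq1 (by linarith)) u4 (by linarith) (by linarith) (by unfold ta; omega) hok
  refine key.mono hq1 ?_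
  have c5 : cnt (fun i => ¬ (step ω j s).D i) (a₀ + 1) (b₀ + 1) = 0 :=
    cnt_eq_zero fun i h1 h2 h3 =>
      h3 (hzone i (by unfold dd hh at *; omega) (by unfold dd hh at *; omega))
  rw [cnt_add _ (x := a + 1) (y := a₀ + 1) (z := c + 1) (by omega) (by omega),
    cnt_add _ (x := a₀ + 1) (y := b₀ + 1) (z := c + 1) (by omega) (by omega), c5]
  have := hcm (a + 1) (a₀ + 1)
  have := hcm (b₀ + 1) (c + 1)
  linarith

/-- Main deterministic estimate.  Induction on `j` (for all `a, c`).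
`j = 0`: `ud_base` (`¬ df i` means `t ≤ |v i| / q ^ 99`), `cnt = c - a`.
`j + 1`: `s = hi q t v j`, `s' = step`; strong induction on `c - a`.  Every point of `B2 j s` in `(a, c]` lies in a
healed component `[l, r]`, and `a + 1 < l - dd`, `r + dd < c` since `a, a+1, c, c+1 ∉ s'.D`.
* No point of `B2` in `(a, c]`: induction hypothesis on `j`, `UD.mono`, `s.D ⊆ s'.D`.
* Otherwise let `[l, r]` be the component of the first such point (so `(a, l)` is `B2`-free).
  - If there is another point of `B2` in `(r, c]`, it is `≥ r + gg + 2` (`re_b2`); the window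
    `[r + dd + 1, r + dd + 1 + 2 n)` is `B1`-free, `s'.D = s.D` there (`Comp.sep`), `exists_reg` gives a bond `c''`
    regular for `s'.D` with `a < c'' < c`; `UD.concat`, `cnt_add`.
  - Else `(r, c]` is `B2`-free.  `exists_reg` gives bonds regular for `s.D`: `a₀ ∈ [l - hh - 2n, l - hh)`,
    `a₁ ∈ [l - 2n, l - 1)`, `b₁ ∈ [r + 1, r + 2n)`, `b₀ ∈ [r + hh, r + hh + 2n)`.  Level `j` on the four pieces
    `[a, a₀]`, `[a₀, a₁]`, `[b₁, b₀]`, `[b₀, c]`; `fresh1`, `cnt_not` give `8 * cnt ≥ 3 * 10 ^ 5 n` on the middle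
    ones, `cnt ≥ 1` on the outer ones (`a + 1`, `b₀ + 1` are fresh).  The test gives `1 ≤ t ≤ Z1 q v j a₀ l (b₀+1)`;
    `repair` with `m = l`, `N = 5 n`, `τ = ta j`, `x = 3 * 10 ^ 5 n`.  All sites of `(a₀, b₀]` are in `s'.D`. -/
theorem good {q t : ℝ} {v : ℤ → ℝ} (hq : 2 ≤ q) (ht : 1 ≤ t) (hv : Bdd q v) (j : ℕ) (a c : ℤ) (hac : a ≤ c)
    (ha : Reg (hi q t v j).D a) (hc : Reg (hi q t v j).D c) (hF : Free (hi q t v j).B (a + 1) (c + 1)) :
    UD q v a c (90 * (c - a) + 8 * cnt (fun i => ¬ (hi q t v j).D i) (a + 1) (c + 1)) := by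
  have H : ∀ j, good_P q v (hi q t v j) := by
    intro j
    induction j with
    | zero =>
      intro a c hac _ _ hF
      refine (ud_base hq hac fun i h1 h2 => good_df hq ht (hF i (by omega) (by omega))).mono
        (by linarith) ?_
      have := cnt_le (fun i => ¬ (hi q t v 0).D i) (x := a + 1) (y := c + 1) (by omega)
      linarith
    | succ j ih => exact good_step hq ht hv j _ ih
  exact H j a c hac ha hc hF

/-- Growth over a free window.  `J = j + 1`, `λ = la j`: `many_reg` gives regular bonds `a ∈ [1, λ)` and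
`c ∈ [n_J + 1 - λ, n_J)`; `u = ph v a`, `nb u c ≥ q ^ (90 (c - a))`, `nb_le` on both sides:
`90 (n_J - 2 λ) - 101 (2 λ + 1) ≥ 80 n_J`. -/
theorem grow {q t : ℝ} {v : ℤ → ℝ} (hq : 2 ≤ q) (ht : 1 ≤ t) (hv : Bdd q v) (j : ℕ)
    (hF : Free (hi q t v (j + 1)).B 1 (nn (j + 1) + 1)) :
    ∃ u, IsSol v u ∧ 0 < nb u (-1) ∧ q ^ (80 * nn (j + 1)) * nb u (-1) ≤ nb u (nn (j + 1)) := by
  have hq1 : 1 ≤ q := by linarith
  have hq0 : 0 < q := by linarith
  have hn := nn_pos j
  have hs := nn_succ j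
  have m1 := many_reg (ω := bits q t v) (j := j) (s := hi q t v j) (x := 1)
    (good_free_mono hF le_rfl (by unfold la; omega) fun _ h => h)
  have m2 := many_reg (ω := bits q t v) (j := j) (s := hi q t v j) (x := nn (j + 1) + 1 - la j)
    (good_free_mono hF (by unfold la; omega) (by omega) fun _ h => h)
  obtain ⟨a, ha1, ha2, ha3⟩ := exists_of_cnt_pos (D := Reg (step (bits q t v) j (hi q t v j)).D)
    (x := 1) (y := 1 + la j - 1) (by unfold la at *; omega)
  obtain ⟨c, hc1, hc2, hc3⟩ := exists_of_cnt_pos (D := Reg (step (bits q t v) j (hi q t v j)).D)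
    (x := nn (j + 1) + 1 - la j) (y := nn (j + 1) + 1 - la j + la j - 1) (by unfold la at *; omega)
  have hac : a ≤ c := by unfold la at *; omega
  have hU := (good hq ht hv (j + 1) a c hac ha3 hc3
    (good_free_mono hF (by omega) (by omega) fun _ h => h)).1 (ph v a) (isSol_ph v a)
    (by rw [ph_self, ph_succ]; simp)
  have h1 := hU.2.1
  rw [ph_succ, abs_one, mul_one] at h1
  have h2 := nb_le hv (isSol_ph v a) hq1 a (-1)
  rw [(nb_ph_self v a).1, mul_one] at h2
  have h3 := nb_le hv (isSol_ph v a) hq1 (nn (j + 1)) c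
  have h4 : |ph v a (c + 1)| ≤ nb (ph v a) c := le_max_right _ _
  refine ⟨ph v a, isSol_ph v a, nb_pos (isSol_ph v a) (a := a + 1) (by rw [ph_succ]; norm_num) _, ?_⟩
  have h5 : 0 < q ^ (101 * |c - nn (j + 1)|) := zpow_pos hq0 _
  refine le_of_mul_le_mul_left (le_trans ?_ (h1.trans (h4.trans h3))) h5
  calc q ^ (101 * |c - nn (j + 1)|) * (q ^ (80 * nn (j + 1)) * nb (ph v a) (-1))
      ≤ q ^ (101 * |c - nn (j + 1)|) * (q ^ (80 * nn (j + 1)) * q ^ (101 * |-1 - a|)) := by
        gcongr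
    _ = q ^ (101 * |c - nn (j + 1)| + (80 * nn (j + 1) + 101 * |-1 - a|)) := by
        rw [zpow_add₀ hq0.ne', zpow_add₀ hq0.ne']
    _ ≤ _ := by
        refine zpow_le_zpow_right₀ hq1 ?_
        have := cnt_nonneg (fun i => ¬ (hi q t v (j + 1)).D i) (a + 1) (c + 1)
        rw [abs_of_nonpos (by omega), abs_of_nonpos (by omega)]
        unfold la at *
        omega

theorem good_env {q t : ℝ} {v : ℤ → ℝ} (hq : 2 ≤ q) (ht : 1 ≤ t) (hv : Bdd q v) (j : ℕ) (a c : ℤ) (hac : a ≤ c)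
    (ha : Reg (hi q t v j).D a) (hc : Reg (hi q t v j).D c) (hF : Free (hi q t v j).B (a + 1) (c + 1)) :
    EnvU q v a c ∧ EnvS q v a (c + 1) :=
  ⟨(good hq ht hv j a c hac ha hc hF).1.envU, (good hq ht hv j a c hac ha hc hF).2.envS⟩

theorem good_abs {q t : ℝ} {v : ℤ → ℝ} (hq : 2 ≤ q) (ht : 1 ≤ t) {j : ℕ} {i : ℤ}
    (hB : ¬ (hi q t v j).B i) (hD : ¬ (hi q t v j).D i) : q ^ 99 ≤ |v i| :=
  good_df hq ht (not_defect hB hD)

end Crest.Agent.R128
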