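import Crest.Agent.R128.Hier2

/-!
# Row 128, Sens: stability of the tests; choice of the threshold.
Keep the statements; add auxiliary lemmas freely (prefix `sens_`).
-/

set_option autoImplicit false

noncomputable section

open scoped Classical
open MeasureTheory Set

namespace Crest.Agent.R128

theorem sens_inv {B B' P δ : ℝ} (hP : 0 < P) (hB : 1 ≤ P * B) (hB' : 1 ≤ P * B') (h : |B' - B| ≤ δ) :
    0 ≤ B⁻¹ ∧ B⁻¹ ≤ P ∧ |B'⁻¹ - B⁻¹| ≤ δ * P ^ 2 := by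
  have h0 : 0 < B := by by_contra hc; push Not at hc; nlinarith
  have h0' : 0 < B' := by by_contra hc; push Not at hc; nlinarith
  have h1 : B⁻¹ ≤ P := by rw [inv_le_iff_one_le_mul₀ h0]; exact hB
  have h1' : B'⁻¹ ≤ P := by rw [inv_le_iff_one_le_mul₀ h0']; exact hB'
  refine ⟨by positivity, h1, ?_⟩
  have e : B'⁻¹ - B⁻¹ = -(B' - B) * (B⁻¹ * B'⁻¹) := by field_simp; ring
  have hδ : 0 ≤ δ := (abs_nonneg _).trans h
  rw [e, abs_mul, abs_neg, abs_of_nonneg (by positivity : 0 ≤ B⁻¹ * B'⁻¹), sq]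
  gcongr

theorem sens_quot {A A' B B' C C' P δ : ℝ} (hP : 1 ≤ P) (hA0 : 0 ≤ A) (hA : A ≤ P)
    (hB : 1 ≤ P * B) (hB' : 1 ≤ P * B') (hC : 1 ≤ P * C) (hC' : 1 ≤ P * C')
    (h1 : |A' - A| ≤ δ) (h2 : |B' - B| ≤ δ) (h3 : |C' - C| ≤ δ) :
    |A' / (B' * C') - A / (B * C)| ≤ 3 * δ * P ^ 4 := by
  have hP0 : 0 < P := by linarith
  have hδ : 0 ≤ δ := (abs_nonneg _).trans h1
  obtain ⟨b0, b1, b2⟩ := sens_inv hP0 hB hB' h2
  obtain ⟨b0', b1', -⟩ := sens_inv hP0 hB' hB (abs_sub_comm B B' ▸ h2)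
  obtain ⟨-, -, c2⟩ := sens_inv hP0 hC hC' h3
  obtain ⟨c0', c1', -⟩ := sens_inv hP0 hC' hC (abs_sub_comm C C' ▸ h3)
  have e : A' / (B' * C') - A / (B * C) =
      (A' - A) * B'⁻¹ * C'⁻¹ + A * (B'⁻¹ - B⁻¹) * C'⁻¹ + A * B⁻¹ * (C'⁻¹ - C⁻¹) := by
    rw [div_eq_mul_inv, div_eq_mul_inv, mul_inv, mul_inv]; ring
  have t1 : |(A' - A) * B'⁻¹ * C'⁻¹| ≤ δ * P * P := by
    rw [abs_mul, abs_mul, abs_of_nonneg b0', abs_of_nonneg c0']; gcongr
  have t2 : |A * (B'⁻¹ - B⁻¹) * C'⁻¹| ≤ P * (δ * P ^ 2) * P := by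
    rw [abs_mul, abs_mul, abs_of_nonneg hA0, abs_of_nonneg c0']; gcongr
  have t3 : |A * B⁻¹ * (C'⁻¹ - C⁻¹)| ≤ P * P * (δ * P ^ 2) := by
    rw [abs_mul, abs_mul, abs_of_nonneg hA0, abs_of_nonneg b0]; gcongr
  have t4 : δ * P * P ≤ δ * P ^ 4 := by
    have : P ^ 2 ≤ P ^ 4 := pow_le_pow_right₀ hP (by norm_num)
    calc δ * P * P = δ * P ^ 2 := by ring
      _ ≤ δ * P ^ 4 := by gcongr
  rw [e]
  calc _ ≤ |(A' - A) * B'⁻¹ * C'⁻¹| + |A * (B'⁻¹ - B⁻¹) * C'⁻¹| + |A * B⁻¹ * (C'⁻¹ - C⁻¹)| :=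
        abs_add_three _ _ _
    _ ≤ δ * P ^ 4 + P * (δ * P ^ 2) * P + P * P * (δ * P ^ 2) := by linarith
    _ = 3 * δ * P ^ 4 := by ring

theorem sens_ph {q ε : ℝ} {v v' : ℤ → ℝ} (hq : 2 ≤ q) (hv : Bdd q v) (hv' : Bdd q v') (hε : 0 ≤ ε)
    {a b c i : ℤ} (hc : a ≤ c) (hc' : c ≤ b) (hi : a ≤ i) (hi' : i ≤ b)
    (h : ∀ i, a ≤ i → i ≤ b → |v' i - v i| ≤ ε) :
    |(|ph v' c i|) - (|ph v c i|)| ≤ ε * ((b - a : ℤ) : ℝ) * (q ^ (101 * (b - a))) ^ 2 := by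
  have hq1 : 1 ≤ q := by linarith
  have hL : |i - c| ≤ b - a := by rw [abs_le]; constructor <;> omega
  refine (abs_abs_sub_abs_le_abs_sub _ _).trans ?_
  refine (ph_sens hv hv' hq1 hε c i fun n h1 h2 => h n ?_ ?_).trans ?_
  · have := le_min hc hi; omega
  · have := max_le hc' hi'; omega
  have e : (q ^ (101 * (b - a))) ^ 2 = q ^ (202 * (b - a)) := by
    rw [← zpow_natCast, ← zpow_mul]; congr 1; push_cast; ring
  rw [e]
  have h1 : ((|i - c| : ℤ) : ℝ) ≤ ((b - a : ℤ) : ℝ) := by exact_mod_cast hL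
  have h2 : q ^ (202 * |i - c|) ≤ q ^ (202 * (b - a)) := zpow_le_zpow_right₀ hq1 (by omega)
  have h3 : (0 : ℝ) ≤ ((b - a : ℤ) : ℝ) := by exact_mod_cast (by omega : (0 : ℤ) ≤ b - a)
  have h4 : (0 : ℝ) ≤ q ^ (202 * |i - c|) := by positivity
  gcongr

theorem sens_nb {q ε : ℝ} {v v' : ℤ → ℝ} (hq : 2 ≤ q) (hv : Bdd q v) (hv' : Bdd q v') (hε : 0 ≤ ε)
    {a b c m : ℤ} (hc : a ≤ c) (hc' : c ≤ b) (hm : a ≤ m) (hm' : m < b)
    (h : ∀ i, a ≤ i → i ≤ b → |v' i - v i| ≤ ε) :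
    |nb (ph v' c) m - nb (ph v c) m| ≤ ε * ((b - a : ℤ) : ℝ) * (q ^ (101 * (b - a))) ^ 2 := by
  unfold nb
  refine (abs_max_sub_max_le_max _ _ _ _).trans (max_le ?_ ?_)
  · exact sens_ph hq hv hv' hε hc hc' hm hm'.le h
  · exact sens_ph hq hv hv' hε hc hc' (by omega) (by omega) h

theorem sens_low {q : ℝ} {v : ℤ → ℝ} (hq : 2 ≤ q) (hv : Bdd q v) {a b c m : ℤ}
    (hc : a ≤ c) (hc' : c ≤ b) (hm : a ≤ m) (hm' : m < b) :
    1 ≤ q ^ (101 * (b - a)) * nb (ph v c) m := by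
  have hq1 : 1 ≤ q := by linarith
  have h := nb_le hv (isSol_ph v c) hq1 m c
  rw [(nb_ph_self v c).1] at h
  refine h.trans (mul_le_mul_of_nonneg_right (zpow_le_zpow_right₀ hq1 ?_) (nb_nonneg _ _))
  have hL : |c - m| ≤ b - a := by rw [abs_le]; constructor <;> omega
  omega

theorem sens_three {q : ℝ} (hq : 2 ≤ q) {L : ℤ} (hL : 0 ≤ L) : 3 * (L : ℝ) ≤ q ^ (101 * L) := by
  obtain ⟨n, rfl⟩ := Int.eq_ofNat_of_zero_le hL
  have h1 : (3 * n : ℕ) < 2 ^ (3 * n) := Nat.lt_two_pow_self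
  have h2 : (3 * (n : ℝ)) ≤ 2 ^ (3 * n) := by exact_mod_cast h1.le
  have h3 : (2 : ℝ) ^ (3 * n) ≤ q ^ (3 * n) := by gcongr
  have h4 : q ^ (3 * n) ≤ q ^ (101 * n) := pow_le_pow_right₀ (by linarith) (by omega)
  have e : q ^ (101 * (n : ℤ)) = q ^ (101 * n) := by rw [← zpow_natCast]; push_cast; rfl
  rw [e]; push_cast; linarith

theorem sens_nn_mono {j j' : ℕ} (h : j' ≤ j) : nn j' ≤ nn j := by
  unfold nn; exact pow_le_pow_right₀ (by norm_num) h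

theorem sens_lt {x y t η : ℝ} (h : |y - x| ≤ η) (h' : ¬ |y - t| ≤ η) : x < t ↔ y < t := by
  push Not at h'
  rw [abs_le] at h
  rcases lt_abs.1 h' with h1 | h1
  · constructor <;> intro h2 <;> linarith [h.1, h.2]
  · constructor <;> intro h2 <;> linarith [h.1, h.2]

theorem sens_Z0_sh (q : ℝ) (s : ℤ) (v : ℤ → ℝ) (i : ℤ) : Z0 q (sh s v) i = Z0 q v (i + s) := rfl

theorem sens_Z1_sh (q : ℝ) (s : ℤ) (v : ℤ → ℝ) (j : ℕ) (a m b : ℤ) :
    Z1 q (sh s v) j a m b = Z1 q v j (a + s) (m + s) (b + s) := by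
  simp only [Z1, nb, ph_sh, add_right_comm m 1 s]

/-- `L = b - a`, `Λ = q ^ 101`.  All values of `ph` involved are `≤ Λ ^ L` (`abs_ph_le`), the two norms are
`≥ Λ ^ (-L)` (`nb_le`, `nb_ph_self`), all of them move by `≤ δ = ε L Λ ^ (2L)` (`ph_sens`, `abs_max_sub_max_le_max`).
`|A / (B C) - A' / (B' C')| ≤ δ Λ ^ (2L) + 2 δ Λ ^ (6L)`, and `3 L ≤ Λ ^ L`. -/
theorem z1_sens {q ε : ℝ} {v v' : ℤ → ℝ} (hq : 2 ≤ q) (hv : Bdd q v) (hv' : Bdd q v') (hε : 0 ≤ ε) (j : ℕ)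
    {a m b : ℤ} (ham : a ≤ m) (hmb : m < b) (h : ∀ i, a ≤ i → i ≤ b → |v' i - v i| ≤ ε) :
    |Z1 q v' j a m b - Z1 q v j a m b| ≤ ε * q ^ (ta j + 909 * (b - a)) := by
  have hq1 : 1 ≤ q := by linarith
  have hq0 : 0 < q := by linarith
  have hab : a ≤ b := by omega
  set P : ℝ := q ^ (101 * (b - a)) with hPdef
  have hP : 1 ≤ P := one_le_zpow₀ hq1 (by omega)
  have hA : |ph v a b| ≤ P := by
    refine (abs_ph_le hv hq1 a b).trans (zpow_le_zpow_right₀ hq1 ?_)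
    rw [abs_of_nonneg (by omega : 0 ≤ b - a)]
  have key := sens_quot hP (abs_nonneg (ph v a b)) hA (sens_low hq hv le_rfl hab ham hmb)
    (sens_low hq hv' le_rfl hab ham hmb) (sens_low hq hv hab le_rfl ham hmb)
    (sens_low hq hv' hab le_rfl ham hmb) (sens_ph hq hv hv' hε le_rfl hab hab le_rfl h)
    (sens_nb hq hv hv' hε le_rfl hab ham hmb h) (sens_nb hq hv hv' hε hab le_rfl ham hmb h)
  have h3 : 3 * ((b - a : ℤ) : ℝ) ≤ P := sens_three hq (by omega)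
  have e : Z1 q v' j a m b - Z1 q v j a m b =
      q ^ ta j * (|ph v' a b| / (nb (ph v' a) m * nb (ph v' b) m) -
        |ph v a b| / (nb (ph v a) m * nb (ph v b) m)) := by
    unfold Z1; ring
  have e2 : q ^ (ta j + 909 * (b - a)) = q ^ ta j * P ^ 9 := by
    rw [zpow_add₀ hq0.ne', hPdef, ← zpow_natCast, ← zpow_mul]; congr 2; push_cast; ring
  have hT : 0 < q ^ ta j := by positivity
  rw [e, e2, abs_mul, abs_of_pos hT]
  have h5 : 3 * (ε * ((b - a : ℤ) : ℝ) * P ^ 2) * P ^ 4 ≤ ε * P ^ 9 := by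
    have h6 : P ^ 7 ≤ P ^ 9 := pow_le_pow_right₀ hP (by norm_num)
    have hP0 : 0 ≤ P := by linarith
    calc 3 * (ε * ((b - a : ℤ) : ℝ) * P ^ 2) * P ^ 4 = ε * ((3 * ((b - a : ℤ) : ℝ)) * P ^ 6) := by ring
      _ ≤ ε * (P * P ^ 6) := by gcongr
      _ = ε * P ^ 7 := by ring
      _ ≤ ε * P ^ 9 := by gcongr
  calc q ^ ta j * _ ≤ q ^ ta j * (ε * P ^ 9) := mul_le_mul_of_nonneg_left (key.trans h5) hT.le
    _ = ε * (q ^ ta j * P ^ 9) := by ring

/-- Close potentials, one of them unambiguous, give the same tests: each `Z` moves by at most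
`q ^ (-300 la j + 910 ta j) ≤ q ^ (-gg j)`. -/
theorem agree_of_close {q t : ℝ} {v v' : ℤ → ℝ} (hq : 2 ≤ q) (hv : Bdd q v) (hv' : Bdd q v') (j : ℕ) (x y : ℤ)
    (h : ∀ i, x ≤ i → i ≤ y → |v' i - v i| ≤ q ^ (-300 * la j)) (ha : v' ∉ Amb q t j x y) :
    Agree (bits q t v) (bits q t v') (j + 1) x y := by
  have hq1 : 1 ≤ q := by linarith
  have hq0 : 0 < q := by linarith
  have hn := nn_pos j
  simp only [Amb, mem_ofPred_eq, not_or, not_exists, not_and] at ha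
  refine ⟨fun i hx hy => ?_, fun j' a m b hj hx ham hmb hy hab => ?_⟩
  · show Z0 q v i < t ↔ Z0 q v' i < t
    refine sens_lt ?_ (ha.1 i hx hy)
    have e : Z0 q v' i - Z0 q v i = (|v' i| - |v i|) / q ^ 99 := by unfold Z0; ring
    have h99 : 1 ≤ q ^ 99 := one_le_pow₀ hq1
    rw [e, abs_div, abs_of_pos (by positivity : 0 < q ^ 99)]
    refine (div_le_self (abs_nonneg _) h99).trans ?_
    refine ((abs_abs_sub_abs_le_abs_sub _ _).trans (h i hx hy)).trans (zpow_le_zpow_right₀ hq1 ?_)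
    unfold la gg; omega
  · show t ≤ Z1 q v j' a m b ↔ t ≤ Z1 q v' j' a m b
    rw [← not_lt, ← not_lt]
    refine not_congr (sens_lt ?_ (ha.2 j' a m b hj hx ham hmb hy hab))
    refine (z1_sens hq hv hv' (by positivity) j' ham hmb fun i h1 h2 => h i (by omega) (by omega)).trans ?_
    rw [← zpow_add₀ hq0.ne']
    refine zpow_le_zpow_right₀ hq1 ?_
    have := sens_nn_mono (show j' ≤ j by omega)
    unfold ta at hab
    unfold la gg ta; omega

theorem measurableSet_amb (q t : ℝ) (j : ℕ) (x y : ℤ) : MeasurableSet (Amb q t j x y) := by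
  have h0 : ∀ i : ℤ, Measurable fun v : ℤ → ℝ => |Z0 q v i - t| ≤ q ^ (-gg j) := fun i =>
    measurableSet_setOfPred.1 (measurableSet_le ((measurable_Z0 q i).sub_const t).abs measurable_const)
  have h1 : ∀ (j' : ℕ) (a m b : ℤ), Measurable fun v : ℤ → ℝ => |Z1 q v j' a m b - t| ≤ q ^ (-gg j) :=
    fun j' a m b =>
      measurableSet_setOfPred.1 (measurableSet_le ((measurable_Z1 q j' a m b).sub_const t).abs measurable_const)
  unfold Amb
  refine measurableSet_setOfPred.2 (Measurable.or ?_ ?_)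
  · exact Measurable.exists fun i => measurable_const.and (measurable_const.and (h0 i))
  · exact Measurable.exists fun j' => Measurable.exists fun a => Measurable.exists fun m =>
      Measurable.exists fun b => measurable_const.and (measurable_const.and (measurable_const.and
        (measurable_const.and (measurable_const.and (measurable_const.and (h1 j' a m b))))))

/-- monotone in the window, shift covariant -/
theorem amb_le {ν : Measure (ℤ → ℝ)} [IsProbabilityMeasure ν] (hν : Inv ν) (q t : ℝ) (j : ℕ) {x y : ℤ}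
    (h : y - x ≤ 3 * gg (j + 1)) : ν.real (Amb q t j x y) ≤ am ν q t j := by
  have hsub : Amb q t j x y ⊆ sh x ⁻¹' Amb q t j 0 (3 * gg (j + 1)) := by
    rintro v (⟨i, h1, h2, h3⟩ | ⟨j', a, m, b, h1, h2, h3, h4, h5, h6, h7⟩)
    · refine Or.inl ⟨i - x, by omega, by omega, ?_⟩
      rw [sens_Z0_sh, sub_add_cancel]; exact h3
    · refine Or.inr ⟨j', a - x, m - x, b - x, h1, by omega, by omega, by omega, by omega, by omega, ?_⟩
      rw [sens_Z1_sh, sub_add_cancel, sub_add_cancel, sub_add_cancel]; exact h7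
  unfold am
  calc ν.real (Amb q t j x y) ≤ ν.real (sh x ⁻¹' Amb q t j 0 (3 * gg (j + 1))) := measureReal_mono hsub
    _ = ν.real (Amb q t j 0 (3 * gg (j + 1))) := by
      simp only [Measure.real, hν x _ (measurableSet_amb q t j 0 _)]

end Crest.Agent.R128
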