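import Crest.Agent.R128.DecB
import Crest.Agent.R128.Good
import Crest.Agent.R128.Sens

/-!
# Row 128, Dec2: decoupling of events of the hierarchy across a free stretch.
Keep the statements; add auxiliary lemmas freely (prefix `dec2_`).
-/

set_option autoImplicit false

noncomputable section

open scoped Classical
open MeasureTheory Set

namespace Crest.Agent.R128

/-- Averaging: if every point of `E` lies in at least `c` of the sets `A i`, `i ∈ I`, and `ν (E ∩ A i) ≤ η`, then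
`c ν E ≤ |I| η` (integrate `∑ i, 1_{E ∩ A i} ≥ c 1_E`). -/
theorem average_le {Ω ι : Type*} [MeasurableSpace Ω] (ν : Measure Ω) [IsFiniteMeasure ν] (I : Finset ι)
    {E : Set Ω} (hE : MeasurableSet E) (A : ι → Set Ω) (hA : ∀ i, MeasurableSet (A i)) {c η : ℝ}
    (hc : ∀ x ∈ E, c ≤ ((I.filter fun i => x ∈ A i).card : ℝ)) (hη : ∀ i ∈ I, ν.real (E ∩ A i) ≤ η) :
    c * ν.real E ≤ I.card * η := by
  have h1 : ∀ i, Integrable ((A i).indicator (1 : Ω → ℝ)) (ν.restrict E) := fun i =>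
    (integrable_const (1 : ℝ)).indicator (hA i)
  calc c * ν.real E = ∫ _ in E, c ∂ν := by rw [setIntegral_const, smul_eq_mul, mul_comm]
    _ ≤ ∫ x in E, ∑ i ∈ I, (A i).indicator 1 x ∂ν := by
      refine setIntegral_mono_on (integrable_const c) (integrable_finsetSum _ fun i _ => h1 i) hE
        fun x hx => (hc x hx).trans_eq ?_
      rw [Finset.card_filter]
      push_cast
      rfl
    _ = ∑ i ∈ I, ν.real (E ∩ A i) := by
      rw [integral_finsetSum _ fun i _ => h1 i]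
      refine Finset.sum_congr rfl fun i _ => ?_
      rw [integral_indicator_one (hA i), measureReal_restrict_apply (hA i), inter_comm]
    _ ≤ _ := (Finset.sum_le_card_nsmul _ _ _ hη).trans_eq (nsmul_eq_mul _ _)

theorem dec2_reg {q t : ℝ} {v : ℤ → ℝ} {j : ℕ} {x y u w : ℤ} (hF : Free (hi q t v (j + 1)).B u w)
    (hu : u ≤ x) (hw : x + la j ≤ w) (hy : y = x + la j - 1) :
    9 / 10 * (la j : ℝ) ≤ (((Finset.Ico x y).filter (Reg (hi q t v (j + 1)).D)).card : ℝ) := by
  have h := many_reg (ω := bits q t v) (j := j) (s := hi q t v j) (x := x)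
    fun i h1 h2 => hF i (hu.trans h1) (h2.trans_le hw)
  have h' : (9 * la j : ℝ) ≤ 10 * (((Finset.Ico x y).filter (Reg (hi q t v (j + 1)).D)).card : ℝ) := by
    rw [hy]
    exact_mod_cast h
  linarith

theorem dec2_card {x y L : ℤ} (hL : 0 ≤ L) (h : y - x ≤ L) : ((Finset.Ico x y).card : ℝ) ≤ L := by
  rw [Int.card_Ico]
  exact_mod_cast (show ((y - x).toNat : ℤ) ≤ L by omega)

/-- `λ = la j`, `ν = nu (q ^ 100)`.  Replace `E` by `E' = E ∩ {Bdd}` (`nu_not_bdd`).  Index set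
`I = Ico (x₀+1) (x₀+λ) ×ˢ Ico z (z+λ-1) ×ˢ Ico (x₁-λ) (x₁-1)`, `A (a, c, b) = {EnvU q v a c ∧ EnvS q v c (b+1)}`;
`many_reg` (three windows of length `λ` inside `(x₀, x₁)`) and `good_env` show that each `v ∈ E'` is in at least
`(0.9 λ) ^ 3` of them.  For each triple, `dec` with `U ∪ Amb q t j (x₀-λ) (z-4λ)` and `S ∪ Amb q t j (z+5λ) (x₁+λ)`:
`CloseL` gives `|v' i - v i| ≤ q ^ (-300 λ)` on `[x₀-λ, z-4λ]` (`c - i ≥ 4λ` if `i ≥ a`; `c - a ≥ 6λ`, `a - i ≤ 2λ`
otherwise), similarly `CloseR`; `agree_of_close`, `amb_le`.  `2000 / 0.729 ≤ 10 ^ 4`. -/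
theorem dec2 {q t : ℝ} (hq : 100 ≤ q) (ht : 1 ≤ t) (j : ℕ) {x₀ z x₁ : ℤ} (h0 : x₀ + 7 * la j ≤ z)
    (h1 : z + 8 * la j ≤ x₁) (h2 : x₁ - x₀ ≤ 2 * gg (j + 1)) {E U S : Set (ℤ → ℝ)}
    (hE : MeasurableSet E) (hU : MeasurableSet U) (hS : MeasurableSet S)
    (hF : ∀ v ∈ E, Free (hi q t v (j + 1)).B (x₀ + 1) x₁)
    (hL : ∀ v ∈ E, ∀ v', Agree (bits q t v) (bits q t v') (j + 1) (x₀ - la j) (z - 4 * la j) → v' ∈ U)
    (hR : ∀ v ∈ E, ∀ v', Agree (bits q t v) (bits q t v') (j + 1) (z + 5 * la j) (x₁ + la j) → v' ∈ S) :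
    (nu (q ^ 100)).real E ≤ 10 ^ 4 * (((nu (q ^ 100)).real U + am (nu (q ^ 100)) q t j) *
      ((nu (q ^ 100)).real S + am (nu (q ^ 100)) q t j)) := by
  have hn := nn_pos j
  have hl : 10 ^ 8 ≤ la j := by unfold la; omega
  have hl' : (0 : ℝ) < la j := by exact_mod_cast (show 0 < la j by omega)
  have hq2 : 2 ≤ q := by linarith
  have hq1 : 1 ≤ q := by linarith
  have hB : MeasurableSet {v | Bdd q v} := by
    unfold Bdd
    measurability
  have hEB : (nu (q ^ 100)).real E ≤ (nu (q ^ 100)).real (E ∩ {v | Bdd q v}) :=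
    (measureReal_congr (inter_ae_eq_left_of_ae_eq_univ (ae_eq_univ.2 (nu_not_bdd hq)))).ge
  have hun : ∀ (T : Set (ℤ → ℝ)) (x y : ℤ), y - x ≤ x₁ - x₀ →
      (nu (q ^ 100)).real (T ∪ Amb q t j x y) ≤ (nu (q ^ 100)).real T + am (nu (q ^ 100)) q t j :=
    fun T x y h => (measureReal_union_le _ _).trans
      (add_le_add_right (amb_le (inv_nu _) q t j (by omega)) _)
  have ham : 0 ≤ am (nu (q ^ 100)) q t j := measureReal_nonneg
  have hA : ∀ p : ℤ × ℤ × ℤ, MeasurableSet {v | EnvU q v p.1 p.2.1 ∧ EnvS q v p.2.1 (p.2.2 + 1)} :=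
    fun p => (measurableSet_envU q _ _).inter (measurableSet_envS q _ _)
  have key := average_le (nu (q ^ 100)) (Finset.Ico (x₀ + 1) (x₀ + la j) ×ˢ Finset.Ico z (z + la j - 1) ×ˢ
    Finset.Ico (x₁ - la j) (x₁ - 1)) (hE.inter hB) _ hA (c := (9 / 10 * (la j : ℝ)) ^ 3)
    (η := 2000 * (((nu (q ^ 100)).real U + am (nu (q ^ 100)) q t j) *
      ((nu (q ^ 100)).real S + am (nu (q ^ 100)) q t j))) (fun v hv => ?_) fun p hp => ?_
  · have hc : ((Finset.Ico (x₀ + 1) (x₀ + la j) ×ˢ Finset.Ico z (z + la j - 1) ×ˢ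
        Finset.Ico (x₁ - la j) (x₁ - 1)).card : ℝ) ≤ la j * (la j * la j) := by
      rw [Finset.card_product, Finset.card_product, Nat.cast_mul, Nat.cast_mul]
      gcongr <;> exact dec2_card (by omega) (by omega)
    have hP : 0 ≤ ((nu (q ^ 100)).real U + am (nu (q ^ 100)) q t j) *
      ((nu (q ^ 100)).real S + am (nu (q ^ 100)) q t j) := by positivity
    refine hEB.trans (le_of_mul_le_mul_left (key.trans ?_) (by positivity))
    refine (mul_le_mul_of_nonneg_right hc (by positivity)).trans ?_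
    have : 0 ≤ (la j : ℝ) ^ 3 * (((nu (q ^ 100)).real U + am (nu (q ^ 100)) q t j) *
      ((nu (q ^ 100)).real S + am (nu (q ^ 100)) q t j)) := by positivity
    nlinarith
  · have hf := hF v hv.1
    have h3 := dec2_reg hf (x := x₀ + 1) (y := x₀ + la j) le_rfl (by omega) (by omega)
    have h4 := dec2_reg hf (x := z) (by omega) (by omega) rfl
    have h5 := dec2_reg hf (x := x₁ - la j) (y := x₁ - 1) (by omega) (by omega) (by omega)
    refine le_trans ?_ (Nat.cast_le.2 (Finset.card_le_card (s :=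
      (Finset.Ico (x₀ + 1) (x₀ + la j)).filter (Reg (hi q t v (j + 1)).D) ×ˢ
      (Finset.Ico z (z + la j - 1)).filter (Reg (hi q t v (j + 1)).D) ×ˢ
      (Finset.Ico (x₁ - la j) (x₁ - 1)).filter (Reg (hi q t v (j + 1)).D)) fun p hp => ?_))
    · rw [Finset.card_product, Finset.card_product, Nat.cast_mul, Nat.cast_mul, pow_three]
      gcongr
    · simp only [Finset.mem_product, Finset.mem_filter, Finset.mem_Ico] at hp ⊢
      obtain ⟨⟨a1, a2⟩, ⟨c1, c2⟩, b1, b2⟩ := hp
      exact ⟨⟨a1, c1, b1⟩, (good_env hq2 ht hv.2 _ _ _ (by omega) a2 c2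
        fun i h h' => hf i (by omega) (by omega)).1, (good_env hq2 ht hv.2 _ _ _ (by omega) c2 b2
        fun i h h' => hf i (by omega) (by omega)).2⟩
  · simp only [Finset.mem_product, Finset.mem_Ico] at hp
    refine (dec hq (a := p.1) (c := p.2.1) (b := p.2.2 + 1) (by omega) (by omega)
      ((hE.inter hB).inter (hA p)) (hU.union (measurableSet_amb q t j (x₀ - la j) (z - 4 * la j)))
      (hS.union (measurableSet_amb q t j (z + 5 * la j) (x₁ + la j))) (fun v hv => hv.2)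
      (fun v hv hb v' hb' hc => ?_) fun v hv hb v' hb' hc => ?_).trans ?_
    · refine or_iff_not_imp_right.2 fun ha => hL v hv.1.1 v' (agree_of_close hq2 hb hb' j _ _
        (fun i h h' => (hc i (by omega)).trans (zpow_le_zpow_right₀ hq1 (by omega))) ha)
    · refine or_iff_not_imp_right.2 fun ha => hR v hv.1.1 v' (agree_of_close hq2 hb hb' j _ _
        (fun i h h' => (hc i (by omega)).trans (zpow_le_zpow_right₀ hq1 (by omega))) ha)
    · have h6 := hun U (x₀ - la j) (z - 4 * la j) (by omega)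
      have h7 := hun S (z + 5 * la j) (x₁ + la j) (by omega)
      gcongr

end Crest.Agent.R128
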