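import Crest.Agent.R128.DecL

/-!
# Row 128, DecA: short stable and unstable leaves; the area swept by stable leaves.
Keep the statements; add auxiliary lemmas freely (prefix `deca_`).
Points are `p = (x 0, x 1)`; `0 ≤ c < b`.
-/

set_option autoImplicit false

noncomputable section

open scoped Classical
open MeasureTheory Set

namespace Crest.Agent.R128

theorem deca_abs {E : Set ℝ} (hE : MeasurableSet E) (X ζ χ X' ζ' χ' : ℝ → ℝ) {m : ℝ}
    (hX : ∀ s ∈ E, HasDerivAt X (X' s) s) (hζ : ∀ s ∈ E, HasDerivAt ζ (ζ' s) s)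
    (hχ : ∀ s ∈ E, HasDerivAt χ (χ' s) s) (h0 : ∀ s ∈ E, χ s ≠ 0) (hm : ∀ s ∈ E, m * |χ s| ≤ |ζ' s|)
    (hinj : InjOn (fun p : ℝ × ℝ => (X p.1 + p.2 / χ p.1, ζ p.1)) (E ×ˢ Icc (-1 / 10 : ℝ) (1 / 10))) :
    ENNReal.ofReal m * (volume E * ENNReal.ofReal (1 / 5)) ≤
      volume ((fun p : ℝ × ℝ => (X p.1 + p.2 / χ p.1, ζ p.1)) '' (E ×ˢ Icc (-1 / 10 : ℝ) (1 / 10))) := by
  set D : Set (ℝ × ℝ) := E ×ˢ Icc (-1 / 10 : ℝ) (1 / 10) with hD
  have hDm : MeasurableSet D := hE.prod measurableSet_Icc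
  let f' : ℝ × ℝ → (ℝ × ℝ →L[ℝ] ℝ × ℝ) := fun p =>
    (Matrix.toLin (.finTwoProd ℝ) (.finTwoProd ℝ)
      !![X' p.1 - p.2 * χ' p.1 / χ p.1 ^ 2, 1 / χ p.1; ζ' p.1, 0]).toContinuousLinearMap
  have hf' : ∀ p ∈ D, HasFDerivWithinAt (fun p : ℝ × ℝ => (X p.1 + p.2 / χ p.1, ζ p.1)) (f' p) D p := by
    rintro p ⟨hp, -⟩
    apply HasFDerivAt.hasFDerivWithinAt
    simp only [f']
    rw [Matrix.toLin_finTwoProd_toContinuousLinearMap]
    have e1 : HasFDerivAt (fun p : ℝ × ℝ => X p.1) (X' p.1 • ContinuousLinearMap.fst ℝ ℝ ℝ) p :=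
      (hX _ hp).comp_hasFDerivAt p hasFDerivAt_fst
    have e2 : HasFDerivAt (fun p : ℝ × ℝ => ζ p.1) (ζ' p.1 • ContinuousLinearMap.fst ℝ ℝ ℝ) p :=
      (hζ _ hp).comp_hasFDerivAt p hasFDerivAt_fst
    have e3 : HasFDerivAt (fun p : ℝ × ℝ => (χ p.1)⁻¹)
        ((-χ' p.1 / χ p.1 ^ 2) • ContinuousLinearMap.fst ℝ ℝ ℝ) p :=
      ((hχ _ hp).inv (h0 _ hp)).comp_hasFDerivAt p hasFDerivAt_fst
    have e4 := (hasFDerivAt_snd (𝕜 := ℝ) (p := p)).mul e3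
    have e5 := (e1.add e4).prodMk e2
    have e6 : HasFDerivAt (fun p : ℝ × ℝ => (X p.1 + p.2 / χ p.1, ζ p.1)) _ p :=
      e5.congr_of_eventuallyEq (Filter.Eventually.of_forall fun q => by simp [div_eq_mul_inv])
    refine e6.congr_fderiv ?_
    ext <;> simp <;> ring
  have hdet : ∀ p ∈ D, ENNReal.ofReal m ≤ ENNReal.ofReal |(f' p).det| := by
    rintro p ⟨hp, -⟩
    apply ENNReal.ofReal_le_ofReal
    simp only [f', LinearMap.det_toContinuousLinearMap, LinearMap.det_toLin, Matrix.det_fin_two_of]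
    have h1 := hm _ hp
    have h2 := abs_pos.2 (h0 _ hp)
    rw [mul_zero, zero_sub, abs_neg, abs_mul, abs_div, abs_one, one_div, ← div_eq_inv_mul, le_div_iff₀ h2]
    exact h1
  calc ENNReal.ofReal m * (volume E * ENNReal.ofReal (1 / 5))
      = ∫⁻ _ in D, ENNReal.ofReal m := by
        rw [setLIntegral_const, hD, Measure.volume_eq_prod, Measure.prod_prod, Real.volume_Icc]
        norm_num
    _ ≤ ∫⁻ p in D, ENNReal.ofReal |(f' p).det| := setLIntegral_mono' hDm hdet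
    _ ≤ _ := lintegral_abs_det_fderiv_le_addHaar_image volume hDm hf' hinj

theorem deca_fwd (k ξ s : ℝ) (n : ℕ) : xo k (ξ, s) n = obR k ξ s n := by
  have := xo_fwd k (ξ, s) 0 n
  rwa [zero_add, zero_add, xo_zero, xo_one] at this

theorem deca_ph_fwd (k ξ s : ℝ) (n : ℕ) : ph (vs k (ξ, s)) 0 n = jR k ξ s 0 1 n := by
  have := ph_vs_fwd k (ξ, s) 0 n
  rwa [zero_add, zero_add, xo_zero, xo_one] at this

theorem deca_small {q : ℝ} (hq : 100 ≤ q) : q ^ (-90 * (1 : ℤ)) ≤ 1 / 100 := by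
  have h1 : q ^ (-90 * (1 : ℤ)) ≤ q ^ (-1 : ℤ) := zpow_le_zpow_right₀ (by linarith) (by norm_num)
  rw [zpow_neg_one] at h1
  refine h1.trans ?_
  rw [one_div]
  exact inv_anti₀ (by norm_num) hq

/-- Area estimate.  `k = q ^ 100`, `ψ = ph (vs k (ξ, s)) 0 (c+1)`, `χ s' = ph (vs k (ξ, s')) b c`
`= -jR k (x b) (x (b-1)) 0 1 (b - c)` (smooth in `s'`, `|χ| ≥ 1` on `E`).
`Ψ (s', r) = (xo k (ξ, s') (b-1) + r / χ s', xo k (ξ, s') b)` on `E ×ˢ Icc (-1/10) (1/10)`.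
* `|det DΨ| = |ph (vs k (ξ, s')) 0 b| / |χ s'| ≥ 0.99 * 0.99 |ψ|` (`hasDerivAt_obR`, `transv`, `dist_real`).
* `Ψ` is injective: if `Ψ (s₁, r₁) = Ψ (s₂, r₂) = P`, the three points lie on the line `x b = ζ`; `dist_real` from `s₁`
  and from `s₂` at `P` gives `0.99 |χ s₁| ≤ 1.01 |χ s₂|`, so `s₂` is in the distortion range of `s₁` on that line and
  `dist_two` gives `|Δ x (c+1)| ≤ 1.03 q ^ (-90) |Δ x c|`; on the line `x 0 = ξ`, `dist_two` from `s` gives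
  `|Δ x c| ≤ 1.03 q ^ (-90) |Δ x (c+1)|` and `0.99 |ψ| |s₁ - s₂| ≤ |Δ x (c+1)|`.  So `s₁ = s₂`, then `r₁ = r₂`.
* For `P` in the image, `p' = Tm k (1 - b) P` has `xo k p' (b-1) = P.1`, `xo k p' b = P.2`; `leafS` gives `vs k p' ∈ S`, and
  `(xo k p' c, xo k p' (c+1))` is within `0.41` of `(x c, x (c+1))` at `s` in each coordinate.  So the image lies in the
  preimage under `Tm k (c + 1 - b)` of `vs k ⁻¹' (sh (-c) ⁻¹' S) ∩` (unit square), of volume `nu k S`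
  (`measurePreserving_Tm`, `nu_square`, `inv_nu`).
* `lintegral_abs_det_fderiv_le_addHaar_image`; `(1/5) * 0.98 ≥ 1/6`. -/
theorem area {q ξ s : ℝ} {c : ℕ} {b : ℤ} (hq : 100 ≤ q) (hcb : (c : ℤ) < b) {E : Set ℝ} (hE : MeasurableSet E)
    {S : Set (ℤ → ℝ)} (hS : MeasurableSet S) (h : EnvU q (vs (q ^ 100) (ξ, s)) 0 c)
    (h1 : ∀ s' ∈ E, |s' - s| * |ph (vs (q ^ 100) (ξ, s)) 0 (c + 1)| ≤ 1 / 10)
    (h2 : ∀ s' ∈ E, EnvU q (vs (q ^ 100) (ξ, s')) 0 c ∧ EnvS q (vs (q ^ 100) (ξ, s')) c b)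
    (h3 : ∀ s' ∈ E, ∀ v', Bdd q v' → CloseR q c b (vs (q ^ 100) (ξ, s')) v' → v' ∈ S) :
    ENNReal.ofReal |ph (vs (q ^ 100) (ξ, s)) 0 (c + 1)| * volume E ≤ 6 * nu (q ^ 100) S := by
  obtain ⟨β, rfl⟩ : ∃ β : ℕ, b = (c + β + 1 : ℕ) := ⟨(b - c - 1).toNat, by push_cast; omega⟩
  set k := q ^ 100 with hk
  have hq70 : (1 : ℝ) ≤ q ^ 70 := one_le_pow₀ (by linarith)
  have hη := deca_small hq
  have hη0 : 0 < q ^ (-90 * (1 : ℤ)) := zpow_pos (by linarith) _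
  set η := q ^ (-90 * (1 : ℤ)) with hηdef
  have hψe : ∀ s', ph (vs k (ξ, s')) 0 (c + 1) = jR k ξ s' 0 1 (c + 1) := fun s' => by
    rw [← deca_ph_fwd]; push_cast; rfl
  rw [hψe] at h1 ⊢
  set ψ := |jR k ξ s 0 1 (c + 1)| with hψ
  have hU : Env q ξ s (c + 1) := h.env
  have hψ1 : 1 ≤ ψ := hU.one_le hq (by omega)
  set X : ℝ → ℝ := fun s' => obR k ξ s' (c + β) with hX
  set ζ : ℝ → ℝ := fun s' => obR k ξ s' (c + β + 1) with hζ
  set χ : ℝ → ℝ := fun s' => jR k (ζ s') (X s') 0 1 (β + 1) with hχ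
  have hxb : ∀ s', xo k (ξ, s') (c + β + 1 : ℕ) = ζ s' := fun s' => deca_fwd _ _ _ _
  have hxb' : ∀ s', xo k (ξ, s') (((c + β + 1 : ℕ) : ℤ) - 1) = X s' := fun s' => by
    rw [show (((c + β + 1 : ℕ) : ℤ) - 1) = (c + β : ℕ) by push_cast; ring]; exact deca_fwd _ _ _ _
  have hχe : ∀ s', ph (vs k (ξ, s')) (c + β + 1 : ℕ) c = -χ s' := fun s' => by
    have := ph_vs_bwd k (ξ, s') (c + β + 1 : ℕ) (β + 1)
    rw [hxb, hxb', show (((c + β + 1 : ℕ) : ℤ) - (β + 1 : ℕ)) = c by push_cast; ring] at this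
    exact this
  have hEnv : ∀ s' ∈ E, Env q (ζ s') (X s') (β + 1) := fun s' hs' => by
    have := (h2 s' hs').2.env hcb
    rwa [hxb, hxb', show (((c + β + 1 : ℕ) : ℤ) - c).toNat = β + 1 by push_cast; omega] at this
  have hχ1 : ∀ s' ∈ E, 1 ≤ |χ s'| := fun s' hs' => (hEnv s' hs').one_le hq (by omega)
  have hχ0 : ∀ s' ∈ E, χ s' ≠ 0 := fun s' hs' h0 => by
    have := hχ1 s' hs'
    rw [h0, abs_zero] at this
    linarith
  -- the backward orbit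
  have hbc : ∀ s', obR k (ζ s') (X s') (β + 1) = obR k ξ s' c := fun s' => by
    have := xo_bwd k (ξ, s') (c + β + 1 : ℕ) (β + 1)
    rw [hxb, hxb', show (((c + β + 1 : ℕ) : ℤ) - (β + 1 : ℕ)) = c by push_cast; ring, deca_fwd] at this
    exact this.symm
  have hbc' : ∀ s', obR k (ζ s') (X s') β = obR k ξ s' (c + 1) := fun s' => by
    have := xo_bwd k (ξ, s') (c + β + 1 : ℕ) β
    rw [hxb, hxb', show (((c + β + 1 : ℕ) : ℤ) - (β : ℕ)) = (c + 1 : ℕ) by push_cast; ring, deca_fwd] at this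
    exact this.symm
  have hr : ∀ s' ∈ E, ∀ r : ℝ, r ∈ Icc (-1 / 10 : ℝ) (1 / 10) →
      |X s' + r / χ s' - X s'| * |χ s'| ≤ 1 / 10 := fun s' hs' r hr => by
    rw [add_sub_cancel_left, ← abs_mul, div_mul_cancel₀ _ (hχ0 s' hs'), abs_le]
    constructor <;> linarith [hr.1, hr.2]
  have hdχ : ∀ s', HasDerivAt χ (deriv χ s') s' := fun s' => by
    have d1 : Differentiable ℝ fun p : ℝ × ℝ => jR k p.1 p.2 0 1 (β + 1) :=
      (contDiff_jR k 0 1 (β + 1)).differentiable (by simp)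
    have d2 : DifferentiableAt ℝ (fun s' => (ζ s', X s')) s' :=
      (hasDerivAt_obR k ξ s' _).differentiableAt.prodMk (hasDerivAt_obR k ξ s' _).differentiableAt
    exact ((d1 _).comp s' d2).hasDerivAt
  have hm : ∀ s' ∈ E, 98 / 100 * ψ * |χ s'| ≤ |jR k ξ s' 0 1 (c + β + 1)| := fun s' hs' => by
    have t1 := transv hq (by positivity) hcb (h2 s' hs').1 (h2 s' hs').2
    rw [hψe, hχe, abs_neg, deca_ph_fwd] at t1
    have t2 := (dist_real hq hU ((h1 s' hs').trans (by linarith)) (c + 1) le_rfl).2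
    rw [sub_self, mul_zero, zpow_zero, mul_one] at t2
    have t3 : 99 / 100 * ψ ≤ |jR k ξ s' 0 1 (c + 1)| := by
      have := abs_sub_abs_le_abs_sub (jR k ξ s 0 1 (c + 1)) (jR k ξ s' 0 1 (c + 1))
      rw [abs_sub_comm] at this
      linarith
    have t4 := hχ1 s' hs'
    have t5 : 99 / 100 * ψ * |χ s'| ≤ |jR k ξ s' 0 1 (c + 1)| * |χ s'| :=
      mul_le_mul_of_nonneg_right t3 (abs_nonneg _)
    have t6 : 0 ≤ ψ * |χ s'| := by positivity
    nlinarith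
  have hinj : InjOn (fun p : ℝ × ℝ => (X p.1 + p.2 / χ p.1, ζ p.1)) (E ×ˢ Icc (-1 / 10 : ℝ) (1 / 10)) := by
    rintro ⟨s₁, r₁⟩ ⟨hs₁, hr₁⟩ ⟨s₂, r₂⟩ ⟨hs₂, hr₂⟩ heq
    simp only [Prod.mk.injEq] at heq hs₁ hr₁ hs₂ hr₂
    obtain ⟨hP, hz⟩ := heq
    have a1 := hr s₁ hs₁ r₁ hr₁
    have a2 := hr s₂ hs₂ r₂ hr₂
    have b1 := (dist_real hq (hEnv s₁ hs₁) (a1.trans (by linarith)) (β + 1) le_rfl).2
    have b2 := (dist_real hq (hEnv s₂ hs₂) (a2.trans (by linarith)) (β + 1) le_rfl).2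
    rw [sub_self, mul_zero, zpow_zero, mul_one] at b1 b2
    rw [← hP, ← hz] at b2
    set J := jR k (ζ s₁) (X s₁ + r₁ / χ s₁) 0 1 (β + 1) with hJ
    have e2 : jR k (ζ s₁) (X s₂) 0 1 (β + 1) = χ s₂ := by rw [hz]
    rw [e2] at b2
    change |J - χ s₁| ≤ |χ s₁| / 100 at b1
    have c1 : 99 / 100 * |χ s₁| ≤ 101 / 100 * |χ s₂| := by
      have u1 := abs_sub_abs_le_abs_sub (χ s₁) J
      have u2 := abs_sub_abs_le_abs_sub J (χ s₂)
      rw [abs_sub_comm] at u1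
      linarith
    have c2 : |X s₂ - X s₁| * |χ s₁| ≤ 1 := by
      have u1 : |X s₂ - X s₁| ≤ |X s₁ + r₁ / χ s₁ - X s₁| + |X s₂ + r₂ / χ s₂ - X s₂| := by
        have : X s₂ - X s₁ = (X s₁ + r₁ / χ s₁ - X s₁) - (X s₂ + r₂ / χ s₂ - X s₂) := by linarith
        rw [this]
        exact abs_sub _ _
      have u2 : |X s₂ + r₂ / χ s₂ - X s₂| * |χ s₁| ≤ |X s₂ + r₂ / χ s₂ - X s₂| * (2 * |χ s₂|) :=
        mul_le_mul_of_nonneg_left (by linarith [abs_nonneg (χ s₂)]) (abs_nonneg _)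
      have u3 := mul_le_mul_of_nonneg_right u1 (abs_nonneg (χ s₁))
      nlinarith
    have d := dist_two hq (hEnv s₁ hs₁) (s₁ := X s₂) (s₂ := X s₁) (c2.trans hq70)
      (by rw [sub_self, abs_zero, zero_mul]; positivity)
    have d1 := d.1
    have d2 := d.2 β (by omega)
    rw [show ((β + 1 : ℕ) : ℤ) - β = 1 by push_cast; ring] at d2
    rw [hbc, hz, hbc, ← hz] at d1
    rw [hbc', hz, hbc', ← hz] at d2
    have g := dist_two hq hU (s₁ := s₂) (s₂ := s₁) ((h1 s₂ hs₂).trans (by linarith))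
      ((h1 s₁ hs₁).trans (by linarith))
    have g1 := g.1
    have g2 := g.2 c (by omega)
    rw [show ((c + 1 : ℕ) : ℤ) - c = 1 by push_cast; ring] at g2
    rw [← hηdef] at d2 g2
    rw [← hk, ← hψ] at g1 g2
    set A := |X s₂ - X s₁| * |jR (q ^ 100) (ζ s₁) (X s₁) 0 1 (β + 1)| with hA
    set B := |s₂ - s₁| * ψ with hB
    have hA0 : 0 ≤ A := by positivity
    have hB0 : 0 ≤ B := by positivity
    have hBz : B ≤ 0 := by
      have w1 : A * η ≤ A * (1 / 100) := mul_le_mul_of_nonneg_left hη hA0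
      have w2 : B * η ≤ B * (1 / 100) := mul_le_mul_of_nonneg_left hη hB0
      linarith
    have hs12 : s₁ = s₂ := by
      have : |s₂ - s₁| ≤ 0 := by nlinarith [abs_nonneg (s₂ - s₁)]
      have := abs_nonpos_iff.1 this
      linarith
    subst hs12
    have : r₁ / χ s₁ = r₂ / χ s₁ := by linarith
    rw [div_left_inj' (hχ0 s₁ hs₁)] at this
    rw [this]
  have key := deca_abs hE X ζ χ (fun s' => jR k ξ s' 0 1 (c + β)) (fun s' => jR k ξ s' 0 1 (c + β + 1))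
    (deriv χ) (m := 98 / 100 * ψ) (fun s' _ => hasDerivAt_obR k ξ s' _) (fun s' _ => hasDerivAt_obR k ξ s' _)
    (fun s' _ => hdχ s') hχ0 hm hinj
  set x₀ := obR k ξ s c - 1 / 2 with hx₀
  set y₀ := obR k ξ s (c + 1) - 1 / 2 with hy₀
  have hS' : MeasurableSet (sh (-(c : ℤ)) ⁻¹' S) := measurable_sh _ hS
  have himg : (fun p : ℝ × ℝ => (X p.1 + p.2 / χ p.1, ζ p.1)) '' (E ×ˢ Icc (-1 / 10 : ℝ) (1 / 10)) ⊆
      Tm k (-(β : ℤ)) ⁻¹' (vs k ⁻¹' (sh (-(c : ℤ)) ⁻¹' S) ∩ Ico x₀ (x₀ + 1) ×ˢ Ico y₀ (y₀ + 1)) := by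
    rintro _ ⟨⟨s', r⟩, ⟨hs', hr'⟩, rfl⟩
    simp only at hs' hr' ⊢
    set P : ℝ × ℝ := (X s' + r / χ s', ζ s') with hP
    have a1 := hr s' hs' r hr'
    have p1 : xo k (Tm k (-((c : ℤ) + β)) P) (c + β + 1 : ℕ) = ζ s' := by
      rw [xo_Tm, show (((c + β + 1 : ℕ) : ℤ) + -((c : ℤ) + β)) = 1 by push_cast; ring, xo_one]
    have p0 : xo k (Tm k (-((c : ℤ) + β)) P) (((c + β + 1 : ℕ) : ℤ) - 1) = X s' + r / χ s' := by
      rw [xo_Tm, show (((c + β + 1 : ℕ) : ℤ) - 1 + -((c : ℤ) + β)) = 0 by push_cast; ring, xo_zero]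
    have hcl : CloseR q c (c + β + 1 : ℕ) (vs k (ξ, s')) (vs k (Tm k (-((c : ℤ) + β)) P)) := by
      apply leafS hq hcb (h2 s' hs').2
      · rw [p1, hxb]
      · rw [p0, hxb', hχe, abs_neg]
        exact a1.trans (by norm_num)
    have hmem := h3 s' hs' _ (bdd_vs hq _) hcl
    have q0 : xo k P (-(β : ℤ)) = obR k (ζ s') (X s' + r / χ s') (β + 1) := by
      have := xo_bwd k P 1 (β + 1)
      rwa [show (1 : ℤ) - (β + 1 : ℕ) = -(β : ℤ) by push_cast; ring, sub_self, xo_one, xo_zero] at this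
    have q1 : xo k P (-(β : ℤ) + 1) = obR k (ζ s') (X s' + r / χ s') β := by
      have := xo_bwd k P 1 β
      rwa [show (1 : ℤ) - (β : ℕ) = -(β : ℤ) + 1 by ring, sub_self, xo_one, xo_zero] at this
    have u0 := (dist_real hq (hEnv s' hs') (a1.trans (by linarith)) (β + 1) le_rfl).1
    have u1 := (dist_real hq (hEnv s' hs') (a1.trans (by linarith)) β (by omega)).1
    have w0 := (dist_real hq hU ((h1 s' hs').trans (by linarith)) c (by omega)).1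
    have w1 := (dist_real hq hU ((h1 s' hs').trans (by linarith)) (c + 1) le_rfl).1
    rw [sub_self, mul_zero, zpow_zero, mul_one] at u0 w1
    rw [show ((β + 1 : ℕ) : ℤ) - β = 1 by push_cast; ring, ← hηdef] at u1
    rw [show ((c + 1 : ℕ) : ℤ) - c = 1 by push_cast; ring, ← hηdef] at w0
    rw [← hk] at u0 u1 w0 w1
    rw [hbc] at u0
    rw [hbc'] at u1
    rw [← hψ] at w0 w1
    change _ ≤ 2 * (_ * |χ s'|) at u0
    change _ ≤ 2 * (_ * |χ s'|) * η at u1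
    have hh := h1 s' hs'
    have n1 : 0 ≤ |X s' + r / χ s' - X s'| * |χ s'| := by positivity
    have n2 : 0 ≤ |s' - s| * ψ := by positivity
    have u1' : |obR k (ζ s') (X s' + r / χ s') β - obR k ξ s' (c + 1)| ≤ 1 / 5 := by nlinarith
    have w0' : |obR k ξ s' c - obR k ξ s c| ≤ 1 / 5 := by nlinarith
    have u0' : |obR k (ζ s') (X s' + r / χ s') (β + 1) - obR k ξ s' c| ≤ 1 / 5 := by linarith
    have w1' : |obR k ξ s' (c + 1) - obR k ξ s (c + 1)| ≤ 1 / 5 := by linarith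
    rw [abs_le] at u0' u1' w0' w1'
    refine ⟨?_, ?_, ?_⟩
    · change sh (-(c : ℤ)) (vs k (Tm k (-(β : ℤ)) P)) ∈ S
      rw [vs_Tm, sh_sh]
      rw [vs_Tm] at hmem
      rwa [show -(c : ℤ) + -(β : ℤ) = -((c : ℤ) + β) by ring]
    · change xo k P (-(β : ℤ)) ∈ Ico x₀ (x₀ + 1)
      rw [q0]
      constructor <;> linarith [u0'.1, u0'.2, w0'.1, w0'.2]
    · change xo k P (-(β : ℤ) + 1) ∈ Ico y₀ (y₀ + 1)
      rw [q1]
      constructor <;> linarith [u1'.1, u1'.2, w1'.1, w1'.2]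
  have hvol : volume (Tm k (-(β : ℤ)) ⁻¹' (vs k ⁻¹' (sh (-(c : ℤ)) ⁻¹' S) ∩
      Ico x₀ (x₀ + 1) ×ˢ Ico y₀ (y₀ + 1))) = nu k S := by
    rw [(measurePreserving_Tm k _).measure_preimage
      ((measurable_vs k hS').inter (measurableSet_Ico.prod measurableSet_Ico)).nullMeasurableSet,
      nu_square k hS', inv_nu k _ _ hS]
  have fin := key.trans ((measure_mono himg).trans hvol.le)
  calc ENNReal.ofReal ψ * volume E
      ≤ 6 * (ENNReal.ofReal (98 / 100 * ψ) * (volume E * ENNReal.ofReal (1 / 5))) := by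
        rw [mul_comm (volume E), ← mul_assoc, ← mul_assoc]
        gcongr
        rw [show (6 : ENNReal) = ENNReal.ofReal 6 by norm_num, ← ENNReal.ofReal_mul (by positivity),
          ← ENNReal.ofReal_mul (by positivity)]
        exact ENNReal.ofReal_le_ofReal (by linarith)
    _ ≤ 6 * nu k S := by gcongr

end Crest.Agent.R128
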