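import Crest.Agent.R128.Defs

/-!
# Row 128, Vit: a Vitali covering inequality on the line and the porosity iteration.
Keep the statements; add auxiliary lemmas freely (prefix `vit_`).
-/

set_option autoImplicit false

noncomputable section

open scoped Classical
open MeasureTheory Set

namespace Crest.Agent.R128

/-- `Vitali.exists_disjoint_subfamily_covering_enlargement_closedBall` gives a disjoint (hence countable)
subfamily whose `5`-fold enlargements cover `E`; `volume (closedBall x ρ) = 2 ρ`; `measure_biUnion`. -/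
theorem vitali (E U : Set ℝ) (ρ : ℝ → ℝ) (R : ℝ) (A : ℝ → Set ℝ) (c : ENNReal)
    (hρ : ∀ x ∈ E, 0 < ρ x ∧ ρ x ≤ R) (hU : ∀ x ∈ E, Metric.closedBall x (ρ x) ⊆ U)
    (hA : ∀ x ∈ E, volume (⋃ x' ∈ E ∩ Metric.closedBall x (5 * ρ x), A x') ≤ c * ENNReal.ofReal (ρ x)) :
    2 * volume (⋃ x ∈ E, A x) ≤ c * volume U := by
  obtain ⟨u, huE, hdisj, hcov⟩ := Vitali.exists_disjoint_subfamily_covering_enlargement_closedBall E
    (fun x => x) ρ R (fun x hx => (hρ x hx).2) 5 (by norm_num)
  have hcount : u.Countable := hdisj.countable_of_nonempty_interior fun x hx =>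
    ⟨x, Metric.ball_subset_interior_closedBall (Metric.mem_ball_self (hρ x (huE hx)).1)⟩
  have h1 : (⋃ x ∈ E, A x) ⊆ ⋃ b ∈ u, ⋃ x' ∈ E ∩ Metric.closedBall b (5 * ρ b), A x' := by
    intro y hy
    obtain ⟨x, hx, hy⟩ := mem_iUnion₂.1 hy
    obtain ⟨b, hb, hsub⟩ := hcov x hx
    exact mem_iUnion₂.2 ⟨b, hb, mem_iUnion₂.2
      ⟨x, ⟨hx, hsub (Metric.mem_closedBall_self (hρ x hx).1.le)⟩, hy⟩⟩
  have h2 : volume (⋃ x ∈ E, A x) ≤ ∑' b : u, c * ENNReal.ofReal (ρ b) :=
    ((measure_mono h1).trans (measure_biUnion_le volume hcount _)).trans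
      (ENNReal.tsum_le_tsum fun b => hA b (huE b.2))
  have h3 : volume (⋃ b ∈ u, Metric.closedBall b (ρ b)) = ∑' b : u, 2 * ENNReal.ofReal (ρ b) := by
    rw [measure_biUnion hcount hdisj fun b _ => Metric.isClosed_closedBall.measurableSet]
    refine tsum_congr fun b => ?_
    rw [Real.volume_closedBall, ENNReal.ofReal_mul (by norm_num), ENNReal.ofReal_ofNat]
  have h4 : volume (⋃ b ∈ u, Metric.closedBall b (ρ b)) ≤ volume U :=
    measure_mono (iUnion₂_subset fun b hb => hU b (huE hb))
  calc 2 * volume (⋃ x ∈ E, A x) ≤ 2 * ∑' b : u, c * ENNReal.ofReal (ρ b) := by gcongr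
    _ = c * ∑' b : u, 2 * ENNReal.ofReal (ρ b) := by
      rw [ENNReal.tsum_mul_left, ENNReal.tsum_mul_left, mul_left_comm]
    _ ≤ c * volume U := by rw [← h3]; gcongr

theorem vit_nhds {δ η : ℝ} (hδ : 0 < δ) (hη : 0 ≤ η) (r : ℕ) (F : Set ℝ)
    (h : ∀ S : Finset ℝ, (∀ x ∈ S, x ∈ F) → (∀ x ∈ S, ∀ y ∈ S, x ≠ y → δ ≤ |x - y|) → S.card ≤ r) :
    volume (⋃ x ∈ F, Metric.closedBall x η) ≤ ENNReal.ofReal (r * (2 * δ + 2 * η)) := by
  induction r generalizing F with
  | zero =>
    have hF : F = ∅ := eq_empty_of_forall_notMem fun x hx => by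
      have := h {x} (by simpa using hx) (by simp)
      simp at this
    simp [hF]
  | succ r ih =>
    rcases F.eq_empty_or_nonempty with rfl | ⟨x, hx⟩
    · simp
    have h1 := ih (F \ Metric.ball x δ) fun S hS hsep => by
      have hfar : ∀ y ∈ S, δ ≤ |y - x| := fun y hy => by
        have := (hS y hy).2
        rwa [Metric.mem_ball, Real.dist_eq, not_lt] at this
      have hxS : x ∉ S := fun hxS => by
        have := hfar x hxS
        rw [sub_self, abs_zero] at this
        linarith
      have h2 := h (insert x S) (fun y hy => by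
        rcases Finset.mem_insert.1 hy with rfl | hy
        · exact hx
        · exact (hS y hy).1) (fun y hy z hz hyz => by
        rcases Finset.mem_insert.1 hy with rfl | hy'
        · rcases Finset.mem_insert.1 hz with rfl | hz'
          · exact absurd rfl hyz
          · rw [abs_sub_comm]
            exact hfar z hz'
        · rcases Finset.mem_insert.1 hz with rfl | hz'
          · exact hfar y hy'
          · exact hsep y hy' z hz' hyz)
      rw [Finset.card_insert_of_notMem hxS] at h2
      omega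
    have h2 : (⋃ y ∈ F, Metric.closedBall y η) ⊆
        (⋃ y ∈ F \ Metric.ball x δ, Metric.closedBall y η) ∪ Metric.closedBall x (δ + η) := by
      intro z hz
      obtain ⟨y, hy, hz⟩ := mem_iUnion₂.1 hz
      by_cases hyx : y ∈ Metric.ball x δ
      · right
        rw [Metric.mem_closedBall] at hz ⊢
        rw [Metric.mem_ball] at hyx
        linarith [dist_triangle z y x]
      · exact Or.inl (mem_iUnion₂.2 ⟨y, ⟨hy, hyx⟩, hz⟩)
    refine ((measure_mono h2).trans (measure_union_le _ _)).trans ?_
    rw [Real.volume_closedBall]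
    refine (add_le_add_left h1 _).trans (le_of_eq ?_)
    rw [← ENNReal.ofReal_add (by positivity) (by positivity)]
    congr 1
    push_cast
    ring

/-- A set without `r + 1` points that are `δ`-separated is covered by `r` intervals of length `2 δ`
(take a maximal `δ`-separated finite subset), so its `η`-neighbourhood is small. -/
theorem volume_nhds_le (F : Set ℝ) (r : ℕ) {δ η : ℝ} (hδ : 0 < δ) (hη : 0 ≤ η)
    (h : ∀ t : Fin (r + 1) → ℝ, (∀ i, t i ∈ F) → (∀ i j, i < j → t i + δ ≤ t j) → False) :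
    volume (⋃ x ∈ F, Metric.closedBall x η) ≤ ENNReal.ofReal (r * (2 * δ + 2 * η)) := by
  refine vit_nhds hδ hη r F fun S hS hsep => ?_
  by_contra hc
  obtain ⟨T, hTS, hT⟩ := Finset.exists_subset_card_eq (s := S) (n := r + 1) (by omega)
  have hm : ∀ i, T.orderEmbOfFin hT i ∈ S := fun i => hTS (Finset.orderEmbOfFin_mem T hT i)
  refine h (T.orderEmbOfFin hT) (fun i => hS _ (hm i)) fun i j hij => ?_
  have h1 : T.orderEmbOfFin hT i < T.orderEmbOfFin hT j := (T.orderEmbOfFin hT).strictMono hij
  have h2 := hsep _ (hm j) _ (hm i) h1.ne'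
  rw [abs_of_pos (sub_pos.2 h1)] at h2
  linarith

/-- Porosity at `N` scales.  `U s = ⋃ x ∈ E, closedBall x (l s x)`; `volume (U 0) ≤ 7`; `vitali` with
`ρ = l s x / 5`, `c = 20 r γ` and `volume_nhds_le` (`δ = η = γ l s x`) give `volume (U (s+1)) ≤ 10 r γ volume (U s)`. -/
theorem porous (E : Set ℝ) (hE : E ⊆ Ico 0 1) (N r : ℕ) {γ : ℝ} (hγ : 0 < γ) (l : ℕ → ℝ → ℝ)
    (h0 : ∀ s, s ≤ N → ∀ x ∈ E, 0 < l s x ∧ l s x ≤ 3)
    (h1 : ∀ s, s < N → ∀ x ∈ E, ∀ x' ∈ E, |x' - x| ≤ l s x → l (s + 1) x' ≤ γ * l s x)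
    (h2 : ∀ s, s < N → ∀ x ∈ E, ∀ t : Fin (r + 1) → ℝ, (∀ i, t i ∈ E) → (∀ i, |t i - x| ≤ l s x) →
      (∀ i j, i < j → t i + γ * l s x ≤ t j) → False) :
    volume E ≤ ENNReal.ofReal (7 * (10 * r * γ) ^ N) := by
  have key : ∀ s, s ≤ N → volume (⋃ x ∈ E, Metric.closedBall x (l s x)) ≤
      ENNReal.ofReal (7 * (10 * r * γ) ^ s) := by
    intro s
    induction s with
    | zero =>
      intro _
      have h3 : (⋃ x ∈ E, Metric.closedBall x (l 0 x)) ⊆ Icc (-3) 4 := by
        refine iUnion₂_subset fun x hx y hy => ?_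
        rw [Metric.mem_closedBall, Real.dist_eq, abs_le] at hy
        have h4 := (h0 0 (Nat.zero_le N) x hx).2
        obtain ⟨h5, h6⟩ := hE hx
        constructor <;> linarith [hy.1, hy.2]
      refine (measure_mono h3).trans (le_of_eq ?_)
      rw [Real.volume_Icc]
      norm_num
    | succ s ih =>
      intro hs
      have hs' : s < N := hs
      have h3 := vitali E (⋃ x ∈ E, Metric.closedBall x (l s x)) (fun x => l s x / 5) 3
        (fun x => Metric.closedBall x (l (s + 1) x)) (ENNReal.ofReal (20 * r * γ))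
        (fun x hx => by
          obtain ⟨h4, h5⟩ := h0 s hs'.le x hx
          constructor <;> linarith)
        (fun x hx => by
          have h4 := (h0 s hs'.le x hx).1
          exact (Metric.closedBall_subset_closedBall (by linarith)).trans
            (subset_biUnion_of_mem (u := fun x => Metric.closedBall x (l s x)) hx))
        (fun x hx => by
          have h4 := (h0 s hs'.le x hx).1
          have h5 : 0 < γ * l s x := mul_pos hγ h4
          have h6 : 5 * (l s x / 5) = l s x := by ring
          rw [h6]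
          have h7 : (⋃ x' ∈ E ∩ Metric.closedBall x (l s x), Metric.closedBall x' (l (s + 1) x')) ⊆
              ⋃ x' ∈ E ∩ Metric.closedBall x (l s x), Metric.closedBall x' (γ * l s x) :=
            iUnion₂_mono fun x' hx' => Metric.closedBall_subset_closedBall
              (h1 s hs' x hx x' hx'.1 (by simpa [Real.dist_eq] using hx'.2))
          refine (measure_mono h7).trans ((volume_nhds_le _ r h5 h5.le fun t ht hsep =>
            h2 s hs' x hx t (fun i => (ht i).1)
              (fun i => by simpa [Real.dist_eq] using (ht i).2) hsep).trans (le_of_eq ?_))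
          rw [← ENNReal.ofReal_mul (by positivity)]
          congr 1
          ring)
      have h8 : ENNReal.ofReal (20 * r * γ) * ENNReal.ofReal (7 * (10 * r * γ) ^ s) =
          2 * ENNReal.ofReal (7 * (10 * r * γ) ^ (s + 1)) := by
        rw [← ENNReal.ofReal_mul (by positivity), ← ENNReal.ofReal_ofNat 2,
          ← ENNReal.ofReal_mul (by norm_num)]
        congr 1
        ring
      have h9 := h3.trans (mul_le_mul_right (ih hs'.le) _)
      rw [h8] at h9
      exact (ENNReal.mul_le_mul_iff_right (by norm_num) (by norm_num)).1 h9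
  refine (measure_mono fun x hx => ?_).trans (key N le_rfl)
  exact mem_iUnion₂.2 ⟨x, hx, Metric.mem_closedBall_self (h0 N le_rfl x hx).1.le⟩

end Crest.Agent.R128
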