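import Crest.Agent.R128.DecA
import Crest.Agent.R128.Vit

/-!
# Row 128, DecB: decoupling at a hyperbolic bond.
Keep the statements; add auxiliary lemmas freely (prefix `decb_`).
-/

set_option autoImplicit false

noncomputable section

open scoped Classical
open MeasureTheory Set

namespace Crest.Agent.R128

theorem measurableSet_envU (q : ℝ) (a c : ℤ) : MeasurableSet {v | EnvU q v a c} := by
  simp only [EnvU, ofPred_forall]
  exact MeasurableSet.iInter fun i => MeasurableSet.iInter fun _ => MeasurableSet.iInter fun _ =>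
    measurableSet_le ((measurable_ph a i).abs.const_mul _) (measurable_ph a _).abs

theorem measurableSet_envS (q : ℝ) (c b : ℤ) : MeasurableSet {v | EnvS q v c b} := by
  simp only [EnvS, ofPred_forall]
  exact MeasurableSet.iInter fun i => MeasurableSet.iInter fun _ => MeasurableSet.iInter fun _ =>
    measurableSet_le ((measurable_ph b i).abs.const_mul _) (measurable_ph b _).abs

/-- `a = 0`.  For fixed `ξ`, `E ξ = {s ∈ [0, 1) | vs k (ξ, s) ∈ E}`, `U ξ = {s ∈ [-1, 2) | vs k (ξ, s) ∈ U}`;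
`vitali` with `ρ s = 1 / (50 |ψ s|) ≤ 1 / 50`, `ψ s = ph (vs k (ξ, s)) 0 (c+1)`, `A s = {s}`, `c = 300 * nu k S`
(`leafU`, `area`): `2 volume (E ξ) ≤ 300 nu k S * volume (U ξ)`.  Integrate over `ξ ∈ [0, 1)`;
`[0,1) × [-1,2)` is three unit squares (`nu_square`). -/
theorem dec_zero {q : ℝ} (hq : 100 ≤ q) {c : ℕ} {b : ℤ} (hcb : (c : ℤ) < b) {E U S : Set (ℤ → ℝ)}
    (hE : MeasurableSet E) (hU : MeasurableSet U) (hS : MeasurableSet S)
    (h : ∀ v ∈ E, EnvU q v 0 c ∧ EnvS q v c b)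
    (hL : ∀ v ∈ E, Bdd q v → ∀ v', Bdd q v' → CloseL q 0 c v v' → v' ∈ U)
    (hR : ∀ v ∈ E, Bdd q v → ∀ v', Bdd q v' → CloseR q c b v v' → v' ∈ S) :
    nu (q ^ 100) E ≤ 2000 * (nu (q ^ 100) U * nu (q ^ 100) S) := by
  set k := q ^ 100 with hk
  set EE := vs k ⁻¹' E ∩ Ico (0 : ℝ) 1 ×ˢ Ico (0 : ℝ) 1 with hEE
  set UU := vs k ⁻¹' U ∩ Ico (0 : ℝ) 1 ×ˢ Ico (-1 : ℝ) 2 with hUU
  have mE : MeasurableSet EE := (measurable_vs k hE).inter (measurableSet_Ico.prod measurableSet_Ico)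
  have mU : MeasurableSet UU := (measurable_vs k hU).inter (measurableSet_Ico.prod measurableSet_Ico)
  have key : ∀ ξ : ℝ, volume (Prod.mk ξ ⁻¹' EE) ≤ 300 * nu k S * volume (Prod.mk ξ ⁻¹' UU) := by
    intro ξ
    have hψ : ∀ s ∈ Prod.mk ξ ⁻¹' EE, 1 ≤ |ph (vs k (ξ, s)) 0 (c + 1)| := fun s hs => by
      have := (h _ hs.1).1 (0 + 1) (by norm_num) (by omega)
      rw [ph_succ, abs_one, mul_one] at this
      exact (one_le_zpow₀ (by linarith) (by omega)).trans this
    have hv := vitali (Prod.mk ξ ⁻¹' EE) (Prod.mk ξ ⁻¹' UU) (fun s => 1 / (50 * |ph (vs k (ξ, s)) 0 (c + 1)|)) 1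
      (fun s => {s}) (300 * nu k S) (fun s hs => ?_) (fun s hs s' hs' => ?_) (fun s hs => ?_)
    · rw [biUnion_of_singleton] at hv
      exact le_trans (le_mul_of_one_le_left' (by norm_num)) hv
    · have := hψ s hs
      exact ⟨by positivity, (div_le_one (by positivity)).2 (by linarith)⟩
    · have h1 := hψ s hs
      rw [Metric.mem_closedBall, Real.dist_eq, le_div_iff₀ (by positivity)] at hs'
      have h2 : |s' - s| ≤ 1 := by nlinarith [abs_nonneg (s' - s)]
      have h3 : (0 : ℝ) ≤ s ∧ s < 1 := hs.2.2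
      rw [abs_le] at h2
      refine ⟨hL _ hs.1 (bdd_vs hq _) _ (bdd_vs hq _) (leafU hq (h _ hs.1).1 ?_), hs.2.1, ?_, ?_⟩
      · nlinarith [mul_nonneg (abs_nonneg (s' - s)) (abs_nonneg (ph (vs k (ξ, s)) 0 (c + 1)))]
      · show (-1 : ℝ) ≤ s'
        linarith
      · show s' < 2
        linarith
    · have h1 := hψ s hs
      rw [biUnion_of_singleton]
      have h2 := area (ξ := ξ) (s := s) hq hcb (E := Prod.mk ξ ⁻¹' EE ∩
        Metric.closedBall s (5 * (1 / (50 * |ph (vs k (ξ, s)) 0 (c + 1)|))))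
        ((measurable_prodMk_left mE).inter Metric.isClosed_closedBall.measurableSet) hS (h _ hs.1).1
        (fun s' hs' => ?_) (fun s' hs' => h _ hs'.1.1) fun s' hs' => hR _ hs'.1.1 (bdd_vs hq _)
      · set ψ := |ph (vs k (ξ, s)) 0 (c + 1)|
        have h3 : (50 : ENNReal) * ENNReal.ofReal (1 / (50 * ψ)) * ENNReal.ofReal ψ = 1 := by
          rw [show (50 : ENNReal) = ENNReal.ofReal 50 by norm_num, ← ENNReal.ofReal_mul (by positivity),
            ← ENNReal.ofReal_mul (by positivity), ← ENNReal.ofReal_one]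
          congr 1
          field_simp
        calc _ = 50 * ENNReal.ofReal (1 / (50 * ψ)) * (ENNReal.ofReal ψ * volume (Prod.mk ξ ⁻¹' EE ∩
              Metric.closedBall s (5 * (1 / (50 * ψ))))) := by rw [← mul_assoc, h3, one_mul]
          _ ≤ 50 * ENNReal.ofReal (1 / (50 * ψ)) * (6 * nu k S) := by gcongr
          _ = _ := by ring
      · have h3 := hs'.2
        rw [Metric.mem_closedBall, Real.dist_eq, ← mul_div_assoc, le_div_iff₀ (by positivity)] at h3
        linarith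
  have h3 : volume UU ≤ 3 * nu k U := by
    calc volume UU ≤ volume ((vs k ⁻¹' U ∩ Ico (0 : ℝ) (0 + 1) ×ˢ Ico (-1 : ℝ) (-1 + 1) ∪
          vs k ⁻¹' U ∩ Ico (0 : ℝ) (0 + 1) ×ˢ Ico (0 : ℝ) (0 + 1)) ∪
          vs k ⁻¹' U ∩ Ico (0 : ℝ) (0 + 1) ×ˢ Ico (1 : ℝ) (1 + 1)) := by
          refine measure_mono ?_
          rintro ⟨x, y⟩ ⟨a1, a2, a3, a4⟩
          rw [← zero_add (1 : ℝ)] at a2
          rcases lt_or_ge y 0 with b1 | b1
          · exact Or.inl (Or.inl ⟨a1, a2, a3, by simpa using b1⟩)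
          rcases lt_or_ge y 1 with b2 | b2
          · exact Or.inl (Or.inr ⟨a1, a2, b1, by simpa using b2⟩)
          · exact Or.inr ⟨a1, a2, b2, by rw [one_add_one_eq_two]; exact a4⟩
      _ ≤ nu k U + nu k U + nu k U := by
          refine (measure_union_le _ _).trans (add_le_add ((measure_union_le _ _).trans (add_le_add ?_ ?_)) ?_) <;>
            exact (nu_square k hU _ _).le
      _ = _ := by ring
  calc nu k E = ∫⁻ ξ, volume (Prod.mk ξ ⁻¹' EE) := by
        rw [nu_apply k hE, Measure.volume_eq_prod, Measure.prod_apply mE]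
    _ ≤ ∫⁻ ξ, 300 * nu k S * volume (Prod.mk ξ ⁻¹' UU) := lintegral_mono key
    _ = 300 * nu k S * volume UU := by
        rw [lintegral_const_mul _ (measurable_measure_prodMk_left mU), Measure.volume_eq_prod,
          Measure.prod_apply mU]
    _ ≤ 300 * nu k S * (3 * nu k U) := by gcongr
    _ = 900 * (nu k U * nu k S) := by ring
    _ ≤ _ := by gcongr; norm_num

/-- apply `dec_zero` to the preimages under `sh (-a)` (`inv_nu`, `ph_sh`) -/
theorem dec {q : ℝ} (hq : 100 ≤ q) {a c b : ℤ} (hac : a ≤ c) (hcb : c < b) {E U S : Set (ℤ → ℝ)}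
    (hE : MeasurableSet E) (hU : MeasurableSet U) (hS : MeasurableSet S)
    (h : ∀ v ∈ E, EnvU q v a c ∧ EnvS q v c b)
    (hL : ∀ v ∈ E, Bdd q v → ∀ v', Bdd q v' → CloseL q a c v v' → v' ∈ U)
    (hR : ∀ v ∈ E, Bdd q v → ∀ v', Bdd q v' → CloseR q c b v v' → v' ∈ S) :
    (nu (q ^ 100)).real E ≤ 2000 * ((nu (q ^ 100)).real U * (nu (q ^ 100)).real S) := by
  obtain ⟨n, rfl⟩ : ∃ n : ℕ, c = a + n := ⟨(c - a).toNat, by omega⟩
  have key := dec_zero hq (c := n) (b := b - a) (by omega) (measurable_sh (-a) hE) (measurable_sh (-a) hU)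
    (measurable_sh (-a) hS) (fun v hv => ⟨fun i h1 h2 => ?_, fun i h1 h2 => ?_⟩)
    (fun v hv hb v' hb' hc => hL _ hv (hb.sh _) _ (hb'.sh _) fun i hi => ?_)
    fun v hv hb v' hb' hc => hR _ hv (hb.sh _) _ (hb'.sh _) fun i hi => ?_
  · rw [inv_nu _ _ _ hE, inv_nu _ _ _ hU, inv_nu _ _ _ hS] at key
    have := ENNReal.toReal_mono (by finiteness) key
    rwa [ENNReal.toReal_mul, ENNReal.toReal_mul, ENNReal.toReal_ofNat] at this
  · have := (h _ hv).1 (i + a) (by omega) (by omega)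
    rwa [ph_sh, ph_sh, add_neg_cancel, add_neg_cancel_right, show a + n + 1 + -a = n + 1 by ring,
      show a + n + 1 - (i + a) = n + 1 - i by ring] at this
  · have := (h _ hv).2 (i + a) (by omega) (by omega)
    rwa [ph_sh, ph_sh, add_neg_cancel_right, show a + n + -a = n by ring, ← sub_eq_add_neg,
      show i + a - (a + n) = i - n by ring] at this
  · exact (hc (i + -a) (by omega)).trans (le_of_eq (by congr 1; omega))
  · exact (hc (i + -a) (by omega)).trans (le_of_eq (by congr 1; omega))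

end Crest.Agent.R128
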