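import Crest.Agent.R128.OrbA

/-!
# Row 128, Orb: two-sided orbits, the law `nu k` of the potential, invariance.
Keep the statements; add auxiliary lemmas freely (prefix `orb_`).
-/

set_option autoImplicit false

noncomputable section

open scoped Classical
open MeasureTheory Set

namespace Crest.Agent.R128

instance isProbabilityMeasure_nu (k : ℝ) : IsProbabilityMeasure (nu k) := by
  constructor
  rw [nu, Measure.map_apply (measurable_vs k) MeasurableSet.univ, preimage_univ,
    Measure.restrict_apply_univ, Measure.volume_eq_prod, Measure.prod_prod]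
  simp

theorem nu_apply (k : ℝ) {A : Set (ℤ → ℝ)} (hA : MeasurableSet A) :
    nu k A = volume (vs k ⁻¹' A ∩ Ico (0 : ℝ) 1 ×ˢ Ico (0 : ℝ) 1) := by
  rw [nu, Measure.map_apply (measurable_vs k) hA, Measure.restrict_apply (measurable_vs k hA)]

theorem nu_not_bdd {q : ℝ} (hq : 100 ≤ q) : nu (q ^ 100) {v | ¬ Bdd q v} = 0 := by
  have hm : MeasurableSet {v : ℤ → ℝ | Bdd q v} := by
    simp only [Bdd, ofPred_forall]
    exact MeasurableSet.iInter fun i =>
      measurableSet_le (continuous_abs.measurable.comp (measurable_pi_apply i)) measurable_const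
  have : vs (q ^ 100) ⁻¹' {v | Bdd q v}ᶜ = ∅ :=
    eq_empty_of_forall_notMem fun p hp => hp (bdd_vs hq p)
  change nu (q ^ 100) {v | Bdd q v}ᶜ = 0
  rw [nu_apply _ hm.compl, this, empty_inter, measure_empty]

theorem orb_Ioc {A : Set ℝ} (hA : MeasurableSet A) (h : ∀ x, x + 1 ∈ A ↔ x ∈ A) (c : ℝ) :
    volume (A ∩ Ioc c (c + 1)) = volume (A ∩ Ico 0 1) := by
  have hp : Function.Periodic (fun x => x ∈ A) (1 : ℝ) := fun x => propext (h x)
  have h1 := (isAddFundamentalDomain_Ioc zero_lt_one c volume).measure_set_eq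
    (isAddFundamentalDomain_Ioc zero_lt_one 0 volume) hA (fun g => by
      ext x
      exact iff_of_eq (hp.map_vadd_zmultiples g x))
  rw [h1, zero_add]
  exact measure_congr ((Filter.EventuallyEq.refl _ A).inter Ico_ae_eq_Ioc.symm)

/-- A `1`-periodic measurable set has the same measure in each unit interval, also after a reflection
(`Function.Periodic`/`isAddFundamentalDomain_Ioc`, or cut the interval at an integer). -/
theorem volume_periodic {A : Set ℝ} (hA : MeasurableSet A) (h : ∀ x, x + 1 ∈ A ↔ x ∈ A) (c : ℝ) :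
    volume (A ∩ Ico c (c + 1)) = volume (A ∩ Ico 0 1) ∧
      volume ({x | c - x ∈ A} ∩ Ico 0 1) = volume (A ∩ Ico 0 1) := by
  constructor
  · rw [← orb_Ioc hA h c]
    exact measure_congr ((Filter.EventuallyEq.refl _ A).inter Ico_ae_eq_Ioc)
  · have e : {x | c - x ∈ A} ∩ Ico 0 1 = (fun x => c - x) ⁻¹' (A ∩ Ioc (c - 1) (c - 1 + 1)) := by
      ext x
      simp only [mem_inter_iff, mem_ofPred_eq, mem_Ico, mem_preimage, mem_Ioc]
      constructor <;> rintro ⟨h1, h2, h3⟩ <;> exact ⟨h1, by linarith, by linarith⟩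
    rw [e, (Measure.measurePreserving_sub_left volume c).measure_preimage
      (hA.inter measurableSet_Ioc).nullMeasurableSet, orb_Ioc hA h]

theorem orb_fst {S : Set (ℝ × ℝ)} (hS : MeasurableSet S) {I J : Set ℝ} (hI : MeasurableSet I)
    (hJ : MeasurableSet J) :
    volume (S ∩ I ×ˢ J) = ∫⁻ x in I, volume ({y | (x, y) ∈ S} ∩ J) := by
  rw [Measure.volume_eq_prod, Measure.prod_apply (hS.inter (hI.prod hJ)), ← lintegral_indicator hI]
  refine lintegral_congr fun x => ?_
  by_cases hx : x ∈ I
  · rw [indicator_of_mem hx, preimage_inter, mk_preimage_prod_right hx]; rfl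
  · rw [indicator_of_notMem hx, preimage_inter, mk_preimage_prod_right_eq_empty hx, inter_empty,
      measure_empty]

theorem orb_snd {S : Set (ℝ × ℝ)} (hS : MeasurableSet S) {I J : Set ℝ} (hI : MeasurableSet I)
    (hJ : MeasurableSet J) :
    volume (S ∩ I ×ˢ J) = ∫⁻ y in J, volume ({x | (x, y) ∈ S} ∩ I) := by
  rw [Measure.volume_eq_prod, Measure.prod_apply_symm (hS.inter (hI.prod hJ)),
    ← lintegral_indicator hJ]
  refine lintegral_congr fun y => ?_
  by_cases hy : y ∈ J
  · rw [indicator_of_mem hy, preimage_inter, mk_preimage_prod_left hy]; rfl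
  · rw [indicator_of_notMem hy, preimage_inter, mk_preimage_prod_left_eq_empty hy, inter_empty,
      measure_empty]

theorem orb_per1 (k x y : ℝ) : vs k (x + 1, y) = vs k (x, y) := by
  simpa using vs_periodic k (x, y) 1 0

theorem orb_per2 (k x y : ℝ) : vs k (x, y + 1) = vs k (x, y) := by
  simpa using vs_periodic k (x, y) 0 1

/-- any unit square is a fundamental domain (Fubini twice, `volume_periodic`) -/
theorem nu_square (k : ℝ) {A : Set (ℤ → ℝ)} (hA : MeasurableSet A) (x y : ℝ) :
    volume (vs k ⁻¹' A ∩ Ico x (x + 1) ×ˢ Ico y (y + 1)) = nu k A := by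
  have hS := measurable_vs k hA
  rw [nu_apply k hA]
  trans volume (vs k ⁻¹' A ∩ Ico x (x + 1) ×ˢ Ico 0 1)
  · rw [orb_fst hS measurableSet_Ico measurableSet_Ico, orb_fst hS measurableSet_Ico measurableSet_Ico]
    refine lintegral_congr fun a => (volume_periodic (measurable_prodMk_left hS) (fun b => ?_) y).1
    simp only [mem_preimage, orb_per2]
  · rw [orb_snd hS measurableSet_Ico measurableSet_Ico, orb_snd hS measurableSet_Ico measurableSet_Ico]
    refine lintegral_congr fun b => (volume_periodic (measurable_prodMk_right hS) (fun a => ?_) x).1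
    simp only [mem_preimage, orb_per1]

theorem orb_Tm_one (k : ℝ) (p : ℝ × ℝ) : Tm k 1 p = (p.2, gR k p.2 - p.1) := by
  have h := xo_rec k p 1
  rw [sub_self, xo_zero, xo_one] at h
  rw [Tm, xo_one, ← h, add_sub_cancel_right]

theorem orb_Tm_neg (k : ℝ) (p : ℝ × ℝ) : Tm k (-1) p = (gR k p.1 - p.2, p.1) := by
  have h := xo_rec k p 0
  rw [zero_add, zero_sub, xo_zero, xo_one] at h
  rw [Tm, neg_add_cancel, xo_zero, ← h, add_sub_cancel_left]

theorem orb_Tm_add (k : ℝ) (s s' : ℤ) : Tm k (s + s') = Tm k s ∘ Tm k s' := by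
  funext p
  simp only [Function.comp, Tm.eq_1 k s, xo_Tm, Tm.eq_1 k (s + s'), add_right_comm s s' 1]

theorem orb_sh_meas (s : ℤ) : Measurable (sh s) :=
  measurable_pi_lambda _ fun _ => measurable_pi_apply _

theorem orb_sh_add (s s' : ℤ) (A : Set (ℤ → ℝ)) : sh (s + s') ⁻¹' A = sh s' ⁻¹' (sh s ⁻¹' A) := by
  ext v
  have : sh (s + s') v = sh s (sh s' v) := by funext i; simp only [sh, add_assoc]
  simp only [mem_preimage, this]

theorem orb_inv_one (k : ℝ) {A : Set (ℤ → ℝ)} (hA : MeasurableSet A) :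
    nu k (sh 1 ⁻¹' A) = nu k A := by
  have hS := measurable_vs k hA
  rw [nu_apply k (orb_sh_meas 1 hA), nu_apply k hA,
    orb_snd (measurable_vs k (orb_sh_meas 1 hA)) measurableSet_Ico measurableSet_Ico,
    orb_fst hS measurableSet_Ico measurableSet_Ico]
  refine lintegral_congr fun y => ?_
  rw [← (volume_periodic (A := {z | (y, z) ∈ vs k ⁻¹' A}) (measurable_prodMk_left hS)
    (fun b => by simp only [mem_ofPred_eq, mem_preimage, orb_per2]) (gR k y)).2]
  simp only [mem_preimage, mem_ofPred_eq, ← vs_Tm, orb_Tm_one]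

/-- `Tm k 1 (x, y) = (y, g y - x)`: Fubini with `y` outside and the reflection part of `volume_periodic`;
then induction on `s` (`sh (-1)` is the inverse of `sh 1`). -/
theorem inv_nu (k : ℝ) : Inv (nu k) := by
  intro s
  induction s using Int.induction_on with
  | zero => intro A _; congr 1; ext v; have : sh 0 v = v := by funext i; simp [sh]
            simp only [mem_preimage, this]
  | succ n ih =>
    intro A hA
    rw [orb_sh_add, orb_inv_one k (orb_sh_meas _ hA), ih A hA]
  | pred n ih =>
    intro A hA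
    rw [← orb_inv_one k (orb_sh_meas _ hA), ← orb_sh_add, sub_add_cancel, ih A hA]

/-- `Tm k 1` is a swap composed with a shear and a reflection; `Tm k (s + s') = Tm k s ∘ Tm k s'`. -/
theorem measurePreserving_Tm (k : ℝ) (s : ℤ) : MeasurePreserving (Tm k s) volume volume := by
  have hg : Continuous (gR k) := by unfold gR; fun_prop
  have h1 : MeasurePreserving (fun p : ℝ × ℝ => (id p.1, gR k p.1 - p.2)) volume volume :=
    (MeasurePreserving.id volume).skew_product (g := fun a b => gR k a - b)
      ((hg.measurable.comp measurable_fst).sub measurable_snd)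
      (Filter.Eventually.of_forall fun a => (Measure.measurePreserving_sub_left volume _).map_eq)
  have h2 : MeasurePreserving (Prod.swap : ℝ × ℝ → ℝ × ℝ) volume volume :=
    Measure.measurePreserving_swap
  have hp : MeasurePreserving (Tm k 1) volume volume := by
    have : Tm k 1 = (fun p : ℝ × ℝ => (id p.1, gR k p.1 - p.2)) ∘ Prod.swap :=
      funext fun p => orb_Tm_one k p
    rw [this]; exact h1.comp h2
  have hn : MeasurePreserving (Tm k (-1)) volume volume := by
    have : Tm k (-1) = Prod.swap ∘ (fun p : ℝ × ℝ => (id p.1, gR k p.1 - p.2)) :=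
      funext fun p => orb_Tm_neg k p
    rw [this]; exact h2.comp h1
  induction s using Int.induction_on with
  | zero =>
    have : Tm k 0 = id := funext fun p => by rw [Tm, zero_add, xo_zero, xo_one]; rfl
    rw [this]; exact MeasurePreserving.id _
  | succ n ih => rw [orb_Tm_add]; exact ih.comp hp
  | pred n ih => rw [sub_eq_add_neg, orb_Tm_add]; exact ih.comp hn

/-- Defects are rare: `|V x| < 2 q ^ 99` forces `|x - ze m| ≤ 1 / (5 q)` for some `m ∈ {0, 1, 2, 3}`. -/
theorem defect_le {q t : ℝ} (hq : 100 ≤ q) (ht : t ≤ 2) : dB (nu (q ^ 100)) q t 0 ≤ 2 / q := by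
  have hq0 : 0 < q := by linarith
  have hk : 100 ≤ q ^ 100 := hq.trans (le_self_pow₀ (by linarith) (by norm_num))
  have hm : MeasurableSet {v : ℤ → ℝ | Z0 q v 0 < t} :=
    measurableSet_lt (Continuous.measurable (by unfold Z0; fun_prop)) measurable_const
  change (nu (q ^ 100)).real {v : ℤ → ℝ | Z0 q v 0 < t} ≤ 2 / q
  rw [measureReal_def, nu_apply _ hm]
  refine ENNReal.toReal_le_of_le_ofReal (by positivity) ?_
  have hsub : vs (q ^ 100) ⁻¹' {v : ℤ → ℝ | Z0 q v 0 < t} ∩ Ico (0 : ℝ) 1 ×ˢ Ico (0 : ℝ) 1 ⊆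
      (Metric.ball (ze (q ^ 100) 1) (1 / (5 * q)) ∪ Metric.ball (ze (q ^ 100) 2) (1 / (5 * q))) ×ˢ
        Ico (0 : ℝ) 1 := by
    rintro p ⟨h1, h2, h3⟩
    refine ⟨?_, h3⟩
    simp only [mem_preimage, mem_ofPred_eq, Z0, vs, xo_zero] at h1
    obtain ⟨m, hm⟩ := exists_ze hk p.1
    rw [div_lt_iff₀ (by positivity)] at h1
    have h4 : |p.1 - ze (q ^ 100) m| < 1 / (5 * q) := by
      rw [lt_div_iff₀ (by positivity)]
      have h5 : (0 : ℝ) < q ^ 99 := by positivity
      have h6 : q ^ 100 = q * q ^ 99 := by ring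
      have h7 : q ^ 99 * (2 * (|p.1 - ze (q ^ 100) m| * (5 * q))) < q ^ 99 * 2 := by
        nlinarith [mul_le_mul_of_nonneg_right ht h5.le]
      linarith [lt_of_mul_lt_mul_left h7 h5.le]
    have h5 : 1 / (5 * q) ≤ 1 / 500 := one_div_le_one_div_of_le (by norm_num) (by linarith)
    have h6 := abs_le.1 (ze_near hk m)
    have h7 := abs_lt.1 h4
    have h8 : (0 : ℝ) < m := by linarith [h2.1]
    have h9 : (m : ℝ) < 3 := by linarith [h2.2]
    have h10 : 0 < m := by exact_mod_cast h8
    have h11 : m < 3 := by exact_mod_cast h9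
    rcases (by omega : m = 1 ∨ m = 2) with rfl | rfl
    · exact Or.inl h4
    · exact Or.inr h4
  refine (measure_mono hsub).trans ?_
  rw [Measure.volume_eq_prod, Measure.prod_prod, Real.volume_Ico, sub_zero, ENNReal.ofReal_one, mul_one]
  refine (measure_union_le _ _).trans ?_
  rw [Real.volume_ball, Real.volume_ball, ← ENNReal.ofReal_add (by positivity) (by positivity)]
  refine ENNReal.ofReal_le_ofReal ?_
  rw [le_div_iff₀ hq0]
  field_simp
  norm_num

end Crest.Agent.R128
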