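import Crest.Agent.R128.Dist1
import Crest.Agent.R128.Orb

/-!
# Row 128, DecL: short stable and unstable leaves.  Points are `p = (x 0, x 1)`.
Keep the statements; add auxiliary lemmas freely (prefix `decl_`).
-/

set_option autoImplicit false

noncomputable section

open scoped Classical
open MeasureTheory Set

namespace Crest.Agent.R128

theorem decl_ph (k ξ s : ℝ) (n : ℕ) : ph (vs k (ξ, s)) 0 n = jR k ξ s 0 1 n := by
  have := ph_vs_fwd k (ξ, s) 0 n
  rwa [zero_add, zero_add, xo_zero, xo_one] at this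

theorem decl_xo (k ξ s : ℝ) (n : ℕ) : xo k (ξ, s) n = obR k ξ s n := by
  have := xo_fwd k (ξ, s) 0 n
  rwa [zero_add, zero_add, xo_zero, xo_one] at this

theorem decl_V {q x y : ℝ} {e E : ℤ} (hq : 100 ≤ q) (h : |x - y| ≤ 2 * q ^ e) (hE : 101 + e ≤ E) :
    |VR (q ^ 100) x - VR (q ^ 100) y| ≤ q ^ E := by
  have hq0 : (0 : ℝ) < q := by linarith
  have h1 := VR_lip (k := q ^ 100) (by positivity) x y
  have h2 : (0 : ℝ) < q ^ e := by positivity
  calc _ ≤ 40 * q ^ 100 * (2 * q ^ e) := h1.trans (mul_le_mul_of_nonneg_left h (by positivity))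
    _ = 80 * (q ^ 100 * q ^ e) := by ring
    _ ≤ q * (q ^ 100 * q ^ e) := mul_le_mul_of_nonneg_right (by linarith) (by positivity)
    _ = q ^ (101 + e) := by
        rw [zpow_add₀ hq0.ne', show (101 : ℤ) = ((101 : ℕ) : ℤ) by rfl, zpow_natCast]; ring
    _ ≤ _ := zpow_le_zpow_right₀ (by linarith) hE

theorem decl_dist {q ξ s s' : ℝ} {β : ℕ} (hq : 100 ≤ q) (h : Env q ξ s β)
    (hw : |s' - s| * |jR (q ^ 100) ξ s 0 1 β| ≤ 1) (i : ℕ) (hi : i ≤ β) :
    |obR (q ^ 100) ξ s' i - obR (q ^ 100) ξ s i| ≤ 2 * q ^ (-90 * ((β : ℤ) - i)) := by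
  have hq0 : (0 : ℝ) < q := by linarith
  have h1 := (dist_real hq h (s' := s') (hw.trans (one_le_pow₀ (by linarith))) i hi).1
  refine h1.trans (mul_le_mul_of_nonneg_right (by linarith) (by positivity))

theorem EnvU.env {q ξ s : ℝ} {c : ℕ} (h : EnvU q (vs (q ^ 100) (ξ, s)) 0 c) : Env q ξ s (c + 1) := by
  intro i hi
  have h1 := h i (by omega) (by omega)
  rw [decl_ph, show (c : ℤ) + 1 = ((c + 1 : ℕ) : ℤ) by push_cast; ring, decl_ph] at h1
  exact h1

theorem EnvS.env {q : ℝ} {p : ℝ × ℝ} {c b : ℤ} (hcb : c < b) (h : EnvS q (vs (q ^ 100) p) c b) :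
    Env q (xo (q ^ 100) p b) (xo (q ^ 100) p (b - 1)) (b - c).toNat := by
  intro i hi
  obtain ⟨β, hβ⟩ : ∃ β : ℕ, b - c = β := ⟨(b - c).toNat, by omega⟩
  rw [hβ, Int.toNat_natCast] at hi ⊢
  have h1 := h (b - i) (by omega) (by omega)
  have h2 : c = b - β := by omega
  rw [show b - i - c = β - i by omega] at h1
  rw [h2, ph_vs_bwd, ph_vs_bwd, abs_neg, abs_neg] at h1
  exact h1

/-- Unstable leaf: `dist_real` for `0 ≤ i ≤ c`, `xo_crude` from the bond `0` for `i < 0`, `VR_lip`. -/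
theorem leafU {q ξ s s' : ℝ} {c : ℕ} (hq : 100 ≤ q) (h : EnvU q (vs (q ^ 100) (ξ, s)) 0 c)
    (hs : |s' - s| * |ph (vs (q ^ 100) (ξ, s)) 0 (c + 1)| ≤ 1) :
    CloseL q 0 c (vs (q ^ 100) (ξ, s)) (vs (q ^ 100) (ξ, s')) := by
  have hq0 : (0 : ℝ) < q := by linarith
  rw [show (c : ℤ) + 1 = ((c + 1 : ℕ) : ℤ) by push_cast; ring, decl_ph] at hs
  have H := decl_dist hq h.env hs
  intro i hi
  unfold vs
  rcases le_or_gt 0 i with h0 | h0
  · obtain ⟨n, rfl⟩ := Int.eq_ofNat_of_zero_le h0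
    rw [decl_xo, decl_xo]
    refine decl_V hq (H n (by omega)) ?_
    rw [max_eq_left h0, max_eq_right (by omega)]
    push_cast; omega
  · have h1 := xo_crude hq (ξ, s) (ξ, s') 0 i
    have h2 := H 1 (by omega)
    have h3 : nb (fun n => xo (q ^ 100) (ξ, s') n - xo (q ^ 100) (ξ, s) n) 0 ≤
        2 * q ^ (-90 * (c : ℤ)) := by
      unfold nb
      simp only [xo_zero, zero_add, xo_one, sub_self, _root_.abs_zero]
      refine max_le (by positivity) ?_
      rw [show -90 * (c : ℤ) = -90 * (((c + 1 : ℕ) : ℤ) - (1 : ℕ)) by push_cast; ring]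
      exact h2
    refine decl_V hq (e := 101 * |i - 0| + -90 * (c : ℤ)) ?_ ?_
    · refine (le_max_left _ _).trans (h1.trans ?_)
      rw [zpow_add₀ hq0.ne']
      calc _ ≤ q ^ (101 * |i - 0|) * (2 * q ^ (-90 * (c : ℤ))) :=
            mul_le_mul_of_nonneg_left h3 (by positivity)
        _ = _ := by ring
    · rw [max_eq_right h0.le, max_eq_left (by omega), abs_of_neg (by omega)]
      omega

/-- Stable leaf: `p'` has the same `x b`.  `dist_real` for the backward orbit from `b` (`xo_bwd`), `xo_crude` from the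
bond `b - 1` for `i > b`. -/
theorem leafS {q : ℝ} {p p' : ℝ × ℝ} {c b : ℤ} (hq : 100 ≤ q) (hcb : c < b) (h : EnvS q (vs (q ^ 100) p) c b)
    (hb : xo (q ^ 100) p' b = xo (q ^ 100) p b)
    (hs : |xo (q ^ 100) p' (b - 1) - xo (q ^ 100) p (b - 1)| * |ph (vs (q ^ 100) p) b c| ≤ 1) :
    CloseR q c b (vs (q ^ 100) p) (vs (q ^ 100) p') := by
  have hq0 : (0 : ℝ) < q := by linarith
  have hE := h.env hcb
  obtain ⟨β, hβ⟩ : ∃ β : ℕ, b - c = β := ⟨(b - c).toNat, by omega⟩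
  rw [hβ, Int.toNat_natCast] at hE
  have h2 : c = b - β := by omega
  have hs' : |xo (q ^ 100) p' (b - 1) - xo (q ^ 100) p (b - 1)| *
      |jR (q ^ 100) (xo (q ^ 100) p b) (xo (q ^ 100) p (b - 1)) 0 1 β| ≤ 1 := by
    rwa [h2, ph_vs_bwd, abs_neg] at hs
  have H : ∀ n : ℕ, n ≤ β → |xo (q ^ 100) p' (b - n) - xo (q ^ 100) p (b - n)| ≤
      2 * q ^ (-90 * ((β : ℤ) - n)) := fun n hn => by
    rw [xo_bwd, xo_bwd, hb]
    exact decl_dist hq hE hs' n hn
  intro i hi
  unfold vs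
  rcases le_or_gt i b with h0 | h0
  · obtain ⟨n, hn⟩ : ∃ n : ℕ, i = b - n := ⟨(b - i).toNat, by omega⟩
    have h1 := H n (by omega)
    rw [← hn] at h1
    refine decl_V hq h1 ?_
    rw [min_eq_left h0, max_eq_right (by omega)]
    omega
  · have h1 := xo_crude hq p p' (b - 1) (i - 1)
    have h3 : nb (fun n => xo (q ^ 100) p' n - xo (q ^ 100) p n) (b - 1) ≤
        2 * q ^ (-90 * ((β : ℤ) - (1 : ℕ))) := by
      unfold nb
      simp only [sub_add_cancel, hb, sub_self, _root_.abs_zero]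
      exact max_le (H 1 (by omega)) (by positivity)
    refine decl_V hq (e := 101 * |i - 1 - (b - 1)| + -90 * ((β : ℤ) - (1 : ℕ))) ?_ ?_
    · have h4 : |xo (q ^ 100) p' i - xo (q ^ 100) p i| ≤
          nb (fun n => xo (q ^ 100) p' n - xo (q ^ 100) p n) (i - 1) := by
        unfold nb
        simp only [sub_add_cancel]
        exact le_max_right _ _
      refine h4.trans (h1.trans ?_)
      rw [zpow_add₀ hq0.ne']
      calc _ ≤ q ^ (101 * |i - 1 - (b - 1)|) * (2 * q ^ (-90 * ((β : ℤ) - (1 : ℕ)))) :=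
            mul_le_mul_of_nonneg_left h3 (by positivity)
        _ = _ := by ring
    · rw [min_eq_right h0.le, max_eq_left (by omega), abs_of_pos (by omega)]
      omega

/-- Transversality: `ph v 0 b = wr (ph v 0) (ph v b)` at the bond `c`. -/
theorem transv {q : ℝ} {v : ℤ → ℝ} {c b : ℤ} (hq : 100 ≤ q) (hc : 0 ≤ c) (hcb : c < b) (hU : EnvU q v 0 c)
    (hS : EnvS q v c b) : 99 / 100 * (|ph v 0 (c + 1)| * |ph v b c|) ≤ |ph v 0 b| := by
  have h1 := hU c hc (by omega)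
  have h2 := hS (c + 1) (by omega) (by omega)
  rw [show 90 * (c + 1 - c) = ((90 : ℕ) : ℤ) by push_cast; ring, zpow_natCast] at h1 h2
  have h3 : 100 ≤ q ^ 90 := hq.trans (le_self_pow₀ (by linarith) (by norm_num))
  have h4 := wr_ph v 0 b c
  unfold wr at h4
  have a0 := abs_nonneg (ph v 0 c)
  have a1 := abs_nonneg (ph v 0 (c + 1))
  have c0 := abs_nonneg (ph v b c)
  have c1 := abs_nonneg (ph v b (c + 1))
  have h5 : |ph v 0 (c + 1)| * |ph v b c| ≤ |ph v 0 b| + |ph v 0 c| * |ph v b (c + 1)| := by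
    rw [← h4, ← abs_mul, ← abs_mul, abs_sub_comm]
    have := abs_add_le (ph v 0 (c + 1) * ph v b c - ph v 0 c * ph v b (c + 1))
      (ph v 0 c * ph v b (c + 1))
    rwa [sub_add_cancel] at this
  have h6 : 100 * |ph v 0 c| ≤ |ph v 0 (c + 1)| := by nlinarith
  have h7 : |ph v b (c + 1)| ≤ |ph v b c| := by nlinarith
  have h8 : 100 * |ph v 0 c| * |ph v b (c + 1)| ≤ |ph v 0 (c + 1)| * |ph v b c| :=
    mul_le_mul h6 h7 c1 a1
  linarith

end Crest.Agent.R128
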