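import Mathlib

/-!
# Row 128 (standard map): definitions.  DO NOT CHANGE (owner helper32).

Orbits are sequences `x_{n+1} + x_{n-1} = g (x_n)`, `g x = 2 x + k sin (2 π x)`, `k = q ^ 100`; Jacobi fields
solve `u_{n+1} + u_{n-1} = v_n u_n`, `v_n = V (x_n)`, `V = g'`.  A *bond* `a` is the pair of sites `a, a + 1`.
All exponents of `q` are integers (`zpow`) unless they are numerals.
-/

set_option autoImplicit false

noncomputable section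

open scoped Classical
open MeasureTheory Set

namespace Crest.Agent.R128

/-! ### linear recurrences -/

/-- one-sided solution with initial values `α, β` (the value `W 0` is not used) -/
def lin {𝕜 : Type*} [Ring 𝕜] (W : ℕ → 𝕜) (α β : 𝕜) : ℕ → 𝕜
  | 0 => α
  | 1 => β
  | n + 2 => W (n + 1) * lin W α β (n + 1) - lin W α β n

def IsSol (v u : ℤ → ℝ) : Prop := ∀ i, u (i + 1) + u (i - 1) = v i * u i

/-- the solution with value `0` at `a` and `1` at `a + 1` (so `-1` at `a - 1`) -/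
def ph (v : ℤ → ℝ) (a i : ℤ) : ℝ :=
  if a ≤ i then lin (fun n : ℕ => v (a + n)) 0 1 (i - a).toNat
  else -lin (fun n : ℕ => v (a - n)) 0 1 (a - i).toNat

/-- Wronskian at the bond `i` -/
def wr (u w : ℤ → ℝ) (i : ℤ) : ℝ := u i * w (i + 1) - u (i + 1) * w i

/-- norm at the bond `i` -/
def nb (u : ℤ → ℝ) (i : ℤ) : ℝ := max |u i| |u (i + 1)|

def Bdd (q : ℝ) (v : ℤ → ℝ) : Prop := ∀ i, |v i| ≤ q ^ 101 - 1

/-- shift -/
def sh (s : ℤ) (v : ℤ → ℝ) : ℤ → ℝ := fun i => v (i + s)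

/-- reflection; the bond `a` becomes the bond `-a - 1` -/
def rf (v : ℤ → ℝ) : ℤ → ℝ := fun i => v (-i)

/-- unstable cone at the bond `a` is mapped to the unstable cone at the bond `c`, with growth `q ^ E` and
an exponential envelope -/
def Up (q : ℝ) (v : ℤ → ℝ) (a c E : ℤ) : Prop :=
  ∀ u, IsSol v u → |u a| ≤ |u (a + 1)| →
    |u c| ≤ |u (c + 1)| ∧ q ^ E * |u (a + 1)| ≤ |u (c + 1)| ∧
      ∀ i, a + 1 ≤ i → i ≤ c + 1 → q ^ (90 * (c + 1 - i)) * |u i| ≤ |u (c + 1)|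

/-- the mirror image of `Up` (see `dn_iff`) -/
def Dn (q : ℝ) (v : ℤ → ℝ) (a c E : ℤ) : Prop := Up q (rf v) (-c - 1) (-a - 1) E

def UD (q : ℝ) (v : ℤ → ℝ) (a c E : ℤ) : Prop := Up q v a c E ∧ Dn q v a c E

/-! ### the hierarchy -/

def nn (j : ℕ) : ℤ := (10 ^ 15) ^ j
/-- gaps up to this length are filled -/
def gg (j : ℕ) : ℤ := 10 ^ 10 * nn j
/-- damage radius -/
def dd (j : ℕ) : ℤ := 10 ^ 5 * nn j
/-- distance of the test bonds -/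
def hh (j : ℕ) : ℤ := 5 * 10 ^ 4 * nn j
/-- exponent of the resonance threshold -/
def ta (j : ℕ) : ℤ := 2 * 10 ^ 5 * nn j
/-- length of the averaging ranges used at level `j + 1` -/
def la (j : ℕ) : ℤ := 10 ^ 8 * nn j
/-- mesh for anchors at level `j + 1` (`= nn (j + 1) / 2000`) -/
def de (j : ℕ) : ℤ := 5 * 10 ^ 11 * nn j

/-- number of `i ∈ [x, y)` with `D i` -/
def cnt (D : ℤ → Prop) (x y : ℤ) : ℤ := (((Finset.Ico x y).filter D).card : ℤ)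

/-- no point of `B` in `[x, y)` -/
def Free (B : ℤ → Prop) (x y : ℤ) : Prop := ∀ i, x ≤ i → i < y → ¬ B i

/-- regular bond -/
def Reg (D : ℤ → Prop) (a : ℤ) : Prop := ¬ D a ∧ ¬ D (a + 1)

def LE (B : ℤ → Prop) (y : ℤ) : Prop := B y ∧ ¬ B (y - 1)

def RE (B : ℤ → Prop) (y : ℤ) : Prop := B y ∧ ¬ B (y + 1)

/-- input of the hierarchy: defects, and results of the non-resonance tests (level, left Dirichlet site,
reference bond, right Dirichlet site) -/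
structure Bits where
  df : ℤ → Prop
  ok : ℕ → ℤ → ℤ → ℤ → Prop

/-- bad sites, damaged sites -/
structure St where
  B : ℤ → Prop
  D : ℤ → Prop

/-- absorbed sites -/
def Abs (j : ℕ) (s : St) (y : ℤ) : Prop :=
  ∃ w, w ≤ y ∧ y < w + nn j ∧ Free s.B w (w + nn j) ∧ nn j ≤ 100 * cnt s.D w (w + nn j)

def B1 (j : ℕ) (s : St) (y : ℤ) : Prop := s.B y ∨ Abs j s y

/-- gaps filled -/
def B2 (j : ℕ) (s : St) (y : ℤ) : Prop :=
  ∃ u u', u ≤ y ∧ y ≤ u' ∧ u' - u ≤ gg j + 1 ∧ B1 j s u ∧ B1 j s u'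

/-- a short component of `B2` -/
def Comp (j : ℕ) (s : St) (l r : ℤ) : Prop :=
  l ≤ r ∧ r - l < nn j ∧ (∀ i, l ≤ i → i ≤ r → B2 j s i) ∧ ¬ B2 j s (l - 1) ∧ ¬ B2 j s (r + 1)

def Test (ω : Bits) (j : ℕ) (s : St) (l r : ℤ) : Prop :=
  ∀ a b, l - hh j - 2 * nn j ≤ a → a < l - hh j → r + hh j ≤ b → b < r + hh j + 2 * nn j →
    Reg s.D a → Reg s.D b → ω.ok j a l (b + 1)

def Heal (ω : Bits) (j : ℕ) (s : St) (l r : ℤ) : Prop := Comp j s l r ∧ Test ω j s l r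

/-- sites in healed components -/
def Hl (ω : Bits) (j : ℕ) (s : St) (y : ℤ) : Prop := ∃ l r, l ≤ y ∧ y ≤ r ∧ Heal ω j s l r

def step (ω : Bits) (j : ℕ) (s : St) : St where
  B y := B2 j s y ∧ ¬ Hl ω j s y
  D y := s.D y ∨ ∃ l r, Heal ω j s l r ∧ l - dd j ≤ y ∧ y ≤ r + dd j

def hier (ω : Bits) : ℕ → St
  | 0 => ⟨ω.df, fun _ => False⟩
  | j + 1 => step ω j (hier ω j)

/-- a resonant short component starts at `l` -/
def Res (ω : Bits) (j : ℕ) (l : ℤ) : Prop :=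
  ∃ r, Comp j (hier ω j) l r ∧ ¬ Test ω j (hier ω j) l r

/-- a short gap of the bad set starts after `y` -/
def Gap (j : ℕ) (s : St) (y : ℤ) : Prop :=
  ∃ G, 2 ≤ G ∧ G ≤ gg j + 1 ∧ s.B y ∧ s.B (y + G) ∧ Free s.B (y + 1) (y + G)

def Bits.sh (s : ℤ) (ω : Bits) : Bits where
  df i := ω.df (i + s)
  ok j a m b := ω.ok j (a + s) (m + s) (b + s)

/-- the tests of level `< J` located in `[x, y]` give the same results -/
def Agree (ω ω' : Bits) (J : ℕ) (x y : ℤ) : Prop :=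
  (∀ i, x ≤ i → i ≤ y → (ω.df i ↔ ω'.df i)) ∧
    ∀ j a m b, j < J → x ≤ a → a ≤ m → m < b → b ≤ y → b - a ≤ ta j → (ω.ok j a m b ↔ ω'.ok j a m b)

/-! ### the tests -/

def Z0 (q : ℝ) (v : ℤ → ℝ) (i : ℤ) : ℝ := |v i| / q ^ 99

def Z1 (q : ℝ) (v : ℤ → ℝ) (j : ℕ) (a m b : ℤ) : ℝ :=
  q ^ ta j * |ph v a b| / (nb (ph v a) m * nb (ph v b) m)

def bits (q t : ℝ) (v : ℤ → ℝ) : Bits where
  df i := Z0 q v i < t
  ok j a m b := t ≤ Z1 q v j a m b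

/-- the hierarchy of a potential -/
def hi (q t : ℝ) (v : ℤ → ℝ) (j : ℕ) : St := hier (bits q t v) j

/-- some test of level `≤ j` located in `[x, y]` is almost at its threshold -/
def Amb (q t : ℝ) (j : ℕ) (x y : ℤ) : Set (ℤ → ℝ) :=
  {v | (∃ i, x ≤ i ∧ i ≤ y ∧ |Z0 q v i - t| ≤ q ^ (-gg j)) ∨
    ∃ j' a m b, j' < j + 1 ∧ x ≤ a ∧ a ≤ m ∧ m < b ∧ b ≤ y ∧ b - a ≤ ta j' ∧
      |Z1 q v j' a m b - t| ≤ q ^ (-gg j)}

/-! ### good pairs of scales at a resonance (centre `0`) -/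

/-- `η / φ` at `β` minus `η / φ` at `-α`, where `φ = ph v 0`, `η = -ph v 1` -/
def Th (v : ℤ → ℝ) (α β : ℕ) : ℝ := -ph v 1 β / ph v 0 β - -ph v 1 (-α) / ph v 0 (-α)

def Pair (q : ℝ) (v : ℤ → ℝ) (α β : ℕ) : Prop :=
  1 ≤ α ∧ 1 ≤ β ∧
    (∀ i : ℕ, i ≤ β → q ^ (90 * ((β : ℤ) - i)) * |ph v 0 i| ≤ |ph v 0 β|) ∧
    (∀ i : ℕ, i ≤ α → q ^ (90 * ((α : ℤ) - i)) * |ph v 0 (-i)| ≤ |ph v 0 (-α)|) ∧
    |ph v 0 (-α)| ≤ q ^ 55 * |ph v 0 β| ∧ |ph v 0 β| ≤ q ^ 55 * |ph v 0 (-α)| ∧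
    |Th v α β * ph v 0 β ^ 2 * ph v 0 (-α) ^ 2 * v β * v (-α) - ph v 0 (-α) ^ 2 * v (-α) -
        ph v 0 β ^ 2 * v β| ≤ q ^ (-85 : ℤ) * max (ph v 0 (-α) ^ 2) (ph v 0 β ^ 2) ∧
    |Th v α β| * min (ph v 0 (-α) ^ 2) (ph v 0 β ^ 2) ≤ q ^ (-98 : ℤ)

/-- the scale of a pair -/
def Phi (v : ℤ → ℝ) (α β : ℕ) : ℝ := max |ph v 0 β| |ph v 0 (-α)|

/-- `N + 1` good pairs below `M` -/
def Pairs (q : ℝ) (N M : ℕ) : Set (ℤ → ℝ) :=
  {v | ∃ α β : Fin (N + 1) → ℕ, StrictMono α ∧ StrictMono β ∧ (∀ s, α s < M ∧ β s < M) ∧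
    ∀ s, Pair q v (α s) (β s)}

/-! ### decoupling -/

def EnvU (q : ℝ) (v : ℤ → ℝ) (a c : ℤ) : Prop :=
  ∀ i, a ≤ i → i ≤ c + 1 → q ^ (90 * (c + 1 - i)) * |ph v a i| ≤ |ph v a (c + 1)|

def EnvS (q : ℝ) (v : ℤ → ℝ) (c b : ℤ) : Prop :=
  ∀ i, c ≤ i → i ≤ b → q ^ (90 * (i - c)) * |ph v b i| ≤ |ph v b c|

def CloseL (q : ℝ) (a c : ℤ) (v v' : ℤ → ℝ) : Prop :=
  ∀ i, i ≤ c → |v' i - v i| ≤ q ^ (101 - 90 * (c - max i a) + 101 * max (a - i) 0)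

def CloseR (q : ℝ) (c b : ℤ) (v v' : ℤ → ℝ) : Prop :=
  ∀ i, c + 1 ≤ i → |v' i - v i| ≤ q ^ (101 - 90 * (min i b - (c + 1)) + 101 * max (i - b) 0)

/-! ### orbits -/

def gR (k x : ℝ) : ℝ := 2 * x + k * Real.sin (2 * Real.pi * x)
def VR (k x : ℝ) : ℝ := 2 + 2 * Real.pi * k * Real.cos (2 * Real.pi * x)
def gC (k : ℝ) (z : ℂ) : ℂ := 2 * z + k * Complex.sin (2 * Real.pi * z)
def VC (k : ℝ) (z : ℂ) : ℂ := 2 + 2 * Real.pi * k * Complex.cos (2 * Real.pi * z)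

def obR (k ξ s : ℝ) : ℕ → ℝ
  | 0 => ξ
  | 1 => s
  | n + 2 => gR k (obR k ξ s (n + 1)) - obR k ξ s n

def obC (k : ℝ) (ξ s : ℂ) : ℕ → ℂ
  | 0 => ξ
  | 1 => s
  | n + 2 => gC k (obC k ξ s (n + 1)) - obC k ξ s n

/-- Jacobi fields along one-sided orbits -/
def jR (k ξ s α β : ℝ) : ℕ → ℝ := lin (fun n => VR k (obR k ξ s n)) α β

def jC (k : ℝ) (ξ s α β : ℂ) : ℕ → ℂ := lin (fun n => VC k (obC k ξ s n)) α β

/-- hybrid potential: perturbed orbit up to `β - u`, unperturbed orbit afterwards -/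
def hy (k ξ s : ℝ) (β u : ℕ) (w : ℂ) (n : ℕ) : ℂ :=
  if n + u ≤ β then VC k (obC k ξ (s + w) n) else (VR k (obR k ξ s n) : ℝ)

/-- `η / φ` at `β` on the complexified line `x 0 = ξ` -/
def sg (k ξ s : ℝ) (β : ℕ) (w : ℂ) : ℂ := jC k ξ (s + w) 1 0 β / jC k ξ (s + w) 0 1 β

/-- the two-sided orbit with `x 0 = p.1`, `x 1 = p.2` -/
def xo (k : ℝ) (p : ℝ × ℝ) (i : ℤ) : ℝ :=
  if 0 ≤ i then obR k p.1 p.2 i.toNat else obR k p.2 p.1 (1 - i).toNat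

/-- the potential along the orbit -/
def vs (k : ℝ) (p : ℝ × ℝ) : ℤ → ℝ := fun i => VR k (xo k p i)

/-- the `s`-th iterate of the map -/
def Tm (k : ℝ) (s : ℤ) (p : ℝ × ℝ) : ℝ × ℝ := (xo k p s, xo k p (s + 1))

/-- the law of the potential -/
def nu (k : ℝ) : Measure (ℤ → ℝ) :=
  (volume.restrict (Ico (0 : ℝ) 1 ×ˢ Ico (0 : ℝ) 1)).map (vs k)

/-- the zeros of `VR k` are `ze k m` -/
def dl (k : ℝ) : ℝ := Real.arcsin (1 / (Real.pi * k)) / (2 * Real.pi)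

def ze (k : ℝ) (m : ℤ) : ℝ := m / 2 - 1 / 4 - (-1) ^ m * dl k

/-- Lagrange interpolation -/
def lag {r : ℕ} (t : Fin r → ℂ) (f : ℂ → ℂ) (z : ℂ) : ℂ :=
  ∑ i, f (t i) * ∏ j ∈ Finset.univ.erase i, (z - t j) / (t i - t j)

/-! ### stationary predicates -/

/-- shift invariant measure -/
def Inv (ν : Measure (ℤ → ℝ)) : Prop :=
  ∀ (s : ℤ) (A : Set (ℤ → ℝ)), MeasurableSet A → ν (sh s ⁻¹' A) = ν A

/-- measurable and covariant -/
def Cov (p : (ℤ → ℝ) → ℤ → Prop) : Prop :=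
  (∀ y, MeasurableSet {v | p v y}) ∧ ∀ v s y, p (sh s v) y ↔ p v (y + s)

def Cov2 (p : (ℤ → ℝ) → ℤ → ℤ → Prop) : Prop :=
  (∀ y y', MeasurableSet {v | p v y y'}) ∧ ∀ v s y y', p (sh s v) y y' ↔ p v (y + s) (y' + s)

/-- density -/
def pr (ν : Measure (ℤ → ℝ)) (p : (ℤ → ℝ) → ℤ → Prop) : ℝ := ν.real {v | p v 0}

/-! ### the densities of the recursion -/

section dens
variable (ν : Measure (ℤ → ℝ)) (q t : ℝ) (j : ℕ)

def dB : ℝ := pr ν fun v => (hi q t v j).B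
def dD : ℝ := pr ν fun v => (hi q t v j).D
def dA : ℝ := pr ν fun v => Abs j (hi q t v j)
def dH : ℝ := pr ν fun v => Hl (bits q t v) j (hi q t v j)
def dF : ℝ := pr ν fun v y => B2 j (hi q t v j) y ∧ ¬ (hi q t v j).B y
def dG : ℝ := pr ν fun v => Gap j (hi q t v j)
def dR : ℝ := pr ν fun v => Res (bits q t v) j
def eB : ℝ := pr ν fun v => RE (hi q t v j).B
def e1 : ℝ := pr ν fun v => RE (B1 j (hi q t v j))
def eA : ℝ := pr ν fun v => RE (Abs j (hi q t v j))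
def eH : ℝ := pr ν fun v => RE (Hl (bits q t v) j (hi q t v j))
def am : ℝ := ν.real (Amb q t j 0 (3 * gg (j + 1)))

end dens

end Crest.Agent.R128
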