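import Crest.Agent.R128.Trig

/-!
# Row 128, Dist1: crude distortion.  `k = q ^ 100`, `x n = obR k ξ s n`, `φ n = jR k ξ s 0 1 n`, `Φ = |φ β|`.
Keep the statements; add auxiliary lemmas freely (prefix `dist1_`).
-/

set_option autoImplicit false

noncomputable section

open scoped Classical
open MeasureTheory Set

namespace Crest.Agent.R128

/-- the envelope condition at `β` -/
def Env (q ξ s : ℝ) (β : ℕ) : Prop :=
  ∀ i : ℕ, i ≤ β → q ^ (90 * ((β : ℤ) - i)) * |jR (q ^ 100) ξ s 0 1 i| ≤ |jR (q ^ 100) ξ s 0 1 β|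

theorem Env.one_le {q ξ s : ℝ} {β : ℕ} (hq : 100 ≤ q) (hβ : 1 ≤ β) (h : Env q ξ s β) :
    1 ≤ |jR (q ^ 100) ξ s 0 1 β| := by

  have h1 := h 1 hβ
  have h2 : (1 : ℝ) ≤ q ^ (90 * ((β : ℤ) - (1 : ℕ))) := one_le_zpow₀ (by linarith) (by omega)
  have h3 : jR (q ^ 100) ξ s 0 1 1 = 1 := rfl
  rw [h3, abs_one, mul_one] at h1
  linarith

theorem dist1_env {q ξ s : ℝ} {β : ℕ} (hq : 100 ≤ q) (h : Env q ξ s β) (i : ℕ) (hi : i ≤ β) :
    |jR (q ^ 100) ξ s 0 1 i| ≤ |jR (q ^ 100) ξ s 0 1 β| * q ^ (-90 * ((β : ℤ) - i)) := by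
  have h0 : 0 < q := by linarith
  rw [neg_mul, zpow_neg, ← div_eq_mul_inv, le_div_iff₀ (zpow_pos h0 _), mul_comm]
  exact h i hi

theorem dist1_geom {q : ℝ} (hq : 100 ≤ q) (i : ℕ) : ∑ n ∈ Finset.Ico 1 i, q ^ ((n : ℤ) - i) ≤ 1 := by
  have h0 : 0 < q := by linarith
  induction i with
  | zero => simp
  | succ i ih =>
    rcases Nat.eq_zero_or_pos i with rfl | hi
    · simp
    have h1 : ∀ n : ℕ, q ^ ((n : ℤ) - (i + 1 : ℕ)) = q ^ ((n : ℤ) - i) * q⁻¹ := fun n => by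
      rw [← zpow_sub_one₀ h0.ne']
      congr 1
      push_cast
      ring
    simp only [h1]
    rw [← Finset.sum_mul, Finset.sum_Ico_succ_top hi, sub_self, zpow_zero, ← div_eq_mul_inv, div_le_one h0]
    linarith

theorem dist1_duh {q B : ℝ} (hq : 100 ≤ q) (hB : 0 ≤ B) {β i : ℕ} (hi : i ≤ β) (W d f : ℕ → ℂ)
    (hW : ∀ n, ‖W n‖ ≤ q ^ 101 - 1) (h0 : d 0 = 0) (h1 : d 1 = 0)
    (hd : ∀ n, d (n + 2) = W (n + 1) * d (n + 1) - d n + f (n + 1))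
    (hf : ∀ n, n < i → ‖f n‖ ≤ 200 * B * q ^ (100 - 110 * ((β : ℤ) - n))) :
    ‖d i‖ ≤ B * q ^ (-90 * ((β : ℤ) - i)) / 100 := by
  have q0 : 0 < q := by linarith
  have q1 : 1 ≤ q := by linarith
  rcases i with _ | j
  · rw [h0, norm_zero]
    positivity
  have h2 := duhamel (q ^ 101) (one_le_pow₀ q1) W d f (j + 1) (fun n _ _ => hW n) (fun n _ => hd n) j le_rfl
  rw [h0, h1, norm_zero, max_self, mul_zero, zero_add] at h2
  refine ((le_max_right _ _).trans h2).trans ?_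
  have h3 : ∀ n ∈ Finset.Ico 1 (j + 1), (q ^ 101) ^ (j - n) * ‖f n‖ ≤
      200 * B * q ^ (-90 * ((β : ℤ) - (j + 1 : ℕ))) * q ^ (-3 : ℤ) * q ^ ((n : ℤ) - (j + 1 : ℕ)) := by
    intro n hn
    rw [Finset.mem_Ico] at hn
    refine (mul_le_mul_of_nonneg_left (hf n hn.2) (by positivity)).trans ?_
    rw [mul_left_comm, mul_assoc (200 * B), mul_assoc (200 * B), ← pow_mul, ← zpow_natCast, ← zpow_add₀ q0.ne',
      ← zpow_add₀ q0.ne', ← zpow_add₀ q0.ne']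
    refine mul_le_mul_of_nonneg_left (zpow_le_zpow_right₀ q1 ?_) (by positivity)
    omega
  refine (Finset.sum_le_sum h3).trans ?_
  rw [← Finset.mul_sum]
  refine (mul_le_of_le_one_right (by positivity) (dist1_geom hq _)).trans ?_
  have h4 : q ^ (-3 : ℤ) ≤ 1 / 20000 := by
    rw [zpow_neg, ← one_div]
    refine one_div_le_one_div_of_le (by norm_num) ?_
    calc (20000 : ℝ) ≤ 100 ^ (3 : ℤ) := by norm_num
      _ ≤ _ := zpow_le_zpow_left₀ (by norm_num) (by norm_num) hq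
  have h5 : 0 ≤ B * q ^ (-90 * ((β : ℤ) - (j + 1 : ℕ))) := by positivity
  nlinarith

theorem dist1_small {q A : ℝ} {β u n : ℕ} (hq : 100 ≤ q) (hu : 1 ≤ u) (hA : A ≤ q ^ (70 * u)) (hn : n + u ≤ β) :
    2 * A * q ^ (-90 * ((β : ℤ) - n)) ≤ 1 / 100 := by
  have q0 : 0 < q := by linarith
  have q1 : 1 ≤ q := by linarith
  have h1 : q ^ (70 * u) * q ^ (-90 * ((β : ℤ) - n)) ≤ q ^ (-2 : ℤ) := by
    rw [← zpow_natCast, ← zpow_add₀ q0.ne']
    exact zpow_le_zpow_right₀ q1 (by omega)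
  have h4 : q ^ (-2 : ℤ) ≤ 1 / 200 := by
    rw [zpow_neg, ← one_div]
    refine one_div_le_one_div_of_le (by norm_num) ?_
    calc (200 : ℝ) ≤ 100 ^ (2 : ℤ) := by norm_num
      _ ≤ _ := zpow_le_zpow_left₀ (by norm_num) (by norm_num) hq
  have h5 := mul_le_mul_of_nonneg_right hA (zpow_pos q0 (-90 * ((β : ℤ) - n))).le
  linarith

theorem dist1_V {q : ℝ} (hq : 100 ≤ q) (x : ℝ) : ‖((VR (q ^ 100) x : ℝ) : ℂ)‖ ≤ q ^ 101 - 1 := by
  rw [Complex.norm_real]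
  exact abs_VR_le hq x

/-- Strong induction on `i`.  `δ n = obC k ξ (s + w) n - x n`, `d = δ - w φ` satisfies `d 0 = d 1 = 0`,
`d (n+2) = V (x (n+1)) d (n+1) - d n + R (n+1)`, `‖R n‖ ≤ 50 k ‖δ n‖ ^ 2` (`gC_taylor`; for `n < i`, `n + u ≤ β`, so
`‖δ n‖ ≤ 2 q ^ (-20 u) ≤ 1 / 100`).  `duhamel` with `Λ = q ^ 101`, `N = i`: relative to `‖w‖ Φ q ^ (-90 (β - i))` the
`n`-th term is `≤ 200 q ^ (101 (i - 1 - n) + 100 + 70 u - 180 m + 90 (β - i)) ≤ 200 q ^ (-9 m - 1)`, `m = β - n ≥ u ≥ 1`;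
the sum is `≤ 1`. -/
theorem dist_orbit {q ξ s : ℝ} {β u : ℕ} (hq : 100 ≤ q) (hu : 1 ≤ u) (h : Env q ξ s β) {w : ℂ}
    (hw : ‖w‖ * |jR (q ^ 100) ξ s 0 1 β| ≤ q ^ (70 * u)) (i : ℕ) (hi : i + u ≤ β + 1) :
    ‖obC (q ^ 100) ξ (s + w) i - (obR (q ^ 100) ξ s i : ℝ)‖ ≤
      2 * (‖w‖ * |jR (q ^ 100) ξ s 0 1 β|) * q ^ (-90 * ((β : ℤ) - i)) := by

  have q0 : 0 < q := by linarith
  have q1 : 1 ≤ q := by linarith
  induction i using Nat.strong_induction_on with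
  | _ i ih =>
  set A := ‖w‖ * |jR (q ^ 100) ξ s 0 1 β| with hA
  have A0 : 0 ≤ A := by positivity
  have h1 := dist1_duh hq A0 (β := β) (i := i) (by omega) (fun n => (VR (q ^ 100) (obR (q ^ 100) ξ s n) : ℝ))
    (fun n => obC (q ^ 100) ξ (s + w) n - (obR (q ^ 100) ξ s n : ℝ) - w * (jR (q ^ 100) ξ s 0 1 n : ℝ))
    (fun n => gC (q ^ 100) ((obR (q ^ 100) ξ s n : ℝ) + (obC (q ^ 100) ξ (s + w) n - (obR (q ^ 100) ξ s n : ℝ))) -
      gC (q ^ 100) (obR (q ^ 100) ξ s n : ℝ) - VC (q ^ 100) (obR (q ^ 100) ξ s n : ℝ) *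
        (obC (q ^ 100) ξ (s + w) n - (obR (q ^ 100) ξ s n : ℝ)))
    (fun n => dist1_V hq _) (by simp [obC, obR, jR, lin]) (by simp [obC, obR, jR, lin])
    (fun n => by
      simp only [jR, lin_succ, obC, obR, add_sub_cancel, gC_ofReal, VC_ofReal]
      push_cast
      ring)
    (fun n hn => by
      have h2 := ih n hn (by omega)
      refine (gC_taylor (by positivity) _ (h2.trans (dist1_small hq hu hw (by omega)))).trans ?_
      have h3 : q ^ 100 * q ^ (70 * u) * (q ^ (-90 * ((β : ℤ) - n))) ^ 2 ≤ q ^ (100 - 110 * ((β : ℤ) - n)) := by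
        rw [← pow_add, ← zpow_natCast, ← zpow_natCast, ← zpow_mul, ← zpow_add₀ q0.ne']
        exact zpow_le_zpow_right₀ q1 (by push_cast; omega)
      calc _ ≤ 50 * q ^ 100 * (2 * A * q ^ (-90 * ((β : ℤ) - n))) ^ 2 := by gcongr
        _ = 200 * A * (q ^ 100 * A * (q ^ (-90 * ((β : ℤ) - n))) ^ 2) := by ring
        _ ≤ 200 * A * (q ^ 100 * q ^ (70 * u) * (q ^ (-90 * ((β : ℤ) - n))) ^ 2) := by gcongr
        _ ≤ _ := by gcongr)
  have h2 : ‖w * (jR (q ^ 100) ξ s 0 1 i : ℝ)‖ ≤ A * q ^ (-90 * ((β : ℤ) - i)) := by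
    rw [norm_mul, Complex.norm_real, hA, mul_assoc]
    exact mul_le_mul_of_nonneg_left (dist1_env hq h i (by omega)) (norm_nonneg _)
  have h3 := norm_sub_norm_le (obC (q ^ 100) ξ (s + w) i - (obR (q ^ 100) ξ s i : ℝ))
    (w * (jR (q ^ 100) ξ s 0 1 i : ℝ))
  have h4 : 0 ≤ A * q ^ (-90 * ((β : ℤ) - i)) := by positivity
  linarith

/-- the hybrid potential is close to the real one (`dist_orbit`, `VC_lip`) -/
theorem dist_hy {q ξ s : ℝ} {β u : ℕ} (hq : 100 ≤ q) (hu : 1 ≤ u) (h : Env q ξ s β) {w : ℂ}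
    (hw : ‖w‖ * |jR (q ^ 100) ξ s 0 1 β| ≤ q ^ (70 * u)) (n : ℕ) (hn : n + u ≤ β) :
    ‖hy (q ^ 100) ξ s β u w n - (VR (q ^ 100) (obR (q ^ 100) ξ s n) : ℝ)‖ ≤
      100 * q ^ (100 + 70 * (u : ℤ) - 90 * ((β : ℤ) - n)) := by

  have q0 : 0 < q := by linarith
  have h2 := dist_orbit hq hu h hw n (by omega)
  have h3 := VC_lip (k := q ^ 100) (by positivity) (obR (q ^ 100) ξ s n) (h2.trans (dist1_small hq hu hw hn))
  rw [add_sub_cancel, VC_ofReal] at h3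
  rw [hy, if_pos hn]
  refine h3.trans ?_
  calc _ ≤ 50 * q ^ 100 * (2 * q ^ (70 * u) * q ^ (-90 * ((β : ℤ) - n))) := by
        gcongr
        exact h2.trans (by gcongr)
    _ = 100 * (q ^ 100 * q ^ (70 * u) * q ^ (-90 * ((β : ℤ) - n))) := by ring
    _ = _ := by
        rw [← pow_add, ← zpow_natCast, ← zpow_add₀ q0.ne']
        congr 2
        push_cast
        ring

/-- Strong induction on `i`, `duhamel` for `d = φ' - φ` with the real potential as kernel and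
`f n = (hy n - V (x n)) φ' n` (zero unless `n + u ≤ β`), `‖φ' n‖ ≤ 2 Φ q ^ (-90 (β - n))`; same exponent count. -/
theorem dist_jac {q ξ s : ℝ} {β u : ℕ} (hq : 100 ≤ q) (hu : 1 ≤ u) (h : Env q ξ s β) {w : ℂ}
    (hw : ‖w‖ * |jR (q ^ 100) ξ s 0 1 β| ≤ q ^ (70 * u)) (i : ℕ) (hi : i ≤ β) :
    ‖lin (hy (q ^ 100) ξ s β u w) 0 1 i - (jR (q ^ 100) ξ s 0 1 i : ℝ)‖ ≤
      |jR (q ^ 100) ξ s 0 1 β| * q ^ (-90 * ((β : ℤ) - i)) / 100 := by

  have q0 : 0 < q := by linarith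
  have q1 : 1 ≤ q := by linarith
  induction i using Nat.strong_induction_on with
  | _ i ih =>
  refine dist1_duh hq (abs_nonneg _) hi (fun n => (VR (q ^ 100) (obR (q ^ 100) ξ s n) : ℝ))
    (fun n => lin (hy (q ^ 100) ξ s β u w) 0 1 n - (jR (q ^ 100) ξ s 0 1 n : ℝ))
    (fun n => (hy (q ^ 100) ξ s β u w n - (VR (q ^ 100) (obR (q ^ 100) ξ s n) : ℝ)) *
      lin (hy (q ^ 100) ξ s β u w) 0 1 n)
    (fun n => dist1_V hq _) (by simp [jR, lin]) (by simp [jR, lin]) (fun n => ?_) fun n hn => ?_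
  · simp only [jR, lin_succ]
    push_cast
    ring
  by_cases h1 : n + u ≤ β
  swap
  · rw [hy, if_neg h1, sub_self, zero_mul, norm_zero]
    positivity
  have h2 := ih n hn (by omega)
  have h3 := dist1_env hq h n (by omega)
  have h4 := norm_sub_norm_le (lin (hy (q ^ 100) ξ s β u w) 0 1 n) (jR (q ^ 100) ξ s 0 1 n : ℝ)
  rw [Complex.norm_real, Real.norm_eq_abs] at h4
  have h5 : 0 ≤ |jR (q ^ 100) ξ s 0 1 β| * q ^ (-90 * ((β : ℤ) - n)) := by positivity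
  have h6 : ‖lin (hy (q ^ 100) ξ s β u w) 0 1 n‖ ≤ 2 * (|jR (q ^ 100) ξ s 0 1 β| * q ^ (-90 * ((β : ℤ) - n))) := by
    linarith
  have h7 : q ^ (100 + 70 * (u : ℤ) - 90 * ((β : ℤ) - n)) * q ^ (-90 * ((β : ℤ) - n)) ≤
      q ^ (100 - 110 * ((β : ℤ) - n)) := by
    rw [← zpow_add₀ q0.ne']
    exact zpow_le_zpow_right₀ q1 (by omega)
  rw [norm_mul]
  refine (mul_le_mul (dist_hy hq hu h hw n h1) h6 (norm_nonneg _) (by positivity)).trans ?_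
  calc _ = 200 * |jR (q ^ 100) ξ s 0 1 β| *
        (q ^ (100 + 70 * (u : ℤ) - 90 * ((β : ℤ) - n)) * q ^ (-90 * ((β : ℤ) - n))) := by ring
    _ ≤ _ := by gcongr

/-- `u = 1` (`lin_congr`) -/
theorem dist_jC {q ξ s : ℝ} {β : ℕ} (hq : 100 ≤ q) (h : Env q ξ s β) {w : ℂ}
    (hw : ‖w‖ * |jR (q ^ 100) ξ s 0 1 β| ≤ q ^ 70) (i : ℕ) (hi : i ≤ β) :
    ‖jC (q ^ 100) ξ (s + w) 0 1 i - (jR (q ^ 100) ξ s 0 1 i : ℝ)‖ ≤
      |jR (q ^ 100) ξ s 0 1 β| * q ^ (-90 * ((β : ℤ) - i)) / 100 := by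

  have h1 := dist_jac (u := 1) hq le_rfl h (by simpa using hw) i hi
  rwa [lin_congr (W' := fun n => VC (q ^ 100) (obC (q ^ 100) ξ (s + w) n)) 0 1 i
    (fun n _ hn => by rw [hy, if_pos (by omega)])] at h1

/-- real version -/
theorem dist_real {q ξ s : ℝ} {β : ℕ} (hq : 100 ≤ q) (h : Env q ξ s β) {s' : ℝ}
    (hw : |s' - s| * |jR (q ^ 100) ξ s 0 1 β| ≤ q ^ 70) (i : ℕ) (hi : i ≤ β) :
    |obR (q ^ 100) ξ s' i - obR (q ^ 100) ξ s i| ≤
        2 * (|s' - s| * |jR (q ^ 100) ξ s 0 1 β|) * q ^ (-90 * ((β : ℤ) - i)) ∧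
      |jR (q ^ 100) ξ s' 0 1 i - jR (q ^ 100) ξ s 0 1 i| ≤
        |jR (q ^ 100) ξ s 0 1 β| * q ^ (-90 * ((β : ℤ) - i)) / 100 := by

  have h0 : ‖((s' - s : ℝ) : ℂ)‖ = |s' - s| := Complex.norm_real _
  have h1 : (s : ℂ) + (s' - s : ℝ) = s' := by
    push_cast
    ring
  have h2 := dist_orbit (u := 1) hq le_rfl h (w := (s' - s : ℝ)) (by rw [h0]; simpa using hw) i (by omega)
  have h3 := dist_jC hq h (w := (s' - s : ℝ)) (by rwa [h0]) i hi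
  have h4 := jC_ofReal (q ^ 100) ξ s' 0 1 i
  rw [Complex.ofReal_zero, Complex.ofReal_one] at h4
  rw [h1, obC_ofReal, ← Complex.ofReal_sub, Complex.norm_real, h0] at h2
  rw [h1, h4, ← Complex.ofReal_sub, Complex.norm_real] at h3
  exact ⟨h2, h3⟩

theorem dist1_mvt {f f' : ℝ → ℝ} (hf : ∀ x, HasDerivAt f (f' x) x) (a b : ℝ) :
    ∃ c ∈ uIcc a b, |f a - f b| = |a - b| * |f' c| := by
  have h : ∀ a b, a < b → ∃ c ∈ uIcc a b, f b - f a = (b - a) * f' c := fun a b hab => by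
    obtain ⟨c, hc, h⟩ := exists_hasDerivAt_eq_slope f f' hab
      (fun x _ => (hf x).continuousAt.continuousWithinAt) fun x _ => hf x
    refine ⟨c, Icc_subset_uIcc (Ioo_subset_Icc_self hc), ?_⟩
    rw [h, mul_div_cancel₀ _ (sub_pos.2 hab).ne']
  rcases lt_trichotomy a b with hab | rfl | hab
  · obtain ⟨c, hc, h⟩ := h a b hab
    exact ⟨c, hc, by rw [abs_sub_comm, h, abs_mul, abs_sub_comm]⟩
  · exact ⟨a, left_mem_uIcc, by simp⟩
  · obtain ⟨c, hc, h⟩ := h b a hab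
    exact ⟨c, uIcc_comm a b ▸ hc, by rw [h, abs_mul]⟩

/-- Two points in the distortion range (mean value theorem with `hasDerivAt_obR` and `dist_real`): the top
coordinate moves at speed `≥ 0.99 Φ`, the `i`-th at speed `≤ 1.01 Φ q ^ (-90 (β - i))`. -/
theorem dist_two {q ξ s : ℝ} {β : ℕ} (hq : 100 ≤ q) (h : Env q ξ s β) {s₁ s₂ : ℝ}
    (h₁ : |s₁ - s| * |jR (q ^ 100) ξ s 0 1 β| ≤ q ^ 70) (h₂ : |s₂ - s| * |jR (q ^ 100) ξ s 0 1 β| ≤ q ^ 70) :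
    99 / 100 * (|s₁ - s₂| * |jR (q ^ 100) ξ s 0 1 β|) ≤ |obR (q ^ 100) ξ s₁ β - obR (q ^ 100) ξ s₂ β| ∧
      ∀ i, i ≤ β → |obR (q ^ 100) ξ s₁ i - obR (q ^ 100) ξ s₂ i| ≤
        101 / 100 * (|s₁ - s₂| * |jR (q ^ 100) ξ s 0 1 β|) * q ^ (-90 * ((β : ℤ) - i)) := by

  have h0 : ∀ c ∈ uIcc s₁ s₂, |c - s| * |jR (q ^ 100) ξ s 0 1 β| ≤ q ^ 70 := fun c hc => by
    have h3 : |c - s| ≤ |s₁ - s| ∨ |c - s| ≤ |s₂ - s| := by
      rw [← le_max_iff, abs_le]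
      have := le_max_left |s₁ - s| |s₂ - s|
      have := le_max_right |s₁ - s| |s₂ - s|
      have := le_abs_self (s₁ - s)
      have := le_abs_self (s₂ - s)
      have := neg_abs_le (s₁ - s)
      have := neg_abs_le (s₂ - s)
      rcases mem_uIcc.1 hc with h3 | h3 <;> constructor <;> linarith [h3.1, h3.2]
    rcases h3 with h3 | h3
    · exact (mul_le_mul_of_nonneg_right h3 (abs_nonneg _)).trans h₁
    · exact (mul_le_mul_of_nonneg_right h3 (abs_nonneg _)).trans h₂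
  refine ⟨?_, fun i hi => ?_⟩
  · obtain ⟨c, hc, h3⟩ := dist1_mvt (fun x => hasDerivAt_obR (q ^ 100) ξ x β) s₁ s₂
    have h4 := (dist_real hq h (h0 c hc) β le_rfl).2
    rw [sub_self, mul_zero, zpow_zero, mul_one, abs_sub_comm] at h4
    have h5 := abs_sub_abs_le_abs_sub (jR (q ^ 100) ξ s 0 1 β) (jR (q ^ 100) ξ c 0 1 β)
    rw [h3, mul_left_comm]
    exact mul_le_mul_of_nonneg_left (by linarith) (abs_nonneg _)
  · obtain ⟨c, hc, h3⟩ := dist1_mvt (fun x => hasDerivAt_obR (q ^ 100) ξ x i) s₁ s₂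
    have h4 := (dist_real hq h (h0 c hc) i hi).2
    have h5 := abs_sub_abs_le_abs_sub (jR (q ^ 100) ξ c 0 1 i) (jR (q ^ 100) ξ s 0 1 i)
    have h6 := dist1_env hq h i hi
    rw [h3, mul_left_comm, mul_assoc]
    exact mul_le_mul_of_nonneg_left (by linarith) (abs_nonneg _)

end Crest.Agent.R128
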