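import Crest.Agent.R128.Defs

/-!
# Row 128, Rem: Lagrange interpolation in the complex domain.
Keep the statements; add auxiliary lemmas freely (prefix `rem_`).
-/

set_option autoImplicit false

noncomputable section

open scoped Classical
open MeasureTheory Set

namespace Crest.Agent.R128

theorem lag_add {r : ℕ} (t : Fin r → ℂ) (f g : ℂ → ℂ) (z : ℂ) :
    lag t (fun w => f w + g w) z = lag t f z + lag t g z := by

  simp only [lag, add_mul, Finset.sum_add_distrib]

theorem lag_sub {r : ℕ} (t : Fin r → ℂ) (f g : ℂ → ℂ) (z : ℂ) :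
    lag t (fun w => f w - g w) z = lag t f z - lag t g z := by

  simp only [lag, sub_mul, Finset.sum_sub_distrib]

theorem lag_sum {r : ℕ} {ι : Type*} (S : Finset ι) (t : Fin r → ℂ) (f : ι → ℂ → ℂ) (z : ℂ) :
    lag t (fun w => ∑ u ∈ S, f u w) z = ∑ u ∈ S, lag t (f u) z := by

  simp only [lag, Finset.sum_mul]
  exact Finset.sum_comm

theorem lag_mul {r : ℕ} (t : Fin r → ℂ) (c : ℂ) (f : ℂ → ℂ) (z : ℂ) :
    lag t (fun w => c * f w) z = c * lag t f z := by

  simp only [lag, Finset.mul_sum, mul_assoc]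

theorem lag_congr {r : ℕ} (t : Fin r → ℂ) {f g : ℂ → ℂ} (h : ∀ i, f (t i) = g (t i)) (z : ℂ) :
    lag t f z = lag t g z := by

  simp only [lag, h]

/-- `Lagrange.sum_basis`, `Lagrange.eval_basis…`, or induction -/
theorem lag_const {r : ℕ} {t : Fin (r + 1) → ℂ} (ht : Function.Injective t) (c z : ℂ) :
    lag t (fun _ => c) z = c := by

  have h := congrArg (Polynomial.eval z) (Lagrange.sum_basis (s := Finset.univ) ht.injOn Finset.univ_nonempty)
  simp only [Polynomial.eval_finsetSum, Lagrange.basis, Polynomial.eval_prod, Lagrange.basisDivisor,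
    Polynomial.eval_mul, Polynomial.eval_C, Polynomial.eval_sub, Polynomial.eval_X, Polynomial.eval_one] at h
  simp only [lag, ← Finset.mul_sum, div_eq_inv_mul]
  convert mul_one c

theorem lag_comp_mul {r : ℕ} (t : Fin r → ℂ) (f : ℂ → ℂ) {c : ℂ} (hc : c ≠ 0) (z : ℂ) :
    lag t (fun w => f (c * w)) z = lag (fun i => c * t i) f (c * z) := by

  simp only [lag, ← mul_sub, mul_div_mul_left _ _ hc]

theorem lag_three (t : Fin 3 → ℂ) (f : ℂ → ℂ) (z : ℂ) :
    lag t f z = f (t 0) * ((z - t 1) / (t 0 - t 1) * ((z - t 2) / (t 0 - t 2))) +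
      f (t 1) * ((z - t 0) / (t 1 - t 0) * ((z - t 2) / (t 1 - t 2))) +
      f (t 2) * ((z - t 0) / (t 2 - t 0) * ((z - t 1) / (t 2 - t 1))) := by

  have h0 : Finset.univ.erase (0 : Fin 3) = {1, 2} := by decide
  have h1 : Finset.univ.erase (1 : Fin 3) = {0, 2} := by decide
  have h2 : Finset.univ.erase (2 : Fin 3) = {0, 1} := by decide
  simp only [lag, Fin.sum_univ_three, h0, h1, h2]
  rw [Finset.prod_pair (by decide), Finset.prod_pair (by decide), Finset.prod_pair (by decide)]

/-- Newton step: `f w = f (t 0) + (w - t 0) * dslope f (t 0) w` and `lag_const`. -/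
theorem lag_cons {r : ℕ} {t : Fin (r + 1) → ℂ} (ht : Function.Injective t) (f : ℂ → ℂ) (z : ℂ) :
    lag t f z = f (t 0) + (z - t 0) * lag (fun i : Fin r => t i.succ) (dslope f (t 0)) z := by

  have h1 : lag t f z = lag t (fun w => f (t 0) + (w - t 0) * dslope f (t 0) w) z :=
    lag_congr t (fun i => by rw [← smul_eq_mul, sub_smul_dslope, add_sub_cancel]) z
  rw [h1, lag_add, lag_const ht]
  congr 1
  simp only [lag, Fin.sum_univ_succ, sub_self, zero_mul, zero_add, Finset.mul_sum]
  refine Finset.sum_congr rfl fun i _ => ?_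
  have h2 : Finset.univ.erase i.succ = Finset.cons 0 ((Finset.univ.erase i).map (Fin.succEmb r)) (by simp) := by
    ext j
    rcases j.eq_zero_or_eq_succ with rfl | ⟨j, rfl⟩
    · simp [(Fin.succ_ne_zero i).symm]
    · simp
  have h3 : t i.succ - t 0 ≠ 0 := sub_ne_zero.2 (ht.ne (Fin.succ_ne_zero i))
  rw [h2, Finset.prod_cons, Finset.prod_map]
  simp only [Fin.coe_succEmb]
  field_simp

/-- Remainder.  Induction on `r` (for all `f, M`): `g = dslope f (t 0)` is differentiable on the closed ball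
(`Complex.differentiableOn_dslope`), bounded by `2 M / (ρ - T)` on the sphere, hence on the ball
(`Complex.norm_le_of_forall_mem_frontier_norm_le`); `f z - lag t f z = (z - t 0) (g z - lag t' g z)`. -/
theorem norm_sub_lag_le {r : ℕ} {t : Fin r → ℂ} (ht : Function.Injective t) {f : ℂ → ℂ} {ρ T M : ℝ}
    (hT : 0 ≤ T) (hρ : T < ρ) (hf : DifferentiableOn ℂ f (Metric.closedBall 0 ρ))
    (hM : ∀ w, ‖w‖ ≤ ρ → ‖f w‖ ≤ M) (htT : ∀ i, ‖t i‖ ≤ T) {z : ℂ} (hz : ‖z‖ ≤ T) :
    ‖f z - lag t f z‖ ≤ M * (4 * T / (ρ - T)) ^ r := by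

  induction r generalizing f M with
  | zero => simpa [lag] using hM z (hz.trans hρ.le)
  | succ r ih =>
    have h0 : 0 < ρ - T := sub_pos.2 hρ
    have hρ0 : ρ ≠ 0 := (hT.trans_lt hρ).ne'
    have h1 : DifferentiableOn ℂ (dslope f (t 0)) (Metric.closedBall 0 ρ) :=
      (Complex.differentiableOn_dslope (Metric.closedBall_mem_nhds_of_mem
        (mem_ball_zero_iff.2 ((htT 0).trans_lt hρ)))).2 hf
    have h2 : ∀ w, ‖w‖ ≤ ρ → ‖dslope f (t 0) w‖ ≤ 2 * M / (ρ - T) := fun w hw => by
      refine Complex.norm_le_of_forall_mem_frontier_norm_le (U := Metric.ball 0 ρ) Metric.isBounded_ball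
        (DifferentiableOn.diffContOnCl (by rwa [closure_ball _ hρ0])) (fun x hx => ?_)
        (by rwa [closure_ball _ hρ0, mem_closedBall_zero_iff])
      rw [frontier_ball _ hρ0, mem_sphere_zero_iff_norm] at hx
      have h3 : ρ - T ≤ ‖x - t 0‖ := by linarith [norm_sub_norm_le x (t 0), htT 0]
      have h4 : ‖(x - t 0) • dslope f (t 0) x‖ ≤ 2 * M := by
        rw [sub_smul_dslope]
        linarith [norm_sub_le (f x) (f (t 0)), hM x hx.le, hM (t 0) ((htT 0).trans hρ.le)]
      rw [norm_smul] at h4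
      rw [le_div_iff₀' h0]
      exact (mul_le_mul_of_nonneg_right h3 (norm_nonneg _)).trans h4
    have h3 := ih (t := fun i => t i.succ) (ht.comp (Fin.succ_injective r)) h1 h2 fun i => htT _
    have h4 : f z - lag t f z =
        (z - t 0) * (dslope f (t 0) z - lag (fun i : Fin r => t i.succ) (dslope f (t 0)) z) := by
      rw [lag_cons ht, mul_sub, ← smul_eq_mul (z - t 0) (dslope _ _ _), sub_smul_dslope]
      ring
    have h5 : ‖z - t 0‖ ≤ 2 * T := by linarith [norm_sub_le z (t 0), htT 0]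
    rw [h4, norm_mul]
    refine (mul_le_mul h5 h3 (norm_nonneg _) (by positivity)).trans_eq ?_
    rw [pow_succ]
    ring

theorem rem_prod (i m : ℕ) : ∏ j ∈ Finset.range (i + 1 + m), (if j = i then 1 else |(i : ℝ) - j|) =
    i.factorial * m.factorial := by
  rw [Finset.prod_range_add, Finset.prod_range_succ, if_pos rfl, mul_one, ← Finset.prod_range_add_one_eq_factorial,
    ← Finset.prod_range_add_one_eq_factorial, Nat.cast_prod, Nat.cast_prod, ← Finset.prod_range_reflect]
  congr 1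
  · refine Finset.prod_congr rfl fun j hj => ?_
    rw [Finset.mem_range] at hj
    rw [if_neg (by omega), Nat.cast_sub (by omega), Nat.cast_sub (by omega), abs_of_nonneg]
    · push_cast
      ring
    · have := j.cast_nonneg (α := ℝ)
      push_cast
      linarith
  · refine Finset.prod_congr rfl fun j _ => ?_
    rw [if_neg (by omega), abs_sub_comm, abs_of_nonneg]
    · push_cast
      ring
    · have := j.cast_nonneg (α := ℝ)
      push_cast
      linarith

theorem rem_sep {r : ℕ} {t : Fin (r + 1) → ℝ} {γ : ℝ} (ht : ∀ i j, i < j → t i + γ ≤ t j) (i j : Fin (r + 1))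
    (h : i ≤ j) : γ * ((j : ℕ) - (i : ℕ)) ≤ t j - t i := by
  induction j using Fin.induction with
  | zero =>
    obtain rfl := Fin.le_zero_iff.1 h
    simp
  | succ j ih =>
    rcases h.eq_or_lt with rfl | h
    · simp
    have h1 := ih (Fin.le_castSucc_iff.2 h)
    have h2 := ht j.castSucc j.succ Fin.castSucc_lt_succ
    simp only [Fin.val_castSucc, Fin.val_succ] at h1 ⊢
    push_cast
    linarith

/-- Separated real nodes: `|t i - t j| ≥ γ |i - j|`, the `i`-th term is at most
`ε (2 T) ^ r / (γ ^ r i! (r - i)!)`, and `∑ i, 1 / (i! (r-i)!) = 2 ^ r / r!`. -/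
theorem norm_lag_le {r : ℕ} {t : Fin (r + 1) → ℝ} {γ T ε : ℝ} (hγ : 0 < γ)
    (ht : ∀ i j, i < j → t i + γ ≤ t j) (htT : ∀ i, |t i| ≤ T) {f : ℂ → ℂ} (hf : ∀ i, ‖f (t i)‖ ≤ ε)
    {z : ℂ} (hz : ‖z‖ ≤ T) : ‖lag (fun i => (t i : ℂ)) f z‖ ≤ ε * ((4 * T / γ) ^ r / r.factorial) := by

  have hT : 0 ≤ T := (abs_nonneg _).trans (htT 0)
  have hε : 0 ≤ ε := (norm_nonneg _).trans (hf 0)
  have h1 : ∀ i j : Fin (r + 1), γ * |((i : ℕ) : ℝ) - (j : ℕ)| ≤ |t i - t j| := fun i j => by
    rcases le_total i j with h | h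
    · rw [abs_sub_comm, abs_sub_comm (t i), abs_of_nonneg (sub_nonneg.2 (Nat.cast_le.2 h))]
      exact (rem_sep ht i j h).trans (le_abs_self _)
    · rw [abs_of_nonneg (sub_nonneg.2 (Nat.cast_le.2 h))]
      exact (rem_sep ht j i h).trans (le_abs_self _)
  have h2 : ∀ i : Fin (r + 1), ∏ j ∈ Finset.univ.erase i, |((i : ℕ) : ℝ) - (j : ℕ)| =
      (i : ℕ).factorial * (r - i).factorial := fun i => by
    rw [← rem_prod, show (i : ℕ) + 1 + (r - i) = r + 1 by omega, ← Fin.prod_univ_eq_prod_range,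
      ← Finset.mul_prod_erase _ _ (Finset.mem_univ i), if_pos rfl, one_mul]
    exact Finset.prod_congr rfl fun j hj => by rw [if_neg (Fin.val_ne_of_ne (Finset.mem_erase.1 hj).1)]
  have h3 : ∀ i : Fin (r + 1), ‖f (t i) * ∏ j ∈ Finset.univ.erase i, (z - t j) / ((t i : ℂ) - t j)‖ ≤
      ε * ((2 * T / γ) ^ r / r.factorial) * r.choose i := fun i => by
    rw [norm_mul, norm_prod, mul_assoc]
    refine mul_le_mul (hf i) ?_ (by positivity) hε
    calc _ ≤ ∏ j ∈ Finset.univ.erase i, 2 * T / γ / |((i : ℕ) : ℝ) - (j : ℕ)| := by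
          refine Finset.prod_le_prod (fun _ _ => norm_nonneg _) fun j hj => ?_
          have h4 : 0 < |((i : ℕ) : ℝ) - (j : ℕ)| :=
            abs_pos.2 (sub_ne_zero.2 (Nat.cast_injective.ne (Fin.val_ne_of_ne (Finset.mem_erase.1 hj).1.symm)))
          rw [norm_div, div_div, ← Complex.ofReal_sub, Complex.norm_real]
          refine div_le_div₀ (by positivity) ?_ (by positivity) (h1 i j)
          have := norm_sub_le z (t j)
          rw [Complex.norm_real, Real.norm_eq_abs] at this
          linarith [htT j]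
      _ = _ := by
          rw [Finset.prod_div_distrib, h2, Finset.prod_const, Finset.card_erase_of_mem (Finset.mem_univ _),
            Finset.card_univ, Fintype.card_fin, Nat.add_sub_cancel, Nat.cast_choose ℝ (Nat.lt_succ_iff.1 i.2)]
          field_simp
  refine (norm_sum_le _ _).trans ((Finset.sum_le_sum fun i _ => h3 i).trans_eq ?_)
  rw [← Finset.mul_sum, Fin.sum_univ_eq_sum_range (fun i => (r.choose i : ℝ)), ← Nat.cast_sum, Nat.sum_range_choose]
  push_cast
  rw [show 4 * T / γ = 2 * T / γ * 2 by ring, mul_pow]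
  ring

end Crest.Agent.R128
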