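import Crest.Agent.R128.Dist1
import Crest.Agent.R128.Rem

/-!
# Row 128, Dist2: `η / φ` at `β` is a quadratic polynomial up to a tiny error.
Keep the statements; add auxiliary lemmas freely (prefix `dist2_`).
-/

set_option autoImplicit false

noncomputable section

open scoped Classical
open MeasureTheory Set

namespace Crest.Agent.R128

/-- `η / φ` at `β` for the hybrid potential -/
def dist2_H (k ξ s : ℝ) (β u : ℕ) (w : ℂ) : ℂ :=
  lin (hy k ξ s β u w) 1 0 β / lin (hy k ξ s β u w) 0 1 β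

theorem dist2_one (k ξ s : ℝ) (β : ℕ) : dist2_H k ξ s β 1 = sg k ξ s β := funext fun _ =>
  congrArg₂ (· / ·) (lin_congr _ _ _ fun _ _ h => if_pos h) (lin_congr _ _ _ fun _ _ h => if_pos h)

theorem dist2_top (k ξ s : ℝ) (β : ℕ) (w : ℂ) : dist2_H k ξ s β β w = dist2_H k ξ s β β 0 :=
  have h : ∀ n, 1 ≤ n → n < β → hy k ξ s β β w n = hy k ξ s β β 0 n := fun n _ _ => by
    rw [hy, hy, if_neg (by omega), if_neg (by omega)]
  congrArg₂ (· / ·) (lin_congr _ _ _ h) (lin_congr _ _ _ h)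

theorem dist2_den {q ξ s : ℝ} {β u : ℕ} (hq : 100 ≤ q) (hu : 1 ≤ u) (h : Env q ξ s β) {w : ℂ}
    (hw : ‖w‖ * |jR (q ^ 100) ξ s 0 1 β| ≤ q ^ (70 * u)) :
    99 / 100 * |jR (q ^ 100) ξ s 0 1 β| ≤ ‖lin (hy (q ^ 100) ξ s β u w) 0 1 β‖ := by
  have h1 := dist_jac hq hu h hw β le_rfl
  have h2 := norm_sub_norm_le ((jR (q ^ 100) ξ s 0 1 β : ℝ) : ℂ) (lin (hy (q ^ 100) ξ s β u w) 0 1 β)
  rw [norm_sub_rev, Complex.norm_real, Real.norm_eq_abs] at h2
  rw [sub_self, mul_zero, zpow_zero] at h1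
  linarith

theorem dist2_diff {q ξ s : ℝ} {β u : ℕ} (hq : 100 ≤ q) (hβ : 1 ≤ β) (hu : 1 ≤ u) (h : Env q ξ s β) :
    DifferentiableOn ℂ (dist2_H (q ^ 100) ξ s β u)
      {w | ‖w‖ * |jR (q ^ 100) ξ s 0 1 β| ≤ q ^ (70 * u)} := by
  have hd : ∀ n, Differentiable ℂ fun w => hy (q ^ 100) ξ s β u w n := fun n => by
    unfold hy
    split_ifs
    · exact (differentiable_VC _).comp (Differentiable.comp (g := fun w => obC (q ^ 100) ξ w n)
        (fun z => (hasDerivAt_obC _ _ z n).differentiableAt) (by fun_prop))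
    · fun_prop
  refine (differentiable_lin _ hd _ _ _).differentiableOn.div
    (differentiable_lin _ hd _ _ _).differentiableOn fun w hw => norm_pos_iff.1 ?_
  linarith [dist2_den hq hu h hw, h.one_le hq hβ]

theorem dist2_step {q ξ s : ℝ} {β v : ℕ} (hq : 100 ≤ q) (hv : v + 1 < β) (h : Env q ξ s β) {w : ℂ}
    (hw : ‖w‖ * |jR (q ^ 100) ξ s 0 1 β| ≤ q ^ (70 * (v + 1))) :
    ‖dist2_H (q ^ 100) ξ s β (v + 1) w - dist2_H (q ^ 100) ξ s β (v + 2) w‖ ≤
      110 * q ^ (80 + 182 * v) / |jR (q ^ 100) ξ s 0 1 β| ^ 2 := by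
  have hq1 : 1 ≤ q := by linarith
  have hΦ := h.one_le hq (by omega)
  have d1 := dist2_den hq (by omega) h hw
  have d2 := dist2_den (u := v + 2) hq (by omega) h (hw.trans (pow_le_pow_right₀ hq1 (by omega)))
  have e := lin_one_site (hy (q ^ 100) ξ s β (v + 2) w) (hy (q ^ 100) ξ s β (v + 1) w) (β - (v + 1)) β
    (by omega) (by omega) fun m hm => if_congr (by omega) rfl rfl
  have k1 := dist_hy hq (by omega) h hw (β - (v + 1)) (by omega)
  have k2 := duhamel (q ^ 101) (one_le_pow₀ hq1) (fun m => hy (q ^ 100) ξ s β (v + 2) w (β - m))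
    (lin (fun m => hy (q ^ 100) ξ s β (v + 2) w (β - m)) 0 1) 0 (v + 1) (fun n _ _ => by
      rw [hy, if_neg (by omega), Complex.norm_real]
      exact abs_VR_le hq _) (fun n _ => (add_zero _).symm) v le_rfl
  simp only [lin_zero, lin_one, norm_zero, norm_one, Pi.zero_apply, mul_zero, Finset.sum_const_zero,
    add_zero, max_eq_right (zero_le_one' ℝ), mul_one, max_le_iff] at k2
  rw [show β - (β - (v + 1)) = v + 1 by omega, show hy (q ^ 100) ξ s β (v + 2) w (β - (v + 1)) = _ from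
    if_neg (by omega)] at e
  rw [show (100 + 70 * ((v + 1 : ℕ) : ℤ) - 90 * ((β : ℤ) - (β - (v + 1) : ℕ))) = 80 - (20 * v : ℕ) by
    omega, zpow_sub₀ (by positivity), zpow_natCast, zpow_ofNat] at k1
  rw [dist2_H, dist2_H, div_sub_div _ _ (norm_pos_iff.1 (by linarith)) (norm_pos_iff.1 (by linarith)),
    mul_comm (lin _ 0 1 β) (lin _ 1 0 β), e, norm_div, norm_mul, norm_mul, norm_pow]
  calc _ ≤ 100 * (q ^ 80 / q ^ (20 * v)) * ((q ^ 101) ^ v) ^ 2 /
        (99 / 100 * |jR (q ^ 100) ξ s 0 1 β| * (99 / 100 * |jR (q ^ 100) ξ s 0 1 β|)) := by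
        gcongr
        exact k2.2
    _ = 1000000 / 9801 * q ^ (80 + 182 * v) / |jR (q ^ 100) ξ s 0 1 β| ^ 2 := by
        field_simp
        ring
    _ ≤ _ := by gcongr; norm_num

theorem dist2_num {q : ℝ} (hq : 100 ≤ q) (v : ℕ) :
    110 * q ^ (80 + 182 * v) * (4 * q ^ 5 / (q ^ (70 * (v + 1)) - q ^ 5)) ^ 3 ≤
      (1 / 2) ^ (v + 1) * q ^ (-110 : ℤ) := by
  have h0 : 0 < q := by linarith
  have hq1 : 1 ≤ q := by linarith
  have h1 : 5 ≤ q ^ (65 + 70 * v) := le_trans (by linarith) (le_self_pow₀ hq1 (by omega))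
  have h2 : 4 * q ^ 5 / (q ^ (70 * (v + 1)) - q ^ 5) ≤ 5 / q ^ (65 + 70 * v) := by
    rw [show 70 * (v + 1) = 5 + (65 + 70 * v) by ring, pow_add q 5, ← mul_sub_one, mul_comm 4,
      mul_div_mul_left _ _ (by positivity), div_le_div_iff₀ (by linarith) (by linarith)]
    linarith
  have h3 : q ^ 5 ≤ q ^ (70 * (v + 1)) := pow_le_pow_right₀ hq1 (by omega)
  have h4 : (2 : ℝ) ^ v ≤ q ^ (28 * v) :=
    (pow_le_pow_left₀ zero_le_two (by linarith) v).trans (pow_le_pow_right₀ hq1 (by omega))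
  have h5 : (27500 : ℝ) ≤ q ^ 5 := le_trans (by norm_num) (pow_le_pow_left₀ (by norm_num) hq 5)
  calc _ ≤ 110 * q ^ (80 + 182 * v) * (5 / q ^ (65 + 70 * v)) ^ 3 := by
        have := sub_nonneg.2 h3
        gcongr
    _ = 13750 / (q ^ 5 * q ^ (28 * v)) * (q ^ 110)⁻¹ := by field_simp; ring
    _ ≤ 13750 / (27500 * 2 ^ v) * (q ^ 110)⁻¹ := by gcongr
    _ = _ := by rw [zpow_neg, zpow_ofNat, one_div, inv_pow]; field_simp; ring

theorem differentiableOn_sg {q ξ s : ℝ} {β : ℕ} (hq : 100 ≤ q) (hβ : 1 ≤ β) (h : Env q ξ s β) :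
    DifferentiableOn ℂ (sg (q ^ 100) ξ s β) {w | ‖w‖ * |jR (q ^ 100) ξ s 0 1 β| ≤ q ^ 70} := by
  simpa only [dist2_one, mul_one] using dist2_diff hq hβ le_rfl h

/-- `H u w = lin (hy … u w) 1 0 β / lin (hy … u w) 0 1 β`.  `H 1 = sg` (`lin_congr`), `H β` is constant in `w`
(only `hy … β w 0` differs, and it is not used).  For `1 ≤ u < β` the potentials `hy … u w` and `hy … (u+1) w` differ at
`n = β - u` only; on `‖w‖ Φ ≤ q ^ (70 u)` both denominators are `≥ 0.99 Φ` (`dist_jac`), so `lin_one_site`,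
`dist_hy` and the crude bound `‖lin (fun m => V (x (β - m))) 0 1 u‖ ≤ q ^ (101 (u - 1))` (`duhamel` with `f = 0`) give
`‖H u w - H (u+1) w‖ ≤ 110 q ^ (100 - 20 u + 202 (u - 1)) / Φ ^ 2`.  `norm_sub_lag_le` with `r = 3`,
`ρ = q ^ (70 u) / Φ`, `T = q ^ 5 / Φ`, `4 T / (ρ - T) ≤ 5 q ^ (5 - 70 u)`: the remainder of this difference is
`≤ 110 * 125 q ^ (-87 - 28 u) / Φ ^ 2`.  Sum over `u` (`lag_sum`, `lag_const`, telescoping). -/
theorem sg_quadratic {q ξ s : ℝ} {β : ℕ} (hq : 100 ≤ q) (hβ : 1 ≤ β) (h : Env q ξ s β) {t : Fin 3 → ℂ}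
    (ht : Function.Injective t) (htT : ∀ i, ‖t i‖ * |jR (q ^ 100) ξ s 0 1 β| ≤ q ^ 5) {w : ℂ}
    (hw : ‖w‖ * |jR (q ^ 100) ξ s 0 1 β| ≤ q ^ 5) :
    ‖sg (q ^ 100) ξ s β w - lag t (sg (q ^ 100) ξ s β) w‖ ≤ q ^ (-110 : ℤ) / jR (q ^ 100) ξ s 0 1 β ^ 2 := by
  have hΦ := h.one_le hq hβ
  have hq0 : 0 < q := by linarith
  have key : ∀ v ∈ Finset.range (β - 1),
      ‖(dist2_H (q ^ 100) ξ s β (v + 1) w - dist2_H (q ^ 100) ξ s β (v + 2) w) -
        lag t (fun w => dist2_H (q ^ 100) ξ s β (v + 1) w - dist2_H (q ^ 100) ξ s β (v + 2) w) w‖ ≤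
      (1 / 2) ^ v * (q ^ (-110 : ℤ) / |jR (q ^ 100) ξ s 0 1 β| ^ 2 / 2) := fun v hv => by
    have hv' := Finset.mem_range.1 hv
    have d1 := dist2_diff (u := v + 1) hq hβ (by omega) h
    have d2 := dist2_diff (u := v + 2) hq hβ (by omega) h
    have st := fun w => dist2_step (v := v) (w := w) hq (by omega) h
    generalize |jR (q ^ 100) ξ s 0 1 β| = Φ at *
    have h0 : 0 < Φ := by linarith
    have hlt : q ^ 5 < q ^ (70 * (v + 1)) := pow_lt_pow_right₀ (by linarith) (by omega)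
    refine (norm_sub_lag_le ht (T := q ^ 5 / Φ) (ρ := q ^ (70 * (v + 1)) / Φ) (by positivity)
      (div_lt_div_of_pos_right hlt h0) ((d1.mono fun z hz => ?_).sub (d2.mono fun z hz => ?_))
      (fun z hz => st z ((le_div_iff₀ h0).1 hz)) (fun i => (le_div_iff₀ h0).2 (htT i))
      ((le_div_iff₀ h0).2 hw)).trans ?_
    · exact (le_div_iff₀ h0).1 (mem_closedBall_zero_iff.1 hz)
    · exact ((le_div_iff₀ h0).1 (mem_closedBall_zero_iff.1 hz)).trans
        (pow_le_pow_right₀ (by linarith) (by omega))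
    rw [← sub_div, ← mul_div_assoc, div_div_div_cancel_right₀ h0.ne', div_mul_eq_mul_div]
    exact (div_le_div_of_nonneg_right (dist2_num hq v) (by positivity)).trans_eq (by ring)
  have e : sg (q ^ 100) ξ s β = fun w => ∑ v ∈ Finset.range (β - 1),
      (dist2_H (q ^ 100) ξ s β (v + 1) w - dist2_H (q ^ 100) ξ s β (v + 2) w) +
        dist2_H (q ^ 100) ξ s β β 0 := funext fun w => by
    rw [Finset.sum_range_sub' fun v => dist2_H (q ^ 100) ξ s β (v + 1) w, Nat.sub_add_cancel hβ,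
      dist2_top, zero_add, dist2_one, sub_add_cancel]
  rw [e, lag_add, lag_sum, lag_const ht, add_sub_add_right_eq_sub, ← Finset.sum_sub_distrib, ← sq_abs]
  refine (norm_sum_le _ _).trans ((Finset.sum_le_sum key).trans ?_)
  rw [← Finset.sum_mul]
  exact (mul_le_mul_of_nonneg_right (sum_geometric_two_le _) (by positivity)).trans_eq (by ring)

end Crest.Agent.R128
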