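import Crest.Agent.R128.Lin2
import Crest.Agent.R128.Hier1

/-!
# Row 128, ExtA: one side of a resonance; the algebra of a good pair.
Keep the statements; add auxiliary lemmas freely (prefix `exta_`).
-/

set_option autoImplicit false

noncomputable section

open scoped Classical
open MeasureTheory Set

namespace Crest.Agent.R128

/-- Good sites on the right of the centre `m₀`.
Proof.  `φ = ph v m₀`.  Regular bonds `b₁ ∈ [ρ + 1, ρ + 2n)`, `b₂ ∈ [ρ + 190 n, ρ + 192 n)` (`H3`).  `Dn b₂ b`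
(`H1`, `dn_iff`) puts `χ` in the stable cone at `b₂`, so `χ b₂ ≠ 0` (`nb_pos`).  `|wr φ χ| = |χ m₀|`,
`nb φ b₁ ≤ q ^ (303 n)`, `nb χ b₁ ≤ q ^ (303 n + 102) |χ m₀|` (`nb_le`, `|b₁ - m₀| ≤ 3 n`), so `T = 606 n + 102`.
`half2` with core start `min m₀ b₁ = m₀` (`m₀ ≤ ρ + 1 ≤ b₁`), `N = 3 n`, `b = b₂`, `c = β - 1`,
`F = 90 (b₂ - b₁) + 8 cnt`, `cnt ≥ 0.99 * 188 n - n ≥ 185 n` (`H2`, `cnt_not`), `E ≥ 90 (c - b₂) + 8` (`b₂ + 1` is
fresh, `cnt_pos`).  The second claim is the envelope of `Dn β b` at `i = β + 1`. -/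
theorem side_env {q : ℝ} {v χ : ℤ → ℝ} {D : ℤ → Prop} {n m₀ ρ b : ℤ} (hq : 2 ≤ q) (hv : Bdd q v) (hn : 1 ≤ n)
    (hρ : m₀ - 1 ≤ ρ) (hρ' : ρ ≤ m₀ + n) (hb : m₀ + 800 * n ≤ b) (hbr : Reg D b)
    (H1 : ∀ x y, ρ < x → x ≤ y → y ≤ b → Reg D x → Reg D y →
      UD q v x y (90 * (y - x) + 8 * cnt (fun i => ¬ D i) (x + 1) (y + 1)))
    (H2 : ∀ x y, ρ < x → x ≤ y → y ≤ b → 100 * cnt D x y ≤ y - x + 100 * n)
    (H3 : ∀ x, ρ < x → x + 2 * n ≤ b → ∃ a, x ≤ a ∧ a + 1 < x + 2 * n ∧ Reg D a)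
    (hχ : IsSol v χ) (hs : |χ (b + 1)| ≤ |χ b|) (hχ0 : χ m₀ ≠ 0) (hχ1 : nb χ m₀ ≤ q ^ 102 * |χ m₀|)
    (β : ℤ) (hβ : m₀ + 200 * n ≤ β) (hβ' : β < b) (hD : Reg D (β - 1)) (hD' : Reg D β) :
    (∀ i, m₀ ≤ i → i ≤ β → q ^ (90 * (β - i)) * |ph v m₀ i| ≤ |ph v m₀ β|) ∧ q ^ 90 * |χ (β + 1)| ≤ |χ β| := by
  have hq1 : (1 : ℝ) ≤ q := by linarith
  have hq0 : (0 : ℝ) < q := by linarith
  obtain ⟨b₁, h11, h12, h13⟩ := H3 (ρ + 1) (by omega) (by omega)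
  obtain ⟨b₂, h21, h22, h23⟩ := H3 (ρ + 190 * n) (by omega) (by omega)
  constructor
  · have hs2 : |χ (b₂ + 1)| ≤ |χ b₂| :=
      ((dn_iff _ _ _ _ _).1 (H1 b₂ b (by omega) (by omega) le_rfl h23 hbr).2 χ hχ hs).1
    have hχ2 : χ b₂ ≠ 0 := by
      have := nb_pos hχ hχ0 b₂
      unfold nb at this
      rw [max_eq_left hs2] at this
      exact abs_pos.1 this
    have hφ := isSol_ph v m₀
    have hab : 101 * |b₁ - m₀| ≤ 303 * n := by
      rw [abs_of_nonneg (by omega)]; omega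
    have hp : q ^ (101 * |b₁ - m₀|) ≤ q ^ (303 * n) := zpow_le_zpow_right₀ hq1 hab
    have e1 : nb (ph v m₀) b₁ ≤ q ^ (303 * n) := by
      have := nb_le hv hφ hq1 m₀ b₁
      rw [(nb_ph_self v m₀).1, mul_one] at this
      exact this.trans hp
    have e2 : nb χ b₁ ≤ q ^ (303 * n) * (q ^ 102 * |χ m₀|) :=
      (nb_le hv hχ hq1 m₀ b₁).trans (mul_le_mul hp hχ1 (nb_nonneg _ _) (by positivity))
    have e3 : |wr (ph v m₀) χ b₁| = |χ m₀| := by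
      rw [wr_const hφ hχ b₁ m₀]
      unfold wr
      rw [ph_self, ph_succ]; simp
    have hw : q ^ (-(606 * n + 102)) * (nb (ph v m₀) b₁ * nb χ b₁) ≤ |wr (ph v m₀) χ b₁| := by
      rw [e3]
      have e4 : q ^ (-(606 * n + 102)) * (q ^ (303 * n) * (q ^ (303 * n) * (q ^ 102 * |χ m₀|))) =
          |χ m₀| := by
        rw [← zpow_ofNat q 102, ← mul_assoc, ← mul_assoc, ← mul_assoc, ← zpow_add₀ hq0.ne',
          ← zpow_add₀ hq0.ne', ← zpow_add₀ hq0.ne']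
        rw [show -(606 * n + 102) + 303 * n + 303 * n + 102 = 0 by ring, zpow_zero, one_mul]
      rw [← e4]
      exact mul_le_mul_of_nonneg_left (mul_le_mul e1 e2 (nb_nonneg _ _) (by positivity))
        (by positivity)
    have c1 := H2 (b₁ + 1) (b₂ + 1) (by omega) (by omega) (by omega)
    have c2 := cnt_not D (show b₁ + 1 ≤ b₂ + 1 by omega)
    have c3 : 1 ≤ cnt (fun i => ¬ D i) (b₂ + 1) (β - 1 + 1) :=
      cnt_pos (i := b₂ + 1) le_rfl (by omega) h23.2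
    have key := half2 (m₀ := m₀) (N := 3 * n) (c := β - 1) hq hv (by omega) (by omega)
      (show b₁ ≤ b₂ by omega) (by omega) (show 0 ≤ 606 * n + 102 by omega)
      (H1 b₁ b₂ (by omega) (by omega) (by omega) h13 h23)
      (H1 b₂ (β - 1) (by omega) (by omega) (by omega) h23 hD).1 hφ hχ hs2 hχ2 hw (by omega)
      (by omega)
    intro i hi hi'
    have := key.2.2 i hi (by omega)
    rwa [sub_add_cancel] at this
  · have := ((dn_iff _ _ _ _ _).1 (H1 β b (by omega) hβ'.le le_rfl hD' hbr).2 χ hχ hs).2.2 (β + 1)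
      (by omega) (by omega)
    rwa [add_sub_cancel_left, mul_one, zpow_ofNat] at this

end Crest.Agent.R128
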