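import Crest.Agent.R128.Defs

/-!
# Row 128, ExtB: matching the scales on the two sides of a resonance (finite combinatorics).
Keep the statement; add auxiliary lemmas freely (prefix `extb_`).
-/

set_option autoImplicit false

noncomputable section

open scoped Classical
open MeasureTheory Set

namespace Crest.Agent.R128

theorem extb_step {q : ℝ} (hq : 2 ≤ q) (L : ℕ → ℝ) (hL0 : ∀ i, 0 ≤ L i)
    (hL : ∀ i, L (i + 2) ≤ q ^ 101 * max (L i) (L (i + 1))) (k : ℕ) :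
    max (L (k + 1)) (L (k + 2)) ≤ q ^ 101 * max (L k) (L (k + 1)) := by
  refine max_le ?_ (hL k)
  have h1 : (1 : ℝ) ≤ q ^ 101 := one_le_pow₀ (by linarith)
  have h2 : L (k + 1) ≤ max (L k) (L (k + 1)) := le_max_right _ _
  have h3 : 0 ≤ max (L k) (L (k + 1)) := (hL0 _).trans h2
  exact h2.trans (le_mul_of_one_le_left h3 h1)

theorem extb_le {q : ℝ} (hq : 2 ≤ q) (L : ℕ → ℝ) (hL0 : ∀ i, 0 ≤ L i) (hL00 : L 0 = 0) (hL1 : L 1 = 1)
    (hL : ∀ i, L (i + 2) ≤ q ^ 101 * max (L i) (L (i + 1))) (k : ℕ) :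
    max (L k) (L (k + 1)) ≤ q ^ (101 * k) := by
  induction k with
  | zero => simp [hL00, hL1]
  | succ k ih =>
    refine (extb_step hq L hL0 hL k).trans ?_
    rw [show 101 * (k + 1) = 101 + 101 * k by ring, pow_add]
    exact mul_le_mul_of_nonneg_left ih (by positivity)

theorem extb_good {n : ℕ} (hn : 1 ≤ n) (Gl : ℕ → Prop)
    (cL : ((Finset.Ico (200 * n) (702 * n)).filter fun α => ¬ Gl α).card ≤ 25 * n) :
    ∃ a, 675 * n ≤ a ∧ a < 702 * n ∧ Gl a := by
  by_contra h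
  push Not at h
  have h1 : Finset.Ico (675 * n) (702 * n) ⊆ (Finset.Ico (200 * n) (702 * n)).filter fun α => ¬ Gl α := by
    intro a ha
    rw [Finset.mem_Ico] at ha
    rw [Finset.mem_filter, Finset.mem_Ico]
    exact ⟨⟨by omega, ha.2⟩, h a ha.1 ha.2⟩
  have h2 := Finset.card_le_card h1
  rw [Nat.card_Ico] at h2
  omega

theorem extb_key {q : ℝ} (hq : 2 ≤ q) {n : ℕ} (hn : 1 ≤ n) (L : ℕ → ℝ) (Gl : ℕ → Prop)
    (hL0 : ∀ i, 0 ≤ L i) (hL00 : L 0 = 0) (hL1 : L 1 = 1)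
    (hL : ∀ i, L (i + 2) ≤ q ^ 101 * max (L i) (L (i + 1)))
    (eL : ∀ α, Gl α → ∀ i, i ≤ α → q ^ (90 * (α - i)) * L i ≤ L α)
    (cL : ((Finset.Ico (200 * n) (702 * n)).filter fun α => ¬ Gl α).card ≤ 25 * n)
    (r : ℝ) (h1 : q ^ (90 * (300 * n - 1)) ≤ r) (h2 : r ≤ q ^ (101 * (600 * n))) :
    ∃ k, 200 * n ≤ k ∧ k + 1 < 702 * n ∧ r ≤ q ^ 55 * max (L k) (L (k + 1)) ∧
      q ^ 55 * max (L k) (L (k + 1)) < q ^ 101 * r ∧
      ∀ k', k' < k → q ^ 55 * max (L k') (L (k' + 1)) < r := by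
  have hq1 : (1 : ℝ) < q := by linarith
  have hq0 : (0 : ℝ) < q := by linarith
  obtain ⟨a, ha1, ha2, ha⟩ := extb_good hn Gl cL
  have hw : r ≤ q ^ 55 * max (L (a - 1)) (L (a - 1 + 1)) := by
    have e1 := eL a ha 1 (by omega)
    rw [hL1, mul_one] at e1
    rw [show a - 1 + 1 = a by omega]
    have e2 : q ^ (101 * (600 * n)) ≤ q ^ (90 * (a - 1)) := pow_le_pow_right₀ hq1.le (by omega)
    have e3 : L a ≤ max (L (a - 1)) (L a) := le_max_right _ _
    have e4 : (1 : ℝ) ≤ q ^ 55 := one_le_pow₀ hq1.le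
    exact (h2.trans (e2.trans (e1.trans e3))).trans (le_mul_of_one_le_left ((hL0 _).trans e3) e4)
  have hex : ∃ k, r ≤ q ^ 55 * max (L k) (L (k + 1)) := ⟨_, hw⟩
  have hk := Nat.find_spec hex
  have hle : Nat.find hex ≤ a - 1 := Nat.find_min' hex hw
  have hmin : ∀ k', k' < Nat.find hex → q ^ 55 * max (L k') (L (k' + 1)) < r :=
    fun k' h => not_le.1 (Nat.find_min hex h)
  generalize Nat.find hex = k at hk hle hmin
  have hlow : 200 * n ≤ k := by
    have e1 := extb_le hq L hL0 hL00 hL1 hL k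
    have e2 : q ^ (90 * (300 * n - 1)) ≤ q ^ (55 + 101 * k) := by
      rw [pow_add]
      exact h1.trans (hk.trans (mul_le_mul_of_nonneg_left e1 (by positivity)))
    have e3 := (pow_le_pow_iff_right₀ hq1).1 e2
    omega
  refine ⟨k, hlow, by omega, hk, ?_, hmin⟩
  obtain ⟨j, rfl⟩ : ∃ j, k = j + 1 := ⟨k - 1, by omega⟩
  have e1 := extb_step hq L hL0 hL j
  have e2 := hmin j (by omega)
  calc q ^ 55 * max (L (j + 1)) (L (j + 1 + 1)) ≤ q ^ 55 * (q ^ 101 * max (L j) (L (j + 1))) :=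
        mul_le_mul_of_nonneg_left e1 (by positivity)
    _ = q ^ 101 * (q ^ 55 * max (L j) (L (j + 1))) := by ring
    _ < q ^ 101 * r := mul_lt_mul_of_pos_left e2 (by positivity)

/-- For a good `β ∈ [300 n, 600 n)` let `f β` be the first `α ≥ 200 n` with `max (L (α-1)) (L α) ≥ q ^ (-55) R β`.
* It exists and is `< 702 n`: there is a good `α' ∈ [675 n, 702 n)`, `L α' ≥ q ^ (90 (α' - 1)) ≥ q ^ (60600 n) ≥ R β`.
* `f β > 200 n`: `max (L (α-1)) (L α) ≤ q ^ (101 (α - 1))` while `R β ≥ q ^ (90 (β - 1))`.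
* By minimality and `hL`, `max (L (α-1)) (L α) < q ^ (101 - 55) R β` for `α = f β`; if `α` is good the max is `L α`.
* For good `β < β'`: `R β' ≥ q ^ (90 (β' - β)) R β`, so `f β ≤ f β'`, and `f β = f β'` forces `β' - β ≤ 1`.
So `f` is strictly monotone on the even good `β`; at least `150 n - 20 n - 25 n ≥ 99 n + 1` of them have `f β`
good.  Enumerate with `Finset.orderEmbOfCardLe`. -/
theorem match_sites {q : ℝ} (hq : 2 ≤ q) {n : ℕ} (hn : 1 ≤ n) (R L : ℕ → ℝ) (Gr Gl : ℕ → Prop)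
    (hR0 : ∀ i, 0 ≤ R i) (hL0 : ∀ i, 0 ≤ L i) (hR1 : R 1 = 1) (hL00 : L 0 = 0) (hL1 : L 1 = 1)
    (hR : ∀ i, R i ≤ q ^ (101 * i)) (hL : ∀ i, L (i + 2) ≤ q ^ 101 * max (L i) (L (i + 1)))
    (eR : ∀ β, Gr β → ∀ i, i ≤ β → q ^ (90 * (β - i)) * R i ≤ R β)
    (eL : ∀ α, Gl α → ∀ i, i ≤ α → q ^ (90 * (α - i)) * L i ≤ L α)
    (cR : ((Finset.Ico (300 * n) (600 * n)).filter fun β => ¬ Gr β).card ≤ 20 * n)
    (cL : ((Finset.Ico (200 * n) (702 * n)).filter fun α => ¬ Gl α).card ≤ 25 * n) :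
    ∃ α β : Fin (99 * n + 1) → ℕ, StrictMono α ∧ StrictMono β ∧ ∀ s,
      200 * n ≤ α s ∧ α s < 702 * n ∧ 300 * n ≤ β s ∧ β s < 600 * n ∧ Gl (α s) ∧ Gr (β s) ∧
        L (α s) ≤ q ^ 55 * R (β s) ∧ R (β s) ≤ q ^ 55 * L (α s) := by
  have hq1 : (1 : ℝ) < q := by linarith
  have hq0 : (0 : ℝ) < q := by linarith
  have key : ∀ β, 300 * n ≤ β → β < 600 * n → Gr β → ∃ k, 200 * n ≤ k ∧ k + 1 < 702 * n ∧
      R β ≤ q ^ 55 * max (L k) (L (k + 1)) ∧ q ^ 55 * max (L k) (L (k + 1)) < q ^ 101 * R β ∧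
      ∀ k', k' < k → q ^ 55 * max (L k') (L (k' + 1)) < R β := by
    intro β h1 h2 hβ
    refine extb_key hq hn L Gl hL0 hL00 hL1 hL eL cL (R β) ?_ ?_
    · have e1 := eR β hβ 1 (by omega)
      rw [hR1, mul_one] at e1
      exact (pow_le_pow_right₀ hq1.le (by omega)).trans e1
    · exact (hR β).trans (pow_le_pow_right₀ hq1.le (by omega))
  choose! g hg using key
  have mono : ∀ k k', 150 * n ≤ k → k' < 300 * n → k < k' → Gr (2 * k) → Gr (2 * k') →
      g (2 * k) < g (2 * k') := by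
    intro k k' h1 h2 h3 hk hk'
    obtain ⟨-, -, a3, a4, a5⟩ := hg (2 * k) (by omega) (by omega) hk
    obtain ⟨-, -, b3, -, -⟩ := hg (2 * k') (by omega) (by omega) hk'
    have e1 := eR (2 * k') hk' (2 * k) (by omega)
    have e2 : q ^ 101 * R (2 * k) ≤ R (2 * k') :=
      (mul_le_mul_of_nonneg_right (pow_le_pow_right₀ hq1.le (by omega)) (hR0 _)).trans e1
    have e3 : R (2 * k) ≤ q ^ 101 * R (2 * k) := le_mul_of_one_le_left (hR0 _) (one_le_pow₀ hq1.le)
    by_contra hc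
    rcases (not_lt.1 hc).lt_or_eq with h | h
    · have := a5 _ h
      linarith
    · rw [h] at b3
      linarith
  set T := (Finset.Ico (150 * n) (300 * n)).filter fun k => Gr (2 * k) ∧ Gl (g (2 * k) + 1) with hT
  set A := (Finset.Ico (150 * n) (300 * n)).filter fun k => ¬ Gr (2 * k) with hA
  set B := (Finset.Ico (150 * n) (300 * n)).filter fun k => Gr (2 * k) ∧ ¬ Gl (g (2 * k) + 1) with hB
  have cA : A.card ≤ 20 * n := by
    refine le_trans (Finset.card_le_card_of_injOn (fun k => 2 * k) ?_ ?_) cR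
    · intro k hk
      rw [Finset.mem_coe, hA, Finset.mem_filter, Finset.mem_Ico] at hk
      rw [Finset.mem_coe, Finset.mem_filter, Finset.mem_Ico]
      exact ⟨⟨by simp only; omega, by simp only; omega⟩, hk.2⟩
    · intro k _ k' _ h
      simp only at h
      omega
  have cB : B.card ≤ 25 * n := by
    refine le_trans (Finset.card_le_card_of_injOn (fun k => g (2 * k) + 1) ?_ ?_) cL
    · intro k hk
      rw [Finset.mem_coe, hB, Finset.mem_filter, Finset.mem_Ico] at hk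
      rw [Finset.mem_coe, Finset.mem_filter, Finset.mem_Ico]
      obtain ⟨a1, a2, -⟩ := hg (2 * k) (by omega) (by omega) hk.2.1
      exact ⟨⟨by simp only; omega, a2⟩, hk.2.2⟩
    · intro k hk k' hk' h
      rw [Finset.mem_coe, hB, Finset.mem_filter, Finset.mem_Ico] at hk hk'
      simp only at h
      rcases lt_trichotomy k k' with h' | h' | h'
      · have := mono k k' hk.1.1 hk'.1.2 h' hk.2.1 hk'.2.1
        omega
      · exact h'
      · have := mono k' k hk'.1.1 hk.1.2 h' hk'.2.1 hk.2.1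
        omega
  have cT : 99 * n + 1 ≤ T.card := by
    have h1 : Finset.Ico (150 * n) (300 * n) ⊆ T ∪ A ∪ B := by
      intro k hk
      simp only [Finset.mem_union, hT, hA, hB, Finset.mem_filter]
      tauto
    have h2 := Finset.card_le_card h1
    have h3 := Finset.card_union_le (T ∪ A) B
    have h4 := Finset.card_union_le T A
    rw [Nat.card_Ico] at h2
    omega
  have hm : ∀ s, (150 * n ≤ T.orderEmbOfCardLe cT s ∧ T.orderEmbOfCardLe cT s < 300 * n) ∧
      Gr (2 * T.orderEmbOfCardLe cT s) ∧ Gl (g (2 * T.orderEmbOfCardLe cT s) + 1) := by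
    intro s
    have := T.orderEmbOfCardLe_mem cT s
    exact ⟨Finset.mem_Ico.1 (Finset.mem_filter.1 this).1, (Finset.mem_filter.1 this).2⟩
  have hs := (T.orderEmbOfCardLe cT).strictMono
  generalize (T.orderEmbOfCardLe cT : Fin (99 * n + 1) → ℕ) = e at hm hs
  refine ⟨fun s => g (2 * e s) + 1, fun s => 2 * e s, ?_, ?_, ?_⟩
  · intro s t h
    have := mono (e s) (e t) (hm s).1.1 (hm t).1.2 (hs h) (hm s).2.1 (hm t).2.1
    simp only
    omega
  · intro s t h
    have := hs h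
    simp only
    omega
  · intro s
    obtain ⟨⟨b1, b2⟩, b3, b4⟩ := hm s
    obtain ⟨a1, a2, a3, a4, -⟩ := hg (2 * e s) (by omega) (by omega) b3
    have e1 := eL _ b4 (g (2 * e s)) (by omega)
    have e2 : L (g (2 * e s)) ≤ L (g (2 * e s) + 1) :=
      (le_mul_of_one_le_left (hL0 _) (one_le_pow₀ hq1.le)).trans e1
    rw [max_eq_right e2] at a3 a4
    refine ⟨by simp only; omega, a2, by simp only; omega, by simp only; omega, b4, b3, ?_, a3⟩
    have e3 : q ^ 101 * R (2 * e s) ≤ q ^ 55 * (q ^ 55 * R (2 * e s)) := by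
      rw [← mul_assoc, ← pow_add]
      exact mul_le_mul_of_nonneg_right (pow_le_pow_right₀ hq1.le (by norm_num)) (hR0 _)
    exact le_of_mul_le_mul_left (a4.le.trans e3) (by positivity)

end Crest.Agent.R128
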