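import Crest.Agent.R128.Lin1

/-!
# Row 128, ExtC: the algebra of a good pair.
Keep the statements; add auxiliary lemmas freely (prefix `extc_`).
-/

set_option autoImplicit false

noncomputable section

open scoped Classical
open MeasureTheory Set

namespace Crest.Agent.R128

theorem extc_inv {q X e : ℝ} (hq : 100 ≤ q) (hX : q ^ 99 ≤ |X|) (he : |e| ≤ 2 * q⁻¹ ^ 90) :
    X - e ≠ 0 ∧ |(X - e)⁻¹| ≤ 2 * q⁻¹ ^ 99 := by
  have hq0 : 0 < q := by linarith
  have hp1 : q⁻¹ ≤ 1 := inv_le_one_of_one_le₀ (by linarith)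
  have h1 : q⁻¹ ^ 90 ≤ 1 := pow_le_one₀ (by positivity) hp1
  have h2 : q ≤ q ^ 99 := le_self_pow₀ (by linarith) (by norm_num)
  have h3 : q ^ 99 / 2 ≤ |X - e| := by
    have := abs_sub_abs_le_abs_sub X e
    linarith
  have h4 : 0 < q ^ 99 / 2 := by positivity
  refine ⟨abs_pos.mp (h4.trans_le h3), ?_⟩
  rw [abs_inv]
  calc |X - e|⁻¹ ≤ (q ^ 99 / 2)⁻¹ := inv_anti₀ h4 h3
    _ = 2 * q⁻¹ ^ 99 := by rw [inv_pow]; field_simp

theorem extc_alg {q A B X Y e e' δ T : ℝ} (hq : 100 ≤ q) (hA : 0 < A) (hB : 0 < B)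
    (hX : q ^ 99 ≤ |X|) (hY : q ^ 99 ≤ |Y|) (hX' : |X| ≤ q ^ 101) (hY' : |Y| ≤ q ^ 101)
    (he : |e| ≤ 2 * q⁻¹ ^ 90) (he' : |e'| ≤ 2 * q⁻¹ ^ 90) (hδ : |δ| * min A B ≤ q⁻¹ ^ 300)
    (hT : T = δ + (X - e)⁻¹ / B + (Y - e')⁻¹ / A) :
    |T * B * A * X * Y - A * Y - B * X| ≤ q⁻¹ ^ 85 * max A B ∧ |T| * min A B ≤ q⁻¹ ^ 98 := by
  have hq0 : 0 < q := by linarith
  obtain ⟨h1, h2⟩ := extc_inv hq hX he
  obtain ⟨h3, h4⟩ := extc_inv hq hY he'
  set p := q⁻¹ with hp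
  have hp0 : 0 < p := by positivity
  have hp1 : p ≤ 1 / 100 := by
    rw [hp, one_div]; exact inv_anti₀ (by norm_num) hq
  have hqp : q * p = 1 := mul_inv_cancel₀ hq0.ne'
  have hqp' : q ^ 101 * p ^ 101 = 1 := by rw [← mul_pow, hqp, one_pow]
  set r := (X - e)⁻¹ with hr
  set r' := (Y - e')⁻¹ with hr'
  have e1 : r * X = 1 + r * e := by
    have : r * (X - e) = 1 := inv_mul_cancel₀ h1
    linarith
  have e2 : r' * Y = 1 + r' * e' := by
    have : r' * (Y - e') = 1 := inv_mul_cancel₀ h3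
    linarith
  have hmm : A * B = min A B * max A B := (min_mul_max A B).symm
  have hmax0 : 0 < max A B := lt_max_of_lt_left hA
  have hmin0 : 0 < min A B := lt_min hA hB
  have key : ∀ {Z s f : ℝ}, |Z| ≤ q ^ 101 → |s| ≤ 2 * p ^ 99 → |f| ≤ 2 * p ^ 90 →
      |Z * (s * f)| ≤ 4 * p ^ 88 := by
    intro Z s f hZ hs hf
    rw [abs_mul, abs_mul]
    calc |Z| * (|s| * |f|) ≤ q ^ 101 * ((2 * p ^ 99) * (2 * p ^ 90)) := by gcongr
      _ = 4 * p ^ 88 * (q ^ 101 * p ^ 101) := by ring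
      _ = 4 * p ^ 88 := by rw [hqp', mul_one]
  constructor
  · have e3 : T * B * A * X * Y - A * Y - B * X =
        δ * (A * B) * (X * Y) + A * (Y * (r * e)) + B * (X * (r' * e')) := by
      have : T * B * A * X * Y = δ * (A * B) * (X * Y) + A * Y * (r * X) + B * X * (r' * Y) := by
        rw [hT]; field_simp
      rw [this, e1, e2]; ring
    have b1 : |δ * (A * B) * (X * Y)| ≤ p ^ 98 * max A B := by
      rw [hmm, abs_mul, abs_mul, abs_mul, abs_mul, abs_of_pos hmin0, abs_of_pos hmax0]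
      calc |δ| * (min A B * max A B) * (|X| * |Y|) = (|δ| * min A B) * (|X| * |Y|) * max A B := by
            ring
        _ ≤ p ^ 300 * (q ^ 101 * q ^ 101) * max A B := by gcongr
        _ = p ^ 98 * max A B * ((q ^ 101 * p ^ 101) * (q ^ 101 * p ^ 101)) := by ring
        _ = p ^ 98 * max A B := by rw [hqp', mul_one, mul_one]
    have b2 : |A * (Y * (r * e))| ≤ max A B * (4 * p ^ 88) := by
      rw [abs_mul, abs_of_pos hA]
      exact mul_le_mul (le_max_left _ _) (key hY' h2 he) (abs_nonneg _) hmax0.le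
    have b3 : |B * (X * (r' * e'))| ≤ max A B * (4 * p ^ 88) := by
      rw [abs_mul, abs_of_pos hB]
      exact mul_le_mul (le_max_right _ _) (key hX' h4 he') (abs_nonneg _) hmax0.le
    have b4 : p ^ 98 + 8 * p ^ 88 ≤ p ^ 85 := by
      have c1 : p ^ 13 ≤ p := pow_le_of_le_one hp0.le (by linarith) (by norm_num)
      have c2 : p ^ 3 ≤ p := pow_le_of_le_one hp0.le (by linarith) (by norm_num)
      have c3 : p ^ 13 + 8 * p ^ 3 ≤ 1 := by linarith
      calc p ^ 98 + 8 * p ^ 88 = p ^ 85 * (p ^ 13 + 8 * p ^ 3) := by ring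
        _ ≤ p ^ 85 * 1 := by gcongr
        _ = p ^ 85 := mul_one _
    rw [e3]
    calc _ ≤ |δ * (A * B) * (X * Y)| + |A * (Y * (r * e))| + |B * (X * (r' * e'))| :=
          abs_add_three _ _ _
      _ ≤ (p ^ 98 + 8 * p ^ 88) * max A B := by linarith
      _ ≤ p ^ 85 * max A B := by gcongr
  · have b2 : |r / B| * min A B ≤ 2 * p ^ 99 := by
      rw [abs_div, abs_of_pos hB]
      calc |r| / B * min A B ≤ |r| / B * B := by gcongr; exact min_le_right _ _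
        _ = |r| := by field_simp
        _ ≤ _ := h2
    have b3 : |r' / A| * min A B ≤ 2 * p ^ 99 := by
      rw [abs_div, abs_of_pos hA]
      calc |r'| / A * min A B ≤ |r'| / A * A := by gcongr; exact min_le_left _ _
        _ = |r'| := by field_simp
        _ ≤ _ := h4
    have b4 : p ^ 300 + 4 * p ^ 99 ≤ p ^ 98 := by
      have c1 : p ^ 202 ≤ p := pow_le_of_le_one hp0.le (by linarith) (by norm_num)
      have c3 : p ^ 202 + 4 * p ≤ 1 := by linarith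
      calc p ^ 300 + 4 * p ^ 99 = p ^ 98 * (p ^ 202 + 4 * p) := by ring
        _ ≤ p ^ 98 * 1 := by gcongr
        _ = p ^ 98 := mul_one _
    have b1 : |T| ≤ |δ| + |r / B| + |r' / A| := by rw [hT]; exact abs_add_three _ _ _
    calc |T| * min A B ≤ (|δ| + |r / B| + |r' / A|) * min A B := by gcongr
      _ = |δ| * min A B + |r / B| * min A B + |r' / A| * min A B := by ring
      _ ≤ p ^ 98 := by linarith

theorem extc_ratio {q a b : ℝ} (hq : 0 < q) (hb : b ≠ 0) (h : q ^ 90 * |a| ≤ |b|) :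
    |a / b| ≤ q⁻¹ ^ 90 := by
  have hb' : 0 < |b| := abs_pos.mpr hb
  rw [abs_div, div_le_iff₀ hb', inv_pow, ← div_eq_inv_mul, le_div_iff₀ (by positivity)]
  linarith

/-- The algebra of a good pair.  `φ = ph v 0`, `η = -ph v 1`, `u / u 0 = η + θ φ`, `χ / χ 0 = η + θ' φ`
(`IsSol.decomp`), `|θ - θ'| = |wr u χ| / (|u 0| |χ 0|) ≤ q ^ (-202 M - 300)`.  With `ψ = χ / χ 0`,
`wr ψ φ = 1` at the bond `β` gives `ψ β φ β (v β - e) = 1`, `e = φ (β-1) / φ β + ψ (β+1) / ψ β`, `|e| ≤ 2 q ^ (-90)`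
(`ψ β ≠ 0` by `nb_pos`, `|φ β| ≥ |φ 1| = 1`).  Similarly with `ψ' = u / u 0` at the bond `-α - 1`:
`ψ' (-α) φ (-α) (v (-α) - e') = -1`.  So, with `A = φ (-α) ^ 2`, `B = φ β ^ 2`, `X = v β`, `Y = v (-α)`:
`Th = (θ - θ') + 1 / (B (X - e)) + 1 / (A (Y - e'))` and
`Th B A X Y - A Y - B X = (θ - θ') A B X Y + A Y e / (X - e) + B X e' / (Y - e')`;
`min A B ≤ q ^ (202 M)` (`abs_ph_le`), `|X|, |Y| ≤ q ^ 101`, `|X - e|, |Y - e'| ≥ q ^ 99 / 2`. -/
theorem pair_of {q : ℝ} {v u χ : ℤ → ℝ} {α β M : ℕ} (hq : 100 ≤ q) (hv : Bdd q v) (hu : IsSol v u)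
    (hχ : IsSol v χ) (hu0 : u 0 ≠ 0) (hχ0 : χ 0 ≠ 0) (hα : 1 ≤ α) (hβ : 1 ≤ β) (hαM : α ≤ M) (hβM : β ≤ M)
    (eβ : ∀ i : ℕ, i ≤ β → q ^ (90 * ((β : ℤ) - i)) * |ph v 0 i| ≤ |ph v 0 β|)
    (eα : ∀ i : ℕ, i ≤ α → q ^ (90 * ((α : ℤ) - i)) * |ph v 0 (-i)| ≤ |ph v 0 (-α)|)
    (c1 : |ph v 0 (-α)| ≤ q ^ 55 * |ph v 0 β|) (c2 : |ph v 0 β| ≤ q ^ 55 * |ph v 0 (-α)|)
    (dχ : q ^ 90 * |χ (β + 1)| ≤ |χ β|) (du : q ^ 90 * |u (-α - 1)| ≤ |u (-α)|)
    (vβ : q ^ 99 ≤ |v β|) (vα : q ^ 99 ≤ |v (-α)|)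
    (hw : q ^ (202 * M + 300) * |wr u χ 0| ≤ |u 0| * |χ 0|) : Pair q v α β := by
  have hq0 : 0 < q := by linarith
  have hq1 : 1 ≤ q := by linarith
  have hφ := isSol_ph v 0
  have φ0 : ph v 0 0 = 0 := ph_self v 0
  have φ1 : ph v 0 1 = 1 := by simpa using ph_succ v 0
  have φ1' : ph v 0 (-1) = -1 := by simpa using ph_pred v 0
  have hB0 : ph v 0 β ≠ 0 := by
    have := eβ 1 hβ
    rw [Nat.cast_one, φ1, abs_one, mul_one] at this
    exact abs_pos.mp (lt_of_lt_of_le (zpow_pos hq0 _) this)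
  have hA0 : ph v 0 (-α) ≠ 0 := by
    have := eα 1 hα
    rw [Nat.cast_one, φ1', abs_neg, abs_one, mul_one] at this
    exact abs_pos.mp (lt_of_lt_of_le (zpow_pos hq0 _) this)
  have hχβ : χ β ≠ 0 := by
    intro h0
    have h1 := nb_pos hχ hχ0 β
    rw [h0, abs_zero] at dχ
    have h2 : |χ (β + 1)| ≤ 0 := by
      by_contra hc
      push Not at hc
      have := mul_pos (pow_pos hq0 90) hc
      linarith
    unfold nb at h1
    rw [h0, abs_zero] at h1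
    rcases lt_max_iff.mp h1 with h | h <;> linarith
  have huα : u (-α) ≠ 0 := by
    intro h0
    have h1 := nb_pos hu hu0 (-α - 1)
    rw [h0, abs_zero] at du
    have h2 : |u (-α - 1)| ≤ 0 := by
      by_contra hc
      push Not at hc
      have := mul_pos (pow_pos hq0 90) hc
      linarith
    unfold nb at h1
    rw [sub_add_cancel, h0, abs_zero] at h1
    rcases lt_max_iff.mp h1 with h | h <;> linarith
  have dφβ : q ^ 90 * |ph v 0 (β - 1)| ≤ |ph v 0 β| := by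
    have := eβ (β - 1) (by omega)
    rw [Nat.cast_sub hβ, Nat.cast_one, show (90 : ℤ) * ((β : ℤ) - (β - 1)) = ((90 : ℕ) : ℤ) by
      push_cast; ring, zpow_natCast] at this
    exact this
  have dφα : q ^ 90 * |ph v 0 (-α + 1)| ≤ |ph v 0 (-α)| := by
    have := eα (α - 1) (by omega)
    rw [Nat.cast_sub hα, Nat.cast_one, show (90 : ℤ) * ((α : ℤ) - (α - 1)) = ((90 : ℕ) : ℤ) by
      push_cast; ring, zpow_natCast, show -((α : ℤ) - 1) = -α + 1 by ring] at this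
    exact this
  set e := χ (β + 1) / χ β + ph v 0 (β - 1) / ph v 0 β with he_def
  set e' := u (-α - 1) / u (-α) + ph v 0 (-α + 1) / ph v 0 (-α) with he'_def
  have he : |e| ≤ 2 * q⁻¹ ^ 90 := by
    have h1 := extc_ratio hq0 hχβ dχ
    have h2 := extc_ratio hq0 hB0 dφβ
    have := abs_add_le (χ (β + 1) / χ β) (ph v 0 (β - 1) / ph v 0 β)
    linarith
  have he' : |e'| ≤ 2 * q⁻¹ ^ 90 := by
    have h1 := extc_ratio hq0 huα du
    have h2 := extc_ratio hq0 hA0 dφα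
    have := abs_add_le (u (-α - 1) / u (-α)) (ph v 0 (-α + 1) / ph v 0 (-α))
    linarith
  have w1 : χ β * ph v 0 β * (v β - e) = χ 0 := by
    have h1 := wr_const hχ hφ (β - 1) 0
    unfold wr at h1
    rw [sub_add_cancel, zero_add, φ0, φ1] at h1
    have h2 := hχ β
    have h3 : χ (β - 1) = v β * χ β - χ (β + 1) := by linarith
    rw [h3] at h1
    rw [he_def]
    field_simp
    linarith
  have w2 : u (-α) * ph v 0 (-α) * (v (-α) - e') = -u 0 := by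
    have h1 := wr_const hu hφ (-α) 0
    unfold wr at h1
    rw [zero_add, φ0, φ1] at h1
    have h2 := hu (-α)
    have h3 : u (-α + 1) = v (-α) * u (-α) - u (-α - 1) := by linarith
    rw [h3] at h1
    rw [he'_def]
    field_simp
    linarith
  have n1 := (extc_inv hq vβ he).1
  have n2 := (extc_inv hq vα he').1
  have d1 := hχ.decomp 0 β
  have d2 := hu.decomp 0 (-α)
  rw [zero_add] at d1 d2
  have hT : Th v α β = -wr u χ 0 / (u 0 * χ 0) + (v β - e)⁻¹ / ph v 0 β ^ 2 +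
      (v (-α) - e')⁻¹ / ph v 0 (-α) ^ 2 := by
    have i1 : (v β - e)⁻¹ = χ β * ph v 0 β / χ 0 := by
      rw [← w1]; field_simp
    have i2 : (v (-α) - e')⁻¹ = -(u (-α) * ph v 0 (-α)) / u 0 := by
      have : u 0 = -(u (-α) * ph v 0 (-α) * (v (-α) - e')) := by linarith
      rw [this]; field_simp
    have j1 : ph v 1 β = (χ 1 * ph v 0 β - χ β) / χ 0 := by
      rw [eq_div_iff hχ0]; linarith
    have j2 : ph v 1 (-α) = (u 1 * ph v 0 (-α) - u (-α)) / u 0 := by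
      rw [eq_div_iff hu0]; linarith
    unfold Th wr
    rw [i1, i2, j1, j2, zero_add]
    field_simp
    ring
  have hBle : ph v 0 β ^ 2 ≤ q ^ (202 * M) := by
    have h1 := abs_ph_le hv hq1 0 β
    rw [sub_zero, Nat.abs_cast, show (101 : ℤ) * (β : ℤ) = ((101 * β : ℕ) : ℤ) by push_cast; ring,
      zpow_natCast] at h1
    have h2 : q ^ (101 * β) ≤ q ^ (101 * M) := pow_le_pow_right₀ hq1 (by omega)
    rw [← sq_abs]
    calc |ph v 0 β| ^ 2 ≤ (q ^ (101 * M)) ^ 2 := by gcongr; exact h1.trans h2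
      _ = q ^ (202 * M) := by rw [← pow_mul]; congr 1; ring
  have hδ : |-wr u χ 0 / (u 0 * χ 0)| * min (ph v 0 (-α) ^ 2) (ph v 0 β ^ 2) ≤ q⁻¹ ^ 300 := by
    have hp : 0 < |u 0| * |χ 0| := mul_pos (abs_pos.mpr hu0) (abs_pos.mpr hχ0)
    calc _ ≤ |-wr u χ 0 / (u 0 * χ 0)| * q ^ (202 * M) := by
          gcongr; exact (min_le_right _ _).trans hBle
      _ ≤ q⁻¹ ^ 300 := by
          rw [abs_div, abs_neg, abs_mul, div_mul_eq_mul_div, div_le_iff₀ hp, inv_pow,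
            ← div_eq_inv_mul, le_div_iff₀ (by positivity)]
          rw [pow_add] at hw
          linarith
  have hv' : ∀ i, |v i| ≤ q ^ 101 := fun i => by have := hv i; linarith
  obtain ⟨r1, r2⟩ := extc_alg hq (by positivity) (by positivity) vβ vα (hv' _) (hv' _) he he' hδ hT
  refine ⟨hα, hβ, eβ, eα, c1, c2, ?_, ?_⟩
  · rw [show q ^ (-85 : ℤ) = q⁻¹ ^ 85 by rw [inv_pow, zpow_neg]; norm_cast]
    exact r1
  · rw [show q ^ (-98 : ℤ) = q⁻¹ ^ 98 by rw [inv_pow, zpow_neg]; norm_cast]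
    exact r2

end Crest.Agent.R128
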