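import Crest.Agent.R128.Good
import Crest.Agent.R128.ExtA
import Crest.Agent.R128.ExtB
import Crest.Agent.R128.ExtC

/-!
# Row 128, Ext: a resonant component produces many good pairs of scales.
Keep the statement; add auxiliary lemmas freely (prefix `ext_`).
-/

set_option autoImplicit false

noncomputable section

open scoped Classical
open MeasureTheory Set

namespace Crest.Agent.R128

theorem ext_count {D : ℤ → Prop} {m₀ : ℤ} {A B : ℕ} {G : ℕ → Prop}
    (hG : ∀ β : ℕ, A ≤ β → β < B → Reg D (m₀ + β - 1) → Reg D (m₀ + β) → G β) :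
    (((Finset.Ico A B).filter fun β => ¬ G β).card : ℤ) ≤
      2 * cnt D (A + (m₀ - 1)) (B + (m₀ - 1) + 1) + 2 * cnt D (A + m₀) (B + m₀ + 1) := by
  have h1 : (((Finset.Ico A B).filter fun β => ¬ G β).card : ℤ) ≤
      cnt (fun i => ¬ Reg D (i + (m₀ - 1)) ∨ ¬ Reg D (i + m₀)) A B := by
    unfold cnt
    refine Int.ofNat_le.2 (Finset.card_le_card_of_injOn (fun β : ℕ => (β : ℤ)) ?_ ?_)
    · intro β hβ
      simp only [Finset.coe_filter, Finset.mem_Ico, Set.mem_ofPred_eq] at hβ ⊢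
      refine ⟨⟨by exact_mod_cast hβ.1.1, by exact_mod_cast hβ.1.2⟩, ?_⟩
      by_contra hc
      rw [not_or, not_not, not_not] at hc
      refine hβ.2 (hG β hβ.1.1 hβ.1.2 ?_ ?_)
      · rw [show m₀ + β - 1 = β + (m₀ - 1) by ring]; exact hc.1
      · rw [show m₀ + β = β + m₀ by ring]; exact hc.2
    · intro x _ y _ hxy
      exact Int.ofNat_inj.1 hxy
  have h2 := cnt_or (fun i => ¬ Reg D (i + (m₀ - 1))) (fun i => ¬ Reg D (i + m₀)) A B
  have h3 := cnt_shift (fun i => ¬ Reg D i) A B (m₀ - 1)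
  have h4 := cnt_shift (fun i => ¬ Reg D i) A B m₀
  have h5 := cnt_not_reg D (A + (m₀ - 1)) (B + (m₀ - 1))
  have h6 := cnt_not_reg D (A + m₀) (B + m₀)
  linarith

theorem ext_choose {W τ : ℝ} {u χ : ℤ → ℝ} (hτ : 4 ≤ τ) (hu : 0 < nb u 0) (hW : W = |wr u χ 0|)
    (h : τ * W < 2 * (nb u 0 * nb χ 0)) :
    ∃ m : ℤ, (m = 0 ∨ m = 1) ∧ |u m| = nb u 0 ∧ nb χ 0 ≤ 2 * |χ m| := by
  have hW0 : 0 ≤ W := hW ▸ abs_nonneg _
  have h4 : 2 * W ≤ nb u 0 * nb χ 0 := by nlinarith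
  unfold wr at hW
  unfold nb at *
  simp only [zero_add] at *
  have a0 := abs_nonneg (u 0)
  have a1 := abs_nonneg (u 1)
  have c0 := abs_nonneg (χ 0)
  have c1 := abs_nonneg (χ 1)
  have e1 : |u 0| * |χ 1| ≤ W + |u 1| * |χ 0| := by
    rw [hW, ← abs_mul, ← abs_mul]
    have := abs_add_le (u 0 * χ 1 - u 1 * χ 0) (u 1 * χ 0)
    rwa [sub_add_cancel] at this
  have e2 : |u 1| * |χ 0| ≤ W + |u 0| * |χ 1| := by
    rw [hW, ← abs_mul, ← abs_mul, abs_sub_comm]
    have := abs_add_le (u 1 * χ 0 - u 0 * χ 1) (u 0 * χ 1)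
    rwa [sub_add_cancel] at this
  rcases le_total |u 1| |u 0| with hu1 | hu1
  · rw [max_eq_left hu1] at *
    refine ⟨0, Or.inl rfl, rfl, ?_⟩
    rcases le_total |χ 1| |χ 0| with hc | hc
    · rw [max_eq_left hc]; linarith
    · rw [max_eq_right hc] at *
      refine le_of_mul_le_mul_left ?_ hu
      nlinarith
  · rw [max_eq_right hu1] at *
    refine ⟨1, Or.inr rfl, rfl, ?_⟩
    rcases le_total |χ 1| |χ 0| with hc | hc
    · rw [max_eq_left hc] at *
      refine le_of_mul_le_mul_left ?_ hu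
      nlinarith
    · rw [max_eq_right hc]; linarith

theorem ext_core {q t : ℝ} {v : ℤ → ℝ} (hq : 100 ≤ q) (ht : 1 ≤ t) (hv : Bdd q v) (j : ℕ) {r a b m : ℤ}
    (hC : Comp j (hi q t v j) 0 r) (ha1 : 0 - hh j - 2 * nn j ≤ a) (ha2 : a < 0 - hh j)
    (hb1 : r + hh j ≤ b) (hb2 : b < r + hh j + 2 * nn j) (hra : Reg (hi q t v j).D a)
    (hrb : Reg (hi q t v j).D b) (hm : m = 0 ∨ m = 1) (hum : |ph v a m| = nb (ph v a) 0)
    (hχm : nb (ph v (b + 1)) 0 ≤ 2 * |ph v (b + 1) m|)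
    (hW : q ^ ta j * |ph v a (b + 1)| < 2 * (nb (ph v a) 0 * nb (ph v (b + 1)) 0)) :
    sh m v ∈ Pairs q (99 * (10 ^ 15) ^ j) (704 * (10 ^ 15) ^ j) := by
  obtain ⟨N, hN, hNn⟩ : ∃ N : ℕ, (10 ^ 15) ^ j = N ∧ nn j = N := ⟨_, rfl, by unfold nn; push_cast; rfl⟩
  rw [hN]
  have hn1 := nn_pos j
  have hN1 : 1 ≤ N := by omega
  have hq1 : (1 : ℝ) ≤ q := by linarith
  have hq2 : (2 : ℝ) ≤ q := by linarith
  have hq0 : (0 : ℝ) < q := by linarith
  set s := hi q t v j with hs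
  set u := ph v a with hu
  set χ := ph v (b + 1) with hχ
  have su : IsSol v u := isSol_ph v a
  have sχ : IsSol v χ := isSol_ph v (b + 1)
  have pu : 0 < nb u 0 := nb_pos su (a := a + 1) (by rw [hu, ph_succ]; exact one_ne_zero) 0
  have pχ : 0 < nb χ 0 := nb_pos sχ (a := b + 1 + 1) (by rw [hχ, ph_succ]; exact one_ne_zero) 0
  have hu0 : u m ≠ 0 := abs_pos.1 (hum ▸ pu)
  have hχ0 : χ m ≠ 0 := abs_pos.1 (by linarith)
  have hr0 : 0 ≤ r := hC.1
  have hr1 : r < N := by have := hC.2.1; omega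
  have FR : Free (B2 j s) (r + 1) (r + gg j + 2) := (re_b2 hC.re).2
  have FL : Free (B2 j s) (0 - gg j - 1) 0 := (le_b2 hC.le).2
  unfold gg at FR FL
  unfold hh at ha1 ha2 hb1 hb2
  rw [hNn] at FR FL ha1 ha2 hb1 hb2
  have FR1 : ∀ x y, r < x → y ≤ b + 1 → Free (B1 j s) x y := fun x y hx hy i h1 h2 h3 =>
    FR i (by omega) (by omega) h3.b2
  have FL1 : ∀ x y, a ≤ x → y ≤ 0 → Free (B1 j s) x y := fun x y hx hy i h1 h2 h3 =>
    FL i (by omega) (by omega) h3.b2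
  have FB : ∀ x y, Free (B1 j s) x y → Free s.B x y := fun x y h i h1 h2 h3 => h i h1 h2 (Or.inl h3)
  have hm0 : 0 ≤ m := by omega
  have hm1 : m ≤ 1 := by omega
  have z101 : ∀ e : ℤ, |e| ≤ 1 → q ^ (101 * |e|) ≤ q ^ 101 := fun e he => by
    rw [← zpow_natCast]
    exact zpow_le_zpow_right₀ hq1 (by push_cast; omega)
  have q101 : (0 : ℝ) < q ^ 101 := by positivity
  have hχ1 : nb χ m ≤ q ^ 102 * |χ m| := by
    have h1 := nb_le hv sχ hq1 0 m
    have h2 := z101 (m - 0) (by rw [abs_le]; omega)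
    have h3 := abs_nonneg (χ m)
    calc nb χ m ≤ q ^ 101 * (2 * |χ m|) := h1.trans (mul_le_mul h2 hχm pχ.le q101.le)
      _ ≤ q ^ 101 * (q * |χ m|) := by gcongr
      _ = _ := by ring
  have hu1 : nb (rf u) (-m) ≤ q ^ 102 * |rf u (-m)| := by
    rw [nb_rf]
    have h1 := nb_le hv su hq1 0 (- -m - 1)
    have h2 := z101 (- -m - 1 - 0) (by rw [abs_le]; omega)
    have h3 : |rf u (-m)| = nb u 0 := by rw [← hum]; simp [rf]
    rw [h3]
    calc _ ≤ q ^ 101 * nb u 0 := h1.trans (mul_le_mul_of_nonneg_right h2 pu.le)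
      _ ≤ q ^ 102 * nb u 0 := by
        refine mul_le_mul_of_nonneg_right (pow_le_pow_right₀ hq1 (by norm_num)) pu.le
  have R2 : ∀ x y, r < x → x ≤ y → y ≤ b → 100 * cnt s.D x y ≤ y - x + 100 * (N : ℤ) :=
    fun x y hx hxy hy => hNn ▸ fresh1 hxy (FR1 x y hx (by omega))
  have L2 : ∀ x y, 0 < x → x ≤ y → y ≤ -a - 1 →
      100 * cnt (fun i => s.D (-i)) x y ≤ y - x + 100 * (N : ℤ) := fun x y hx hxy hy => by
    rw [cnt_neg]
    have := fresh1 (j := j) (s := s) (x := -y + 1) (y := -x + 1) (by omega)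
      (FL1 _ _ (by omega) (by omega))
    rw [hNn] at this
    linarith
  have RS := fun β => side_env (χ := χ) (D := s.D) (n := N) (m₀ := m) (ρ := r) (b := b) hq2 hv
    (by omega) (by omega) (by omega) (by omega) hrb
    (fun x y hx hxy hy h1 h2 => good hq2 ht hv j x y hxy h1 h2 (FB _ _ (FR1 _ _ (by omega) (by omega))))
    R2
    (fun x hx hxb => by
      have := exists_reg (j := j) (s := s) (x := x) (FR1 _ _ hx (by omega))
      rwa [hNn] at this)
    sχ (by rw [hχ, ph_self, _root_.abs_zero]; exact abs_nonneg _) hχ0 hχ1 β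
  have regneg : ∀ x, Reg (fun i => s.D (-i)) x ↔ Reg s.D (-x - 1) := fun x => by
    simp only [Reg]
    rw [show -x - 1 + 1 = -x by ring, show -(x + 1) = -x - 1 by ring]
    exact and_comm
  have LS := fun β => side_env (v := rf v) (χ := rf u) (D := fun i => s.D (-i)) (n := N) (m₀ := -m)
    (ρ := 0) (b := -a - 1) hq2 hv.rf
    (by omega) (by omega) (by omega) (by omega)
    (by rw [regneg, show -(-a - 1) - 1 = a by ring]; exact hra)
    (fun x y hx hxy hy h1 h2 => by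
      have h3 := (good hq2 ht hv j (-y - 1) (-x - 1) (by omega) ((regneg y).1 h2) ((regneg x).1 h1)
        (FB _ _ (FL1 _ _ (by omega) (by omega)))).rf
      have h4 := cnt_neg (fun i => ¬ s.D i) (x + 1) (y + 1)
      rw [show -(-x - 1) - 1 = x by ring, show -(-y - 1) - 1 = y by ring,
        show -x - 1 - (-y - 1) = y - x by ring, show -y - 1 + 1 = -(y + 1) + 1 by ring,
        show -x - 1 + 1 = -(x + 1) + 1 by ring, ← h4] at h3
      exact h3)
    L2
    (fun x hx hxb => by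
      obtain ⟨c, h1, h2, h3⟩ := exists_reg (j := j) (s := s) (x := -x - 2 * N + 1)
        (FL1 _ _ (by omega) (by omega))
      refine ⟨-c - 1, by omega, by omega, ?_⟩
      rw [regneg, show -(-c - 1) - 1 = c by ring]; exact h3)
    su.rf (by
      have : rf u (-a - 1 + 1) = 0 := by
        simp only [rf]; rw [show -(-a - 1 + 1) = a by ring, hu, ph_self]
      rw [this, _root_.abs_zero]; exact abs_nonneg _)
    (by simpa [rf] using hu0) hu1 β
  set Gr : ℕ → Prop := fun β => 200 * N ≤ β ∧ β < 790 * N ∧ Reg s.D (m + β - 1) ∧ Reg s.D (m + β) with hGr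
  set Gl : ℕ → Prop := fun β => 200 * N ≤ β ∧ β < 790 * N ∧ Reg (fun i => s.D (-i)) (-m + β - 1) ∧
    Reg (fun i => s.D (-i)) (-m + β) with hGl
  have eR : ∀ β : ℕ, Gr β → (∀ i : ℕ, i ≤ β →
      q ^ (90 * ((β : ℤ) - i)) * |ph v m (m + i)| ≤ |ph v m (m + β)|) ∧
      q ^ 90 * |χ (m + β + 1)| ≤ |χ (m + β)| := fun β hβ => by
    obtain ⟨h1, h2⟩ := RS (m + β) (by have := hβ.1; omega) (by have := hβ.2.1; omega) hβ.2.2.1 hβ.2.2.2
    refine ⟨fun i hi => ?_, h2⟩
    have := h1 (m + i) (by omega) (by omega)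
    rwa [show m + β - (m + i) = β - i by ring] at this
  have eL : ∀ β : ℕ, Gl β → (∀ i : ℕ, i ≤ β →
      q ^ (90 * ((β : ℤ) - i)) * |ph v m (m - i)| ≤ |ph v m (m - β)|) ∧
      q ^ 90 * |u (m - β - 1)| ≤ |u (m - β)| := fun β hβ => by
    obtain ⟨h1, h2⟩ := LS (-m + β) (by have := hβ.1; omega) (by have := hβ.2.1; omega) hβ.2.2.1 hβ.2.2.2
    refine ⟨fun i hi => ?_, ?_⟩
    · have := h1 (-m + i) (by omega) (by omega)
      rwa [show -m + β - (-m + i) = β - i by ring, ph_rf, ph_rf, abs_neg, abs_neg, neg_neg,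
        show -(-m + (i : ℤ)) = m - i by ring, show -(-m + (β : ℤ)) = m - β by ring] at this
    · simp only [rf] at h2
      rwa [show -(-m + (β : ℤ) + 1) = m - β - 1 by ring, show -(-m + (β : ℤ)) = m - β by ring] at h2
  have zp : ∀ i β : ℕ, i ≤ β → q ^ (90 * (β - i)) = q ^ (90 * ((β : ℤ) - i)) := fun i β h => by
    rw [← zpow_natCast]; congr 1; push_cast [Nat.cast_sub h]; ring
  obtain ⟨α, β, hα, hβ, H⟩ := match_sites hq2 hN1 (fun i => |ph v m (m + i)|) (fun i => |ph v m (m - i)|)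
    Gr Gl (fun _ => abs_nonneg _) (fun _ => abs_nonneg _)
    (by simp [ph_succ]) (by simp [ph_self]) (by simp [ph_pred])
    (fun i => by
      have := abs_ph_le hv hq1 m (m + i)
      rwa [show m + i - m = (i : ℤ) by ring, Nat.abs_cast, show (101 : ℤ) * i = ((101 * i : ℕ) : ℤ) by
        push_cast; ring, zpow_natCast] at this)
    (fun i => by
      have h1 := nb_le hv (isSol_ph v m) hq1 (m - (i + 1 : ℕ)) (m - (i + 2 : ℕ))
      have h2 := z101 (m - (i + 2 : ℕ) - (m - (i + 1 : ℕ))) (by rw [abs_le]; omega)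
      have h3 : nb (ph v m) (m - (i + 1 : ℕ)) = max |ph v m (m - i)| |ph v m (m - (i + 1 : ℕ))| := by
        unfold nb
        rw [max_comm, show m - (i + 1 : ℕ) + 1 = m - i by push_cast; ring]
      rw [← h3]
      exact (le_max_left _ _).trans (h1.trans (mul_le_mul_of_nonneg_right h2 (nb_nonneg _ _))))
    (fun β hβ i hi => by rw [zp i β hi]; exact (eR β hβ).1 i hi)
    (fun β hβ i hi => by rw [zp i β hi]; exact (eL β hβ).1 i hi)
    (by
      have h1 := ext_count (D := s.D) (m₀ := m) (A := 300 * N) (B := 600 * N) (G := Gr)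
        (fun β h1 h2 h3 h4 => ⟨by omega, by omega, h3, h4⟩)
      have h2 := R2 ((300 * N : ℕ) + (m - 1)) ((600 * N : ℕ) + (m - 1) + 1) (by omega) (by omega) (by omega)
      have h3 := R2 ((300 * N : ℕ) + m) ((600 * N : ℕ) + m + 1) (by omega) (by omega) (by omega)
      omega)
    (by
      have h1 := ext_count (D := fun i => s.D (-i)) (m₀ := -m) (A := 200 * N) (B := 702 * N) (G := Gl)
        (fun β h1 h2 h3 h4 => ⟨by omega, by omega, h3, h4⟩)
      have h2 := L2 ((200 * N : ℕ) + (-m - 1)) ((702 * N : ℕ) + (-m - 1) + 1) (by omega) (by omega)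
        (by omega)
      have h3 := L2 ((200 * N : ℕ) + -m) ((702 * N : ℕ) + -m + 1) (by omega) (by omega) (by omega)
      omega)
  refine ⟨α, β, hα, hβ, fun k => ⟨by have := H k; omega, by have := H k; omega⟩, fun k => ?_⟩
  obtain ⟨k1, k2, k3, k4, k5, k6, k7, k8⟩ := H k
  have p1 : ∀ i : ℤ, ph (sh m v) 0 i = ph v m (m + i) := fun i => by rw [ph_sh, zero_add, add_comm]
  have p2 : ∀ i : ℤ, ph (sh m v) 0 (-i) = ph v m (m - i) := fun i => by rw [p1, sub_eq_add_neg]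
  refine pair_of (u := sh m u) (χ := sh m χ) (M := 704 * N) hq (hv.sh m) (su.sh m) (sχ.sh m)
    (by simpa [sh] using hu0) (by simpa [sh] using hχ0) (by omega) (by omega) (by omega) (by omega)
    (fun i hi => by rw [p1, p1]; exact (eR _ k6).1 i hi)
    (fun i hi => by rw [p2, p2]; exact (eL _ k5).1 i hi)
    (by rw [p2, p1]; exact k7) (by rw [p2, p1]; exact k8) ?_ ?_ ?_ ?_ ?_
  · simp only [sh]
    rw [show (β k : ℤ) + 1 + m = m + β k + 1 by ring, show (β k : ℤ) + m = m + β k by ring]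
    exact (eR _ k6).2
  · simp only [sh]
    rw [show -(α k : ℤ) - 1 + m = m - α k - 1 by ring, show -(α k : ℤ) + m = m - α k by ring]
    exact (eL _ k5).2
  · simp only [sh]
    rw [show (β k : ℤ) + m = m + β k by ring]
    exact good_abs hq2 ht (FB _ _ (FR1 (m + β k) (m + β k + 1) (by omega) (by omega)) _ le_rfl (by omega))
      k6.2.2.2.1
  · simp only [sh]
    rw [show -(α k : ℤ) + m = -(-m + α k) by ring]
    exact good_abs hq2 ht (FB _ _ (FL1 (-(-m + α k)) (-(-m + α k) + 1) (by omega) (by omega)) _ le_rfl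
      (by omega)) k5.2.2.2.1
  · have e1 : wr (sh m u) (sh m χ) 0 = ph v a (b + 1) := by
      rw [← wr_ph v a (b + 1) m]
      simp only [wr, sh, zero_add, add_comm 1 m, hu, hχ]
    have e2 : q ^ (202 * (704 * N) + 300) * 4 ≤ q ^ ta j := by
      calc q ^ (202 * (704 * N) + 300) * 4 ≤ q ^ (202 * (704 * N) + 300) * q := by
            gcongr; linarith
        _ = q ^ (((202 * (704 * N) + 300 + 1 : ℕ)) : ℤ) := by
            rw [zpow_natCast]; exact (pow_succ _ _).symm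
        _ ≤ _ := zpow_le_zpow_right₀ hq1 (by unfold ta; omega)
    rw [e1]
    simp only [sh, zero_add]
    rw [hum]
    have h1 := mul_le_mul_of_nonneg_right e2 (abs_nonneg (ph v a (b + 1)))
    have h2 := mul_le_mul_of_nonneg_left hχm pu.le
    nlinarith

/-- `n = nn j`, `s = hi q t v j`, component `[0, r]`, `r < n`; a failed test gives bonds
`a ∈ [-hh - 2n, -hh)`, `b ∈ [r + hh, r + hh + 2n)` regular for `s.D` with, for `u = ph v a`, `χ = ph v (b+1)`,
`|wr u χ| < 2 q ^ (-ta) nb u 0 * nb χ 0` (`wr_ph`, `nb_pos`).  Choose `m ∈ {0, 1}` with `|u m| = nb u 0`; then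
`nb χ 0 ≤ 2 |χ m|` (expand the Wronskian at the bond `0`), so `|wr u χ| ≤ 4 q ^ (-ta) |u m| |χ m|`, and
`nb χ m ≤ q ^ 102 |χ m|`, `nb u (m - 1) ≤ q ^ 102 |u m|`.
`(r, r + gg + 1]` and `[-gg - 1, 0)` are `B2`-free (`re_b2`, `le_b2`), hence `B1`-free and `B`-free.
Right side: `side_env` with `m₀ = m`, `ρ = r`, `D = s.D` (`good`, `fresh1`, `exists_reg`).
Left side: `side_env` for `rf v`, `rf u`, `m₀ = -m`, `ρ = 0`, `D i = s.D (-i)`, last bond `-a - 1` (`UD.rf`,
`cnt_neg`, `ph_rf`, `nb_rf`).  `match_sites` with `R i = |ph v m (m + i)|`, `L i = |ph v m (m - i)|`,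
`Gr β = 200 n ≤ β < 790 n ∧ Reg D (m + β - 1) ∧ Reg D (m + β)` and similarly `Gl`; the counts follow from
`cnt_not_reg` and `fresh1` (or directly: a damaged site spoils three sites).  Finally `pair_of` for `sh m v`,
`sh m u`, `sh m χ`, `M = 704 n` (`ph_sh`, `good_abs`, `wr_const`; `202 * 704 n + 300 + 2 ≤ ta`). -/
theorem pairs_of_res {q t : ℝ} {v : ℤ → ℝ} (hq : 100 ≤ q) (ht : 1 ≤ t) (ht' : t ≤ 2) (hv : Bdd q v) (j : ℕ)
    (h : Res (bits q t v) j 0) :
    v ∈ Pairs q (99 * (10 ^ 15) ^ j) (704 * (10 ^ 15) ^ j) ∨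
      sh 1 v ∈ Pairs q (99 * (10 ^ 15) ^ j) (704 * (10 ^ 15) ^ j) := by
  obtain ⟨r, hC, hT⟩ := h
  unfold Test at hT
  push Not at hT
  obtain ⟨a, b, ha1, ha2, hb1, hb2, hra, hrb, hok⟩ := hT
  have hq1 : (1 : ℝ) ≤ q := by linarith
  have pu : 0 < nb (ph v a) 0 :=
    nb_pos (isSol_ph v a) (a := a + 1) (by rw [ph_succ]; exact one_ne_zero) 0
  have pχ : 0 < nb (ph v (b + 1)) 0 :=
    nb_pos (isSol_ph v (b + 1)) (a := b + 1 + 1) (by rw [ph_succ]; exact one_ne_zero) 0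
  have hW : q ^ ta j * |ph v a (b + 1)| < 2 * (nb (ph v a) 0 * nb (ph v (b + 1)) 0) := by
    have h1 : Z1 q v j a 0 (b + 1) < 2 := lt_of_lt_of_le (not_le.1 hok) ht'
    unfold Z1 at h1
    rwa [div_lt_iff₀ (mul_pos pu pχ)] at h1
  have hτ : 4 ≤ q ^ ta j := by
    calc (4 : ℝ) ≤ q ^ (1 : ℤ) := by rw [zpow_one]; linarith
      _ ≤ _ := zpow_le_zpow_right₀ hq1 (by have := nn_pos j; unfold ta; omega)
  obtain ⟨m, hm, h1, h2⟩ := ext_choose hτ pu (by rw [wr_ph]) hW
  have key := ext_core hq ht hv j hC ha1 ha2 hb1 hb2 hra hrb hm h1 h2 hW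
  rcases hm with rfl | rfl
  · left; rwa [sh_zero] at key
  · exact Or.inr key

end Crest.Agent.R128
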