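import Crest.Prelude.Def_StandardMap
import Crest.Agent.R128.Orb

/-!
# Row 128, Fin: from growing Jacobi fields to the derivative of the standard map.
Keep the statements; add auxiliary lemmas freely (prefix `fin_`).
-/

set_option autoImplicit false

noncomputable section

open scoped Classical
open MeasureTheory Set

namespace Crest.Agent.R128

open Crest.AnalysisR.StandardFamily

/-- `(x, y) ↦ (X (-1), X 0)` -/
def Lm (p : ℝ × ℝ) : ℝ × ℝ := (p.1 - p.2, p.1)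

theorem iterate_lift (k : ℝ) (p : ℝ × ℝ) (n : ℕ) :
    (standardMapLift k)^[n] p = (obR k (Lm p).1 (Lm p).2 (n + 1),
      obR k (Lm p).1 (Lm p).2 (n + 1) - obR k (Lm p).1 (Lm p).2 n) := by
  induction n with
  | zero =>
    refine Prod.ext rfl ?_
    show p.2 = p.1 - (p.1 - p.2)
    ring
  | succ n ih =>
    rw [Function.iterate_succ_apply', ih, orba_succ]
    refine Prod.ext ?_ ?_
    · simp only [standardMapLift, gR]
      ring
    · simp only [standardMapLift, gR]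
      ring

/-- `Lm` as a continuous linear map -/
def fin_L : ℝ × ℝ →L[ℝ] ℝ × ℝ :=
  (ContinuousLinearMap.fst ℝ ℝ ℝ - ContinuousLinearMap.snd ℝ ℝ ℝ).prod (ContinuousLinearMap.fst ℝ ℝ ℝ)

theorem fin_L_apply (p : ℝ × ℝ) : fin_L p = Lm p := rfl

/-- derivative of the `m`-th point of the orbit -/
def fin_D (k : ℝ) (p : ℝ × ℝ) (m : ℕ) : ℝ × ℝ →L[ℝ] ℝ :=
  (jR k (Lm p).1 (Lm p).2 1 0 m • ContinuousLinearMap.fst ℝ ℝ ℝ +
    jR k (Lm p).1 (Lm p).2 0 1 m • ContinuousLinearMap.snd ℝ ℝ ℝ).comp fin_L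

theorem fin_hasD (k : ℝ) (p : ℝ × ℝ) (m : ℕ) :
    HasFDerivAt (fun p : ℝ × ℝ => obR k (Lm p).1 (Lm p).2 m) (fin_D k p m) p :=
  (hasFDerivAt_obR k m (fin_L p)).comp p fin_L.hasFDerivAt

theorem fin_D_apply (k : ℝ) (p : ℝ × ℝ) (m : ℕ) {u : ℤ → ℝ} (hu : IsSol (sh 1 (vs k (Lm p))) u) :
    fin_D k p m (u 0, u 0 - u (-1)) = u (-1 + m) := by
  have h1 := (hu.eq_lin (-1) m).1
  have h2 : (fun n : ℕ => sh 1 (vs k (Lm p)) (-1 + n)) = fun n => VR k (obR k (Lm p).1 (Lm p).2 n) := by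
    funext n
    simp only [sh, vs]
    rw [show (-1 + (n : ℤ) + 1) = n by ring, orba_nat]
  rw [h1, h2, lin_decomp]
  simp only [fin_D, ContinuousLinearMap.comp_apply, add_apply,
    smul_apply, fin_L_apply, Lm, jR, ContinuousLinearMap.coe_fst',
    ContinuousLinearMap.coe_snd', smul_eq_mul, neg_add_cancel]
  ring

/-- `hasFDerivAt_obR`, `lin_decomp`, `IsSol.eq_lin` at `a = -1`: the derivative of the `n`-th iterate maps
`(u 0, u 0 - u (-1))` to `(u n, u n - u (n-1))`; sup norms: `‖(a, a - b)‖ ≤ 2 max |a| |b|`, `max |a| |b| ≤ 2 ‖(a, a - b)‖`. -/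
theorem norm_fderiv_ge (k : ℝ) (p : ℝ × ℝ) (n : ℕ) {u : ℤ → ℝ} (hu : IsSol (sh 1 (vs k (Lm p))) u) :
    nb u n ≤ 4 * ‖fderiv ℝ (standardMapLift k)^[n + 1] p‖ * nb u (-1) := by
  have hF : (standardMapLift k)^[n + 1] = fun p => (obR k (Lm p).1 (Lm p).2 (n + 1 + 1),
      obR k (Lm p).1 (Lm p).2 (n + 1 + 1) - obR k (Lm p).1 (Lm p).2 (n + 1)) := by
    funext p
    exact iterate_lift k p (n + 1)
  have hD : HasFDerivAt (standardMapLift k)^[n + 1]
      ((fin_D k p (n + 1 + 1)).prod (fin_D k p (n + 1 + 1) - fin_D k p (n + 1))) p := by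
    rw [hF]
    exact (fin_hasD k p _).prodMk ((fin_hasD k p _).sub (fin_hasD k p _))
  have hv : fderiv ℝ (standardMapLift k)^[n + 1] p (u 0, u 0 - u (-1)) = (u (n + 1), u (n + 1) - u n) := by
    rw [hD.fderiv]
    simp only [ContinuousLinearMap.prod_apply, sub_apply, fin_D_apply k p _ hu]
    rw [show (-1 + ((n + 1 + 1 : ℕ) : ℤ)) = n + 1 by push_cast; ring,
      show (-1 + ((n + 1 : ℕ) : ℤ)) = n by push_cast; ring]
  have h1 := (fderiv ℝ (standardMapLift k)^[n + 1] p).le_opNorm (u 0, u 0 - u (-1))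
  rw [hv] at h1
  have h2 : ‖((u 0, u 0 - u (-1)) : ℝ × ℝ)‖ ≤ 2 * nb u (-1) := by
    have a1 : |u (-1)| ≤ nb u (-1) := le_max_left _ _
    have a2 : |u 0| ≤ nb u (-1) := by
      have : |u (-1 + 1)| ≤ nb u (-1) := le_max_right _ _
      simpa using this
    rw [Prod.norm_def]
    simp only [Real.norm_eq_abs]
    have a3 := abs_sub (u 0) (u (-1))
    have a4 := abs_nonneg (u 0)
    exact max_le (by linarith) (by linarith)
  have h3 : nb u n ≤ 2 * ‖((u (n + 1), u (n + 1) - u n) : ℝ × ℝ)‖ := by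
    rw [Prod.norm_def]
    simp only [Real.norm_eq_abs]
    have a1 := le_max_left |u (n + 1)| |u (n + 1) - u n|
    have a2 := le_max_right |u (n + 1)| |u (n + 1) - u n|
    have a3 := abs_sub (u (n + 1)) (u (n + 1) - u n)
    rw [sub_sub_cancel] at a3
    have a4 := abs_nonneg (u (n + 1))
    exact max_le (by linarith) (by linarith)
  have h4 := norm_nonneg (fderiv ℝ (standardMapLift k)^[n + 1] p)
  have h5 := mul_le_mul_of_nonneg_left h2 h4
  linarith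

/-- Fubini: for fixed `x`, `y ↦ vs k (x - y, x) ∈ B` is `1`-periodic (`vs_periodic`, `volume_periodic`);
`B = sh 1 ⁻¹' A`, `inv_nu`. -/
theorem volume_Lm (k : ℝ) {A : Set (ℤ → ℝ)} (hA : MeasurableSet A) :
    volume ({p | sh 1 (vs k (Lm p)) ∈ A} ∩ Ico (0 : ℝ) 1 ×ˢ Ico (0 : ℝ) 1) = nu k A := by
  have hB : MeasurableSet (sh 1 ⁻¹' A) := measurable_sh 1 hA
  have hC : MeasurableSet (vs k ⁻¹' (sh 1 ⁻¹' A)) := measurable_vs k hB
  have hL : Measurable Lm := (measurable_fst.sub measurable_snd).prodMk measurable_fst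
  have hI : MeasurableSet (Ico (0 : ℝ) 1 ×ˢ Ico (0 : ℝ) 1) := measurableSet_Ico.prod measurableSet_Ico
  have hS : MeasurableSet {p | sh 1 (vs k (Lm p)) ∈ A} := hL hC
  rw [← inv_nu k 1 A hA, nu_apply k hB, Measure.volume_eq_prod, Measure.prod_apply (hS.inter hI),
    Measure.prod_apply_symm (hC.inter hI)]
  refine lintegral_congr fun x => ?_
  by_cases hx : x ∈ Ico (0 : ℝ) 1
  · have hE : MeasurableSet {ξ : ℝ | vs k (ξ, x) ∈ sh 1 ⁻¹' A} :=
      (measurable_id.prodMk measurable_const) hC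
    have hp : ∀ ξ : ℝ, ξ + 1 ∈ {ξ : ℝ | vs k (ξ, x) ∈ sh 1 ⁻¹' A} ↔
        ξ ∈ {ξ : ℝ | vs k (ξ, x) ∈ sh 1 ⁻¹' A} := by
      intro ξ
      have := vs_periodic k (ξ, x) 1 0
      simp only [Int.cast_one, Int.cast_zero, add_zero] at this
      simp only [Set.mem_ofPred_eq, this]
    have h := (volume_periodic hE hp x).2
    have e1 : Prod.mk x ⁻¹' ({p | sh 1 (vs k (Lm p)) ∈ A} ∩ Ico (0 : ℝ) 1 ×ˢ Ico (0 : ℝ) 1) =
        {y | x - y ∈ {ξ : ℝ | vs k (ξ, x) ∈ sh 1 ⁻¹' A}} ∩ Ico 0 1 := by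
      ext y
      simp only [mem_preimage, mem_inter_iff, mem_ofPred_eq, mem_prod, hx, true_and, Lm]
    have e2 : (fun ξ : ℝ => (ξ, x)) ⁻¹' (vs k ⁻¹' (sh 1 ⁻¹' A) ∩ Ico (0 : ℝ) 1 ×ˢ Ico (0 : ℝ) 1) =
        {ξ : ℝ | vs k (ξ, x) ∈ sh 1 ⁻¹' A} ∩ Ico 0 1 := by
      ext y
      simp only [mem_preimage, mem_inter_iff, mem_ofPred_eq, mem_prod, hx, and_true]
    rw [e1, e2, h]
  · have e1 : Prod.mk x ⁻¹' ({p | sh 1 (vs k (Lm p)) ∈ A} ∩ Ico (0 : ℝ) 1 ×ˢ Ico (0 : ℝ) 1) = ∅ := by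
      ext y
      simp only [mem_preimage, mem_inter_iff, mem_prod, hx, false_and, and_false, mem_empty_iff_false]
    have e2 : (fun ξ : ℝ => (ξ, x)) ⁻¹' (vs k ⁻¹' (sh 1 ⁻¹' A) ∩ Ico (0 : ℝ) 1 ×ˢ Ico (0 : ℝ) 1) = ∅ := by
      ext y
      simp only [mem_preimage, mem_inter_iff, mem_prod, hx, and_false, mem_empty_iff_false]
    rw [e1, e2]

/-- infinitely many of the events occur with probability `≥ 1/2` -/
theorem half_le_frequently {Ω : Type*} [MeasurableSpace Ω] (ν : Measure Ω) [IsProbabilityMeasure ν]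
    (A : ℕ → Set Ω) (hA : ∀ J, MeasurableSet (A J)) (h : ∀ J, ν.real (A J)ᶜ ≤ 1 / 2) :
    MeasurableSet {x | ∃ᶠ J in Filter.atTop, x ∈ A J} ∧ 0 < ν {x | ∃ᶠ J in Filter.atTop, x ∈ A J} := by
  have hc : {x | ∃ᶠ J in Filter.atTop, x ∈ A J}ᶜ = ⋃ N, ⋂ J, ⋂ (_ : N ≤ J), (A J)ᶜ := by
    ext x
    simp only [mem_compl_iff, mem_ofPred_eq, Filter.not_frequently, Filter.eventually_atTop, mem_iUnion,
      mem_iInter]
  have hm : MeasurableSet {x | ∃ᶠ J in Filter.atTop, x ∈ A J}ᶜ := by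
    rw [hc]
    exact MeasurableSet.iUnion fun N => MeasurableSet.iInter fun J => MeasurableSet.iInter fun _ =>
      (hA J).compl
  refine ⟨MeasurableSet.of_compl hm, ?_⟩
  have hmono : Monotone fun N : ℕ => ⋂ J, ⋂ (_ : N ≤ J), (A J)ᶜ := by
    intro N M hNM x hx
    simp only [mem_iInter] at hx ⊢
    exact fun J hJ => hx J (hNM.trans hJ)
  have hle : ν {x | ∃ᶠ J in Filter.atTop, x ∈ A J}ᶜ ≤ ENNReal.ofReal (1 / 2) := by
    rw [hc, hmono.measure_iUnion]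
    refine iSup_le fun N => ?_
    have h1 : (⋂ J, ⋂ (_ : N ≤ J), (A J)ᶜ) ⊆ (A N)ᶜ := fun x hx => by
      simp only [mem_iInter] at hx
      exact hx N le_rfl
    refine (measure_mono h1).trans ?_
    rw [← ofReal_measureReal (measure_ne_top ν _)]
    exact ENNReal.ofReal_le_ofReal (h N)
  rw [pos_iff_ne_zero]
  intro h0
  rw [prob_compl_eq_one_sub (MeasurableSet.of_compl hm), h0, tsub_zero, ← ENNReal.ofReal_one,
    ENNReal.ofReal_le_ofReal_iff (by norm_num)] at hle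
  norm_num at hle

end Crest.Agent.R128
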