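import Crest.Agent.R128.Hier4

/-!
# Row 128, Hier2: locality, shift covariance and measurability of the hierarchy.
Keep the statements; add auxiliary lemmas freely (prefix `hier2_`).
-/

set_option autoImplicit false

noncomputable section

open scoped Classical
open MeasureTheory Set

namespace Crest.Agent.R128

theorem bits_sh (q t : ℝ) (s : ℤ) (v : ℤ → ℝ) : bits q t (sh s v) = (bits q t v).sh s := by
  simp only [bits, Bits.sh, Z0, Z1, nb, ph_sh, add_right_comm _ (1 : ℤ) s]
  rfl

theorem measurable_Z0 (q : ℝ) (i : ℤ) : Measurable fun v : ℤ → ℝ => Z0 q v i := by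
  unfold Z0
  exact (measurable_pi_apply i).abs.div_const _

theorem measurable_Z1 (q : ℝ) (j : ℕ) (a m b : ℤ) : Measurable fun v : ℤ → ℝ => Z1 q v j a m b := by
  unfold Z1 nb
  exact ((measurable_ph a b).abs.const_mul _).div
    (((measurable_ph a m).abs.max (measurable_ph a (m + 1)).abs).mul
      ((measurable_ph b m).abs.max (measurable_ph b (m + 1)).abs))

/-! ### shift covariance at the combinatorial level -/

theorem hier2_ex (s : ℤ) {P Q : ℤ → Prop} (h : ∀ w, P w ↔ Q (w + s)) : (∃ w, P w) ↔ ∃ w, Q w :=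
  (Equiv.addRight s).exists_congr h

theorem hier2_all (s : ℤ) {P Q : ℤ → Prop} (h : ∀ w, P w ↔ Q (w + s)) : (∀ w, P w) ↔ ∀ w, Q w :=
  (Equiv.addRight s).forall_congr h

theorem hier2_free (B : ℤ → Prop) (s x y : ℤ) :
    Free (fun i => B (i + s)) x y ↔ Free B (x + s) (y + s) :=
  hier2_all s fun _ => imp_congr (by omega) (imp_congr (by omega) Iff.rfl)

theorem hier2_reg (D : ℤ → Prop) (s y : ℤ) : Reg (fun i => D (i + s)) y ↔ Reg D (y + s) := by
  unfold Reg
  rw [add_right_comm y s 1]

theorem hier2_re (D : ℤ → Prop) (s y : ℤ) : RE (fun i => D (i + s)) y ↔ RE D (y + s) := by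
  unfold RE
  rw [add_right_comm y s 1]

theorem hier2_le (D : ℤ → Prop) (s y : ℤ) : LE (fun i => D (i + s)) y ↔ LE D (y + s) := by
  unfold LE
  rw [show y + s - 1 = y - 1 + s by ring]

/-- the shifted state -/
def hier2_sh (s : ℤ) (σ : St) : St := ⟨fun i => σ.B (i + s), fun i => σ.D (i + s)⟩

theorem hier2_abs (j : ℕ) (s : ℤ) (σ : St) (y : ℤ) : Abs j (hier2_sh s σ) y ↔ Abs j σ (y + s) := by
  refine hier2_ex s fun w => and_congr (by omega) (and_congr (by omega) (and_congr ?_ ?_))
  · rw [add_right_comm w s]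
    exact hier2_free _ _ _ _
  · rw [add_right_comm w s, ← cnt_shift]
    rfl

theorem hier2_b1 (j : ℕ) (s : ℤ) (σ : St) (y : ℤ) : B1 j (hier2_sh s σ) y ↔ B1 j σ (y + s) :=
  or_congr Iff.rfl (hier2_abs j s σ y)

theorem hier2_b2 (j : ℕ) (s : ℤ) (σ : St) (y : ℤ) : B2 j (hier2_sh s σ) y ↔ B2 j σ (y + s) :=
  hier2_ex s fun u => hier2_ex s fun u' => and_congr (by omega) (and_congr (by omega)
    (and_congr (by omega) (and_congr (hier2_b1 j s σ u) (hier2_b1 j s σ u'))))

theorem hier2_comp (j : ℕ) (s : ℤ) (σ : St) (l r : ℤ) :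
    Comp j (hier2_sh s σ) l r ↔ Comp j σ (l + s) (r + s) := by
  refine and_congr (by omega) (and_congr (by omega) (and_congr (hier2_all s fun i =>
    imp_congr (by omega) (imp_congr (by omega) (hier2_b2 j s σ i))) (and_congr ?_ ?_)))
  · rw [hier2_b2, show l + s - 1 = l - 1 + s by ring]
  · rw [hier2_b2, add_right_comm r s 1]

theorem hier2_test (ω : Bits) (j : ℕ) (s : ℤ) (σ : St) (l r : ℤ) :
    Test (ω.sh s) j (hier2_sh s σ) l r ↔ Test ω j σ (l + s) (r + s) := by
  refine hier2_all s fun a => hier2_all s fun b => imp_congr (by omega) (imp_congr (by omega)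
    (imp_congr (by omega) (imp_congr (by omega) (imp_congr (hier2_reg _ _ _)
      (imp_congr (hier2_reg _ _ _) ?_)))))
  rw [add_right_comm b s 1]
  rfl

theorem hier2_heal (ω : Bits) (j : ℕ) (s : ℤ) (σ : St) (l r : ℤ) :
    Heal (ω.sh s) j (hier2_sh s σ) l r ↔ Heal ω j σ (l + s) (r + s) :=
  and_congr (hier2_comp j s σ l r) (hier2_test ω j s σ l r)

theorem hier2_hl (ω : Bits) (j : ℕ) (s : ℤ) (σ : St) (y : ℤ) :
    Hl (ω.sh s) j (hier2_sh s σ) y ↔ Hl ω j σ (y + s) :=
  hier2_ex s fun l => hier2_ex s fun r => and_congr (by omega) (and_congr (by omega)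
    (hier2_heal ω j s σ l r))

theorem hier2_step (ω : Bits) (j : ℕ) (s : ℤ) (σ : St) :
    step (ω.sh s) j (hier2_sh s σ) = hier2_sh s (step ω j σ) := by
  unfold step
  congr 1
  · funext y
    exact propext (and_congr (hier2_b2 j s σ y) (not_congr (hier2_hl ω j s σ y)))
  · funext y
    exact propext (or_congr Iff.rfl (hier2_ex s fun l => hier2_ex s fun r =>
      and_congr (hier2_heal ω j s σ l r) (by omega)))

theorem hier2_hier (ω : Bits) (s : ℤ) (j : ℕ) : hier (ω.sh s) j = hier2_sh s (hier ω j) := by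
  induction j with
  | zero => rfl
  | succ j ih => rw [hier, ih, hier2_step, hier]

theorem hier2_gap (j : ℕ) (s : ℤ) (σ : St) (y : ℤ) : Gap j (hier2_sh s σ) y ↔ Gap j σ (y + s) := by
  refine exists_congr fun G => and_congr Iff.rfl (and_congr Iff.rfl (and_congr Iff.rfl ?_))
  rw [add_right_comm y s G, add_right_comm y s 1]
  exact and_congr Iff.rfl (hier2_free _ _ _ _)

theorem hier2_hi (q t : ℝ) (s : ℤ) (v : ℤ → ℝ) (j : ℕ) :
    hi q t (sh s v) j = hier2_sh s (hi q t v j) := by
  unfold hi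
  rw [bits_sh, hier2_hier]

/-! ### measurability -/

section meas

variable {Ω : Type*} [MeasurableSpace Ω]

theorem hier2_m_free {p : Ω → ℤ → Prop} (h : ∀ y, Measurable fun v => p v y) (x y : ℤ) :
    Measurable fun v => Free (p v) x y :=
  Measurable.forall fun i => measurable_const.imp (measurable_const.imp (h i).not)

theorem hier2_m_reg {p : Ω → ℤ → Prop} (h : ∀ y, Measurable fun v => p v y) (y : ℤ) :
    Measurable fun v => Reg (p v) y := (h y).not.and (h (y + 1)).not

theorem hier2_m_re {p : Ω → ℤ → Prop} (h : ∀ y, Measurable fun v => p v y) (y : ℤ) :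
    Measurable fun v => RE (p v) y := (h y).and (h (y + 1)).not

theorem hier2_m_le {p : Ω → ℤ → Prop} (h : ∀ y, Measurable fun v => p v y) (y : ℤ) :
    Measurable fun v => LE (p v) y := (h y).and (h (y - 1)).not

theorem hier2_m_cnt {p : Ω → ℤ → Prop} (h : ∀ y, Measurable fun v => p v y) (x y : ℤ) :
    Measurable fun v => cnt (p v) x y := by
  have e : (fun v => cnt (p v) x y) = fun v => ∑ i ∈ Finset.Ico x y, if p v i then (1 : ℤ) else 0 := by
    funext v
    unfold cnt
    rw [Finset.card_filter]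
    push_cast
    rfl
  rw [e]
  exact Finset.measurable_sum _ fun i _ =>
    Measurable.ite (h i).setOf measurable_const measurable_const

variable {σ : Ω → St} {ω : Ω → Bits}

theorem hier2_m_abs (hB : ∀ y, Measurable fun v => (σ v).B y) (hD : ∀ y, Measurable fun v => (σ v).D y)
    (j : ℕ) (y : ℤ) : Measurable fun v => Abs j (σ v) y :=
  Measurable.exists fun w => measurable_const.and (measurable_const.and ((hier2_m_free hB _ _).and
    ((Measurable.of_discrete (f := fun z : ℤ => nn j ≤ 100 * z)).comp (hier2_m_cnt hD w (w + nn j)))))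

theorem hier2_m_b1 (hB : ∀ y, Measurable fun v => (σ v).B y) (hD : ∀ y, Measurable fun v => (σ v).D y)
    (j : ℕ) (y : ℤ) : Measurable fun v => B1 j (σ v) y :=
  (hB y).or (hier2_m_abs hB hD j y)

theorem hier2_m_b2 (hB : ∀ y, Measurable fun v => (σ v).B y) (hD : ∀ y, Measurable fun v => (σ v).D y)
    (j : ℕ) (y : ℤ) : Measurable fun v => B2 j (σ v) y :=
  Measurable.exists fun u => Measurable.exists fun u' => measurable_const.and (measurable_const.and
    (measurable_const.and ((hier2_m_b1 hB hD j u).and (hier2_m_b1 hB hD j u'))))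

theorem hier2_m_comp (hB : ∀ y, Measurable fun v => (σ v).B y) (hD : ∀ y, Measurable fun v => (σ v).D y)
    (j : ℕ) (l r : ℤ) : Measurable fun v => Comp j (σ v) l r :=
  measurable_const.and (measurable_const.and ((Measurable.forall fun i => measurable_const.imp
    (measurable_const.imp (hier2_m_b2 hB hD j i))).and
      ((hier2_m_b2 hB hD j _).not.and (hier2_m_b2 hB hD j _).not)))

theorem hier2_m_test (hD : ∀ y, Measurable fun v => (σ v).D y)
    (hω : ∀ j a m b, Measurable fun v => (ω v).ok j a m b)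
    (j : ℕ) (l r : ℤ) : Measurable fun v => Test (ω v) j (σ v) l r :=
  Measurable.forall fun a => Measurable.forall fun b => measurable_const.imp (measurable_const.imp
    (measurable_const.imp (measurable_const.imp ((hier2_m_reg hD a).imp
      ((hier2_m_reg hD b).imp (hω j a l (b + 1)))))))

theorem hier2_m_heal (hB : ∀ y, Measurable fun v => (σ v).B y) (hD : ∀ y, Measurable fun v => (σ v).D y)
    (hω : ∀ j a m b, Measurable fun v => (ω v).ok j a m b)
    (j : ℕ) (l r : ℤ) : Measurable fun v => Heal (ω v) j (σ v) l r :=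
  (hier2_m_comp hB hD j l r).and (hier2_m_test hD hω j l r)

theorem hier2_m_hl (hB : ∀ y, Measurable fun v => (σ v).B y) (hD : ∀ y, Measurable fun v => (σ v).D y)
    (hω : ∀ j a m b, Measurable fun v => (ω v).ok j a m b)
    (j : ℕ) (y : ℤ) : Measurable fun v => Hl (ω v) j (σ v) y :=
  Measurable.exists fun l => Measurable.exists fun r => measurable_const.and (measurable_const.and
    (hier2_m_heal hB hD hω j l r))

theorem hier2_m_gap (hB : ∀ y, Measurable fun v => (σ v).B y) (j : ℕ) (y : ℤ) :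
    Measurable fun v => Gap j (σ v) y :=
  Measurable.exists fun G => measurable_const.and (measurable_const.and ((hB y).and
    ((hB (y + G)).and (hier2_m_free hB _ _))))

theorem hier2_m_hier (hd : ∀ y, Measurable fun v => (ω v).df y)
    (hω : ∀ j a m b, Measurable fun v => (ω v).ok j a m b) (j : ℕ) :
    (∀ y, Measurable fun v => (hier (ω v) j).B y) ∧ ∀ y, Measurable fun v => (hier (ω v) j).D y := by
  induction j with
  | zero => exact ⟨hd, fun _ => measurable_const⟩
  | succ j ih =>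
    obtain ⟨hB, hD⟩ := ih
    exact ⟨fun y => (hier2_m_b2 hB hD j y).and (hier2_m_hl hB hD hω j y).not,
      fun y => (hD y).or (Measurable.exists fun l => Measurable.exists fun r =>
        (hier2_m_heal hB hD hω j l r).and measurable_const)⟩

end meas

theorem hier2_m_df (q t : ℝ) (y : ℤ) : Measurable fun v => (bits q t v).df y :=
  measurableSet_setOfPred.1 (measurableSet_lt (measurable_Z0 q y) measurable_const)

theorem hier2_m_ok (q t : ℝ) (j : ℕ) (a m b : ℤ) : Measurable fun v => (bits q t v).ok j a m b :=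
  measurableSet_setOfPred.1 (measurableSet_le measurable_const (measurable_Z1 q j a m b))

theorem hier2_m_B (q t : ℝ) (j : ℕ) (y : ℤ) : Measurable fun v => (hi q t v j).B y :=
  (hier2_m_hier (hier2_m_df q t) (hier2_m_ok q t) j).1 y

theorem hier2_m_D (q t : ℝ) (j : ℕ) (y : ℤ) : Measurable fun v => (hi q t v j).D y :=
  (hier2_m_hier (hier2_m_df q t) (hier2_m_ok q t) j).2 y

theorem Cov.hier2_m {p : (ℤ → ℝ) → ℤ → Prop} (h : Cov p) (y : ℤ) : Measurable fun v => p v y :=
  measurableSet_setOfPred.1 (h.1 y)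

theorem Cov2.hier2_m {p : (ℤ → ℝ) → ℤ → ℤ → Prop} (h : Cov2 p) (y y' : ℤ) :
    Measurable fun v => p v y y' :=
  measurableSet_setOfPred.1 (h.1 y y')

theorem Cov.hier2_eq {p : (ℤ → ℝ) → ℤ → Prop} (h : Cov p) (v : ℤ → ℝ) (s : ℤ) :
    p (sh s v) = fun i => p v (i + s) :=
  funext fun i => propext (h.2 v s i)

/-! Closure properties.  Use `measurableSet_setOf` and `Measurable.and`, `.or`, `.not`, `.imp`, `.forall`,
`.exists`. -/

theorem Cov.and {p p' : (ℤ → ℝ) → ℤ → Prop} (h : Cov p) (h' : Cov p') : Cov fun v y => p v y ∧ p' v y := by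
  exact ⟨fun y => ((h.hier2_m y).and (h'.hier2_m y)).setOf,
    fun v s y => and_congr (h.2 v s y) (h'.2 v s y)⟩

theorem Cov.or {p p' : (ℤ → ℝ) → ℤ → Prop} (h : Cov p) (h' : Cov p') : Cov fun v y => p v y ∨ p' v y := by
  exact ⟨fun y => ((h.hier2_m y).or (h'.hier2_m y)).setOf,
    fun v s y => or_congr (h.2 v s y) (h'.2 v s y)⟩

theorem Cov.not {p : (ℤ → ℝ) → ℤ → Prop} (h : Cov p) : Cov fun v y => ¬ p v y := by
  exact ⟨fun y => (h.hier2_m y).not.setOf, fun v s y => not_congr (h.2 v s y)⟩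

theorem Cov.shift {p : (ℤ → ℝ) → ℤ → Prop} (h : Cov p) (c : ℤ) : Cov fun v y => p v (y + c) := by
  refine ⟨fun y => h.1 (y + c), fun v s y => ?_⟩
  beta_reduce
  rw [add_right_comm y s c]
  exact h.2 v s (y + c)

theorem Cov.re {p : (ℤ → ℝ) → ℤ → Prop} (h : Cov p) : Cov fun v => RE (p v) := by
  refine ⟨fun y => (hier2_m_re h.hier2_m y).setOf, fun v s y => ?_⟩
  beta_reduce
  rw [h.hier2_eq, hier2_re]

theorem Cov.le {p : (ℤ → ℝ) → ℤ → Prop} (h : Cov p) : Cov fun v => LE (p v) := by
  refine ⟨fun y => (hier2_m_le h.hier2_m y).setOf, fun v s y => ?_⟩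
  beta_reduce
  rw [h.hier2_eq, hier2_le]

theorem Cov.reg {p : (ℤ → ℝ) → ℤ → Prop} (h : Cov p) : Cov fun v => Reg (p v) := by
  refine ⟨fun y => (hier2_m_reg h.hier2_m y).setOf, fun v s y => ?_⟩
  beta_reduce
  rw [h.hier2_eq, hier2_reg]

theorem Cov.free {p : (ℤ → ℝ) → ℤ → Prop} (h : Cov p) : Cov2 fun v => Free (p v) := by
  refine ⟨fun y y' => (hier2_m_free h.hier2_m y y').setOf, fun v s y y' => ?_⟩
  beta_reduce
  rw [h.hier2_eq, hier2_free]

/-- for all `i` in a window attached to `y` -/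
theorem Cov.forall_window {p : (ℤ → ℝ) → ℤ → Prop} (h : Cov p) (n : ℤ) :
    Cov fun v y => ∀ i, y - n < i → i ≤ y → p v i := by
  exact ⟨fun y => (Measurable.forall fun i =>
      measurable_const.imp (measurable_const.imp (h.hier2_m i))).setOf,
    fun v s y => hier2_all s fun i => imp_congr (by omega) (imp_congr (by omega) (h.2 v s i))⟩

theorem Cov.measurable_cnt {p : (ℤ → ℝ) → ℤ → Prop} (h : Cov p) (x y : ℤ) :
    Measurable fun v => cnt (p v) x y := by
  exact hier2_m_cnt h.hier2_m x y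

theorem Cov2.exists_left {p : (ℤ → ℝ) → ℤ → ℤ → Prop} (h : Cov2 p) : Cov fun v y => ∃ l, p v l y := by
  exact ⟨fun y => (Measurable.exists fun l => h.hier2_m l y).setOf,
    fun v s y => hier2_ex s fun l => h.2 v s l y⟩

theorem Cov2.exists_right {p : (ℤ → ℝ) → ℤ → ℤ → Prop} (h : Cov2 p) : Cov fun v y => ∃ r, p v y r := by
  exact ⟨fun y => (Measurable.exists fun r => h.hier2_m y r).setOf,
    fun v s y => hier2_ex s fun r => h.2 v s y r⟩

theorem Cov2.swap {p : (ℤ → ℝ) → ℤ → ℤ → Prop} (h : Cov2 p) : Cov2 fun v y y' => p v y' y := by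
  exact ⟨fun y y' => h.1 y' y, fun v s y y' => h.2 v s y' y⟩

variable (q t : ℝ) (j : ℕ)

/-! Induction on `j` for `B` and `D` together; it is convenient to prove, for a family `s : (ℤ → ℝ) → St` with
`Cov fun v => (s v).B` and `Cov fun v => (s v).D`, the covariance of `Abs j (s v)`, `B1`, `B2`, `Comp`, `Test`, … -/

theorem cov_B : Cov fun v => (hi q t v j).B := by
  refine ⟨fun y => (hier2_m_B q t j y).setOf, fun v s y => ?_⟩
  beta_reduce
  rw [hier2_hi]
  rfl

theorem cov_D : Cov fun v => (hi q t v j).D := by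
  refine ⟨fun y => (hier2_m_D q t j y).setOf, fun v s y => ?_⟩
  beta_reduce
  rw [hier2_hi]
  rfl

theorem cov_Abs : Cov fun v => Abs j (hi q t v j) := by
  refine ⟨fun y => (hier2_m_abs (hier2_m_B q t j) (hier2_m_D q t j) j y).setOf, fun v s y => ?_⟩
  beta_reduce
  rw [hier2_hi, hier2_abs]

theorem cov_B1 : Cov fun v => B1 j (hi q t v j) := by
  refine ⟨fun y => (hier2_m_b1 (hier2_m_B q t j) (hier2_m_D q t j) j y).setOf, fun v s y => ?_⟩
  beta_reduce
  rw [hier2_hi, hier2_b1]

theorem cov_B2 : Cov fun v => B2 j (hi q t v j) := by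
  refine ⟨fun y => (hier2_m_b2 (hier2_m_B q t j) (hier2_m_D q t j) j y).setOf, fun v s y => ?_⟩
  beta_reduce
  rw [hier2_hi, hier2_b2]

theorem cov_Hl : Cov fun v => Hl (bits q t v) j (hi q t v j) := by
  refine ⟨fun y => (hier2_m_hl (hier2_m_B q t j) (hier2_m_D q t j) (hier2_m_ok q t) j y).setOf,
    fun v s y => ?_⟩
  beta_reduce
  rw [hier2_hi, bits_sh, hier2_hl]

theorem cov_Gap : Cov fun v => Gap j (hi q t v j) := by
  refine ⟨fun y => (hier2_m_gap (hier2_m_B q t j) j y).setOf, fun v s y => ?_⟩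
  beta_reduce
  rw [hier2_hi, hier2_gap]

theorem hier2_cov2_res :
    Cov2 fun v l r => Comp j (hi q t v j) l r ∧ ¬ Test (bits q t v) j (hi q t v j) l r := by
  refine ⟨fun l r => ((hier2_m_comp (hier2_m_B q t j) (hier2_m_D q t j) j l r).and
    (hier2_m_test (hier2_m_D q t j) (hier2_m_ok q t) j l r).not).setOf, fun v s l r => ?_⟩
  beta_reduce
  rw [hier2_hi, bits_sh, hier2_comp, hier2_test]

theorem cov_Res : Cov fun v => Res (bits q t v) j := by
  exact (hier2_cov2_res q t j).exists_right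

theorem cov2_res : Cov2 fun v l r => Comp j (hi q t v j) l r ∧ ¬ Test (bits q t v) j (hi q t v j) l r := by
  exact hier2_cov2_res q t j

/-- the relation of the last case of `case1` -/
theorem cov2_next : Cov2 fun v y y' => RE (B1 j (hi q t v j)) y ∧ y < y' ∧ Free (B1 j (hi q t v j)) (y + 1) y' ∧
    LE (Abs j (hi q t v j)) y' := by
  have h1 := cov_B1 q t j
  have h2 := cov_Abs q t j
  refine ⟨fun y y' => ((h1.re.hier2_m y).and (measurable_const.and
    ((h1.free.hier2_m (y + 1) y').and (h2.le.hier2_m y')))).setOf, fun v s y y' => ?_⟩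
  refine and_congr (h1.re.2 v s y) (and_congr (by omega) (and_congr ?_ (h2.le.2 v s y')))
  rw [add_right_comm y s 1]
  exact h1.free.2 v s (y + 1) y'

end Crest.Agent.R128
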