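import Crest.Agent.R128.Hier1

/-!
# Row 128, Hier3: anchors of absorbed windows and the case distinctions behind the density inequalities.
Pure combinatorics.  Keep the statements; add auxiliary lemmas freely (prefix `hier3_`).
-/

set_option autoImplicit false

noncomputable section

open scoped Classical
open MeasureTheory Set

namespace Crest.Agent.R128

theorem hier3_cnt_sub {D D' : ℤ → Prop} {x y x' y' : ℤ}
    (h : ∀ i, x ≤ i → i < y → D i → x' ≤ i ∧ i < y' ∧ D' i) : cnt D x y ≤ cnt D' x' y' := by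
  unfold cnt
  refine Int.ofNat_le.mpr (Finset.card_le_card fun i hi => ?_)
  simp only [Finset.mem_filter, Finset.mem_Ico] at hi ⊢
  obtain ⟨h1, h2, h3⟩ := h i hi.1.1 hi.1.2 hi.2
  exact ⟨⟨h1, h2⟩, h3⟩

theorem hier3_cnt_split (D : ℤ → Prop) (w z : ℤ) {a b : ℤ} (hab : a ≤ b) :
    cnt D w z ≤ cnt D w a + (b - a) + cnt D b z := by
  have h1 : cnt D w z ≤
      cnt (fun i => (D i ∧ i < a) ∨ ((a ≤ i ∧ i < b) ∨ (D i ∧ b ≤ i))) w z := by
    apply hier3_cnt_sub
    intro i hi hi' hD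
    refine ⟨hi, hi', ?_⟩
    by_cases h1 : i < a
    · exact Or.inl ⟨hD, h1⟩
    by_cases h2 : i < b
    · exact Or.inr (Or.inl ⟨by omega, h2⟩)
    · exact Or.inr (Or.inr ⟨hD, by omega⟩)
  have h2 := cnt_or (fun i => D i ∧ i < a) (fun i => (a ≤ i ∧ i < b) ∨ (D i ∧ b ≤ i)) w z
  have h3 := cnt_or (fun i => a ≤ i ∧ i < b) (fun i => D i ∧ b ≤ i) w z
  have h4 : cnt (fun i => D i ∧ i < a) w z ≤ cnt D w a :=
    hier3_cnt_sub fun i hi _ hD => ⟨hi, hD.2, hD.1⟩
  have h5 : cnt (fun i => a ≤ i ∧ i < b) w z ≤ cnt (fun _ => True) a b :=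
    hier3_cnt_sub fun i _ _ hD => ⟨hD.1, hD.2, trivial⟩
  have h6 : cnt (fun i => D i ∧ b ≤ i) w z ≤ cnt D b z :=
    hier3_cnt_sub fun i _ hi' hD => ⟨hD.2, hi', hD.1⟩
  have h7 := cnt_le (fun _ => True) hab
  omega

theorem hier3_cnt_le (D : ℤ → Prop) {x y : ℤ} (h : 1 ≤ cnt D x y) : cnt D x y ≤ y - x := by
  obtain ⟨i, h1, h2, -⟩ := exists_of_cnt_pos h
  exact cnt_le D (by omega)

theorem hier3_zone_one (ω : Bits) (j : ℕ) (s : St) (x : ℤ) :
    cnt (fun y => ∃ l r, Heal ω j s l r ∧ l - dd j ≤ y ∧ y ≤ r + dd j) x (x + 5 * 10 ^ 9 * nn j) ≤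
      2 * dd j + nn j := by
  have hn := nn_pos j
  by_cases h0 : Free (fun y => ∃ l r, Heal ω j s l r ∧ l - dd j ≤ y ∧ y ≤ r + dd j) x
      (x + 5 * 10 ^ 9 * nn j)
  · rw [cnt_eq_zero h0]
    unfold dd
    omega
  · unfold Free at h0
    push Not at h0
    obtain ⟨y0, hy0, hy0', l, r, hH, hl, hr⟩ := h0
    have h1 : cnt (fun y => ∃ l r, Heal ω j s l r ∧ l - dd j ≤ y ∧ y ≤ r + dd j) x
        (x + 5 * 10 ^ 9 * nn j) ≤ cnt (fun _ => True) (l - dd j) (r + dd j + 1) := by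
      apply hier3_cnt_sub
      rintro i hi hi' ⟨l', r', hH', hl', hr'⟩
      rcases hH.1.sep hH'.1 with ⟨rfl, rfl⟩ | h | h
      · exact ⟨hl', by omega, trivial⟩
      · exfalso
        unfold gg dd at *
        omega
      · exfalso
        unfold gg dd at *
        omega
    have h2 := cnt_le (fun _ => True) (x := l - dd j) (y := r + dd j + 1) (by omega)
    have h3 := hH.1.2.1
    omega

theorem hier3_hl_run {ω : Bits} {j : ℕ} {s : St} {a y : ℤ} (h : ∀ i, a ≤ i → i ≤ y → B2 j s i) :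
    ∀ i, a ≤ i → i ≤ y → (Hl ω j s i ↔ Hl ω j s y) := by
  have key : ∀ k : ℕ, a ≤ y - k → (Hl ω j s (y - k) ↔ Hl ω j s y) := by
    intro k
    induction k with
    | zero => intro _; simp
    | succ k ih =>
      intro hk
      push_cast at hk ⊢
      have e : y - k = y - (k + 1) + 1 := by ring
      rw [hl_succ (h _ hk (by omega)) (h _ (by omega) (by omega)), ← e]
      exact ih (by omega)
  intro i hi hi'
  have := key (y - i).toNat (by omega)
  rwa [show y - ((y - i).toNat : ℤ) = i by omega] at this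

theorem hier3_least {B : ℤ → Prop} {y u : ℤ} (hu : y < u) (hB : B u) :
    ∃ y', y < y' ∧ y' ≤ u ∧ B y' ∧ Free B (y + 1) y' := by
  obtain ⟨y', ⟨h1, h2⟩, h3⟩ := Int.exists_least_of_bdd (P := fun z => y < z ∧ B z)
    ⟨y, fun z hz => hz.1.le⟩ ⟨u, hu, hB⟩
  refine ⟨y', h1, h3 u ⟨hu, hB⟩, h2, fun i hi hi' hBi => ?_⟩
  have := h3 i ⟨by omega, hBi⟩
  omega

theorem hier3_greatest {B : ℤ → Prop} {y u : ℤ} (hu : u < y) (hB : B u) :
    ∃ y', y' < y ∧ u ≤ y' ∧ B y' ∧ Free B (y' + 1) y := by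
  obtain ⟨y', ⟨h1, h2⟩, h3⟩ := Int.exists_greatest_of_bdd (P := fun z => z < y ∧ B z)
    ⟨y, fun z hz => hz.1.le⟩ ⟨u, hu, hB⟩
  refine ⟨y', h1, h3 u ⟨hu, hB⟩, h2, fun i hi hi' hBi => ?_⟩
  have := h3 i ⟨hi', hBi⟩
  omega

theorem hier3_div {X d : ℤ} (hd : 0 < d) (h1 : 2 * d ≤ X) (h2 : X < 2200 * d) :
    ∃ i : ℤ, 2 ≤ i ∧ i < 2200 ∧ i * d ≤ X ∧ X < i * d + d := by
  refine ⟨X / d, (Int.le_ediv_iff_mul_le hd).mpr h1, (Int.ediv_lt_iff_lt_mul hd).mpr h2,
    Int.ediv_mul_le X hd.ne', ?_⟩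
  have := Int.lt_ediv_add_one_mul_self X hd
  linarith

/-- Level-`j` damage is sparse: the zones `[l - dd, r + dd]` have length `≤ 2 dd + n` and the components are
`gg` apart, so a window of length `≤ gg / 2` meets at most one zone; cut `[x, x + m * (gg / 2))` into `m` windows. -/
theorem cnt_zone (ω : Bits) (j : ℕ) (s : St) (x : ℤ) (m : ℕ) :
    cnt (fun y => ∃ l r, Heal ω j s l r ∧ l - dd j ≤ y ∧ y ≤ r + dd j) x (x + m * (5 * 10 ^ 9 * nn j)) ≤
      m * (2 * dd j + nn j) := by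
  have hn := nn_pos j
  induction m with
  | zero =>
    have := cnt_le (fun y => ∃ l r, Heal ω j s l r ∧ l - dd j ≤ y ∧ y ≤ r + dd j) (le_refl x)
    simpa using this
  | succ m ih =>
    have hm : (0 : ℤ) ≤ m * (5 * 10 ^ 9 * nn j) := by positivity
    have e : x + ((m + 1 : ℕ) : ℤ) * (5 * 10 ^ 9 * nn j) =
        x + m * (5 * 10 ^ 9 * nn j) + 5 * 10 ^ 9 * nn j := by push_cast; ring
    rw [e, cnt_add _ (y := x + m * (5 * 10 ^ 9 * nn j)) (by omega) (by omega)]
    have := hier3_zone_one ω j s (x + m * (5 * 10 ^ 9 * nn j))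
    have e2 : ((m + 1 : ℕ) : ℤ) * (2 * dd j + nn j) = m * (2 * dd j + nn j) + (2 * dd j + nn j) := by
      push_cast; ring
    rw [e2]
    exact add_le_add ih this

/-- Anchor lemma.  `N = nn (j+1)`, `W = [w, w + N)` the absorbed window, free of `s'.B`, `s' = step ω j s`.
If no damage zone of level `j` meets `W`, then `W` is `B2`-free, `s'.D = s.D` on `W`, and `fresh1'` contradicts
`N ≤ 100 cnt`.  So a healed component `[l, r]` has its zone meeting `W`.  By `cnt_zone` (`m = 2 * 10 ^ 5`),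
`cnt s.D W ≥ N / 100 - 5 * 10 ^ (-5) N`.  At most `2 de + n` of this is in `[l - de + 1, r + de)`, so one side carries
`≥ 0.0044 N`.  Right side: `e = r`, `i` maximal with `r + i * de ≤ w + N` (loses at most `de = N / 2000`);
`(r, r + gg + 1]` is `B2`-free (`re_b2`) and reaches into `W` as `r ≥ w - dd`.  Left side: mirror image. -/
theorem anchor {ω : Bits} {j : ℕ} {s : St} {y : ℤ} (h : Abs (j + 1) (step ω j s) y) :
    ∃ e i : ℤ, y - 2 * nn (j + 1) ≤ e ∧ e < y + 2 * nn (j + 1) ∧ 2 ≤ i ∧ i < 2200 ∧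
      ((RE (B1 j s) e ∧ Free (step ω j s).B (e + 1) (e + i * de j) ∧
          nn (j + 1) ≤ 800 * cnt s.D (e + de j) (e + i * de j)) ∨
        (LE (B1 j s) e ∧ Free (step ω j s).B (e - i * de j + 1) e ∧
          nn (j + 1) ≤ 800 * cnt s.D (e - i * de j + 1) (e - de j + 1))) := by
  obtain ⟨w, hw, hw', hF, hc⟩ := h
  have hn := nn_pos j
  have hN := nn_succ j
  have hz := cnt_zone ω j s w (2 * 10 ^ 5)
  have e1 : w + ((2 * 10 ^ 5 : ℕ) : ℤ) * (5 * 10 ^ 9 * nn j) = w + nn (j + 1) := by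
    rw [hN]; push_cast; ring
  rw [e1] at hz
  have hor : cnt (step ω j s).D w (w + nn (j + 1)) ≤ cnt s.D w (w + nn (j + 1)) +
      cnt (fun y => ∃ l r, Heal ω j s l r ∧ l - dd j ≤ y ∧ y ≤ r + dd j) w (w + nn (j + 1)) :=
    cnt_or _ _ _ _
  have hdd : dd j = 10 ^ 5 * nn j := rfl
  have hde : de j = 5 * 10 ^ 11 * nn j := rfl
  have hgg : gg j = 10 ^ 10 * nn j := rfl
  by_cases h0 : Free (fun y => ∃ l r, Heal ω j s l r ∧ l - dd j ≤ y ∧ y ≤ r + dd j) w
      (w + nn (j + 1))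
  · exfalso
    rw [cnt_eq_zero h0] at hor
    have hB : Free (B1 j s) w (w + ((10 ^ 15 : ℕ) : ℤ) * nn j) := by
      intro i hi hi' hB
      have hi'' : i < w + nn (j + 1) := by rw [hN]; push_cast at hi'; exact hi'
      apply hF i hi hi''
      refine ⟨hB.b2, ?_⟩
      rintro ⟨l, r, hl, hr, hH⟩
      exact h0 i hi hi'' ⟨l, r, hH, by omega, by omega⟩
    have := fresh1' (by norm_num) hB
    push_cast at this
    rw [hN] at hor hc
    norm_num at this hor hc
    omega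
  unfold Free at h0
  push Not at h0
  obtain ⟨y0, hy0, hy0', l, r, hH, hl, hr⟩ := h0
  have hlr := hH.1.1
  have hlr' := hH.1.2.1
  have hs := hier3_cnt_split s.D w (w + nn (j + 1)) (a := l - de j + 1) (b := r + de j) (by omega)
  push_cast at hz
  by_cases hR : 44 * 10 ^ 11 * nn j ≤ cnt s.D (r + de j) (w + nn (j + 1))
  · have hle := hier3_cnt_le s.D (x := r + de j) (y := w + nn (j + 1)) (by omega)
    obtain ⟨i, hi1, hi2, hi3, hi4⟩ := hier3_div (X := w + nn (j + 1) - r) (d := de j) (by omega)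
      (by omega) (by omega)
    obtain ⟨hre, hfr⟩ := re_b2 hH.1.re
    refine ⟨r, i, by omega, by omega, hi1, hi2, Or.inl ⟨hre, ?_, ?_⟩⟩
    · intro k hk hk' hB
      by_cases hk2 : k < r + gg j + 2
      · exact hfr k hk hk2 hB.1
      · exact hF k (by omega) (by omega) hB
    · have h2d : 2 * de j ≤ i * de j := mul_le_mul_of_nonneg_right hi1 (by omega)
      have ha := cnt_add s.D (x := r + de j) (y := r + i * de j) (z := w + nn (j + 1)) (by omega)
        (by omega)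
      have hb := cnt_le s.D (x := r + i * de j) (y := w + nn (j + 1)) (by omega)
      omega
  · have hL : 44 * 10 ^ 11 * nn j ≤ cnt s.D w (l - de j + 1) := by omega
    have hle := hier3_cnt_le s.D (x := w) (y := l - de j + 1) (by omega)
    obtain ⟨i, hi1, hi2, hi3, hi4⟩ := hier3_div (X := l + 1 - w) (d := de j) (by omega)
      (by omega) (by omega)
    obtain ⟨hre, hfr⟩ := le_b2 hH.1.le
    refine ⟨l, i, by omega, by omega, hi1, hi2, Or.inr ⟨hre, ?_, ?_⟩⟩
    · intro k hk hk' hB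
      by_cases hk2 : l - gg j - 1 ≤ k
      · exact hfr k hk2 hk' hB.1
      · exact hF k (by omega) (by omega) hB
    · have h2d : 2 * de j ≤ i * de j := mul_le_mul_of_nonneg_right hi1 (by omega)
      have ha := cnt_add s.D (x := w) (y := l - i * de j + 1) (z := l - de j + 1) (by omega)
        (by omega)
      have hb := cnt_le s.D (x := w) (y := l - i * de j + 1) (by omega)
      omega

/-- h1.  If `y` is a right end of `B2` it is healed or still bad.  Otherwise let `y'` be the first point of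
`B1` after `y`; `2 ≤ y' - y ≤ gg + 1`. -/
theorem case1 {ω : Bits} {j : ℕ} {s : St} {y : ℤ} (h : RE (B1 j s) y) :
    RE (step ω j s).B y ∨ RE (Hl ω j s) y ∨ Gap j s y ∨ RE (Abs j s) y ∨
      ∃ y', y < y' ∧ Free (B1 j s) (y + 1) y' ∧ LE (Abs j s) y' := by
  by_cases h2 : B2 j s (y + 1)
  · obtain ⟨u, u', hu, hu', hg, hB, hB'⟩ := h2
    have hu1 : u ≤ y := by
      rcases eq_or_lt_of_le hu with rfl | h'
      · exact absurd hB h.2
      · omega
    obtain ⟨y', h1, h2, h3, h4⟩ := hier3_least (B := B1 j s) (y := y) (u := u') (by omega) hB'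
    have h5 : y + 2 ≤ y' := by
      by_contra hc
      obtain rfl : y' = y + 1 := by omega
      exact h.2 h3
    rcases h.1 with hy | hy
    · rcases h3 with hy' | hy'
      · refine Or.inr (Or.inr (Or.inl ⟨y' - y, by omega, by omega, hy, ?_, ?_⟩))
        · rwa [show y + (y' - y) = y' by ring]
        · intro i hi hi' hBi
          exact h4 i hi (by omega) (Or.inl hBi)
      · exact Or.inr (Or.inr (Or.inr (Or.inr ⟨y', h1, h4, hy', fun hA =>
          h4 (y' - 1) (by omega) (by omega) (Or.inr hA)⟩)))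
    · exact Or.inr (Or.inr (Or.inr (Or.inl ⟨hy, fun hA => h.2 (Or.inr hA)⟩)))
  · by_cases hH : Hl ω j s y
    · exact Or.inr (Or.inl ⟨hH, fun hH' => h2 hH'.b2⟩)
    · exact Or.inl ⟨⟨h.1.b2, hH⟩, fun hB => h2 hB.1⟩

/-- h2 -/
theorem case2 {j : ℕ} {s : St} {y : ℤ} (h : RE s.B y) : RE (B1 j s) y ∨ LE (Abs j s) (y + 1) := by
  by_cases h1 : B1 j s (y + 1)
  · refine Or.inr ⟨h1.resolve_left h.2, fun hA => ?_⟩
    rw [add_sub_cancel_right] at hA
    exact hA.not_B h.1
  · exact Or.inl ⟨Or.inl h.1, h1⟩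

/-- h4.  `y` is a right end of `B2` which is not healed.  If `B2` contains `[y - n, y]` these points are bad
(`hl_succ`); otherwise the run ending at `y` is a short component failing the test. -/
theorem case4 {ω : Bits} {j : ℕ} {s : St} {y : ℤ} (h : RE (step ω j s).B y) :
    (∀ i, y - nn j < i → i ≤ y → (step ω j s).B i) ∨ ∃ l, Comp j s l y ∧ ¬ Test ω j s l y := by
  have hre := re_step h
  have hn := nn_pos j
  by_cases h1 : ∀ i, y - nn j ≤ i → i ≤ y → B2 j s i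
  · refine Or.inl fun i hi hi' => ⟨h1 i hi.le hi', fun hH => h.1.2 ?_⟩
    exact (hier3_hl_run h1 i hi.le hi').mp hH
  · push Not at h1
    obtain ⟨i, hi, hi', hB⟩ := h1
    obtain ⟨u, h1, h2, h3, h4⟩ := hier3_greatest (B := fun z => ¬ B2 j s z) (y := y + 1) (u := i)
      (by omega) hB
    have hu : u < y := by
      rcases eq_or_lt_of_le (show u ≤ y by omega) with rfl | h'
      · exact absurd hre.1 h3
      · exact h'
    have hC : Comp j s (u + 1) y := by
      refine ⟨by omega, by omega, fun k hk hk' => ?_, ?_, hre.2⟩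
      · exact not_not.mp (h4 k hk (by omega))
      · rwa [add_sub_cancel_right]
    exact Or.inr ⟨u + 1, hC, fun hT => h.1.2 ⟨u + 1, y, by omega, le_rfl, hC, hT⟩⟩

/-- h8 -/
theorem case8 {j : ℕ} {s : St} {y : ℤ} (h : RE (Abs j s) y) : ∀ i, y - nn j < i → i ≤ y → Abs j s i := by
  obtain ⟨⟨w, hw, hw', hF, hc⟩, h2⟩ := h
  have h3 : w + nn j ≤ y + 1 := by
    by_contra hc'
    exact h2 ⟨w, by omega, by omega, hF, hc⟩
  intro i hi hi'
  exact ⟨w, by omega, by omega, hF, hc⟩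

/-- h5.  `y` is a right end of `B2` at level `j + 1`, hence of `B1`; use `case8` or `case4`, then `hl_succ`. -/
theorem case5 {ω : Bits} {j : ℕ} {s : St} {y : ℤ} (h : RE (Hl ω (j + 1) (step ω j s)) y) :
    (∀ i, y - nn j < i → i ≤ y → Hl ω (j + 1) (step ω j s) i) ∨ ∃ l, Comp j s l y ∧ ¬ Test ω j s l y := by
  have hn := nn_pos j
  have hN := nn_succ j
  have h2 : RE (B2 (j + 1) (step ω j s)) y :=
    ⟨h.1.b2, fun hB => h.2 ((hl_succ h.1.b2 hB).mp h.1)⟩
  have h1 := (re_b2 h2).1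
  have key : (∀ i, y - nn j < i → i ≤ y → B1 (j + 1) (step ω j s) i) →
      ∀ i, y - nn j < i → i ≤ y → Hl ω (j + 1) (step ω j s) i := by
    intro hB i hi hi'
    exact (hier3_hl_run (a := y - nn j + 1) (fun k hk hk' => (hB k (by omega) hk').b2) i
      (by omega) hi').mpr h.1
  rcases h1.1 with hy | hy
  · rcases case4 ⟨hy, fun hB => h1.2 (Or.inl hB)⟩ with h3 | h3
    · exact Or.inl (key fun i hi hi' => Or.inl (h3 i hi hi'))
    · exact Or.inr h3
  · have h3 := case8 ⟨hy, fun hB => h1.2 (Or.inr hB)⟩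
    exact Or.inl (key fun i hi hi' => Or.inr (h3 i (by omega) hi'))

/-- h7.  If `y ∉ B1`, take the nearest points `u < y < u'` of `B1`; `u' - u ≤ gg + 1`. -/
theorem case7 {j : ℕ} {s : St} {y : ℤ} (h : B2 j s y) (h' : ¬ s.B y) :
    Abs j s y ∨ (∃ u, y - gg j ≤ u ∧ u < y ∧ Gap j s u) ∨ (∃ u, y - gg j ≤ u ∧ u < y ∧ RE (Abs j s) u) ∨
      ∃ u, y + 1 ≤ u ∧ u < y + gg j + 1 ∧ LE (Abs j s) u := by
  by_cases hA : Abs j s y
  · exact Or.inl hA
  have hy : ¬ B1 j s y := fun hB => hB.elim h' hA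
  obtain ⟨u0, u0', hu, hu', hg, hB, hB'⟩ := h
  have hu1 : u0 < y := lt_of_le_of_ne hu fun e => hy (e ▸ hB)
  have hu2 : y < u0' := lt_of_le_of_ne hu' fun e => hy (e ▸ hB')
  obtain ⟨u, a1, a2, a3, a4⟩ := hier3_greatest hu1 hB
  obtain ⟨u', b1, b2, b3, b4⟩ := hier3_least hu2 hB'
  have hF : Free (B1 j s) (u + 1) u' := by
    intro i hi hi'
    rcases lt_trichotomy i y with hlt | rfl | hgt
    · exact a4 i hi hlt
    · exact hy
    · exact b4 i (by omega) hi'
  rcases a3 with a3 | a3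
  · rcases b3 with b3 | b3
    · refine Or.inr (Or.inl ⟨u, by omega, a1, u' - u, by omega, by omega, a3, ?_, ?_⟩)
      · rwa [show u + (u' - u) = u' by ring]
      · intro i hi hi' hBi
        exact hF i hi (by omega) (Or.inl hBi)
    · exact Or.inr (Or.inr (Or.inr ⟨u', by omega, by omega, b3, fun hA' =>
        hF (u' - 1) (by omega) (by omega) (Or.inr hA')⟩))
  · exact Or.inr (Or.inr (Or.inl ⟨u, by omega, a1, a3, fun hA' =>
      hF (u + 1) le_rfl (by omega) (Or.inr hA')⟩))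

/-- h11 -/
theorem case11 {ω : Bits} {j : ℕ} {s : St} {y : ℤ} (h : (step ω j s).D y) :
    s.D y ∨ ∃ r, y - dd j ≤ r ∧ r < y + dd j + nn j ∧ RE (B1 j s) r := by
  rcases h with h | ⟨l, r, hH, hl, hr⟩
  · exact Or.inl h
  · have := hH.1.2.1
    exact Or.inr ⟨r, by omega, by omega, (re_b2 hH.1.re).1⟩

/-- I12 -/
theorem case12 {B : ℤ → Prop} {x y : ℤ} (h : ¬ Free B x y) : B y ∨ ∃ i, x ≤ i ∧ i < y ∧ RE B i := by
  by_cases hy : B y
  · exact Or.inl hy
  unfold Free at h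
  push Not at h
  obtain ⟨i, hi, hi', hB⟩ := h
  obtain ⟨u, a1, a2, a3, a4⟩ := hier3_greatest hi' hB
  refine Or.inr ⟨u, by omega, a1, a3, fun hB' => ?_⟩
  rcases eq_or_lt_of_le (show u + 1 ≤ y by omega) with e | hlt
  · exact hy (e ▸ hB')
  · exact a4 (u + 1) le_rfl hlt hB'

end Crest.Agent.R128
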