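import Crest.Agent.R128.Lin1
import Crest.Agent.R128.Hier1

/-!
# Row 128, Hier4: locality of the hierarchy.
Keep the statements; add auxiliary lemmas freely (prefix `hier4_`).
-/

set_option autoImplicit false

noncomputable section

open scoped Classical
open MeasureTheory Set

namespace Crest.Agent.R128

/-- two states agree on `[X, Y]` -/
def Hier4SA (s s' : St) (X Y : ℤ) : Prop :=
  ∀ i, X ≤ i → i ≤ Y → (s.B i ↔ s'.B i) ∧ (s.D i ↔ s'.D i)

theorem Hier4SA.symm {s s' : St} {X Y : ℤ} (h : Hier4SA s s' X Y) : Hier4SA s' s X Y :=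
  fun i h1 h2 => ⟨(h i h1 h2).1.symm, (h i h1 h2).2.symm⟩

theorem hier4_agree_symm {ω ω' : Bits} {J : ℕ} {x y : ℤ} (h : Agree ω ω' J x y) : Agree ω' ω J x y :=
  ⟨fun i h1 h2 => (h.1 i h1 h2).symm,
    fun j a m b h1 h2 h3 h4 h5 h6 => (h.2 j a m b h1 h2 h3 h4 h5 h6).symm⟩

theorem hier4_abs {s s' : St} {X Y : ℤ} (h : Hier4SA s s' X Y) {j : ℕ} {i : ℤ} (hx : X + nn j ≤ i)
    (hy : i + nn j ≤ Y) (ha : Abs j s i) : Abs j s' i := by
  obtain ⟨w, h1, h2, h3, h4⟩ := ha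
  refine ⟨w, h1, h2, fun k k1 k2 hk => h3 k k1 k2 ((h k (by omega) (by omega)).1.2 hk), ?_⟩
  rwa [← cnt_congr (D := s.D) (fun k k1 k2 => (h k (by omega) (by omega)).2)]

theorem hier4_b1 {s s' : St} {X Y : ℤ} (h : Hier4SA s s' X Y) {j : ℕ} {i : ℤ} (hx : X + nn j ≤ i)
    (hy : i + nn j ≤ Y) (ha : B1 j s i) : B1 j s' i := by
  have hn := nn_pos j
  rcases ha with ha | ha
  · exact Or.inl ((h i (by omega) (by omega)).1.1 ha)
  · exact Or.inr (hier4_abs h hx hy ha)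

theorem hier4_b2 {s s' : St} {X Y : ℤ} (h : Hier4SA s s' X Y) {j : ℕ} {i : ℤ}
    (hx : X + nn j + gg j + 1 ≤ i) (hy : i + nn j + gg j + 1 ≤ Y) (ha : B2 j s i) : B2 j s' i := by
  obtain ⟨u, u', h1, h2, h3, h4, h5⟩ := ha
  exact ⟨u, u', h1, h2, h3, hier4_b1 h (by omega) (by omega) h4, hier4_b1 h (by omega) (by omega) h5⟩

theorem hier4_comp {s s' : St} {X Y : ℤ} (h : Hier4SA s s' X Y) {j : ℕ} {l r : ℤ}
    (hx : X + nn j + gg j + 2 ≤ l) (hy : r + nn j + gg j + 2 ≤ Y) (ha : Comp j s l r) :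
    Comp j s' l r := by
  obtain ⟨h1, h2, h3, h4, h5⟩ := ha
  exact ⟨h1, h2, fun i i1 i2 => hier4_b2 h (by omega) (by omega) (h3 i i1 i2),
    fun hb => h4 (hier4_b2 h.symm (by omega) (by omega) hb),
    fun hb => h5 (hier4_b2 h.symm (by omega) (by omega) hb)⟩

theorem hier4_reg {s s' : St} {X Y : ℤ} (h : Hier4SA s s' X Y) {a : ℤ} (hx : X ≤ a) (hy : a + 1 ≤ Y)
    (ha : Reg s.D a) : Reg s'.D a :=
  ⟨fun hd => ha.1 ((h a hx (by omega)).2.2 hd), fun hd => ha.2 ((h (a + 1) (by omega) hy).2.2 hd)⟩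

theorem hier4_heal {ω ω' : Bits} {J : ℕ} {x y : ℤ} (hω : Agree ω ω' J x y) {s s' : St} {X Y : ℤ}
    (h : Hier4SA s s' X Y) (hX : x ≤ X) (hY : Y ≤ y) {j : ℕ} (hj : j < J) {l r : ℤ}
    (hx : X + nn j + gg j + 2 ≤ l) (hy : r + nn j + gg j + 2 ≤ Y) (ha : Heal ω j s l r) :
    Heal ω' j s' l r := by
  refine ⟨hier4_comp h hx hy ha.1, ?_⟩
  have hn := nn_pos j
  obtain ⟨⟨h1, h2, -⟩, ht⟩ := ha
  intro a b a1 a2 b1 b2 ra rb
  have hg : gg j = 10 ^ 10 * nn j := rfl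
  have hh' : hh j = 5 * 10 ^ 4 * nn j := rfl
  have ht' : ta j = 2 * 10 ^ 5 * nn j := rfl
  norm_num at hg hh' ht'
  have := ht a b a1 a2 b1 b2 (hier4_reg h.symm (by omega) (by omega) ra)
    (hier4_reg h.symm (by omega) (by omega) rb)
  exact (hω.2 j a l (b + 1) hj (by omega) (by omega) (by omega) (by omega) (by omega)).1 this

theorem hier4_stepB {ω ω' : Bits} {J : ℕ} {x y : ℤ} (hω : Agree ω ω' J x y) {s s' : St} {X Y : ℤ}
    (h : Hier4SA s s' X Y) (hX : x ≤ X) (hY : Y ≤ y) {j : ℕ} (hj : j < J) {i : ℤ}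
    (hx : X + 2 * nn j + gg j + 2 ≤ i) (hy : i + 2 * nn j + gg j + 2 ≤ Y) (ha : (step ω j s).B i) :
    (step ω' j s').B i := by
  have hn := nn_pos j
  refine ⟨hier4_b2 h (by omega) (by omega) ha.1, ?_⟩
  rintro ⟨l, r, h1, h2, h3⟩
  have h4 := h3.1.2.1
  exact ha.2 ⟨l, r, h1, h2,
    hier4_heal (hier4_agree_symm hω) h.symm hX hY hj (by omega) (by omega) h3⟩

theorem hier4_stepD {ω ω' : Bits} {J : ℕ} {x y : ℤ} (hω : Agree ω ω' J x y) {s s' : St} {X Y : ℤ}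
    (h : Hier4SA s s' X Y) (hX : x ≤ X) (hY : Y ≤ y) {j : ℕ} (hj : j < J) {i : ℤ}
    (hx : X + 2 * nn j + gg j + dd j + 2 ≤ i) (hy : i + 2 * nn j + gg j + dd j + 2 ≤ Y)
    (ha : (step ω j s).D i) : (step ω' j s').D i := by
  have hn := nn_pos j
  have hg : gg j = 10 ^ 10 * nn j := rfl
  have hd : dd j = 10 ^ 5 * nn j := rfl
  norm_num at hg hd
  rcases ha with ha | ⟨l, r, h1, h2, h3⟩
  · exact Or.inl ((h i (by omega) (by omega)).2.1 ha)
  · have h4 := h1.1.2.1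
    exact Or.inr ⟨l, r, hier4_heal hω h hX hY hj (by omega) (by omega) h1, h2, h3⟩

theorem hier4_main {ω ω' : Bits} {J : ℕ} {x y : ℤ} (h : Agree ω ω' J x y) (j : ℕ) (hj : j ≤ J) :
    Hier4SA (hier ω j) (hier ω' j) (x + nn j) (y - nn j) := by
  induction j with
  | zero =>
    intro i h1 h2
    have hn := nn_pos 0
    exact ⟨h.1 i (by omega) (by omega), Iff.rfl⟩
  | succ j ih =>
    have ih := ih (by omega)
    have hn := nn_pos j
    have hg : gg j = 10 ^ 10 * nn j := rfl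
    have hd : dd j = 10 ^ 5 * nn j := rfl
    have hs := nn_succ j
    norm_num at hg hd hs
    have hd0 : 0 ≤ dd j := by omega
    intro i h1 h2
    have h' := hier4_agree_symm h
    have hX : x ≤ x + nn j := by omega
    have hY : y - nn j ≤ y := by omega
    have hj' : j < J := by omega
    have hx : x + nn j + 2 * nn j + gg j + dd j + 2 ≤ i := by omega
    have hy : i + 2 * nn j + gg j + dd j + 2 ≤ y - nn j := by omega
    exact ⟨⟨hier4_stepB h ih hX hY hj' (by omega) (by omega),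
        hier4_stepB h' ih.symm hX hY hj' (by omega) (by omega)⟩,
      ⟨hier4_stepD h ih hX hY hj' hx hy, hier4_stepD h' ih.symm hX hY hj' hx hy⟩⟩

/-- Locality.  Induction on `j`; radius `nn j`.  From radius `n` for `B, D`: `Abs`, `B1` have radius `2 n`, `B2`
radius `2 n + g + 1`, a component containing `y` or damaging `y` lies within `dd + n` of `y`, its tests involve
`D` and `ω.ok j a l (b+1)` within `hh + 2 n + 1` of the component, `b + 1 - a ≤ 2 hh + 5 n ≤ ta`. -/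
theorem local_hier {ω ω' : Bits} {J : ℕ} {x y : ℤ} (h : Agree ω ω' J x y) (j : ℕ) (hj : j ≤ J) (i : ℤ)
    (hx : x + nn j ≤ i) (hy : i ≤ y - nn j) :
    ((hier ω j).B i ↔ (hier ω' j).B i) ∧ ((hier ω j).D i ↔ (hier ω' j).D i) :=
  hier4_main h j hj i hx hy

theorem local_b1 {ω ω' : Bits} {J : ℕ} {x y : ℤ} (h : Agree ω ω' J x y) (j : ℕ) (hj : j ≤ J) (i : ℤ)
    (hx : x + 2 * nn j ≤ i) (hy : i ≤ y - 2 * nn j) : B1 j (hier ω j) i ↔ B1 j (hier ω' j) i :=
  ⟨hier4_b1 (hier4_main h j hj) (by omega) (by omega),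
    hier4_b1 (hier4_main h j hj).symm (by omega) (by omega)⟩

end Crest.Agent.R128
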