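import Crest.Agent.R128.Defs

/-!
# Row 128, Lin1: elementary facts on `u (i+1) + u (i-1) = v i * u i`.
Keep the statements; add auxiliary lemmas freely (prefix `lin1_`).
-/

set_option autoImplicit false

noncomputable section

open scoped Classical
open MeasureTheory Set

namespace Crest.Agent.R128

theorem lin_zero {𝕜 : Type*} [Ring 𝕜] (W : ℕ → 𝕜) (α β : 𝕜) : lin W α β 0 = α := rfl
theorem lin_one {𝕜 : Type*} [Ring 𝕜] (W : ℕ → 𝕜) (α β : 𝕜) : lin W α β 1 = β := rfl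
theorem lin_succ {𝕜 : Type*} [Ring 𝕜] (W : ℕ → 𝕜) (α β : 𝕜) (n : ℕ) :
    lin W α β (n + 2) = W (n + 1) * lin W α β (n + 1) - lin W α β n := rfl

/-- `lin W α β i` only depends on `W 1, …, W (i - 1)` (two-step induction). -/
theorem lin_congr {𝕜 : Type*} [Ring 𝕜] {W W' : ℕ → 𝕜} (α β : 𝕜) (i : ℕ)
    (h : ∀ n, 1 ≤ n → n < i → W n = W' n) : lin W α β i = lin W' α β i := by
  induction i using Nat.twoStepInduction with
  | zero => rfl
  | one => rfl
  | more n ih1 ih2 =>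
    rw [lin_succ, lin_succ, h (n + 1) (by omega) (by omega), ih1 fun m h1 h2 => h m h1 (by omega),
      ih2 fun m h1 h2 => h m h1 (by omega)]

/-- linearity in the initial data -/
theorem lin_decomp {𝕜 : Type*} [CommRing 𝕜] (W : ℕ → 𝕜) (α β : 𝕜) (i : ℕ) :
    lin W α β i = α * lin W 1 0 i + β * lin W 0 1 i := by
  induction i using Nat.twoStepInduction with
  | zero => simp [lin_zero]
  | one => simp [lin_one]
  | more n ih1 ih2 =>
    rw [lin_succ, lin_succ, lin_succ, ih1, ih2]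
    ring

theorem lin_ofReal (W : ℕ → ℝ) (α β : ℝ) (i : ℕ) :
    lin (fun n => (W n : ℂ)) α β i = (lin W α β i : ℝ) := by
  induction i using Nat.twoStepInduction with
  | zero => rfl
  | one => rfl
  | more n ih1 ih2 =>
    rw [lin_succ, lin_succ, ih1, ih2]
    push_cast
    ring

/-- Discrete Duhamel / Gronwall bound with the crude kernel.  Induction on `i`:
`M (i+1) ≤ Λ * M i + ‖f i‖` for `M i = max ‖d (i-1)‖ ‖d i‖`. -/
theorem duhamel {𝕜 : Type*} [NormedField 𝕜] (Λ : ℝ) (hΛ : 1 ≤ Λ) (W d f : ℕ → 𝕜) (N : ℕ)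
    (hW : ∀ n, 1 ≤ n → n < N → ‖W n‖ ≤ Λ - 1)
    (hd : ∀ n, n + 2 ≤ N → d (n + 2) = W (n + 1) * d (n + 1) - d n + f (n + 1))
    (i : ℕ) (hi : i + 1 ≤ N) :
    max ‖d i‖ ‖d (i + 1)‖ ≤
      Λ ^ i * max ‖d 0‖ ‖d 1‖ + ∑ n ∈ Finset.Ico 1 (i + 1), Λ ^ (i - n) * ‖f n‖ := by
  induction i with
  | zero => simp
  | succ i ih =>
    have h1 := ih (by omega)
    have h2 : max ‖d (i + 1)‖ ‖d (i + 1 + 1)‖ ≤ Λ * max ‖d i‖ ‖d (i + 1)‖ + ‖f (i + 1)‖ := by
      have a1 := le_max_left ‖d i‖ ‖d (i + 1)‖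
      have a2 := le_max_right ‖d i‖ ‖d (i + 1)‖
      have a3 := norm_nonneg (f (i + 1))
      have a4 := norm_nonneg (d (i + 1))
      have a5 := hW (i + 1) (by omega) (by omega)
      refine max_le (by nlinarith) ?_
      rw [hd i (by omega)]
      refine (norm_add_le _ _).trans (add_le_add_left ((norm_sub_le _ _).trans ?_) _)
      rw [norm_mul]
      have a6 : ‖W (i + 1)‖ * ‖d (i + 1)‖ ≤ (Λ - 1) * max ‖d i‖ ‖d (i + 1)‖ :=
        mul_le_mul a5 a2 a4 (by linarith)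
      linarith
    refine h2.trans ?_
    rw [Finset.sum_Ico_succ_top (by omega), Nat.sub_self, pow_zero, one_mul, ← add_assoc]
    refine add_le_add_left ((mul_le_mul_of_nonneg_left h1 (by linarith)).trans (le_of_eq ?_)) _
    rw [mul_add, Finset.mul_sum, pow_succ', mul_assoc]
    congr 1
    refine Finset.sum_congr rfl fun n hn => ?_
    have := (Finset.mem_Ico.1 hn).2
    rw [show i + 1 - n = i - n + 1 by omega, pow_succ', mul_assoc]

theorem lin1_rev {𝕜 : Type*} [CommRing 𝕜] (W : ℕ → 𝕜) (α γ : 𝕜) (β m : ℕ) : ∀ i, i + m + 1 = β →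
    lin W α γ i * lin (fun m => W (β - m)) 0 1 m -
      lin W α γ (i + 1) * lin (fun m => W (β - m)) 0 1 (m + 1) = -lin W α γ β := by
  induction m with
  | zero =>
    rintro i rfl
    simp [lin_zero, lin_one]
  | succ m ih =>
    intro i hi
    rw [← ih (i + 1) (by omega), lin_succ, lin_succ, show β - (m + 1) = i + 1 by omega]
    ring

theorem lin1_jump {𝕜 : Type*} [CommRing 𝕜] (V V' : ℕ → 𝕜) (p : ℕ) (hp : 1 ≤ p) (m : ℕ)
    (h : ∀ k, k ≤ m → k ≠ p → V' k = V k) :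
    lin V' 0 1 (m + 1) * lin V 0 1 m - lin V' 0 1 m * lin V 0 1 (m + 1) =
      if p ≤ m then (V' p - V p) * lin V 0 1 p ^ 2 else 0 := by
  induction m with
  | zero =>
    rw [if_neg (by omega)]
    simp [lin_zero]
  | succ m ih =>
    have h1 := ih fun k h1 h2 => h k (by omega) h2
    rw [lin_succ, lin_succ]
    by_cases hm : m + 1 = p
    · subst hm
      have h2 : lin V' 0 1 (m + 1) = lin V 0 1 (m + 1) :=
        lin_congr 0 1 _ fun k _ h2 => h k h2.le h2.ne
      rw [if_neg (by omega), h2] at h1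
      rw [if_pos le_rfl, h2]
      linear_combination h1
    · rw [h (m + 1) le_rfl hm]
      have e : (p ≤ m + 1) = (p ≤ m) := propext (by omega)
      simp only [e]
      linear_combination h1

theorem lin1_sens {Λ ε : ℝ} (hΛ : 1 ≤ Λ) (hε : 0 ≤ ε) {W W' : ℕ → ℝ} (hW : ∀ n, |W n| ≤ Λ - 1)
    (hW' : ∀ n, |W' n| ≤ Λ - 1) (L : ℕ) (h : ∀ n, 1 ≤ n → n < L → |W' n - W n| ≤ ε) :
    |lin W' 0 1 L - lin W 0 1 L| ≤ ε * L * Λ ^ (2 * L) := by
  have h0 : ∀ n, |lin W 0 1 n| ≤ Λ ^ n := fun n => by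
    have := duhamel Λ hΛ W (lin W 0 1) (fun _ => 0) (n + 1) (fun k _ _ => hW k)
      (fun k _ => by rw [lin_succ, add_zero]) n le_rfl
    simp only [lin_zero, lin_one, norm_zero, norm_one, mul_zero, Finset.sum_const_zero,
      add_zero, zero_le_one, max_eq_right, mul_one] at this
    exact (le_max_left _ _).trans this
  cases L with
  | zero => simp [lin_zero]
  | succ L =>
    have h1 := duhamel Λ hΛ W' (fun n => lin W' 0 1 n - lin W 0 1 n)
      (fun n => (W' n - W n) * lin W 0 1 n) (L + 1) (fun k _ _ => hW' k)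
      (fun k _ => by rw [lin_succ, lin_succ]; ring) L le_rfl
    simp only [lin_zero, zero_add, lin_one, sub_self, norm_zero, max_self, mul_zero] at h1
    refine ((le_max_right _ _).trans h1).trans ?_
    refine (Finset.sum_le_card_nsmul _ _ (ε * Λ ^ (2 * (L + 1))) fun n hn => ?_).trans ?_
    · obtain ⟨a1, a2⟩ := Finset.mem_Ico.1 hn
      rw [Real.norm_eq_abs, abs_mul]
      have a3 := h n a1 a2
      have a4 := h0 n
      calc _ ≤ Λ ^ (L - n) * (ε * Λ ^ n) := by gcongr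
        _ = ε * Λ ^ (L - n + n) := by rw [pow_add]; ring
        _ ≤ _ := mul_le_mul_of_nonneg_left (pow_le_pow_right₀ hΛ (by omega)) hε
    · rw [nsmul_eq_mul, Nat.card_Ico, Nat.add_sub_cancel]
      have : 0 ≤ ε * Λ ^ (2 * (L + 1)) := by positivity
      push_cast
      nlinarith

/-- Effect of changing the potential at the single site `n` on `η / φ` at `β`.  Proof: with
`χ i = lin W 1 0 i * lin W 0 1 β - lin W 0 1 i * lin W 1 0 β` (and `χ'`), both vanish at `β`, equal `1` at `β - 1`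
(Wronskian), so they agree on `[n, β]` with `i ↦ lin (fun m => W (β - m)) 0 1 (β - i)`; the Wronskian of `χ, χ'` is
`0` at the bond `n`, jumps by `(W' n - W n) * χ n ^ 2` at the site `n` and is constant on the bonds `< n`; at the
bond `0` it is minus the left-hand side (`χ 0 = φ β`, `χ 1 = -η β`). -/
theorem lin_one_site {𝕜 : Type*} [CommRing 𝕜] (W W' : ℕ → 𝕜) (n β : ℕ) (hn : 1 ≤ n) (hβ : n < β)
    (h : ∀ m, m ≠ n → W' m = W m) :
    lin W' 1 0 β * lin W 0 1 β - lin W 1 0 β * lin W' 0 1 β =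
      (W' n - W n) * lin (fun m => W (β - m)) 0 1 (β - n) ^ 2 := by
  obtain ⟨b, rfl⟩ : ∃ b, β = b + 1 := ⟨β - 1, by omega⟩
  have e1 := lin1_rev W 1 0 (b + 1) b 0 (by omega)
  have e2 := lin1_rev W 0 1 (b + 1) b 0 (by omega)
  have e3 := lin1_rev W' 1 0 (b + 1) b 0 (by omega)
  have e4 := lin1_rev W' 0 1 (b + 1) b 0 (by omega)
  simp only [lin_zero, zero_add, lin_one, one_mul, zero_mul, sub_zero, zero_sub, neg_inj] at e1 e2 e3 e4
  have e5 := lin1_jump (fun m => W (b + 1 - m)) (fun m => W' (b + 1 - m)) (b + 1 - n) (by omega) b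
    fun m h1 h2 => h _ (by omega)
  rw [if_pos (by omega)] at e5
  simp only [show b + 1 - (b + 1 - n) = n by omega] at e5
  rw [← e5, ← e2, ← e4, e1, e3]
  ring

theorem ph_nat (v : ℤ → ℝ) (a : ℤ) (n : ℕ) : ph v a (a + n) = lin (fun m : ℕ => v (a + m)) 0 1 n := by
  rw [ph, if_pos (by omega), add_sub_cancel_left, Int.toNat_natCast]

theorem ph_nat' (v : ℤ → ℝ) (a : ℤ) (n : ℕ) : ph v a (a - n) = -lin (fun m : ℕ => v (a - m)) 0 1 n := by
  cases n with
  | zero => simp [ph, lin_zero]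
  | succ n => rw [ph, if_neg (by omega), sub_sub_cancel, Int.toNat_natCast]

theorem ph_self (v : ℤ → ℝ) (a : ℤ) : ph v a a = 0 := by
  simpa [lin_zero] using ph_nat v a 0

theorem ph_succ (v : ℤ → ℝ) (a : ℤ) : ph v a (a + 1) = 1 := by
  simpa [lin_one] using ph_nat v a 1

theorem ph_pred (v : ℤ → ℝ) (a : ℤ) : ph v a (a - 1) = -1 := by
  simpa [lin_one] using ph_nat' v a 1

theorem isSol_ph (v : ℤ → ℝ) (a : ℤ) : IsSol v (ph v a) := by
  intro i
  rcases lt_trichotomy a i with h | rfl | h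
  · obtain ⟨n, rfl⟩ : ∃ n : ℕ, i = a + (n + 1 : ℕ) := ⟨(i - a - 1).toNat, by omega⟩
    rw [show a + (n + 1 : ℕ) + 1 = a + (n + 2 : ℕ) by omega,
      show a + (n + 1 : ℕ) - 1 = a + (n : ℕ) by omega, ph_nat, ph_nat, ph_nat, lin_succ]
    ring
  · rw [ph_succ, ph_pred, ph_self]
    ring
  · obtain ⟨n, rfl⟩ : ∃ n : ℕ, i = a - (n + 1 : ℕ) := ⟨(a - i - 1).toNat, by omega⟩
    rw [show a - (n + 1 : ℕ) + 1 = a - (n : ℕ) by omega,
      show a - (n + 1 : ℕ) - 1 = a - (n + 2 : ℕ) by omega, ph_nat', ph_nat', ph_nat', lin_succ]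
    ring

theorem IsSol.comb {v u w : ℤ → ℝ} (hu : IsSol v u) (hw : IsSol v w) (A B : ℝ) :
    IsSol v fun i => A * u i + B * w i := by
  intro i
  linear_combination A * hu i + B * hw i

theorem lin1_eq_lin {v u : ℤ → ℝ} (hu : IsSol v u) (a : ℤ) (n : ℕ) :
    u (a + n) = lin (fun m : ℕ => v (a + m)) (u a) (u (a + 1)) n ∧
      u (a - n) = lin (fun m : ℕ => v (a - m)) (u a) (u (a - 1)) n := by
  induction n using Nat.twoStepInduction with
  | zero => simp [lin_zero]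
  | one => simp [lin_one]
  | more n ih1 ih2 =>
    rw [lin_succ, lin_succ, ← ih1.1, ← ih1.2, ← ih2.1, ← ih2.2]
    have a1 := hu (a + (n + 1 : ℕ))
    have a2 := hu (a - (n + 1 : ℕ))
    rw [show a + (n + 1 : ℕ) + 1 = a + (n + 2 : ℕ) by omega,
      show a + (n + 1 : ℕ) - 1 = a + (n : ℕ) by omega] at a1
    rw [show a - (n + 1 : ℕ) + 1 = a - (n : ℕ) by omega,
      show a - (n + 1 : ℕ) - 1 = a - (n + 2 : ℕ) by omega] at a2
    constructor <;> linarith

theorem lin1_sol_rf {v u : ℤ → ℝ} (hu : IsSol v u) : IsSol (rf v) (rf u) := by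
  intro i
  simp only [rf, show -(i + 1) = -i - 1 by ring, show -(i - 1) = -i + 1 by ring]
  linear_combination hu (-i)

theorem lin1_sol_sh {v u : ℤ → ℝ} (hu : IsSol v u) (s : ℤ) : IsSol (sh s v) (sh s u) := by
  intro i
  simp only [sh, add_right_comm i 1 s, show i - 1 + s = i + s - 1 by ring]
  exact hu (i + s)

theorem IsSol.ext {v u w : ℤ → ℝ} (hu : IsSol v u) (hw : IsSol v w) (a : ℤ) (h0 : u a = w a)
    (h1 : u (a + 1) = w (a + 1)) : u = w := by
  have h2 : u (a - 1) = w (a - 1) := by linear_combination hu a - hw a + v a * h0 - h1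
  funext i
  rcases le_total a i with h | h
  · obtain ⟨n, rfl⟩ : ∃ n : ℕ, i = a + n := ⟨(i - a).toNat, by omega⟩
    rw [(lin1_eq_lin hu a n).1, (lin1_eq_lin hw a n).1, h0, h1]
  · obtain ⟨n, rfl⟩ : ∃ n : ℕ, i = a - n := ⟨(a - i).toNat, by omega⟩
    rw [(lin1_eq_lin hu a n).2, (lin1_eq_lin hw a n).2, h0, h2]

theorem IsSol.decomp {v u : ℤ → ℝ} (hu : IsSol v u) (a i : ℤ) :
    u i = u (a + 1) * ph v a i - u a * ph v (a + 1) i := by
  have h := hu.ext ((isSol_ph v a).comb (isSol_ph v (a + 1)) (u (a + 1)) (-u a)) a ?_ ?_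
  · rw [congrFun h i]
    ring
  · have := ph_pred v (a + 1)
    rw [add_sub_cancel_right] at this
    simp only [ph_self, this]
    ring
  · simp only [ph_self, ph_succ]
    ring

/-- a solution restricted to `[a, ∞)` and to `(-∞, a]` -/
theorem IsSol.eq_lin {v u : ℤ → ℝ} (hu : IsSol v u) (a : ℤ) (n : ℕ) :
    u (a + n) = lin (fun m : ℕ => v (a + m)) (u a) (u (a + 1)) n ∧
      u (a - n) = lin (fun m : ℕ => v (a - m)) (u a) (u (a - 1)) n := by
  exact lin1_eq_lin hu a n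

theorem wr_const {v u w : ℤ → ℝ} (hu : IsSol v u) (hw : IsSol v w) (i j : ℤ) : wr u w i = wr u w j := by
  have h1 : ∀ i, wr u w (i + 1) = wr u w i := by
    intro i
    have a1 := hu (i + 1)
    have a2 := hw (i + 1)
    rw [add_sub_cancel_right] at a1 a2
    unfold wr
    linear_combination u (i + 1) * a2 - w (i + 1) * a1
  have h2 : ∀ i, wr u w i = wr u w 0 := by
    intro i
    induction i using Int.induction_on with
    | zero => rfl
    | succ n ih => rw [h1, ih]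
    | pred n ih => rw [← h1, sub_add_cancel, ih]
  rw [h2 i, h2 j]

theorem wr_ph (v : ℤ → ℝ) (a b i : ℤ) : wr (ph v a) (ph v b) i = ph v a b := by
  rw [wr_const (isSol_ph v a) (isSol_ph v b) i (b - 1), wr, sub_add_cancel, ph_self, ph_pred]
  ring

theorem ph_antisymm (v : ℤ → ℝ) (a b : ℤ) : ph v b a = -ph v a b := by
  rw [← wr_ph v a b a, wr, ph_self, ph_succ]
  ring

/-- two solutions with non-zero Wronskian span -/
theorem IsSol.span {v u φ χ : ℤ → ℝ} (hu : IsSol v u) (hφ : IsSol v φ) (hχ : IsSol v χ) (a : ℤ)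
    (h : wr φ χ a ≠ 0) : ∃ A B : ℝ, ∀ i, u i = A * φ i + B * χ i := by
  refine ⟨wr u χ a / wr φ χ a, wr φ u a / wr φ χ a, congrFun (hu.ext (hφ.comb hχ _ _) a ?_ ?_)⟩
  · field_simp
    unfold wr
    ring
  · field_simp
    unfold wr
    ring

theorem nb_nonneg (u : ℤ → ℝ) (i : ℤ) : 0 ≤ nb u i := by
  exact le_max_of_le_left (abs_nonneg _)

/-- a solution that does not vanish at one site has positive norm at every bond -/
theorem nb_pos {v u : ℤ → ℝ} (hu : IsSol v u) {a : ℤ} (ha : u a ≠ 0) (i : ℤ) : 0 < nb u i := by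
  refine (nb_nonneg u i).lt_of_ne fun h => ha ?_
  have h1 : |u i| ≤ 0 := h ▸ le_max_left _ _
  have h2 : |u (i + 1)| ≤ 0 := h ▸ le_max_right _ _
  exact congrFun (hu.ext (w := fun _ => 0) (fun _ => by simp) i (abs_nonpos_iff.1 h1)
    (abs_nonpos_iff.1 h2)) a

theorem nb_ph_self (v : ℤ → ℝ) (a : ℤ) : nb (ph v a) a = 1 ∧ nb (ph v a) (a - 1) = 1 := by
  simp [nb, ph_self, ph_succ, ph_pred]

/-- crude growth, both directions -/
theorem nb_le {q : ℝ} {v u : ℤ → ℝ} (hv : Bdd q v) (hu : IsSol v u) (hq : 1 ≤ q) (i j : ℤ) :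
    nb u j ≤ q ^ (101 * |j - i|) * nb u i := by
  have hΛ : 1 ≤ q ^ 101 := one_le_pow₀ hq
  have key : ∀ x y z W : ℝ, |W| ≤ q ^ 101 - 1 → z + x = W * y →
      max |y| |z| ≤ q ^ 101 * max |x| |y| := by
    intro x y z W hW e
    have a1 := le_max_left |x| |y|
    have a2 := le_max_right |x| |y|
    have a4 := abs_nonneg y
    refine max_le (by nlinarith) ?_
    rw [show z = W * y - x by linarith]
    refine (abs_sub _ _).trans ?_
    rw [abs_mul]
    have a6 : |W| * |y| ≤ (q ^ 101 - 1) * max |x| |y| := mul_le_mul hW a2 a4 (by linarith)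
    linarith
  have h1 : ∀ i, nb u (i + 1) ≤ q ^ 101 * nb u i := fun i => by
    have := hu (i + 1)
    rw [add_sub_cancel_right] at this
    exact key _ _ _ _ (hv _) this
  have h2 : ∀ i, nb u (i - 1) ≤ q ^ 101 * nb u i := fun i => by
    have := key _ _ _ _ (hv i) ((add_comm _ _).trans (hu i))
    rwa [nb, nb, sub_add_cancel, max_comm, max_comm |u i| |u (i + 1)|]
  have h3 : ∀ n : ℕ, nb u (i + n) ≤ (q ^ 101) ^ n * nb u i ∧
      nb u (i - n) ≤ (q ^ 101) ^ n * nb u i := by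
    intro n
    induction n with
    | zero => simp
    | succ n ih =>
      rw [pow_succ', mul_assoc, Nat.cast_succ, ← add_assoc, ← sub_sub]
      exact ⟨(h1 _).trans (mul_le_mul_of_nonneg_left ih.1 (by linarith)),
        (h2 _).trans (mul_le_mul_of_nonneg_left ih.2 (by linarith))⟩
  have h4 : ∀ n : ℕ, q ^ (101 * (n : ℤ)) = (q ^ 101) ^ n := fun n => by
    rw [← pow_mul, ← zpow_natCast]
    push_cast
    rfl
  rcases le_total i j with h | h
  · obtain ⟨n, rfl⟩ : ∃ n : ℕ, j = i + n := ⟨(j - i).toNat, by omega⟩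
    rw [add_sub_cancel_left, Nat.abs_cast, h4]
    exact (h3 n).1
  · obtain ⟨n, rfl⟩ : ∃ n : ℕ, j = i - n := ⟨(i - j).toNat, by omega⟩
    rw [sub_sub_cancel_left, abs_neg, Nat.abs_cast, h4]
    exact (h3 n).2

theorem abs_ph_le {q : ℝ} {v : ℤ → ℝ} (hv : Bdd q v) (hq : 1 ≤ q) (a i : ℤ) :
    |ph v a i| ≤ q ^ (101 * |i - a|) := by
  have h := nb_le hv (isSol_ph v a) hq a i
  rw [(nb_ph_self v a).1, mul_one] at h
  exact (le_max_left _ _).trans h

/-- Sensitivity to the potential (from `duhamel`, crude): if `|v' - v| ≤ ε` between `a` and `i`, then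
`|ph v' a i - ph v a i| ≤ ε * L * Λ ^ (2 L)`, `L = |i - a|`, `Λ = q ^ 101`. -/
theorem ph_sens {q ε : ℝ} {v v' : ℤ → ℝ} (hv : Bdd q v) (hv' : Bdd q v') (hq : 1 ≤ q) (hε : 0 ≤ ε) (a i : ℤ)
    (h : ∀ n, min a i < n → n < max a i → |v' n - v n| ≤ ε) :
    |ph v' a i - ph v a i| ≤ ε * (|i - a| : ℤ) * q ^ (202 * |i - a|) := by
  have hΛ : 1 ≤ q ^ 101 := one_le_pow₀ hq
  have h4 : ∀ n : ℕ, q ^ (202 * (n : ℤ)) = (q ^ 101) ^ (2 * n) := fun n => by
    rw [← pow_mul, ← zpow_natCast]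
    congr 1
    push_cast
    ring
  rcases le_total a i with hi | hi
  · obtain ⟨n, rfl⟩ : ∃ n : ℕ, i = a + n := ⟨(i - a).toNat, by omega⟩
    rw [add_sub_cancel_left, Nat.abs_cast, h4, ph_nat, ph_nat, Int.cast_natCast]
    exact lin1_sens hΛ hε (fun _ => hv _) (fun _ => hv' _) n
      fun m h1 h2 => h _ (by omega) (by omega)
  · obtain ⟨n, rfl⟩ : ∃ n : ℕ, i = a - n := ⟨(a - i).toNat, by omega⟩
    rw [sub_sub_cancel_left, abs_neg, Nat.abs_cast, h4, ph_nat', ph_nat', Int.cast_natCast,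
      neg_sub_neg, abs_sub_comm]
    exact lin1_sens hΛ hε (fun _ => hv _) (fun _ => hv' _) n
      fun m h1 h2 => h _ (by omega) (by omega)

theorem measurable_ph (a i : ℤ) : Measurable fun v : ℤ → ℝ => ph v a i := by
  have h : ∀ (g : ℕ → ℤ) (n : ℕ), Measurable fun v : ℤ → ℝ => lin (fun m => v (g m)) 0 1 n := by
    intro g n
    induction n using Nat.twoStepInduction with
    | zero => exact measurable_const
    | one => exact measurable_const
    | more n ih1 ih2 => exact ((measurable_pi_apply _).mul ih2).sub ih1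
  unfold ph
  split_ifs
  · exact h _ _
  · exact (h _ _).neg

theorem measurable_sh (s : ℤ) : Measurable (sh s) := by
  exact measurable_pi_lambda _ fun i => measurable_pi_apply _

theorem measurableSet_bdd (q : ℝ) : MeasurableSet {v | Bdd q v} := by
  simp only [Bdd, ofPred_forall]
  exact MeasurableSet.iInter fun i =>
    measurableSet_le (measurable_pi_apply i).abs measurable_const

theorem ph_sh (s : ℤ) (v : ℤ → ℝ) (a i : ℤ) : ph (sh s v) a i = ph v (a + s) (i + s) := by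
  refine congrFun ((isSol_ph (sh s v) a).ext (lin1_sol_sh (isSol_ph v (a + s)) s) a ?_ ?_) i
  · simp only [sh, ph_self]
  · simp only [sh, add_right_comm a 1 s, ph_succ]

theorem ph_rf (v : ℤ → ℝ) (a i : ℤ) : ph (rf v) a i = -ph v (-a) (-i) := by
  have h := (isSol_ph (rf v) a).ext ((lin1_sol_rf (isSol_ph v (-a))).comb
    (lin1_sol_rf (isSol_ph v (-a))) (-1) 0) a ?_ ?_
  · rw [congrFun h i]
    simp [rf]
  · simp [rf, ph_self]
  · simp only [rf, ph_succ, show -(a + 1) = -a - 1 by ring, ph_pred]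
    ring

theorem sh_sh (s s' : ℤ) (v : ℤ → ℝ) : sh s (sh s' v) = sh (s + s') v := by
  funext i
  simp only [sh, add_assoc]

theorem sh_zero (v : ℤ → ℝ) : sh 0 v = v := by
  funext i
  simp only [sh, add_zero]

theorem rf_rf (v : ℤ → ℝ) : rf (rf v) = v := by
  funext i
  simp only [rf, neg_neg]

theorem IsSol.rf {v u : ℤ → ℝ} (hu : IsSol v u) : IsSol (rf v) (rf u) := by
  exact lin1_sol_rf hu

theorem IsSol.sh {v u : ℤ → ℝ} (hu : IsSol v u) (s : ℤ) : IsSol (sh s v) (sh s u) := by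
  exact lin1_sol_sh hu s

theorem Bdd.rf {q : ℝ} {v : ℤ → ℝ} (hv : Bdd q v) : Bdd q (rf v) := fun i => hv (-i)

theorem Bdd.sh {q : ℝ} {v : ℤ → ℝ} (hv : Bdd q v) (s : ℤ) : Bdd q (sh s v) := fun i => hv (i + s)

theorem nb_rf (u : ℤ → ℝ) (i : ℤ) : nb (rf u) i = nb u (-i - 1) := by
  simp only [nb, rf, sub_add_cancel, show -(i + 1) = -i - 1 by ring, max_comm]

theorem wr_rf (u w : ℤ → ℝ) (i : ℤ) : wr (rf u) (rf w) i = -wr u w (-i - 1) := by
  simp only [wr, rf, sub_add_cancel, show -(i + 1) = -i - 1 by ring]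
  ring

theorem dn_iff (q : ℝ) (v : ℤ → ℝ) (a c E : ℤ) :
    Dn q v a c E ↔ ∀ u, IsSol v u → |u (c + 1)| ≤ |u c| →
      |u (a + 1)| ≤ |u a| ∧ q ^ E * |u c| ≤ |u a| ∧
        ∀ i, a ≤ i → i ≤ c → q ^ (90 * (i - a)) * |u i| ≤ |u a| := by
  have e : ∀ x : ℤ, -(-x - 1) = x + 1 := fun x => by ring
  constructor
  · intro h u hu hc
    have h1 := h (rf u) hu.rf
    simp only [rf, sub_add_cancel, neg_neg, e] at h1
    obtain ⟨a1, a2, a3⟩ := h1 hc
    refine ⟨a1, a2, fun i b1 b2 => ?_⟩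
    have := a3 (-i) (by omega) (by omega)
    rwa [neg_neg, show -a - -i = i - a by ring] at this
  · intro h u hu hc
    have hu' := hu.rf
    rw [rf_rf] at hu'
    have h1 := h (rf u) hu'
    simp only [rf, show ∀ x : ℤ, -(x + 1) = -x - 1 from fun x => by ring] at h1
    simp only [sub_add_cancel] at hc ⊢
    obtain ⟨a1, a2, a3⟩ := h1 hc
    refine ⟨a1, a2, fun i b1 b2 => ?_⟩
    have := a3 (-i) (by omega) (by omega)
    rwa [neg_neg, show -i - a = -a - i by ring] at this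

theorem UD.rf {q : ℝ} {v : ℤ → ℝ} {a c E : ℤ} (h : UD q v a c E) : UD q (rf v) (-c - 1) (-a - 1) E := by
  refine ⟨h.2, ?_⟩
  rw [Dn, rf_rf, show -(-a - 1) - 1 = a by ring, show -(-c - 1) - 1 = c by ring]
  exact h.1

end Crest.Agent.R128
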