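import Crest.Agent.R128.Lin1

/-!
# Row 128, Lin2: cone conditions, concatenation, repair across a non-resonant core.
Keep the statements; add auxiliary lemmas freely (prefix `lin2_`).
-/

set_option autoImplicit false

noncomputable section

open scoped Classical
open MeasureTheory Set

namespace Crest.Agent.R128

theorem lin2_mono {q : ℝ} (hq : 1 ≤ q) {m n : ℤ} (h : m ≤ n) {y : ℝ} (hy : 0 ≤ y) :
    q ^ m * y ≤ q ^ n * y :=
  mul_le_mul_of_nonneg_right (zpow_le_zpow_right₀ hq h) hy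

theorem lin2_add {q : ℝ} (hq : 1 ≤ q) (m n : ℤ) (y : ℝ) : q ^ (m + n) * y = q ^ m * (q ^ n * y) := by
  rw [zpow_add₀ (by linarith : q ≠ 0), mul_assoc]

theorem lin2_pos {q : ℝ} (hq : 1 ≤ q) (m : ℤ) : 0 < q ^ m := zpow_pos (by linarith) m

/-- chaining of two growth estimates -/
theorem lin2_chain {q : ℝ} (hq : 1 ≤ q) {k m n : ℤ} (h : k ≤ m + n) {x y z : ℝ} (hx : 0 ≤ x)
    (h1 : q ^ n * x ≤ y) (h2 : q ^ m * y ≤ z) : q ^ k * x ≤ z := by
  calc q ^ k * x ≤ q ^ (m + n) * x := lin2_mono hq h hx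
    _ = q ^ m * (q ^ n * x) := lin2_add hq m n x
    _ ≤ q ^ m * y := mul_le_mul_of_nonneg_left h1 (lin2_pos hq m).le
    _ ≤ z := h2

theorem lin2_one_le {q : ℝ} (hq : 1 ≤ q) {m : ℤ} (h : 0 ≤ m) : 1 ≤ q ^ m := one_le_zpow₀ hq h

theorem lin2_two_le {q : ℝ} (hq : 2 ≤ q) {m : ℤ} (h : 1 ≤ m) : 2 ≤ q ^ m := by
  have := zpow_le_zpow_right₀ (by linarith : (1 : ℝ) ≤ q) h
  rw [zpow_one] at this
  linarith

theorem lin2_four_le {q : ℝ} (hq : 2 ≤ q) {m : ℤ} (h : 2 ≤ m) : 4 ≤ q ^ m := by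
  have := zpow_le_zpow_right₀ (by linarith : (1 : ℝ) ≤ q) h
  rw [zpow_two] at this
  nlinarith

theorem lin2_eight_le {q : ℝ} (hq : 2 ≤ q) : 8 ≤ q ^ (3 : ℤ) := by
  have e : q ^ (3 : ℤ) = q * q * q := by
    rw [show (3 : ℤ) = ((3 : ℕ) : ℤ) from rfl, zpow_natCast]; ring
  rw [e]
  have : 4 ≤ q * q := by nlinarith
  nlinarith

theorem lin2_le_nb (u : ℤ → ℝ) (i : ℤ) : |u i| ≤ nb u i := le_max_left _ _

theorem lin2_le_nb' (u : ℤ → ℝ) (i : ℤ) : |u (i + 1)| ≤ nb u i := le_max_right _ _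

theorem lin2_nb_le {q : ℝ} {v u : ℤ → ℝ} (hv : Bdd q v) (hu : IsSol v u) (hq : 1 ≤ q) (i j : ℤ) {n : ℤ}
    (h1 : j - i ≤ n) (h2 : i - j ≤ n) : nb u j ≤ q ^ (101 * n) * nb u i := by
  refine (nb_le hv hu hq i j).trans (lin2_mono hq ?_ (nb_nonneg _ _))
  have : |j - i| ≤ n := abs_le.2 ⟨by linarith, h1⟩
  linarith

theorem lin2_up_mono {q : ℝ} {v : ℤ → ℝ} {a c E E' : ℤ} (hq : 1 ≤ q) (h : Up q v a c E) (hE : E' ≤ E) :
    Up q v a c E' := by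
  intro u hu h0
  obtain ⟨h1, h2, h3⟩ := h u hu h0
  exact ⟨h1, (lin2_mono hq hE (abs_nonneg _)).trans h2, h3⟩

theorem UD.mono {q : ℝ} {v : ℤ → ℝ} {a c E E' : ℤ} (hq : 1 ≤ q) (h : UD q v a c E) (hE : E' ≤ E) :
    UD q v a c E' := by
  exact ⟨lin2_up_mono hq h.1 hE, lin2_up_mono hq h.2 hE⟩

theorem lin2_up_base {q : ℝ} {v : ℤ → ℝ} {a c : ℤ} (hq : 2 ≤ q) (hac : a ≤ c)
    (h : ∀ i, a < i → i ≤ c → q ^ 99 ≤ |v i|) : Up q v a c (98 * (c - a)) := by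
  have hq1 : (1 : ℝ) ≤ q := by linarith
  intro u hu h0
  have key : ∀ n : ℕ, a + n ≤ c → |u (a + n)| ≤ |u (a + n + 1)| ∧
      ∀ i, a + 1 ≤ i → i ≤ a + n + 1 → q ^ (98 * (a + n + 1 - i)) * |u i| ≤ |u (a + n + 1)| := by
    intro n
    induction n with
    | zero =>
      intro _
      refine ⟨by simpa using h0, fun i h1 h2 => ?_⟩
      have : i = a + 1 := by push_cast at h2; omega
      subst this
      simp
    | succ n ih =>
      intro hn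
      push_cast at hn ⊢
      obtain ⟨h1, h2⟩ := ih (by linarith)
      set j := a + n + 1 with hj
      have e1 : a + (n + 1) = j := by rw [hj]; ring
      rw [e1]
      have hv := h j (by omega) (by omega)
      have hr := hu j
      have e2 : j - 1 = a + n := by rw [hj]; ring
      rw [e2] at hr
      have e3 : u (j + 1) = v j * u j - u (a + n) := by linarith
      have h98 : (1 : ℝ) ≤ q ^ 98 := one_le_pow₀ hq1
      have e4 : q ^ 99 = q ^ 98 * q := by ring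
      have step : q ^ (98 : ℤ) * |u j| ≤ |u (j + 1)| := by
        have t1 : |v j * u j| - |u (a + n)| ≤ |u (j + 1)| := by
          rw [e3]; exact abs_sub_abs_le_abs_sub _ _
        rw [abs_mul] at t1
        have t2 : q ^ 99 * |u j| ≤ |v j| * |u j| := mul_le_mul_of_nonneg_right hv (abs_nonneg _)
        have t3 : (q ^ 98 + 1) * |u j| ≤ q ^ 99 * |u j| :=
          mul_le_mul_of_nonneg_right (by rw [e4]; nlinarith) (abs_nonneg _)
        rw [show (98 : ℤ) = ((98 : ℕ) : ℤ) from rfl, zpow_natCast]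
        nlinarith
      refine ⟨?_, fun i hi1 hi2 => ?_⟩
      · have := lin2_mono hq1 (show (0 : ℤ) ≤ 98 by norm_num) (abs_nonneg (u j))
        rw [zpow_zero, one_mul] at this
        exact this.trans step
      · rcases eq_or_lt_of_le hi2 with rfl | hlt
        · simp
        · exact lin2_chain hq1 (by ring_nf; rfl) (abs_nonneg _) (h2 i hi1 (by omega)) step
  obtain ⟨n, hn⟩ := Int.eq_ofNat_of_zero_le (sub_nonneg.2 hac)
  have hc : c = a + n := by linarith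
  obtain ⟨k1, k2⟩ := key n hc.ge
  rw [← hc] at k1 k2
  refine ⟨k1, ?_, fun i h1 h2 => ?_⟩
  · have := k2 (a + 1) le_rfl (by linarith)
    rwa [show c + 1 - (a + 1) = c - a by ring] at this
  · exact (lin2_mono hq1 (by nlinarith) (abs_nonneg _)).trans (k2 i h1 h2)

/-- `|u (i+1)| ≥ (q ^ 99 - 1) |u i| ≥ q ^ 98 |u i|` at each step; mirror image through `rf`. -/
theorem ud_base {q : ℝ} {v : ℤ → ℝ} {a c : ℤ} (hq : 2 ≤ q) (hac : a ≤ c)
    (h : ∀ i, a < i → i ≤ c → q ^ 99 ≤ |v i|) : UD q v a c (98 * (c - a)) := by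
  refine ⟨lin2_up_base hq hac h, ?_⟩
  have := lin2_up_base (v := rf v) (a := -c - 1) (c := -a - 1) hq (by linarith)
    (fun i h1 h2 => h (-i) (by linarith) (by linarith))
  have e : 98 * (-a - 1 - (-c - 1)) = 98 * (c - a) := by ring
  rw [e] at this
  exact this

theorem Up.concat {q : ℝ} {v : ℤ → ℝ} {a b c E₁ E₂ : ℤ} (hq : 1 ≤ q) (hab : a ≤ b) (hbc : b ≤ c)
    (h₁ : Up q v a b E₁) (h₂ : Up q v b c E₂) (hE : 90 * (c - b) ≤ E₂) : Up q v a c (E₁ + E₂) := by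
  intro u hu h0
  obtain ⟨a1, a2, a3⟩ := h₁ u hu h0
  obtain ⟨b1, b2, b3⟩ := h₂ u hu a1
  refine ⟨b1, lin2_chain hq (by linarith) (abs_nonneg _) a2 b2, fun i h1 h2 => ?_⟩
  rcases le_total i (b + 1) with hi | hi
  · exact lin2_chain hq (by linarith) (abs_nonneg _) (a3 i h1 hi) b2
  · exact b3 i hi h2

theorem UD.concat {q : ℝ} {v : ℤ → ℝ} {a b c E₁ E₂ : ℤ} (hq : 1 ≤ q) (hab : a ≤ b) (hbc : b ≤ c)
    (h₁ : UD q v a b E₁) (h₂ : UD q v b c E₂) (hE₁ : 90 * (b - a) ≤ E₁) (hE₂ : 90 * (c - b) ≤ E₂) :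
    UD q v a c (E₁ + E₂) := by
  refine ⟨h₁.1.concat hq hab hbc h₂.1 hE₂, ?_⟩
  have := Up.concat hq (by linarith : -c - 1 ≤ -b - 1) (by linarith : -b - 1 ≤ -a - 1) h₂.2 h₁.2
    (by linarith)
  rw [add_comm E₂ E₁] at this
  exact this

/-- A solution transversal to the stable direction enters the unstable cone.
Proof.  `φ = ph v b₁`.  By `dn_iff`, `|χ i| ≤ |χ b₁|` on `[b₁, b + 1]`, `nb χ b₁ = |χ b₁| ≠ 0`,
`wr φ χ = -χ b₁`.  Write `u = A φ + B χ` (`IsSol.span`): `wr u χ = -A χ b₁`, so `|A| ≥ q ^ (-T) nb u b₁`;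
`B χ b₁ = u b₁`, so `|B χ i| ≤ q ^ T |A|` on `[b₁, b + 1]`.  `Up` for `φ`: `q ^ F ≤ |φ (b+1)|` and the envelope.
Hence `|u (b+1)| ≥ |A| |φ (b+1)| (1 - q ^ (-92))` and
`q ^ (90 (b+1-i)) |u i| ≤ |A| |φ (b+1)| (1 + q ^ (-2))`. -/
theorem half {q : ℝ} {v u χ : ℤ → ℝ} {b₁ b F T : ℤ} (hq : 2 ≤ q) (hb : b₁ ≤ b) (hT : 0 ≤ T)
    (h : UD q v b₁ b F) (hu : IsSol v u) (hχ : IsSol v χ) (hs : |χ (b + 1)| ≤ |χ b|) (hχ0 : χ b ≠ 0)
    (hw : q ^ (-T) * (nb u b₁ * nb χ b₁) ≤ |wr u χ b₁|) (hF : 90 * (b - b₁) + T + 92 ≤ F) :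
    |u b| ≤ |u (b + 1)| ∧ q ^ (F - T - 1) * nb u b₁ ≤ |u (b + 1)| ∧
      ∀ i, b₁ ≤ i → i ≤ b + 1 → q ^ (90 * (b + 1 - i)) * |u i| ≤ 2 * |u (b + 1)| := by
  have hq1 : (1 : ℝ) ≤ q := by linarith
  obtain ⟨c1, c2, c3⟩ := (dn_iff q v b₁ b F).1 h.2 χ hχ hs
  have hχ1 : 0 < |χ b₁| := lt_of_lt_of_le (mul_pos (lin2_pos hq1 F) (abs_pos.2 hχ0)) c2
  have hχle : ∀ i, b₁ ≤ i → i ≤ b + 1 → |χ i| ≤ |χ b₁| := by
    have t : ∀ i, b₁ ≤ i → i ≤ b → |χ i| ≤ |χ b₁| := fun i h1 h2 => by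
      have := lin2_mono hq1 (show (0 : ℤ) ≤ 90 * (i - b₁) by nlinarith) (abs_nonneg (χ i))
      rw [zpow_zero, one_mul] at this
      exact this.trans (c3 i h1 h2)
    intro i h1 h2
    rcases eq_or_lt_of_le h2 with rfl | hlt
    · exact hs.trans (t b hb le_rfl)
    · exact t i h1 (by omega)
  have hnb : nb χ b₁ = |χ b₁| := max_eq_left c1
  have hφ := isSol_ph v b₁
  obtain ⟨A, B, hAB⟩ := hu.span hφ hχ b₁ (by
    rw [wr, ph_self, ph_succ]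
    simpa using abs_pos.1 hχ1)
  have e0 : u b₁ = B * χ b₁ := by rw [hAB, ph_self]; ring
  have e1 : u (b₁ + 1) = A + B * χ (b₁ + 1) := by rw [hAB, ph_succ]; ring
  have ew : |wr u χ b₁| = |A| * |χ b₁| := by
    rw [← abs_mul, ← abs_neg, wr, e0, e1]
    congr 1
    ring
  rw [hnb, ew, ← mul_assoc] at hw
  have hA : q ^ (-T) * nb u b₁ ≤ |A| := le_of_mul_le_mul_right hw hχ1
  have hA' : nb u b₁ ≤ q ^ T * |A| := by
    have := lin2_chain hq1 (k := 0) (m := T) (by linarith) (nb_nonneg u b₁) hA le_rfl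
    simpa using this
  have hB : ∀ i, b₁ ≤ i → i ≤ b + 1 → |B * χ i| ≤ q ^ T * |A| := fun i h1 h2 => by
    rw [abs_mul]
    calc |B| * |χ i| ≤ |B| * |χ b₁| := mul_le_mul_of_nonneg_left (hχle i h1 h2) (abs_nonneg _)
      _ = |u b₁| := by rw [e0, abs_mul]
      _ ≤ nb u b₁ := lin2_le_nb u b₁
      _ ≤ _ := hA'
  obtain ⟨-, p2, p3⟩ := h.1 (ph v b₁) hφ (by rw [ph_self, ph_succ]; simp)
  rw [ph_succ, abs_one, mul_one] at p2
  set P := |ph v b₁ (b + 1)| with hP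
  have p4 : ∀ i, b₁ ≤ i → i ≤ b + 1 → q ^ (90 * (b + 1 - i)) * |ph v b₁ i| ≤ P := fun i h1 h2 => by
    rcases eq_or_lt_of_le h1 with rfl | hlt
    · rw [ph_self]; simp [hP]
    · exact p3 i (by omega) h2
  have hA0 : 0 ≤ |A| := abs_nonneg A
  -- small powers
  have sm : ∀ k : ℤ, k + 2 ≤ F → q ^ k * |A| ≤ P * |A| / 4 := fun k hk => by
    have t1 : q ^ (2 + k) ≤ P := (zpow_le_zpow_right₀ hq1 (by linarith)).trans p2
    rw [zpow_add₀ (by linarith : q ≠ 0)] at t1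
    have t2 := lin2_four_le hq (le_refl (2 : ℤ))
    have t3 := lin2_pos hq1 k
    have t4 : q ^ k ≤ P / 4 := by nlinarith
    nlinarith
  have low : 3 / 4 * (P * |A|) ≤ |u (b + 1)| := by
    have t1 : |A * ph v b₁ (b + 1)| - |B * χ (b + 1)| ≤ |u (b + 1)| := by
      rw [hAB (b + 1)]
      have := abs_sub_abs_le_abs_sub (A * ph v b₁ (b + 1)) (-(B * χ (b + 1)))
      rwa [abs_neg, sub_neg_eq_add] at this
    rw [abs_mul, ← hP] at t1
    have t2 := hB (b + 1) (by linarith) le_rfl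
    have t3 := sm T (by nlinarith)
    nlinarith
  have hPA : 0 ≤ P * |A| := mul_nonneg (abs_nonneg _) hA0
  have env : ∀ i, b₁ ≤ i → i ≤ b + 1 → q ^ (90 * (b + 1 - i)) * |u i| ≤ 2 * |u (b + 1)| := by
    intro i h1 h2
    have t0 := lin2_pos hq1 (90 * (b + 1 - i))
    have t1 : |u i| ≤ |A| * |ph v b₁ i| + q ^ T * |A| := by
      rw [hAB i, ← abs_mul]
      exact (abs_add_le _ _).trans (by linarith [hB i h1 h2])
    have t2 := p4 i h1 h2
    have t3 := sm (90 * (b + 1 - i) + T) (by nlinarith)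
    rw [lin2_add hq1] at t3
    have t4 := mul_le_mul_of_nonneg_left t1 t0.le
    have t5 := mul_le_mul_of_nonneg_left t2 hA0
    nlinarith
  refine ⟨?_, ?_, env⟩
  · have t1 := env b hb (by linarith)
    have t2 := lin2_two_le hq (show (1 : ℤ) ≤ 90 * (b + 1 - b) by ring_nf; norm_num)
    have t3 := abs_nonneg (u b)
    nlinarith
  · have t1 : q ^ (F - T - 1) * nb u b₁ ≤ q ^ (F - 1) * |A| :=
      lin2_chain hq1 (by linarith) (nb_nonneg u b₁) hA le_rfl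
    have t2 : q ^ (1 + (F - 1)) ≤ P := by rw [show 1 + (F - 1) = F by ring]; exact p2
    rw [zpow_add₀ (by linarith : q ≠ 0), zpow_one] at t2
    have t3 := lin2_pos hq1 (F - 1)
    have t4 : q ^ (F - 1) ≤ P / 2 := by nlinarith
    nlinarith

/-- `half` followed by one more good stretch, with the envelope extended over a core `[m₀, b₁]`.
For `i ∈ [b+1, c+1]` use `Up b c`; for `i ∈ [b₁, b+1]` use `2 ≤ q` and `E ≥ 90 (c-b) + 1`; for `i ∈ [m₀, b₁]`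
use `|u i| ≤ q ^ (101 N) nb u b₁` (`nb_le`). -/
theorem half2 {q : ℝ} {v u χ : ℤ → ℝ} {m₀ b₁ b c N E F T : ℤ} (hq : 2 ≤ q) (hv : Bdd q v) (hm : m₀ ≤ b₁)
    (hN : b₁ - m₀ ≤ N) (hb : b₁ ≤ b) (hc : b ≤ c) (hT : 0 ≤ T)
    (h : UD q v b₁ b F) (h' : Up q v b c E) (hu : IsSol v u) (hχ : IsSol v χ)
    (hs : |χ (b + 1)| ≤ |χ b|) (hχ0 : χ b ≠ 0)
    (hw : q ^ (-T) * (nb u b₁ * nb χ b₁) ≤ |wr u χ b₁|) (hE : 90 * (c - b) + 1 ≤ E)
    (hF : 90 * (b - b₁) + T + 191 * N + 100 ≤ F) :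
    |u c| ≤ |u (c + 1)| ∧ q ^ (E + F - T - 1) * nb u b₁ ≤ |u (c + 1)| ∧
      ∀ i, m₀ ≤ i → i ≤ c + 1 → q ^ (90 * (c + 1 - i)) * |u i| ≤ |u (c + 1)| := by
  have hq1 : (1 : ℝ) ≤ q := by linarith
  obtain ⟨a1, a2, a3⟩ := half hq hb hT h hu hχ hs hχ0 hw (by linarith)
  obtain ⟨b1, b2, b3⟩ := h' u hu a1
  have g : q ^ (E + F - T - 1) * nb u b₁ ≤ |u (c + 1)| :=
    lin2_chain hq1 (by linarith) (nb_nonneg u b₁) a2 b2
  refine ⟨b1, g, fun i h1 h2 => ?_⟩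
  rcases le_total (b + 1) i with hi | hi
  · exact b3 i hi h2
  rcases le_total b₁ i with hi' | hi'
  · have t1 : q ^ (90 * (b + 1 - i)) * |u i| ≤ q ^ (1 : ℤ) * |u (b + 1)| := by
      rw [zpow_one]
      exact (a3 i hi' hi).trans (mul_le_mul_of_nonneg_right hq (abs_nonneg _))
    have t2 : q ^ (E - 1) * (q ^ (1 : ℤ) * |u (b + 1)|) ≤ |u (c + 1)| := by
      rw [← lin2_add hq1, sub_add_cancel]
      exact b2
    exact lin2_chain hq1 (by linarith) (abs_nonneg _) t1 t2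
  · have t1 : q ^ (0 : ℤ) * |u i| ≤ q ^ (101 * N) * nb u b₁ := by
      rw [zpow_zero, one_mul]
      exact (lin2_le_nb u i).trans (lin2_nb_le hv hu hq1 b₁ i (by linarith) (by linarith))
    have t2 : q ^ (E + F - T - 1 - 101 * N) * (q ^ (101 * N) * nb u b₁) ≤ |u (c + 1)| := by
      rw [← lin2_add hq1, sub_add_cancel]
      exact g
    exact lin2_chain hq1 (by linarith) (abs_nonneg _) t1 t2

theorem lin2_repair {q : ℝ} {v : ℤ → ℝ} {a' a a₁ m b₁ b c' N E₁ E₂ x τ : ℤ} (hq : 2 ≤ q) (hv : Bdd q v)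
    (h1 : a' ≤ a) (h2 : a ≤ a₁) (h3 : a₁ ≤ m) (h4 : m ≤ b₁) (h5 : b₁ ≤ b) (h6 : b ≤ c')
    (hN : b₁ - a₁ ≤ N) (hτ : 0 ≤ τ)
    (hL : Up q v a' a E₁) (hL' : UD q v a a₁ (90 * (a₁ - a) + x))
    (hR' : UD q v b₁ b (90 * (b - b₁) + x)) (hR : Up q v b c' E₂)
    (hE₂ : 90 * (c' - b) + 1 ≤ E₂) (hx : τ + 500 * N + 200 ≤ x)
    (hw : q ^ (-τ) * (nb (ph v a) m * nb (ph v (b + 1)) m) ≤ |ph v a (b + 1)|) :
    Up q v a' c' (E₁ + E₂ + 90 * (b - a)) := by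
  have hq1 : (1 : ℝ) ≤ q := by linarith
  have hN0 : 0 ≤ N := by linarith
  intro u hu h0
  have hφ := isSol_ph v a
  have hχ := isSol_ph v (b + 1)
  have hχa : |ph v (b + 1) a| = |ph v a (b + 1)| := by rw [ph_antisymm v a (b + 1), abs_neg]
  have hwr : ∀ i, wr (ph v a) (ph v (b + 1)) i = ph v a (b + 1) := fun i => wr_ph v a (b + 1) i
  have hφa := ph_self v a
  have hφa' := ph_succ v a
  have hχb := ph_self v (b + 1)
  have hχb' : ph v (b + 1) b = -1 := by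
    have := ph_pred v (b + 1)
    rwa [add_sub_cancel_right] at this
  generalize ph v a (b + 1) = W at hw hχa hwr
  generalize ph v a = φ at *
  generalize ph v (b + 1) = χ at *
  have pφ : 0 < nb φ m := nb_pos hφ (a := a + 1) (by rw [hφa']; norm_num) m
  have pχ : 0 < nb χ m := nb_pos hχ (a := b) (by rw [hχb']; norm_num) m
  have hW : 0 < |W| := lt_of_lt_of_le (mul_pos (lin2_pos hq1 _) (mul_pos pφ pχ)) hw
  have hw' : nb φ m * nb χ m ≤ q ^ τ * |W| := by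
    have := lin2_chain hq1 (k := 0) (m := τ) (by linarith) (mul_pos pφ pχ).le hw le_rfl
    simpa using this
  -- (1)
  have n1 : nb φ a₁ ≤ q ^ (101 * (m - a₁)) * nb φ m := lin2_nb_le hv hφ hq1 m a₁ (by linarith) le_rfl
  have n2 : nb χ a₁ ≤ q ^ (101 * (m - a₁)) * nb χ m := lin2_nb_le hv hχ hq1 m a₁ (by linarith) le_rfl
  obtain ⟨-, s2, s3⟩ := half (v := rf v) (u := rf χ) (χ := rf φ) (b₁ := -a₁ - 1) (b := -a - 1)
    (T := τ + 202 * N) hq (by linarith) (by linarith) hL'.rf hχ.rf hφ.rf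
    (by simp only [rf]; rw [show -(-a - 1 + 1) = a by ring, hφa]; simp)
    (by simp only [rf]; rw [show -(-a - 1) = a + 1 by ring, hφa']; norm_num)
    (by
      rw [nb_rf, nb_rf, wr_rf, abs_neg, show -(-a₁ - 1) - 1 = a₁ by ring]
      have e : |wr χ φ a₁| = |W| := by
        rw [← hwr a₁, ← abs_neg]
        congr 1
        unfold wr
        ring
      rw [e]
      have t1 : q ^ (0 : ℤ) * (nb χ a₁ * nb φ a₁) ≤ q ^ (202 * (m - a₁)) * (nb φ m * nb χ m) := by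
        rw [zpow_zero, one_mul, show 202 * (m - a₁) = 101 * (m - a₁) + 101 * (m - a₁) by ring,
          zpow_add₀ (by linarith : q ≠ 0)]
        calc nb χ a₁ * nb φ a₁ ≤ (q ^ (101 * (m - a₁)) * nb χ m) * (q ^ (101 * (m - a₁)) * nb φ m) :=
              mul_le_mul n2 n1 (nb_nonneg _ _) (mul_pos (lin2_pos hq1 _) pχ).le
          _ = _ := by ring
      have t2 : q ^ (-τ - 202 * (m - a₁)) * (q ^ (202 * (m - a₁)) * (nb φ m * nb χ m)) ≤ |W| := by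
        rw [← lin2_add hq1, sub_add_cancel]
        exact hw
      exact lin2_chain hq1 (by linarith) (mul_nonneg (nb_nonneg _ _) (nb_nonneg _ _)) t1 t2)
    (by linarith)
  have s4 := s3 (-a - 1) (by linarith) (by linarith)
  rw [nb_rf] at s2
  simp only [rf] at s2 s4
  rw [show -(-a - 1 + 1) = a by ring, hχa] at s2 s4
  rw [show -(-a₁ - 1) - 1 = a₁ by ring] at s2
  rw [show -(-a - 1) = a + 1 by ring] at s4
  have s5 : |χ (a + 1)| ≤ |W| / 2 := by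
    have t := lin2_four_le hq (show (2 : ℤ) ≤ 90 * (-a - 1 + 1 - (-a - 1)) by ring_nf; norm_num)
    have t' := abs_nonneg (χ (a + 1))
    nlinarith
  have s6 : nb χ a₁ ≤ |W| := by
    have := lin2_mono hq1 (show (0 : ℤ) ≤ 90 * (a₁ - a) + x - (τ + 202 * N) - 1 by nlinarith)
      (nb_nonneg χ a₁)
    rw [zpow_zero, one_mul] at this
    exact this.trans s2
  -- (2)
  obtain ⟨c1, -, -⟩ := hL u hu h0
  set y := |u (a + 1)| with hy
  have hy0 : 0 ≤ y := abs_nonneg _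
  have w1 : y * |W| / 2 ≤ |wr u χ b₁| := by
    rw [wr_const hu hχ b₁ a, wr, abs_sub_comm]
    have t1 := abs_sub_abs_le_abs_sub (u (a + 1) * χ a) (u a * χ (a + 1))
    rw [abs_mul, abs_mul, hχa, ← hy] at t1
    have t2 : |u a| * |χ (a + 1)| ≤ y * (|W| / 2) := mul_le_mul c1 s5 (abs_nonneg _) hy0
    linarith
  -- (3)
  obtain ⟨A, B, hAB⟩ := hu.span hφ hχ a (by rw [hwr]; exact abs_pos.1 hW)
  have e0 : |B| * |W| = |u a| := by rw [hAB a, hφa, ← hχa, ← abs_mul]; congr 1; ring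
  have hA : |A| ≤ 2 * y := by
    have e1 : A = u (a + 1) - B * χ (a + 1) := by rw [hAB (a + 1), hφa']; ring
    have t1 : |A| ≤ y + |B| * |χ (a + 1)| := by
      rw [e1, ← abs_mul]
      exact abs_sub _ _
    have t2 : |B| * |χ (a + 1)| ≤ |B| * |W| :=
      mul_le_mul_of_nonneg_left (by linarith) (abs_nonneg _)
    linarith
  have hφ1 : 1 ≤ nb φ a₁ := by
    obtain ⟨-, t, -⟩ := hL'.1 φ hφ (by rw [hφa, hφa']; simp)
    rw [hφa', abs_one, mul_one] at t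
    exact (lin2_one_le hq1 (by nlinarith)).trans (t.trans (lin2_le_nb' φ a₁))
  have hu1 : nb u a₁ ≤ 3 * y * nb φ a₁ := by
    have t : ∀ i, |φ i| ≤ nb φ a₁ → |χ i| ≤ nb χ a₁ → |u i| ≤ 3 * y * nb φ a₁ := fun i t1 t2 => by
      have t3 : |u i| ≤ |A| * |φ i| + |B| * |χ i| := by
        rw [hAB i, ← abs_mul, ← abs_mul]
        exact abs_add_le _ _
      have t4 : |A| * |φ i| ≤ 2 * y * nb φ a₁ := mul_le_mul hA t1 (abs_nonneg _) (by linarith)
      have t5 : |B| * |χ i| ≤ |B| * |W| := mul_le_mul_of_nonneg_left (t2.trans s6) (abs_nonneg _)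
      have t6 : y * 1 ≤ y * nb φ a₁ := mul_le_mul_of_nonneg_left hφ1 hy0
      linarith
    exact max_le (t _ (lin2_le_nb _ _) (lin2_le_nb _ _)) (t _ (lin2_le_nb' _ _) (lin2_le_nb' _ _))
  -- (4)
  have n3 : nb u b₁ ≤ q ^ (101 * (b₁ - a₁)) * nb u a₁ := lin2_nb_le hv hu hq1 a₁ b₁ le_rfl (by linarith)
  have n4 : nb χ b₁ ≤ q ^ (101 * (b₁ - m)) * nb χ m := lin2_nb_le hv hχ hq1 m b₁ le_rfl (by linarith)
  have w2 : q ^ (-(τ + 202 * N + 3)) * (nb u b₁ * nb χ b₁) ≤ |wr u χ b₁| := by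
    have q1 := lin2_pos hq1 (101 * (b₁ - a₁))
    have q2 := lin2_pos hq1 (101 * (m - a₁))
    have q3 := lin2_pos hq1 (101 * (b₁ - m))
    have q4 := lin2_pos hq1 τ
    have t1 : nb u b₁ ≤ q ^ (101 * (b₁ - a₁)) * (3 * y * (q ^ (101 * (m - a₁)) * nb φ m)) :=
      n3.trans (mul_le_mul_of_nonneg_left
        (hu1.trans (mul_le_mul_of_nonneg_left n1 (by linarith))) q1.le)
    have t2 : nb u b₁ * nb χ b₁ ≤ q ^ (101 * (b₁ - a₁)) * (3 * y * (q ^ (101 * (m - a₁)) * nb φ m)) *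
        (q ^ (101 * (b₁ - m)) * nb χ m) :=
      mul_le_mul t1 n4 (nb_nonneg _ _) ((nb_nonneg _ _).trans t1)
    have t3 : q ^ (101 * (b₁ - a₁)) * (3 * y * (q ^ (101 * (m - a₁)) * nb φ m)) *
        (q ^ (101 * (b₁ - m)) * nb χ m) =
        q ^ (101 * (b₁ - a₁) + 101 * (m - a₁) + 101 * (b₁ - m)) * (3 * y * (nb φ m * nb χ m)) := by
      rw [zpow_add₀ (by linarith : q ≠ 0), zpow_add₀ (by linarith : q ≠ 0)]
      ring
    have t4 : 3 * y * (nb φ m * nb χ m) ≤ q ^ (τ + 3) * |wr u χ b₁| := by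
      have u1 : 3 * y * (nb φ m * nb χ m) ≤ 3 * y * (q ^ τ * |W|) :=
        mul_le_mul_of_nonneg_left hw' (by linarith)
      have u2 : q ^ τ * (y * |W| / 2) ≤ q ^ τ * |wr u χ b₁| := mul_le_mul_of_nonneg_left w1 q4.le
      have u3 := lin2_eight_le hq
      have u4 : 0 ≤ q ^ τ * |wr u χ b₁| := mul_nonneg q4.le (abs_nonneg _)
      rw [add_comm τ 3, lin2_add hq1]
      nlinarith
    have t5 : q ^ (0 : ℤ) * (nb u b₁ * nb χ b₁) ≤ q ^ (τ + 202 * N + 3) * |wr u χ b₁| := by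
      rw [zpow_zero, one_mul]
      refine t2.trans (t3.le.trans ?_)
      refine (mul_le_mul_of_nonneg_left t4 (lin2_pos hq1 _).le).trans ?_
      rw [← lin2_add hq1]
      exact lin2_mono hq1 (by linarith) (abs_nonneg _)
    have t6 : q ^ (-(τ + 202 * N + 3)) * (q ^ (τ + 202 * N + 3) * |wr u χ b₁|) ≤ |wr u χ b₁| := by
      rw [← lin2_add hq1, neg_add_cancel, zpow_zero, one_mul]
    exact lin2_chain hq1 (by linarith) (mul_nonneg (nb_nonneg _ _) (nb_nonneg _ _)) t5 t6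
  obtain ⟨f1, f2, f3⟩ := half2 (m₀ := a₁) (N := N) hq hv (by linarith) hN h5 h6 (by linarith) hR' hR hu hχ
    (by rw [hχb]; simp) (by rw [hχb']; norm_num) w2 hE₂ (by linarith)
  -- (5)
  obtain ⟨-, g2, g3⟩ := hL.concat hq1 h1 h2 hL'.1 (by linarith) u hu h0
  refine ⟨f1, ?_, fun i i1 i2 => ?_⟩
  · have t1 : q ^ (E₁ + (90 * (a₁ - a) + x)) * |u (a' + 1)| ≤ q ^ (101 * N) * nb u b₁ :=
      g2.trans ((lin2_le_nb' u a₁).trans (lin2_nb_le hv hu hq1 b₁ a₁ (by linarith) hN))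
    have t2 : q ^ (E₂ + (90 * (b - b₁) + x) - (τ + 202 * N + 3) - 1 - 101 * N) *
        (q ^ (101 * N) * nb u b₁) ≤ |u (c' + 1)| := by
      rw [← lin2_add hq1, sub_add_cancel]
      exact f2
    exact lin2_chain hq1 (by linarith) (abs_nonneg _) t1 t2
  · rcases le_total i (a₁ + 1) with hi | hi
    · exact lin2_chain hq1 (by linarith) (abs_nonneg _) (g3 i i1 hi)
        (f3 (a₁ + 1) (by linarith) (by linarith))
    · exact f3 i (by linarith) i2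

/-- Repair across a non-resonant core `[a₁, b₁]`.
Proof of the `Up` part (the `Dn` part is the same statement for `rf v`, with `UD.rf`, `ph_rf`, `nb_rf`,
`ph_antisymm`; the bonds become `-c'-1 ≤ -b-1 ≤ -b₁-1 ≤ -m-1 ≤ -a₁-1 ≤ -a-1 ≤ -a'-1`).
`φ = ph v a`, `χ = ph v (b+1)`, `wr φ χ = ph v a (b+1) = -χ a`.  `u` in the unstable cone at `a'`, hence at `a`.
(1) The mirror image of `half` (roles: `φ` is the cone solution, `χ` the transversal one, `T₁ = τ + 202 N`,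
`nb_le` from `m` to `a₁`) gives `q ^ 90 |χ (a+1)| ≤ 2 |χ a|` and `nb χ a₁ ≤ |χ a|`.
(2) So `|wr u χ| = |u a χ (a+1) - u (a+1) χ a| ≥ |u (a+1)| |wr φ χ| / 2`.
(3) `u = A φ + B χ`, `B χ a = u a`, `|A| ≤ 2 |u (a+1)|`, `nb φ a₁ ≥ 1`, so `nb u a₁ ≤ 3 |u (a+1)| nb φ a₁`.
(4) `nb u b₁ * nb χ b₁ ≤ 3 q ^ (202 N) |u (a+1)| nb φ m * nb χ m ≤ q ^ T |wr u χ|`, `T = τ + 202 N + 3`
(`(b₁ - a₁) + (m - a₁) + (b₁ - m) ≤ 2 N`).  Apply `half2` with `m₀ = a₁`.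
(5) growth: `nb u b₁ ≥ q ^ (-101 N) nb u a₁`, `Up.concat` on `[a', a₁]`; envelope on `[a'+1, a₁+1]` from
`Up a' a₁` and the envelope of `half2` at `i = a₁ + 1`. -/
theorem repair {q : ℝ} {v : ℤ → ℝ} {a' a a₁ m b₁ b c' N E₁ E₂ x τ : ℤ} (hq : 2 ≤ q) (hv : Bdd q v)
    (h1 : a' ≤ a) (h2 : a ≤ a₁) (h3 : a₁ ≤ m) (h4 : m ≤ b₁) (h5 : b₁ ≤ b) (h6 : b ≤ c')
    (hN : b₁ - a₁ ≤ N) (hτ : 0 ≤ τ)
    (hL : UD q v a' a E₁) (hL' : UD q v a a₁ (90 * (a₁ - a) + x))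
    (hR' : UD q v b₁ b (90 * (b - b₁) + x)) (hR : UD q v b c' E₂)
    (hE₁ : 90 * (a - a') + 1 ≤ E₁) (hE₂ : 90 * (c' - b) + 1 ≤ E₂) (hx : τ + 500 * N + 200 ≤ x)
    (hw : q ^ (-τ) * (nb (ph v a) m * nb (ph v (b + 1)) m) ≤ |ph v a (b + 1)|) :
    UD q v a' c' (E₁ + E₂ + 90 * (b - a)) := by
  refine ⟨lin2_repair hq hv h1 h2 h3 h4 h5 h6 hN hτ hL.1 hL' hR' hR.1 hE₂ hx hw, ?_⟩
  have hnb : ∀ a i : ℤ, nb (ph (rf v) a) i = nb (ph v (-a)) (-i - 1) := by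
    intro a i
    unfold nb
    rw [ph_rf, ph_rf, abs_neg, abs_neg, max_comm, show -(i + 1) = -i - 1 by ring,
      show -i - 1 + 1 = -i by ring]
  have := lin2_repair (v := rf v) (a' := -c' - 1) (a := -b - 1) (a₁ := -b₁ - 1) (m := -m - 1)
    (b₁ := -a₁ - 1) (b := -a - 1) (c' := -a' - 1) (N := N) (E₁ := E₂) (E₂ := E₁) (x := x) (τ := τ) hq hv.rf
    (by linarith) (by linarith) (by linarith) (by linarith) (by linarith) (by linarith) (by linarith) hτ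
    hR.2 (by
      rw [show 90 * (-b₁ - 1 - (-b - 1)) + x = 90 * (b - b₁) + x by ring]
      exact hR'.rf) (by
      rw [show 90 * (-a - 1 - (-a₁ - 1)) + x = 90 * (a₁ - a) + x by ring]
      exact hL'.rf) hL.2 (by linarith) hx (by
      rw [hnb, hnb, ph_rf, abs_neg, show -(-b - 1) = b + 1 by ring, show -(-a - 1 + 1) = a by ring,
        show -(-m - 1) - 1 = m by ring, ph_antisymm v a (b + 1), abs_neg, mul_comm (nb _ m)]
      exact hw)
  rw [show E₂ + E₁ + 90 * (-a - 1 - (-b - 1)) = E₁ + E₂ + 90 * (b - a) by ring] at this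
  exact this

theorem Up.envU {q : ℝ} {v : ℤ → ℝ} {a c E : ℤ} (h : Up q v a c E) : EnvU q v a c := by
  obtain ⟨-, -, h3⟩ := h (ph v a) (isSol_ph v a) (by rw [ph_self, ph_succ]; simp)
  intro i h1 h2
  rcases eq_or_lt_of_le h1 with rfl | hlt
  · rw [ph_self]; simp
  · exact h3 i (by omega) h2

theorem Dn.envS {q : ℝ} {v : ℤ → ℝ} {c b E : ℤ} (h : Dn q v c b E) : EnvS q v c (b + 1) := by
  obtain ⟨-, -, h3⟩ := (dn_iff q v c b E).1 h (ph v (b + 1)) (isSol_ph v (b + 1)) (by rw [ph_self]; simp)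
  intro i h1 h2
  rcases eq_or_lt_of_le h2 with rfl | hlt
  · rw [ph_self]; simp
  · exact h3 i h1 (by omega)

end Crest.Agent.R128
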