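import Crest.Agent.R128.LocB

/-!
# Row 128, LocA: resonances cannot occur at many separated points.
Keep the statements; add auxiliary lemmas freely (prefix `loca_`).
-/

set_option autoImplicit false

noncomputable section

open scoped Classical
open MeasureTheory Set

namespace Crest.Agent.R128

/-- choice of the number of nodes: `B = 12 / σ`, `r` maximal with `B ^ r ≤ q ^ 4`; then `q ^ 4 < B ^ (r+1)`,
`r → ∞` as `q → ∞`, `r ≤ 4 log q / log 12`. -/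
theorem exists_nodes {σ : ℝ} (hσ : 0 < σ) (hσ' : σ ≤ 1) : ∃ q₀ : ℝ, 100 ≤ q₀ ∧ ∀ q, q₀ ≤ q → ∃ r : ℕ,
    2 ≤ r ∧ (r + 3 : ℝ) ≤ q ∧ (12 / σ) ^ r ≤ q ^ 4 ∧ (4 * (r + 3) * r / σ) ^ 2 ≤ q ∧
      100 * q ^ 200 * Real.exp (13 * (r + 3)) * (12 / r) ^ (r + 1) ≤ q ^ (-85 : ℤ) := by
  set B : ℝ := 12 / σ with hB
  have hB12 : 12 ≤ B := by rw [hB, le_div_iff₀ hσ]; linarith
  have hB1 : 1 < B := by linarith
  set K : ℝ := B ^ 72 * Real.exp 13 * 12 with hK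
  have hKpos : 0 < K := by positivity
  have hev : ∀ᶠ r : ℕ in Filter.atTop, (r : ℝ) ^ 16 / 12 ^ r < (σ / 16) ^ 8 :=
    (tendsto_pow_const_div_const_pow_of_one_lt 16 (by norm_num : (1 : ℝ) < 12)).eventually
      (gt_mem_nhds (by positivity))
  have hev2 : ∀ᶠ r : ℕ in Filter.atTop, K * (100 * Real.exp 26) ≤ r :=
    tendsto_natCast_atTop_atTop.eventually (Filter.eventually_ge_atTop _)
  obtain ⟨R, hR⟩ := Filter.eventually_atTop.1 (hev.and (hev2.and (Filter.eventually_ge_atTop 2)))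
  refine ⟨max 100 (B ^ R), le_max_left _ _, fun q hq => ?_⟩
  have hq100 : 100 ≤ q := (le_max_left _ _).trans hq
  have hq1 : 1 ≤ q := by linarith
  have hq0 : 0 < q := by linarith
  have hqB : B ^ R ≤ q ^ 4 := ((le_max_right _ _).trans hq).trans (le_self_pow₀ hq1 (by norm_num))
  obtain ⟨r, hr1, hr2⟩ := exists_nat_pow_near (one_le_pow₀ hq1 : 1 ≤ q ^ 4) hB1
  have hRr : R ≤ r := by
    have := (pow_lt_pow_iff_right₀ hB1).1 (hqB.trans_lt hr2)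
    omega
  obtain ⟨h1, h2, h3⟩ := hR r hRr
  have hr2' : (2 : ℝ) ≤ r := by exact_mod_cast h3
  have hx : (4 * (r + 3) * r / σ) ^ 2 ≤ q := by
    have e1 : (4 * (r + 3) * r / σ : ℝ) ≤ 16 / σ * (r : ℝ) ^ 2 := by
      rw [div_mul_eq_mul_div]
      apply div_le_div_of_nonneg_right _ hσ.le
      nlinarith
    have e2 : (16 / σ * (r : ℝ) ^ 2) ^ 8 ≤ 12 ^ r := by
      rw [div_lt_iff₀ (by positivity)] at h1
      have : (16 / σ * (r : ℝ) ^ 2) ^ 8 = (16 / σ) ^ 8 * (r : ℝ) ^ 16 := by ring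
      rw [this]
      calc (16 / σ) ^ 8 * (r : ℝ) ^ 16 ≤ (16 / σ) ^ 8 * ((σ / 16) ^ 8 * 12 ^ r) := by gcongr
        _ = 12 ^ r := by field_simp
    have e3 : ((4 * (r + 3) * r / σ) ^ 2) ^ 4 ≤ q ^ 4 := by
      calc ((4 * (r + 3) * r / σ) ^ 2) ^ 4 = (4 * (r + 3) * r / σ : ℝ) ^ 8 := by ring
        _ ≤ (16 / σ * (r : ℝ) ^ 2) ^ 8 := by gcongr
        _ ≤ 12 ^ r := e2
        _ ≤ B ^ r := by gcongr
        _ ≤ q ^ 4 := hr1
    exact (pow_le_pow_iff_left₀ (by positivity) hq0.le (by norm_num)).1 e3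
  refine ⟨r, h3, ?_, hr1, hx, ?_⟩
  · have e1 : (r + 3 : ℝ) ≤ 4 * (r + 3) * r / σ := by
      rw [le_div_iff₀ hσ]; nlinarith
    nlinarith
  · have hr0 : (0 : ℝ) < r := by linarith
    have hE : 1 ≤ 100 * Real.exp 26 := by
      have := Real.one_le_exp (by norm_num : (0 : ℝ) ≤ 26); linarith
    have hKr : K / r ≤ 1 / (100 * Real.exp 26) := by
      rw [div_le_div_iff₀ hr0 (by positivity)]; linarith
    have hKr1 : K / r ≤ 1 := hKr.trans (by rw [div_le_one (by positivity)]; exact hE)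
    have hp : (K / r) ^ (r + 1) ≤ K / r := by
      rw [pow_succ]
      exact mul_le_of_le_one_left (by positivity) (pow_le_one₀ (by positivity) hKr1)
    have hq285 : q ^ 285 ≤ (B ^ 72) ^ (r + 1) := by
      calc q ^ 285 ≤ q ^ 288 := pow_le_pow_right₀ hq1 (by norm_num)
        _ = (q ^ 4) ^ 72 := by ring
        _ ≤ (B ^ (r + 1)) ^ 72 := by gcongr
        _ = (B ^ 72) ^ (r + 1) := by rw [← pow_mul, ← pow_mul, mul_comm]
    have hexp : Real.exp (13 * (r + 3)) = Real.exp 26 * Real.exp 13 ^ (r + 1) := by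
      rw [← Real.exp_nat_mul, ← Real.exp_add]; congr 1; push_cast; ring
    have hz : q ^ (-85 : ℤ) = (q ^ 85)⁻¹ := by rw [zpow_neg]; rfl
    rw [hz, ← one_div, le_div_iff₀ (by positivity), hexp]
    calc 100 * q ^ 200 * (Real.exp 26 * Real.exp 13 ^ (r + 1)) * (12 / r) ^ (r + 1) * q ^ 85
        = 100 * Real.exp 26 * (q ^ 285 * Real.exp 13 ^ (r + 1) * (12 / r) ^ (r + 1)) := by ring
      _ ≤ 100 * Real.exp 26 * ((B ^ 72) ^ (r + 1) * Real.exp 13 ^ (r + 1) * (12 / r) ^ (r + 1)) := by gcongr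
      _ = 100 * Real.exp 26 * (K / r) ^ (r + 1) := by
          rw [← mul_pow, ← mul_pow, hK, mul_div_assoc (B ^ 72 * Real.exp 13)]
      _ ≤ 100 * Real.exp 26 * (1 / (100 * Real.exp 26)) := by gcongr; exact hp.trans hKr
      _ = 1 := by field_simp

theorem loca_zpow {q : ℝ} (n : ℕ) : q ^ (-(n : ℤ)) = (q ^ n)⁻¹ := by rw [zpow_neg, zpow_natCast]

theorem loca_im {f f' : ℂ → ℂ} (hf : ∀ w, HasDerivAt f (f' w) w) {ρ C : ℝ} (hC : 0 ≤ C)
    (hb : ∀ w, ‖w‖ ≤ ρ → ‖f' w‖ ≤ C) (hre : ∀ x : ℝ, (f x).im = 0) {w : ℂ} (hw : ‖w‖ ≤ ρ) :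
    |(f w).im| ≤ C * ρ := by
  have h0 : (0 : ℝ) ≤ ρ := (norm_nonneg _).trans hw
  have h := Convex.norm_image_sub_le_of_norm_hasDerivWithin_le (f := f) (f' := f') (C := C)
    (s := Metric.closedBall (0 : ℂ) ρ) (x := 0) (y := w) (fun x _ => (hf x).hasDerivWithinAt)
    (fun x hx => hb x (by simpa using hx)) (convex_closedBall _ _) (by simpa using h0) (by simpa using hw)
  have e : (f w).im = (f w - f 0).im := by
    have := hre 0
    simp only [Complex.ofReal_zero] at this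
    simp [this]
  rw [e]
  refine (Complex.abs_im_le_norm _).trans (h.trans ?_)
  rw [sub_zero]
  gcongr

theorem loca_VC {q ρ : ℝ} (hq : 100 ≤ q) (hρ : 0 ≤ ρ) {z : ℂ} (hz : |z.im| ≤ 101 / 100 * ρ) :
    ‖VC (q ^ 100) z‖ ≤ 9 * q ^ 100 * Real.exp (13 / 2 * ρ) := by
  have hq1 : 1 ≤ q ^ 100 := one_le_pow₀ (by linarith)
  have hpi := Real.pi_lt_d2
  have hpi0 := Real.pi_pos
  have h1 : Real.exp (2 * Real.pi * |z.im|) ≤ Real.exp (13 / 2 * ρ) := by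
    apply Real.exp_le_exp.2
    have : 2 * Real.pi * |z.im| ≤ 2 * Real.pi * (101 / 100 * ρ) := by gcongr
    nlinarith
  have h2 : 1 ≤ Real.exp (13 / 2 * ρ) := Real.one_le_exp (by positivity)
  refine (norm_VC_le (by positivity) z).trans ?_
  have h3 : 2 * Real.pi * q ^ 100 * Real.exp (2 * Real.pi * |z.im|) ≤ 7 * q ^ 100 * Real.exp (13 / 2 * ρ) := by
    gcongr; linarith
  have h4 : 1 ≤ q ^ 100 * Real.exp (13 / 2 * ρ) := one_le_mul_of_one_le_of_one_le hq1 h2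
  nlinarith

theorem loca_Ph {q μ ρ : ℝ} {y z y' z' Θ : ℂ → ℂ} (hq : 100 ≤ q) (h : Curves q μ y z y' z') (hρ : ρ ≤ q)
    (hΘ : ∀ w, ‖w‖ ≤ ρ → ‖Θ w‖ ≤ 1 / 4) {w : ℂ} (hw : ‖w‖ ≤ ρ) :
    ‖Ph q μ y z y' z' Θ w‖ ≤ 100 * q ^ 200 * Real.exp (13 * ρ) := by
  have hρ0 : 0 ≤ ρ := (norm_nonneg _).trans hw
  have hq1 : 1 ≤ q := by linarith
  have hμ : 0 < μ := lt_of_lt_of_le (zpow_pos (by linarith) _) h.μ_ge
  have hμ1 := h.μ_le
  have h70 : ρ ≤ q ^ 70 := hρ.trans (le_self_pow₀ hq1 (by norm_num))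
  have hz' : ∀ w, ‖w‖ ≤ ρ → ‖z' w‖ ≤ 101 / 100 := by
    intro w hw
    have h1 := h.z'_near w (hw.trans h70)
    have h2 : ‖z' w‖ ≤ ‖z' w - 1‖ + ‖(1 : ℂ)‖ := by simpa using norm_add_le (z' w - 1) 1
    rw [norm_one] at h2
    linarith
  have hy' : ∀ w, ‖w‖ ≤ ρ → ‖y' w‖ ≤ 101 / 100 * μ := by
    intro w hw
    have h1 := h.y'_near w (hw.trans h70)
    have h2 : ‖y' w‖ ≤ ‖y' w - μ‖ + ‖(μ : ℂ)‖ := by simpa using norm_add_le (y' w - μ) μ
    rw [Complex.norm_real, Real.norm_eq_abs, abs_of_pos hμ] at h2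
    linarith
  have hy'' : ∀ w, ‖w‖ ≤ ρ → ‖y' w‖ ≤ 101 / 100 := fun w hw => (hy' w hw).trans (by nlinarith)
  have hVz := loca_VC hq hρ0 (loca_im h.dz (by norm_num) hz' h.z_real hw)
  have hVy := loca_VC hq hρ0 (loca_im h.dy (by norm_num) hy'' h.y_real hw)
  set W := 9 * q ^ 100 * Real.exp (13 / 2 * ρ) with hW
  have hW9 : 9 ≤ W := by
    have h2 : 1 ≤ Real.exp (13 / 2 * ρ) := Real.one_le_exp (by positivity)
    have h4 : 1 ≤ q ^ 100 * Real.exp (13 / 2 * ρ) := one_le_mul_of_one_le_of_one_le (one_le_pow₀ hq1) h2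
    rw [hW]; nlinarith
  have hW2 : W ^ 2 = 81 * (q ^ 200 * Real.exp (13 * ρ)) := by
    have : Real.exp (13 * ρ) = Real.exp (13 / 2 * ρ) ^ 2 := by
      rw [← Real.exp_nat_mul]; congr 1; push_cast; ring
    rw [hW, this]; ring
  have t1 : ‖Θ w / μ ^ 2 * z' w ^ 2 * y' w ^ 2 * VC (q ^ 100) (z w) * VC (q ^ 100) (y w)‖ ≤ 1 / 2 * W ^ 2 := by
    simp only [norm_mul, norm_div, norm_pow, Complex.norm_real, Real.norm_eq_abs, abs_of_pos hμ]
    calc ‖Θ w‖ / μ ^ 2 * ‖z' w‖ ^ 2 * ‖y' w‖ ^ 2 * ‖VC (q ^ 100) (z w)‖ * ‖VC (q ^ 100) (y w)‖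
        ≤ (1 / 4) / μ ^ 2 * (101 / 100) ^ 2 * (101 / 100 * μ) ^ 2 * W * W := by
          gcongr
          · exact hΘ w hw
          · exact hz' w hw
          · exact hy' w hw
      _ = (1 / 4) * (101 / 100) ^ 4 * W ^ 2 := by field_simp
      _ ≤ 1 / 2 * W ^ 2 := by gcongr; norm_num
  have t2 : ‖y' w ^ 2 * VC (q ^ 100) (y w)‖ ≤ (101 / 100) ^ 2 * W := by
    simp only [norm_mul, norm_pow]
    gcongr
    exact hy'' w hw
  have t3 : ‖z' w ^ 2 * VC (q ^ 100) (z w)‖ ≤ (101 / 100) ^ 2 * W := by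
    simp only [norm_mul, norm_pow]
    gcongr
    exact hz' w hw
  unfold Ph
  refine (norm_sub_le _ _).trans ((add_le_add (norm_sub_le _ _) le_rfl).trans ?_)
  have : 100 * q ^ 200 * Real.exp (13 * ρ) = 100 / 81 * W ^ 2 := by rw [hW2]; ring
  rw [this]
  nlinarith

theorem loca_diff {q μ ρ : ℝ} {y z y' z' Θ : ℂ → ℂ} (h : Curves q μ y z y' z')
    (hΘ : DifferentiableOn ℂ Θ (Metric.closedBall 0 ρ)) :
    DifferentiableOn ℂ (Ph q μ y z y' z' Θ) (Metric.closedBall 0 ρ) := by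
  have hz : Differentiable ℂ z := fun w => (h.dz w).differentiableAt
  have hy : Differentiable ℂ y := fun w => (h.dy w).differentiableAt
  have hVz : Differentiable ℂ fun w => VC (q ^ 100) (z w) := (differentiable_VC _).comp hz
  have hVy : Differentiable ℂ fun w => VC (q ^ 100) (y w) := (differentiable_VC _).comp hy
  unfold Ph
  exact ((((((hΘ.div_const _).mul (h.dz'.pow 2).differentiableOn).mul (h.dy'.pow 2).differentiableOn).mul
    hVz.differentiableOn).mul hVy.differentiableOn).sub ((h.dy'.pow 2).mul hVy).differentiableOn).sub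
    ((h.dz'.pow 2).mul hVz).differentiableOn

theorem loca_inj {r : ℕ} {t : Fin r → ℝ} {γ : ℝ} (hγ : 0 < γ) (ht : ∀ i j, i < j → t i + γ ≤ t j) :
    Function.Injective fun i => (t i : ℂ) := by
  intro i j hij
  have e : t i = t j := Complex.ofReal_injective hij
  rcases lt_trichotomy i j with h | h | h
  · have := ht i j h; linarith
  · exact h
  · have := ht j i h; linarith

/-- `γ = 3 σ / r`, `ρ = r + 3`.  With the three nodes `t 0, t 1, t 2`, `norm_lag_le` (`r = 2`, `T = ρ`) and the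
remainder hypothesis give `‖Θ w‖ ≤ 2 q ^ (-98) (4 ρ / γ) ^ 2 / 2 + 2 q ^ (-110) ≤ q ^ (-96)` for `‖w‖ ≤ ρ`.
On that disc `|im z|, |im y| ≤ 1.01 ρ` (mean value inequality from the real point `0`), `‖y' / μ‖, ‖z'‖ ≤ 1.01`,
`‖VC‖ ≤ 9 q ^ 100 exp (6.5 ρ)` (`norm_VC_le`), so `‖Ph‖ ≤ 100 q ^ 200 exp (13 ρ)`.  For real `|x| ≤ 3`:
`norm_sub_lag_le` (all `r + 1` nodes, `T = 3`) and `norm_lag_le` with `(4 r / σ) ^ r / r! ≤ (4 e / σ) ^ r ≤ (12 / σ) ^ r`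
(`Real.pow_div_factorial_le_exp`) give `‖Ph x‖ ≤ q ^ (-85) + 2 q ^ (-81) ≤ q ^ (-80)`.  Apply `locB`. -/
theorem loc {σ : ℝ} (hσ : 0 < σ) (hσ' : σ ≤ 1) : ∃ q₀ : ℝ, 100 ≤ q₀ ∧ ∀ q, q₀ ≤ q → ∃ r : ℕ,
    2 ≤ r ∧ (r : ℝ) ≤ q ∧ ∀ (μ : ℝ) (y z y' z' Θ : ℂ → ℂ) (t : Fin (r + 1) → ℝ), Curves q μ y z y' z' →
      DifferentiableOn ℂ Θ (Metric.closedBall 0 (q ^ 5)) →
      (∀ s : Fin 3 → ℂ, Function.Injective s → (∀ i, ‖s i‖ ≤ q ^ 5) → ∀ w, ‖w‖ ≤ q ^ 5 →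
        ‖Θ w - lag s Θ w‖ ≤ 2 * q ^ (-110 : ℤ)) →
      (∀ i, |t i| ≤ 3) → (∀ i j, i < j → t i + 3 * σ / r ≤ t j) →
      (∀ i, ‖Θ (t i)‖ ≤ 2 * q ^ (-98 : ℤ)) → (∀ i, ‖Ph q μ y z y' z' Θ (t i)‖ ≤ 2 * q ^ (-85 : ℤ)) → False := by
  obtain ⟨q₀, hq₀, H⟩ := exists_nodes hσ hσ'
  refine ⟨q₀, hq₀, fun q hq => ?_⟩
  obtain ⟨r, hr2, hrq, hB, hx, hM⟩ := H q hq
  refine ⟨r, hr2, by linarith, ?_⟩
  intro μ y z y' z' Θ t hC hΘd hrem ht3 hsep hΘt hPt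
  have hq100 : 100 ≤ q := hq₀.trans hq
  have hq1 : 1 ≤ q := by linarith
  have hq0 : 0 < q := by linarith
  have hr2' : (2 : ℝ) ≤ r := by exact_mod_cast hr2
  have hr0 : (0 : ℝ) < r := by linarith
  have hγ : 0 < 3 * σ / r := by positivity
  have hq5 : q ≤ q ^ 5 := le_self_pow₀ hq1 (by norm_num)
  have z98 : q ^ (-98 : ℤ) = (q ^ 98)⁻¹ := loca_zpow 98
  have z110 : q ^ (-110 : ℤ) = (q ^ 110)⁻¹ := loca_zpow 110
  have z96 : q ^ (-96 : ℤ) = (q ^ 96)⁻¹ := loca_zpow 96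
  have z85 : q ^ (-85 : ℤ) = (q ^ 85)⁻¹ := loca_zpow 85
  have z80 : q ^ (-80 : ℤ) = (q ^ 80)⁻¹ := loca_zpow 80
  -- step 1
  have hΘ : ∀ w : ℂ, ‖w‖ ≤ r + 3 → ‖Θ w‖ ≤ q ^ (-96 : ℤ) := by
    intro w hw
    let s : Fin (2 + 1) → ℝ := fun i => t (Fin.castLE (by omega) i)
    have hs : ∀ i j, i < j → s i + 3 * σ / r ≤ s j := fun i j hij => hsep _ _ hij
    have h1 := norm_lag_le (r := 2) (t := s) (T := r + 3) (f := Θ) hγ hs
      (fun i => (ht3 _).trans (by linarith)) (fun i => hΘt _) hw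
    have h2 := hrem (fun i => (s i : ℂ)) (loca_inj hγ hs)
      (fun i => by
        rw [Complex.norm_real, Real.norm_eq_abs]
        exact (ht3 _).trans (by linarith)) w (by linarith)
    have h3 : (4 * (r + 3) / (3 * σ / r)) ^ 2 ≤ q := by
      refine le_trans ?_ hx
      apply pow_le_pow_left₀ (by positivity)
      rw [div_div_eq_mul_div]
      apply div_le_div_of_nonneg_left (by positivity) hσ
      linarith
    have h4 : ‖Θ w‖ ≤ ‖Θ w - lag (fun i => (s i : ℂ)) Θ w‖ + ‖lag (fun i => (s i : ℂ)) Θ w‖ := by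
      simpa using norm_add_le (Θ w - lag (fun i => (s i : ℂ)) Θ w) (lag (fun i => (s i : ℂ)) Θ w)
    have h5 : 2 * q ^ (-98 : ℤ) * ((4 * (r + 3) / (3 * σ / r)) ^ 2 / (Nat.factorial 2 : ℕ)) ≤
        2 * q ^ (-98 : ℤ) * (q / 2) := by
      have : ((Nat.factorial 2 : ℕ) : ℝ) = 2 := by norm_num [Nat.factorial]
      rw [this]
      gcongr
    refine h4.trans ((add_le_add h2 (h1.trans h5)).trans ?_)
    rw [z98, z110, z96]
    have e1 : 2 * (q ^ 110)⁻¹ + 2 * (q ^ 98)⁻¹ * (q / 2) = (q ^ 96)⁻¹ * (2 / q ^ 14 + 1 / q) := by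
      field_simp
    rw [e1]
    apply mul_le_of_le_one_right (by positivity)
    have a1 : 2 / q ^ 14 ≤ 2 / q := by
      gcongr; exact le_self_pow₀ hq1 (by norm_num)
    have a2 : 2 / q ≤ 2 / 100 := by gcongr
    have a3 : 1 / q ≤ 1 / 100 := by gcongr
    linarith
  have hΘ' : ∀ w : ℂ, ‖w‖ ≤ r + 3 → ‖Θ w‖ ≤ 1 / 4 := by
    intro w hw
    refine (hΘ w hw).trans ?_
    rw [z96, ← one_div]
    have : q ≤ q ^ 96 := le_self_pow₀ hq1 (by norm_num)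
    gcongr
    linarith
  refine locB hq100 hC (fun x hx => hΘ x ?_) (fun x hx => ?_)
  · rw [Complex.norm_real, Real.norm_eq_abs]; linarith
  have hx' : ‖(x : ℂ)‖ ≤ 3 := by rwa [Complex.norm_real, Real.norm_eq_abs]
  have h1 := norm_sub_lag_le (t := fun i => (t i : ℂ)) (loca_inj hγ hsep) (f := Ph q μ y z y' z' Θ)
    (ρ := r + 3) (T := 3) (M := 100 * q ^ 200 * Real.exp (13 * (r + 3))) (by norm_num) (by linarith)
    (loca_diff hC (hΘd.mono (Metric.closedBall_subset_closedBall (by linarith))))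
    (fun w hw => loca_Ph hq100 hC hrq hΘ' hw)
    (fun i => by rw [Complex.norm_real, Real.norm_eq_abs]; exact ht3 i) hx'
  have e12 : (4 * 3 / (r + 3 - 3) : ℝ) = 12 / r := by congr 1 <;> ring
  rw [e12] at h1
  have h2 := norm_lag_le (t := t) (T := 3) (f := Ph q μ y z y' z' Θ) hγ hsep ht3 hPt hx'
  have h3 : (4 * 3 / (3 * σ / r) : ℝ) ^ r / r.factorial ≤ q ^ 4 := by
    refine le_trans ?_ hB
    have e1 : (4 * 3 / (3 * σ / r) : ℝ) ^ r / r.factorial = (4 / σ) ^ r * ((r : ℝ) ^ r / r.factorial) := by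
      rw [← mul_div_assoc, ← mul_pow]; congr 2; field_simp
    have e2 : (r : ℝ) ^ r / r.factorial ≤ 3 ^ r := by
      refine (Real.pow_div_factorial_le_exp (r : ℝ) hr0.le r).trans ?_
      rw [← Real.exp_one_pow]
      gcongr
      exact (Real.exp_one_lt_d9.trans (by norm_num)).le
    rw [e1]
    calc (4 / σ) ^ r * ((r : ℝ) ^ r / r.factorial) ≤ (4 / σ) ^ r * 3 ^ r := by gcongr
      _ = (12 / σ) ^ r := by rw [← mul_pow]; congr 1; ring
  have h4 : ‖Ph q μ y z y' z' Θ x‖ ≤ ‖Ph q μ y z y' z' Θ x - lag (fun i => (t i : ℂ)) (Ph q μ y z y' z' Θ) x‖ +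
      ‖lag (fun i => (t i : ℂ)) (Ph q μ y z y' z' Θ) x‖ := by
    simpa using norm_add_le (Ph q μ y z y' z' Θ x - lag (fun i => (t i : ℂ)) (Ph q μ y z y' z' Θ) x)
      (lag (fun i => (t i : ℂ)) (Ph q μ y z y' z' Θ) x)
  have h5 : 2 * q ^ (-85 : ℤ) * ((4 * 3 / (3 * σ / r) : ℝ) ^ r / r.factorial) ≤ 2 * q ^ (-85 : ℤ) * q ^ 4 := by
    gcongr
  refine h4.trans ((add_le_add (h1.trans hM) (h2.trans h5)).trans ?_)
  rw [z85, z80]
  have e1 : (q ^ 85)⁻¹ + 2 * (q ^ 85)⁻¹ * q ^ 4 = (q ^ 80)⁻¹ * (1 / q ^ 5 + 2 / q) := by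
    field_simp
  rw [e1]
  apply mul_le_of_le_one_right (by positivity)
  have a1 : 1 / q ^ 5 ≤ 1 / q := by gcongr
  have a2 : 2 / q ≤ 2 / 100 := by gcongr
  have a3 : 1 / q ≤ 1 / 100 := by gcongr
  linarith

end Crest.Agent.R128
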