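import Crest.Agent.R128.Trig
import Crest.Agent.R128.Rem

/-!
# Row 128, LocB: the term `2 x` forbids the cancellation of the two oscillating terms.
Keep the statements; add auxiliary lemmas freely (prefix `locb_`).
-/

set_option autoImplicit false

noncomputable section

open scoped Classical
open MeasureTheory Set

namespace Crest.Agent.R128

/-- two almost affine analytic curves, real on the real axis -/
structure Curves (q μ : ℝ) (y z y' z' : ℂ → ℂ) : Prop where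
  μ_ge : q ^ (-55 : ℤ) ≤ μ
  μ_le : μ ≤ 1
  dz : ∀ w, HasDerivAt z (z' w) w
  dy : ∀ w, HasDerivAt y (y' w) w
  dz' : Differentiable ℂ z'
  dy' : Differentiable ℂ y'
  z'_near : ∀ w, ‖w‖ ≤ q ^ 70 → ‖z' w - 1‖ ≤ 1 / 100
  y'_near : ∀ w, ‖w‖ ≤ q ^ 70 → ‖y' w - μ‖ ≤ μ / 100
  z_real : ∀ x : ℝ, (z x).im = 0
  y_real : ∀ x : ℝ, (y x).im = 0

/-- the normalised resonance function -/
def Ph (q μ : ℝ) (y z y' z' Θ : ℂ → ℂ) (w : ℂ) : ℂ :=
  Θ w / μ ^ 2 * z' w ^ 2 * y' w ^ 2 * VC (q ^ 100) (z w) * VC (q ^ 100) (y w) -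
    y' w ^ 2 * VC (q ^ 100) (y w) - z' w ^ 2 * VC (q ^ 100) (z w)

theorem locb_real {z z' : ℂ → ℂ} (dz : ∀ w, HasDerivAt z (z' w) w) (hr : ∀ x : ℝ, (z x).im = 0)
    (x : ℝ) : HasDerivAt (fun x : ℝ => (z x).re) (z' x).re x ∧ (z' x).im = 0 := by
  refine ⟨(dz x).real_of_complex, ?_⟩
  have h1 : HasDerivAt (fun x : ℝ => (z x).im) (z' x).im x :=
    Complex.imCLM.hasFDerivAt.comp_hasDerivAt x (dz x).comp_ofReal
  have h2 : (fun x : ℝ => (z x).im) = fun _ => 0 := funext hr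
  rw [h2] at h1
  exact h1.unique (hasDerivAt_const x 0)

theorem locb_slope {F F' : ℝ → ℝ} {c d : ℝ} (hF : ∀ x, HasDerivAt F (F' x) x)
    (hb : ∀ x, |x| ≤ 3 → c ≤ F' x ∧ F' x ≤ d) (a b : ℝ) (ha : |a| ≤ 3) (hb' : |b| ≤ 3)
    (hab : a ≤ b) : c * (b - a) ≤ F b - F a ∧ F b - F a ≤ d * (b - a) := by
  rcases hab.eq_or_lt with rfl | hlt
  · simp
  obtain ⟨x, hx, hx'⟩ := exists_hasDerivAt_eq_slope F F' hlt
    (fun x _ => (hF x).continuousAt.continuousWithinAt) (fun x _ => hF x)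
  have := hb x (abs_le.2 ⟨by linarith [(abs_le.1 ha).1, hx.1], by linarith [(abs_le.1 hb').2, hx.2]⟩)
  rw [hx', le_div_iff₀ (by linarith), div_le_iff₀ (by linarith)] at this
  exact this

theorem locb_nodes {k : ℝ} (hk : 100 ≤ k) {Z : ℝ → ℝ} (hc : Continuous Z)
    (hZ : ∀ a b, |a| ≤ 3 → |b| ≤ 3 → a ≤ b →
      99 / 100 * (b - a) ≤ Z b - Z a ∧ Z b - Z a ≤ 101 / 100 * (b - a)) :
    ∃ (i : ℤ) (t : ℕ → ℝ), (∀ a ≤ 3, |t a| ≤ 5 / 2 ∧ Z (t a) = ze k (i + a)) ∧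
      ∀ a < 3, 47 / 100 ≤ t (a + 1) - t a ∧ t (a + 1) - t a ≤ 53 / 100 := by
  set i : ℤ := ⌈2 * (Z (-5 / 2) + 26 / 100)⌉ with hi
  have hi1 : 2 * (Z (-5 / 2) + 26 / 100) ≤ i := Int.le_ceil _
  have hi2 : (i : ℝ) < 2 * (Z (-5 / 2) + 26 / 100) + 1 := Int.ceil_lt_add_one _
  have h5 := (hZ (-5 / 2) (5 / 2) (by norm_num [abs_le]) (by norm_num [abs_le]) (by norm_num)).1
  have hex : ∀ a : ℕ, a ≤ 3 → ∃ t, |t| ≤ 5 / 2 ∧ Z t = ze k (i + a) := by
    intro a ha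
    have ha' : (a : ℝ) ≤ 3 := by exact_mod_cast ha
    have ha0 : (0 : ℝ) ≤ a := Nat.cast_nonneg a
    have hn := abs_le.1 (ze_near hk (i + a))
    push_cast at hn
    obtain ⟨t, ht, ht'⟩ := intermediate_value_Icc (show (-5 / 2 : ℝ) ≤ 5 / 2 by norm_num)
      hc.continuousOn (show ze k (i + a) ∈ Icc (Z (-5 / 2)) (Z (5 / 2)) from
        ⟨by linarith [hn.1], by linarith [hn.2]⟩)
    exact ⟨t, abs_le.2 ⟨by linarith [ht.1], ht.2⟩, ht'⟩
  choose! t ht using hex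
  refine ⟨i, t, ht, fun a ha => ?_⟩
  obtain ⟨h1, h1'⟩ := ht a ha.le
  obtain ⟨h2, h2'⟩ := ht (a + 1) ha
  have hn1 := abs_le.1 (ze_near hk (i + a))
  have hn2 := abs_le.1 (ze_near hk (i + (a + 1 : ℕ)))
  rw [← h1'] at hn1
  rw [← h2'] at hn2
  push_cast at hn1 hn2
  rcases le_total (t a) (t (a + 1)) with hle | hle
  · have := hZ _ _ (h1.trans (by norm_num)) (h2.trans (by norm_num)) hle
    constructor <;> linarith [this.1, this.2, hn1.1, hn1.2, hn2.1, hn2.2]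
  · have := hZ _ _ (h2.trans (by norm_num)) (h1.trans (by norm_num)) hle
    exfalso
    linarith [this.1, this.2, hn1.1, hn1.2, hn2.1, hn2.2]

theorem locb_succ {k : ℝ} (hk : 100 ≤ k) {m m' : ℤ} (h0 : 0 < ze k m' - ze k m)
    (h1 : ze k m' - ze k m ≤ 6 / 10) : m' = m + 1 ∧ 48 / 100 ≤ ze k m' - ze k m := by
  have hn1 := abs_le.1 (ze_near hk m)
  have hn2 := abs_le.1 (ze_near hk m')
  have h2 : m' < m + 2 := by
    have : (m' : ℝ) < m + 2 := by linarith [hn1.1, hn1.2, hn2.1, hn2.2]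
    exact_mod_cast this
  have h3 : m - 1 < m' := by
    have : (m : ℝ) - 1 < m' := by linarith [hn1.1, hn1.2, hn2.1, hn2.2]
    exact_mod_cast this
  have h4 : m' ≠ m := by
    rintro rfl
    simp at h0
  have h5 : m' = m + 1 := by omega
  refine ⟨h5, ?_⟩
  have : (m' : ℝ) = m + 1 := by exact_mod_cast h5
  linarith [hn1.1, hn1.2, hn2.1, hn2.2]

theorem locb_alt {t0 t1 t2 t3 C D e e0 e1 e2 e3 : ℝ} (h01 : t0 < t1) (h12 : t1 < t2)
    (h23 : t2 < t3) (he0 : |e0| ≤ e) (he1 : |e1| ≤ e) (he2 : |e2| ≤ e) (he3 : |e3| ≤ e)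
    (hD : e ≤ |D|) :
    |D| - e ≤ |(C - D + e3) -
      ((C + D + e0) * ((t3 - t1) / (t0 - t1) * ((t3 - t2) / (t0 - t2))) +
        (C - D + e1) * ((t3 - t0) / (t1 - t0) * ((t3 - t2) / (t1 - t2))) +
        (C + D + e2) * ((t3 - t0) / (t2 - t0) * ((t3 - t1) / (t2 - t1))))| := by
  have hs : (t3 - t1) / (t0 - t1) * ((t3 - t2) / (t0 - t2)) +
      (t3 - t0) / (t1 - t0) * ((t3 - t2) / (t1 - t2)) +
      (t3 - t0) / (t2 - t0) * ((t3 - t1) / (t2 - t1)) = 1 := by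
    have h1 : t0 - t1 ≠ 0 := by linarith
    have h2 : t0 - t2 ≠ 0 := by linarith
    have h3 : t1 - t0 ≠ 0 := by linarith
    have h4 : t1 - t2 ≠ 0 := by linarith
    have h5 : t2 - t0 ≠ 0 := by linarith
    have h6 : t2 - t1 ≠ 0 := by linarith
    field_simp
    ring
  have hw0 : 0 ≤ (t3 - t1) / (t0 - t1) * ((t3 - t2) / (t0 - t2)) :=
    mul_nonneg_of_nonpos_of_nonpos (div_nonpos_of_nonneg_of_nonpos (by linarith) (by linarith))
      (div_nonpos_of_nonneg_of_nonpos (by linarith) (by linarith))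
  have hw1 : (t3 - t0) / (t1 - t0) * ((t3 - t2) / (t1 - t2)) ≤ 0 :=
    mul_nonpos_of_nonneg_of_nonpos (div_nonneg (by linarith) (by linarith))
      (div_nonpos_of_nonneg_of_nonpos (by linarith) (by linarith))
  have hw2 : 0 ≤ (t3 - t0) / (t2 - t0) * ((t3 - t1) / (t2 - t1)) :=
    mul_nonneg (div_nonneg (by linarith) (by linarith)) (div_nonneg (by linarith) (by linarith))
  generalize (t3 - t1) / (t0 - t1) * ((t3 - t2) / (t0 - t2)) = w0 at *
  generalize (t3 - t0) / (t1 - t0) * ((t3 - t2) / (t1 - t2)) = w1 at *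
  generalize (t3 - t0) / (t2 - t0) * ((t3 - t1) / (t2 - t1)) = w2 at *
  have hE : (C - D + e3) - ((C + D + e0) * w0 + (C - D + e1) * w1 + (C + D + e2) * w2)
      = -D * (1 + w0 - w1 + w2) + (e3 - e0 * w0 - e1 * w1 - e2 * w2) := by
    linear_combination (-C) * hs
  rw [hE]
  obtain ⟨a0, b0⟩ := abs_le.1 he0
  obtain ⟨a1, b1⟩ := abs_le.1 he1
  obtain ⟨a2, b2⟩ := abs_le.1 he2
  obtain ⟨a3, b3⟩ := abs_le.1 he3
  have hE1 : |e3 - e0 * w0 - e1 * w1 - e2 * w2| ≤ e * (1 + w0 - w1 + w2) := by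
    rw [abs_le]
    constructor <;> nlinarith
  have hE2 : |-D * (1 + w0 - w1 + w2)| = |D| * (1 + w0 - w1 + w2) := by
    rw [abs_mul, abs_neg, abs_of_nonneg (show 0 ≤ 1 + w0 - w1 + w2 by linarith)]
  have hE3 := abs_sub (-D * (1 + w0 - w1 + w2) + (e3 - e0 * w0 - e1 * w1 - e2 * w2))
    (e3 - e0 * w0 - e1 * w1 - e2 * w2)
  rw [add_sub_cancel_right, hE2] at hE3
  nlinarith [mul_nonneg (sub_nonneg.2 hD) (show 0 ≤ w0 - w1 + w2 by linarith)]

theorem locb_pow {p : ℝ} (hp0 : 0 < p) (hp : p ≤ 1 / 100) (a b : ℕ) :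
    p ^ (a + b) ≤ p ^ a * (1 / 100) ^ b := by
  rw [pow_add]
  exact mul_le_mul_of_nonneg_left (pow_le_pow_left₀ hp0.le hp b) (by positivity)

theorem locb_neg_one (i : ℤ) : (-1 : ℝ) ^ (i + 1) = -(-1) ^ i := by
  rw [zpow_add_one₀ (by norm_num)]; ring

/-- step 3 -/
theorem locb_even {k p μ Y Z Y' Z' : ℝ} {i m : ℤ} (hk : 100 ≤ k) (hp0 : 0 < p) (hp : p ≤ 1 / 100)
    (hkp : k * p ^ 100 = 1) (hμ : 0 < μ) (hs : (-1 : ℝ) ^ m = (-1) ^ i)
    (hZ1 : 99 / 100 * p ^ 10 ≤ Z - ze k i) (hZ2 : Z - ze k i ≤ 101 / 100 * p ^ 10)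
    (hY1 : 0 ≤ Y - ze k m) (hY2 : Y - ze k m ≤ 102 / 100 * p ^ 10)
    (hZ' : 99 / 100 ≤ Z') (hY' : |Y'| ≤ 101 / 100 * μ)
    (hP : |Y' ^ 2 * VR k Y + Z' ^ 2 * VR k Z| ≤
      p ^ 80 + p ^ 96 * (Z' ^ 2 * (Y' ^ 2 / μ ^ 2) * |VR k Z| * |VR k Y|)) : False := by
  have hp10 : p ^ 10 ≤ 1 / 100 := by
    have := locb_pow hp0 hp 0 10
    norm_num at this ⊢
    linarith
  have hp10' : 0 < p ^ 10 := by positivity
  obtain ⟨c, hc, hcZ⟩ := VR_ze hk i (u := Z - ze k i) (abs_le.2 ⟨by linarith, by linarith⟩)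
  obtain ⟨c', hc', hcY⟩ := VR_ze hk m (u := Y - ze k m) (abs_le.2 ⟨by linarith, by linarith⟩)
  obtain ⟨c0, -, h0⟩ := VR_ze hk m (u := 0) (by norm_num)
  rw [add_sub_cancel] at hcZ hcY
  rw [add_zero, mul_zero] at h0
  have hlip := VR_lip (show 0 ≤ k by linarith) Y (ze k m)
  rw [h0, sub_zero, abs_of_nonneg hY1] at hlip
  have hs1 : |(-1 : ℝ) ^ i| = 1 := by rw [abs_zpow, abs_neg, abs_one, one_zpow]
  have hu : 0 ≤ Z - ze k i := by linarith
  have hA : 0 ≤ c * (Z - ze k i) := mul_nonneg (by linarith) hu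
  have hB : 0 ≤ c' * (Y - ze k m) := mul_nonneg (by linarith) hY1
  have hVZ : |VR k Z| = c * (Z - ze k i) := by
    rw [hcZ, mul_assoc, abs_mul, hs1, one_mul, abs_of_nonneg hA]
  have hsum : |Y' ^ 2 * VR k Y + Z' ^ 2 * VR k Z|
      = Y' ^ 2 * (c' * (Y - ze k m)) + Z' ^ 2 * (c * (Z - ze k i)) := by
    rw [hcZ, hcY, hs, show Y' ^ 2 * ((-1) ^ i * c' * (Y - ze k m))
        + Z' ^ 2 * ((-1) ^ i * c * (Z - ze k i))
        = (-1) ^ i * (Y' ^ 2 * (c' * (Y - ze k m)) + Z' ^ 2 * (c * (Z - ze k i))) by ring,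
      abs_mul, hs1, one_mul, abs_of_nonneg (by positivity)]
  have hr : Y' ^ 2 / μ ^ 2 ≤ 2 := by
    rw [div_le_iff₀ (by positivity), ← sq_abs Y']
    nlinarith [abs_nonneg Y']
  have hr0 : 0 ≤ Y' ^ 2 / μ ^ 2 := by positivity
  have hVY : p ^ 96 * |VR k Y| ≤ 1 / 4 := by
    have h1 : |VR k Y| ≤ 41 * k * p ^ 10 := by
      have h5 := mul_le_mul_of_nonneg_left hY2 (show 0 ≤ 40 * k by linarith)
      have h6 : 0 ≤ k * p ^ 10 := by positivity
      linarith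
    have h2 : p ^ 96 * (41 * k * p ^ 10) = 41 * p ^ 6 := by
      linear_combination (41 * p ^ 6) * hkp
    have h3 := locb_pow hp0 hp 0 6
    have h4 : p ^ 96 * |VR k Y| ≤ p ^ 96 * (41 * k * p ^ 10) :=
      mul_le_mul_of_nonneg_left h1 (by positivity)
    norm_num at h3
    linarith
  have hVY0 : 0 ≤ p ^ 96 * |VR k Y| := by positivity
  have hhalf : Y' ^ 2 / μ ^ 2 * (p ^ 96 * |VR k Y|) ≤ 1 / 2 :=
    (mul_le_mul hr hVY hVY0 (by norm_num)).trans (by norm_num)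
  set A := Z' ^ 2 * (c * (Z - ze k i)) with hAdef
  have hA0 : 0 ≤ A := by positivity
  have hP2 : A ≤ p ^ 80 + A * (Y' ^ 2 / μ ^ 2 * (p ^ 96 * |VR k Y|)) := by
    have : p ^ 96 * (Z' ^ 2 * (Y' ^ 2 / μ ^ 2) * |VR k Z| * |VR k Y|)
        = A * (Y' ^ 2 / μ ^ 2 * (p ^ 96 * |VR k Y|)) := by rw [hVZ, hAdef]; ring
    rw [hsum, this] at hP
    have : 0 ≤ Y' ^ 2 * (c' * (Y - ze k m)) := by positivity
    linarith
  have hA2 : A ≤ 2 * p ^ 80 := by
    have := mul_le_mul_of_nonneg_left hhalf hA0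
    linarith
  have hA3 : 9 * (k * p ^ 10) ≤ A := by
    have h1 : 10 * k * (99 / 100 * p ^ 10) ≤ c * (Z - ze k i) :=
      mul_le_mul hc hZ1 (by positivity) (by linarith)
    have h2 : 98 / 100 ≤ Z' ^ 2 := by nlinarith
    have h3 : 0 ≤ k * p ^ 10 := by positivity
    have h4 : 98 / 100 * (c * (Z - ze k i)) ≤ A := mul_le_mul_of_nonneg_right h2 hA
    linarith
  have h5 : 1 ≤ k * p ^ 10 := by
    have h1 : p ^ 100 ≤ p ^ 10 := pow_le_pow_of_le_one hp0.le (by linarith) (by norm_num)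
    have h2 := mul_le_mul_of_nonneg_left h1 (show 0 ≤ k by linarith)
    linarith
  have h6 : p ^ 80 ≤ 1 := pow_le_one₀ hp0.le (by linarith)
  linarith

/-- the real-variable core -/
theorem locb_core {k p μ : ℝ} {Y Z Y' Z' : ℝ → ℝ} (hk : 100 ≤ k) (hp0 : 0 < p) (hp : p ≤ 1 / 100)
    (hkp : k * p ^ 100 = 1) (hμ1 : p ^ 55 ≤ μ) (hμ2 : μ ≤ 1)
    (dZ : ∀ x, HasDerivAt Z (Z' x) x) (dY : ∀ x, HasDerivAt Y (Y' x) x)
    (hZ' : ∀ x, |x| ≤ 3 → 99 / 100 ≤ Z' x ∧ Z' x ≤ 101 / 100)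
    (hY' : ∀ x, |x| ≤ 3 → 99 / 100 * μ ≤ Y' x ∧ Y' x ≤ 101 / 100 * μ)
    (hP : ∀ x, |x| ≤ 3 → |Y' x ^ 2 * VR k (Y x) + Z' x ^ 2 * VR k (Z x)| ≤
      p ^ 80 + p ^ 96 * (Z' x ^ 2 * (Y' x ^ 2 / μ ^ 2) * |VR k (Z x)| * |VR k (Y x)|))
    (c : ℝ) (h3 : ∀ t0 t1 t2 t3 : ℝ, |t0| ≤ 3 → |t1| ≤ 3 → |t2| ≤ 3 → |t3| ≤ 3 → t0 < t1 → t1 < t2 →
      |(Y t3 - Z t3 - c) -
        ((Y t0 - Z t0 - c) * ((t3 - t1) / (t0 - t1) * ((t3 - t2) / (t0 - t2))) +
          (Y t1 - Z t1 - c) * ((t3 - t0) / (t1 - t0) * ((t3 - t2) / (t1 - t2))) +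
          (Y t2 - Z t2 - c) * ((t3 - t0) / (t2 - t0) * ((t3 - t1) / (t2 - t1))))|
        ≤ 5000 * p ^ 140) : False := by
  have hμ0 : 0 < μ := lt_of_lt_of_le (by positivity) hμ1
  have hsZ := locb_slope dZ hZ'
  have hsY := locb_slope dY hY'
  obtain ⟨i, t, ht, hΔ⟩ := locb_nodes hk
    (continuous_iff_continuousAt.2 fun x => (dZ x).continuousAt) hsZ
  have ht3 : ∀ a ≤ 3, |t a| ≤ 3 := fun a ha => (ht a ha).1.trans (by norm_num)
  choose m' hm' using exists_ze hk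
  set m : ℕ → ℤ := fun a => m' (Y (t a)) with hm
  have hd1 : ∀ a ≤ 3, 9 * μ ^ 2 * |Y (t a) - ze k (m a)| ≤ p ^ 180 := by
    intro a ha
    obtain ⟨c0, -, h0⟩ := VR_ze hk (i + a) (u := 0) (by norm_num)
    rw [add_zero, mul_zero, ← (ht a ha).2] at h0
    have h1 := hP (t a) (ht3 a ha)
    rw [h0] at h1
    simp only [mul_zero, add_zero, abs_zero, zero_mul] at h1
    rw [abs_mul, abs_of_nonneg (sq_nonneg _)] at h1
    have h2 : 10 * k * |Y (t a) - ze k (m a)| ≤ |VR k (Y (t a))| := hm' _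
    have h4 : 9 / 10 * μ ^ 2 ≤ Y' (t a) ^ 2 := by nlinarith [(hY' _ (ht3 a ha)).1]
    have h5 : 9 / 10 * μ ^ 2 * (10 * k * |Y (t a) - ze k (m a)|) ≤ p ^ 80 :=
      (mul_le_mul h4 h2 (by positivity) (sq_nonneg _)).trans h1
    have h6 := mul_le_mul_of_nonneg_right h5 (show 0 ≤ p ^ 100 by positivity)
    calc _ = 9 / 10 * μ ^ 2 * (10 * k * |Y (t a) - ze k (m a)|) * p ^ 100 := by
          linear_combination (-(9 * μ ^ 2 * |Y (t a) - ze k (m a)|)) * hkp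
      _ ≤ p ^ 80 * p ^ 100 := h6
      _ = _ := by ring
  have hd2 : ∀ a ≤ 3, |Y (t a) - ze k (m a)| ≤ μ / 900 := by
    intro a ha
    have h1 := hd1 a ha
    have h2 : p ^ 180 ≤ μ ^ 2 * (μ / 100) := by
      have h3 := locb_pow hp0 hp 165 15
      have h4 : (p ^ 55) ^ 3 ≤ μ ^ 3 := pow_le_pow_left₀ (by positivity) hμ1 3
      have h5 : 0 ≤ p ^ 165 := by positivity
      rw [← pow_mul] at h4
      norm_num at h3 h4
      nlinarith
    have h3 : μ ^ 2 * (9 * |Y (t a) - ze k (m a)|) ≤ μ ^ 2 * (μ / 100) := by linarith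
    have := le_of_mul_le_mul_left h3 (by positivity)
    linarith
  have hstep : ∀ a < 3, m (a + 1) = m a + 1 ∧ 8 / 10 ≤ μ := by
    intro a ha
    obtain ⟨h1, h2⟩ := hΔ a ha
    obtain ⟨h4, h5⟩ := hsY (t a) (t (a + 1)) (ht3 a ha.le) (ht3 (a + 1) ha) (by linarith)
    obtain ⟨h6, h7⟩ := abs_le.1 (hd2 a ha.le)
    obtain ⟨h8, h9⟩ := abs_le.1 (hd2 (a + 1) ha)
    have h10 : 46 / 100 * μ ≤ Y (t (a + 1)) - Y (t a) := by nlinarith
    have h11 : Y (t (a + 1)) - Y (t a) ≤ 54 / 100 * μ := by nlinarith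
    obtain ⟨h12, h13⟩ := locb_succ hk (m := m a) (m' := m (a + 1)) (by linarith) (by linarith)
    exact ⟨h12, by linarith⟩
  have hμ8 : 8 / 10 ≤ μ := (hstep 0 (by norm_num)).2
  have hd3 : ∀ a ≤ 3, |Y (t a) - ze k (m a)| ≤ p ^ 180 := by
    intro a ha
    have h1 := hd1 a ha
    have h2 : 1 ≤ 9 * μ ^ 2 := by nlinarith
    nlinarith [abs_nonneg (Y (t a) - ze k (m a))]
  have hpar : (-1 : ℝ) ^ (m 0) = (-1) ^ i ∨ (-1 : ℝ) ^ (m 0) = -(-1) ^ i := by
    rcases Int.even_or_odd i with h1 | h1 <;> rcases Int.even_or_odd (m 0) with h2 | h2 <;>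
      simp [h1.neg_one_zpow, h2.neg_one_zpow]
  rcases hpar with hs | hs
  · have hp10 : p ^ 10 ≤ 1 / 100 := by
      have := locb_pow hp0 hp 0 10
      norm_num at this ⊢
      linarith
    have hp10' : 0 < p ^ 10 := by positivity
    have h180 : p ^ 180 ≤ p ^ 10 / 100 := by
      have h1 := locb_pow hp0 hp 10 170
      have h2 : (1 / 100 : ℝ) ^ 170 ≤ 1 / 100 :=
        pow_le_of_le_one (by norm_num) (by norm_num) (by norm_num)
      have h3 := mul_le_mul_of_nonneg_left h2 hp10'.le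
      linarith
    obtain ⟨h1, h2⟩ := ht 0 (by norm_num)
    have hx : |t 0 + p ^ 10| ≤ 3 := by
      rw [abs_le] at h1 ⊢
      constructor <;> linarith [h1.1, h1.2]
    obtain ⟨h4, h5⟩ := hsZ (t 0) (t 0 + p ^ 10) (ht3 0 (by norm_num)) hx (by linarith)
    obtain ⟨h6, h7⟩ := hsY (t 0) (t 0 + p ^ 10) (ht3 0 (by norm_num)) hx (by linarith)
    obtain ⟨h8, h9⟩ := abs_le.1 (hd3 0 (by norm_num))
    rw [add_sub_cancel_left] at h4 h5 h6 h7
    rw [Nat.cast_zero, add_zero] at h2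
    rw [h2] at h4 h5
    obtain ⟨h10, h11⟩ := hY' _ hx
    refine locb_even hk hp0 hp hkp hμ0 hs h4 h5 (by nlinarith) (by nlinarith) (hZ' _ hx).1
      (abs_le.2 ⟨by linarith, h11⟩) (hP _ hx)
  · have hm1 : m 1 = m 0 + 1 := (hstep 0 (by norm_num)).1
    have hm2 : m 2 = m 0 + 1 + 1 := by rw [← hm1]; exact (hstep 1 (by norm_num)).1
    have hm3 : m 3 = m 0 + 1 + 1 + 1 := by rw [← hm2]; exact (hstep 2 (by norm_num)).1
    have hz0 : Z (t 0) = ze k i := by simpa using (ht 0 (by norm_num)).2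
    have hz1 : Z (t 1) = ze k (i + 1) := by simpa using (ht 1 (by norm_num)).2
    have hz2 : Z (t 2) = ze k (i + 1 + 1) := by
      rw [(ht 2 (by norm_num)).2]; congr 1; push_cast; ring
    have hz3 : Z (t 3) = ze k (i + 1 + 1 + 1) := by
      rw [(ht 3 (by norm_num)).2]; congr 1; push_cast; ring
    have h01 : t 0 < t 1 := by linarith [(hΔ 0 (by norm_num)).1]
    have h12 : t 1 < t 2 := by linarith [(hΔ 1 (by norm_num)).1]
    have h23 : t 2 < t 3 := by linarith [(hΔ 2 (by norm_num)).1]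
    have hD : |2 * (-1 : ℝ) ^ i * dl k| = 2 * dl k := by
      have h1 := (dl_bounds hk).1
      have h2 : 0 ≤ dl k := le_trans (by positivity) h1
      rw [abs_mul, abs_mul, abs_zpow, abs_neg, abs_one, one_zpow, abs_of_nonneg h2]
      norm_num
    have hdl : p ^ 100 / 10 ≤ 2 * dl k := by
      have h1 := (dl_bounds hk).1
      have h2 : 1 / (20 * k) = p ^ 100 / 20 := by
        have : k ≠ 0 := by positivity
        field_simp
        linarith
      linarith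
    have h100 : 0 < p ^ 100 := by positivity
    have h180 : p ^ 180 ≤ p ^ 100 / 100 := by
      have h1 := locb_pow hp0 hp 100 80
      have h2 : (1 / 100 : ℝ) ^ 80 ≤ 1 / 100 :=
        pow_le_of_le_one (by norm_num) (by norm_num) (by norm_num)
      have h3 := mul_le_mul_of_nonneg_left h2 h100.le
      linarith
    have h140 : p ^ 140 ≤ p ^ 100 / 10 ^ 6 := by
      have h1 := locb_pow hp0 hp 100 40
      have h2 : (1 / 100 : ℝ) ^ 40 ≤ (1 / 100) ^ 3 :=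
        pow_le_pow_of_le_one (by norm_num) (by norm_num) (by norm_num)
      have h3 := mul_le_mul_of_nonneg_left h2 h100.le
      linarith
    have key := locb_alt (C := ((m 0 : ℝ) - i) / 2 - c) (D := 2 * (-1 : ℝ) ^ i * dl k) h01 h12 h23
      (hd3 0 (by norm_num)) (hd3 1 (by norm_num)) (hd3 2 (by norm_num)) (hd3 3 (by norm_num))
      (by rw [hD]; linarith)
    have key2 := h3 (t 0) (t 1) (t 2) (t 3) (ht3 0 (by norm_num)) (ht3 1 (by norm_num))
      (ht3 2 (by norm_num)) (ht3 3 (by norm_num)) h01 h12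
    have e0 : Y (t 0) - Z (t 0) - c
        = ((m 0 : ℝ) - i) / 2 - c + 2 * (-1 : ℝ) ^ i * dl k + (Y (t 0) - ze k (m 0)) := by
      rw [hz0]; unfold ze; rw [hs]; ring
    have e1 : Y (t 1) - Z (t 1) - c
        = ((m 0 : ℝ) - i) / 2 - c - 2 * (-1 : ℝ) ^ i * dl k + (Y (t 1) - ze k (m 1)) := by
      rw [hz1, hm1]; unfold ze; simp only [locb_neg_one]; rw [hs]; push_cast; ring
    have e2 : Y (t 2) - Z (t 2) - c
        = ((m 0 : ℝ) - i) / 2 - c + 2 * (-1 : ℝ) ^ i * dl k + (Y (t 2) - ze k (m 2)) := by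
      rw [hz2, hm2]; unfold ze; simp only [locb_neg_one]; rw [hs]; push_cast; ring
    have e3 : Y (t 3) - Z (t 3) - c
        = ((m 0 : ℝ) - i) / 2 - c - 2 * (-1 : ℝ) ^ i * dl k + (Y (t 3) - ze k (m 3)) := by
      rw [hz3, hm3]; unfold ze; simp only [locb_neg_one]; rw [hs]; push_cast; ring
    rw [e0, e1, e2, e3] at key2
    rw [hD] at key
    linarith

/-- `k = q ^ 100`; `Y x = (y x).re`, `Z x = (z x).re` are increasing on `[-3, 3]` with slopes in `μ [0.99, 1.01]` and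
`[0.99, 1.01]` (`HasDerivAt.real_of_complex`; `y', z'` are real on the real axis as derivatives of real functions).
1. `ze k (i+1) - ze k i ∈ [0.48, 0.52]`, so (intermediate values) there are `t₀ < t₁ < t₂ < t₃` in `[-2.5, 2.5]` and `i`
   with `Z t_a = ze k (i + a)`, `t_{a+1} - t_a ∈ [0.47, 0.53]`.
2. At `t_a`, `V (z) = 0` (`VR_ze`, `u = 0`), so `0.98 μ² |V (Y t_a)| ≤ q ^ (-80)`; `exists_ze` gives `m_a` with
   `|Y t_a - ze m_a| ≤ q ^ (-70) / 9`.  `Y t_{a+1} - Y t_a ∈ [0.46 q ^ (-55), 0.54]` forces `m_{a+1} = m_a + 1` and then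
   `μ ≥ 0.8`; so in fact `|Y t_a - ze m_a| ≤ q ^ (-180)`.
3. `m₀ - i` even: at `t = t₀ + q ^ (-10)` both `V (Z t)` and `V (Y t)` have the sign `(-1) ^ i` (`VR_ze`),
   `|V (Z t)| ≥ 9.9 q ^ 90`, `|V (Y t)| ≤ 41 q ^ 90` (`VR_lip`); `‖Ph‖ ≥ (0.98 - 1.05 * 41 q ^ (-6)) |V (Z t)| > q ^ (-80)`.
4. `m₀ - i` odd: `f = y - z` has `f t_a = C + (-1) ^ a D + e_a`, `|D| = 2 dl k ≥ q ^ (-100) / 10`, `|e_a| ≤ q ^ (-180)`.
   The weights of `lag_three` at `t₃` with nodes `t₀, t₁, t₂` are real with signs `+, -, +` and sum `1`, so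
   `|f t₃ - lag f t₃| ≥ (|D| - e) (1 + ∑ |w|) ≥ |D| / 2`; but `norm_sub_lag_le` for `f - f 0` (`ρ = q ^ 70`, `T = 3`,
   `M = 2.02 q ^ 70`) bounds it by `2.02 q ^ 70 (13 q ^ (-70)) ^ 3`. -/
theorem locB {q μ : ℝ} {y z y' z' Θ : ℂ → ℂ} (hq : 100 ≤ q) (h : Curves q μ y z y' z')
    (hΘ : ∀ x : ℝ, |x| ≤ 3 → ‖Θ x‖ ≤ q ^ (-96 : ℤ))
    (hP : ∀ x : ℝ, |x| ≤ 3 → ‖Ph q μ y z y' z' Θ x‖ ≤ q ^ (-80 : ℤ)) : False := by
  have hq0 : 0 < q := by linarith
  have hq1 : 1 ≤ q := by linarith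
  set p : ℝ := q⁻¹ with hpdef
  have hp0 : 0 < p := inv_pos.2 hq0
  have hp : p ≤ 1 / 100 := by rw [hpdef, one_div]; exact inv_anti₀ (by norm_num) hq
  have hzp : ∀ n : ℕ, q ^ (-(n : ℤ)) = p ^ n := fun n => by
    rw [zpow_neg, zpow_natCast, hpdef, inv_pow]
  have hqp : ∀ n : ℕ, q ^ n * p ^ n = 1 := fun n => by
    rw [← mul_pow, hpdef, mul_inv_cancel₀ hq0.ne', one_pow]
  have hk : 100 ≤ q ^ 100 := hq.trans (le_self_pow₀ hq1 (by norm_num))
  have h70 : 100 ≤ q ^ 70 := hq.trans (le_self_pow₀ hq1 (by norm_num))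
  have hμ1 : p ^ 55 ≤ μ := by rw [← hzp 55]; exact h.μ_ge
  have hμ0 : 0 < μ := lt_of_lt_of_le (by positivity) hμ1
  have hx70 : ∀ x : ℝ, |x| ≤ 3 → ‖(x : ℂ)‖ ≤ q ^ 70 := fun x hx => by
    rw [Complex.norm_real, Real.norm_eq_abs]; linarith
  have hre : ∀ w : ℂ, w.im = 0 → w = (w.re : ℂ) := fun w hw => by
    apply Complex.ext <;> simp [hw]
  have hz := fun x : ℝ => hre _ (h.z_real x)
  have hy := fun x : ℝ => hre _ (h.y_real x)
  have hz' := fun x : ℝ => hre _ (locb_real h.dz h.z_real x).2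
  have hy' := fun x : ℝ => hre _ (locb_real h.dy h.y_real x).2
  refine locb_core (k := q ^ 100) (p := p) (μ := μ) (Y := fun x => (y x).re)
    (Z := fun x => (z x).re) (Y' := fun x => (y' x).re) (Z' := fun x => (z' x).re) hk hp0 hp
    (hqp 100) hμ1 h.μ_le (fun x => (locb_real h.dz h.z_real x).1)
    (fun x => (locb_real h.dy h.y_real x).1) (fun x hx => ?_) (fun x hx => ?_) (fun x hx => ?_)
    ((y (0 : ℝ)).re - (z (0 : ℝ)).re) (fun t0 t1 t2 t3 h0 h1 h2 h3 h01 h12 => ?_)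
  · have h1 := (Complex.abs_re_le_norm _).trans (h.z'_near x (hx70 x hx))
    rw [Complex.sub_re, Complex.one_re, abs_le] at h1
    constructor <;> linarith [h1.1, h1.2]
  · have h1 := (Complex.abs_re_le_norm _).trans (h.y'_near x (hx70 x hx))
    rw [Complex.sub_re, Complex.ofReal_re, abs_le] at h1
    constructor <;> linarith [h1.1, h1.2]
  · have h1 := hP x hx
    have h2 := hΘ x hx
    rw [show (-80 : ℤ) = -((80 : ℕ) : ℤ) by norm_num, hzp] at h1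
    rw [show (-96 : ℤ) = -((96 : ℕ) : ℤ) by norm_num, hzp] at h2
    unfold Ph at h1
    rw [hz x, hy x, hz' x, hy' x, VC_ofReal, VC_ofReal] at h1
    generalize (z x).re = Z at h1 ⊢
    generalize (y x).re = Y at h1 ⊢
    generalize (z' x).re = Z' at h1 ⊢
    generalize (y' x).re = Y' at h1 ⊢
    generalize VR (q ^ 100) Z = a at h1 ⊢
    generalize VR (q ^ 100) Y = b at h1 ⊢
    have h3 : ((Y' ^ 2 * b + Z' ^ 2 * a : ℝ) : ℂ)
        = Θ x * ((Z' ^ 2 * (Y' ^ 2 / μ ^ 2) * a * b : ℝ) : ℂ)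
          - (Θ x / μ ^ 2 * Z' ^ 2 * Y' ^ 2 * a * b - Y' ^ 2 * b - Z' ^ 2 * a) := by
      push_cast; ring
    have h4 := congrArg norm h3
    rw [Complex.norm_real, Real.norm_eq_abs] at h4
    rw [h4]
    refine (norm_sub_le _ _).trans ?_
    rw [norm_mul, Complex.norm_real, Real.norm_eq_abs, abs_mul, abs_mul,
      abs_of_nonneg (show 0 ≤ Z' ^ 2 * (Y' ^ 2 / μ ^ 2) by positivity), add_comm]
    exact add_le_add h1 (mul_le_mul_of_nonneg_right h2 (by positivity))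
  · set g : ℂ → ℂ := fun w => y w - z w - (y 0 - z 0) with hg
    have hdg : ∀ w, HasDerivAt g (y' w - z' w) w := fun w => ((h.dy w).sub (h.dz w)).sub_const _
    have hM : ∀ w, ‖w‖ ≤ q ^ 70 → ‖g w‖ ≤ 202 / 100 * q ^ 70 := by
      intro w hw
      have hb : ∀ u ∈ Metric.closedBall (0 : ℂ) (q ^ 70), ‖y' u - z' u‖ ≤ 202 / 100 := by
        intro u hu
        rw [mem_closedBall_zero_iff] at hu
        have e : y' u - z' u = (y' u - μ) + μ - ((z' u - 1) + 1) := by ring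
        have h4 := h.y'_near u hu
        have h5 := h.z'_near u hu
        have h6 : ‖(μ : ℂ)‖ = μ := by rw [Complex.norm_real, Real.norm_eq_abs, abs_of_pos hμ0]
        have h7 := norm_add_le (y' u - μ) μ
        have h8 := norm_add_le (z' u - 1) 1
        have h9 := norm_sub_le ((y' u - μ) + μ) ((z' u - 1) + 1)
        rw [norm_one] at h8
        rw [e]
        linarith [h.μ_le]
      have h4 := (convex_closedBall (0 : ℂ) (q ^ 70)).norm_image_sub_le_of_norm_hasDerivWithin_le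
        (fun u _ => (hdg u).hasDerivWithinAt) hb (Metric.mem_closedBall_self (by positivity))
        (mem_closedBall_zero_iff.2 hw)
      have h5 : g 0 = 0 := by simp [hg]
      rw [h5, sub_zero, sub_zero] at h4
      exact h4.trans (mul_le_mul_of_nonneg_left hw (by norm_num))
    have hinj : Function.Injective (![(t0 : ℂ), (t1 : ℂ), (t2 : ℂ)] : Fin 3 → ℂ) := by
      have a1 : t0 ≠ t1 := h01.ne
      have a2 : t1 ≠ t2 := h12.ne
      have a3 : t0 ≠ t2 := (h01.trans h12).ne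
      have b1 : (t0 : ℂ) ≠ t1 := by exact_mod_cast a1
      have b2 : (t1 : ℂ) ≠ t2 := by exact_mod_cast a2
      have b3 : (t0 : ℂ) ≠ t2 := by exact_mod_cast a3
      intro a b hab
      fin_cases a <;> fin_cases b
      exacts [rfl, absurd hab b1, absurd hab b3, absurd hab b1.symm, rfl, absurd hab b2,
        absurd hab b3.symm, absurd hab b2.symm, rfl]
    have hn3 : ∀ x : ℝ, |x| ≤ 3 → ‖(x : ℂ)‖ ≤ 3 := fun x hx => by
      rwa [Complex.norm_real, Real.norm_eq_abs]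
    have hrem := norm_sub_lag_le hinj (f := g) (ρ := q ^ 70) (T := 3) (by norm_num) (by linarith)
      (fun w _ => (hdg w).differentiableAt.differentiableWithinAt) hM
      (fun a => by
        fin_cases a
        · exact hn3 _ h0
        · exact hn3 _ h1
        · exact hn3 _ h2) (hn3 _ h3)
    have hgx : ∀ x : ℝ, g x = (((y x).re - (z x).re - ((y (0 : ℝ)).re - (z (0 : ℝ)).re) : ℝ) : ℂ) := by
      intro x
      have e1 := hy x
      have e2 := hz x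
      have e3 := hy 0
      have e4 := hz 0
      simp only [Complex.ofReal_zero] at e3 e4
      simp only [hg, Complex.ofReal_sub, Complex.ofReal_zero]
      rw [← e1, ← e2, ← e3, ← e4]
    rw [lag_three] at hrem
    simp only [Matrix.cons_val_zero, Matrix.cons_val_one, Matrix.cons_val] at hrem
    rw [hgx, hgx, hgx, hgx] at hrem
    have hfin : 202 / 100 * q ^ 70 * (4 * 3 / (q ^ 70 - 3)) ^ 3 ≤ 5000 * p ^ 140 := by
      have h4 : 4 * 3 / (q ^ 70 - 3) ≤ 13 * p ^ 70 := by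
        rw [div_le_iff₀ (by linarith)]
        have h5 := hqp 70
        have h6 : p ^ 70 ≤ 1 / 100 :=
          (pow_le_of_le_one hp0.le (by linarith) (by norm_num)).trans hp
        nlinarith
      have h5 : (4 * 3 / (q ^ 70 - 3)) ^ 3 ≤ (13 * p ^ 70) ^ 3 :=
        pow_le_pow_left₀ (div_nonneg (by norm_num) (by linarith)) h4 3
      have h6 : 202 / 100 * q ^ 70 * (13 * p ^ 70) ^ 3 = 202 / 100 * 13 ^ 3 * p ^ 140 := by
        linear_combination (202 / 100 * 13 ^ 3 * p ^ 140) * hqp 70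
      have h7 : 0 < p ^ 140 := by positivity
      have h8 := mul_le_mul_of_nonneg_left h5 (show 0 ≤ 202 / 100 * q ^ 70 by positivity)
      linarith
    refine le_trans ?_ (hrem.trans hfin)
    rw [← Real.norm_eq_abs, ← Complex.norm_real]
    push_cast
    exact le_rfl

end Crest.Agent.R128
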