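import Crest.Agent.R128.WegA
import Crest.Agent.R128.Vit
import Crest.Agent.R128.Orb

/-!
# Row 128, WegB: the Wegner-type estimate.
Keep the statements; add auxiliary lemmas freely (prefix `wegb_`).
-/

set_option autoImplicit false

noncomputable section

open scoped Classical
open MeasureTheory Set

namespace Crest.Agent.R128

theorem measurableSet_pair (q : ℝ) (α β : ℕ) : MeasurableSet {v | Pair q v α β} := by
  have h := measurable_ph
  have hT : Measurable fun v : ℤ → ℝ => Th v α β := by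
    unfold Th
    exact ((h _ _).neg.div (h _ _)).sub ((h _ _).neg.div (h _ _))
  have ha : ∀ a i : ℤ, Measurable fun v : ℤ → ℝ => |ph v a i| := fun a i =>
    continuous_abs.measurable.comp (h a i)
  have hv : ∀ i : ℤ, Measurable fun v : ℤ → ℝ => v i := fun i => measurable_pi_apply i
  unfold Pair
  simp only [ofPred_and, ofPred_forall]
  refine (MeasurableSet.const _).inter ((MeasurableSet.const _).inter
    ((MeasurableSet.iInter fun i => MeasurableSet.iInter fun _ => ?_).inter
    ((MeasurableSet.iInter fun i => MeasurableSet.iInter fun _ => ?_).inter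
    (MeasurableSet.inter ?_ (MeasurableSet.inter ?_ (MeasurableSet.inter ?_ ?_))))))
  · exact measurableSet_le ((ha _ _).const_mul _) (ha _ _)
  · exact measurableSet_le ((ha _ _).const_mul _) (ha _ _)
  · exact measurableSet_le (ha _ _) ((ha _ _).const_mul _)
  · exact measurableSet_le (ha _ _) ((ha _ _).const_mul _)
  · refine measurableSet_le (continuous_abs.measurable.comp ?_)
      ((((h _ _).pow_const 2).max ((h _ _).pow_const 2)).const_mul _)
    exact (((((hT.mul ((h _ _).pow_const 2)).mul ((h _ _).pow_const 2)).mul (hv _)).mul (hv _)).sub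
      (((h _ _).pow_const 2).mul (hv _))).sub (((h _ _).pow_const 2).mul (hv _))
  · exact measurableSet_le ((continuous_abs.measurable.comp hT).mul
      (((h _ _).pow_const 2).min ((h _ _).pow_const 2))) measurable_const

theorem measurableSet_pairs (q : ℝ) (N M : ℕ) : MeasurableSet (Pairs q N M) := by
  unfold Pairs
  simp only [ofPred_exists, ofPred_and, ofPred_forall]
  refine MeasurableSet.iUnion fun α => MeasurableSet.iUnion fun β =>
    (MeasurableSet.const _).inter ((MeasurableSet.const _).inter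
      ((MeasurableSet.iInter fun s => (MeasurableSet.const _).inter (MeasurableSet.const _)).inter
        (MeasurableSet.iInter fun s => measurableSet_pair q _ _)))

/-- There are at most `2 ^ M` strictly monotone maps `Fin (N+1) → ℕ` with values `< M` (determined by their range,
a subset of `range M`). -/
theorem card_strictMono (N M : ℕ) : ∃ S : Finset (Fin (N + 1) → ℕ), S.card ≤ 2 ^ M ∧
    ∀ α : Fin (N + 1) → ℕ, StrictMono α → (∀ s, α s < M) → α ∈ S := by
  refine ⟨(Fintype.piFinset fun _ : Fin (N + 1) => Finset.range M).filter StrictMono, ?_,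
    fun α h1 h2 => Finset.mem_filter.2 ⟨Fintype.mem_piFinset.2 fun s => Finset.mem_range.2 (h2 s), h1⟩⟩
  have h := Finset.card_le_card_of_injOn
    (s := (Fintype.piFinset fun _ : Fin (N + 1) => Finset.range M).filter StrictMono)
    (t := (Finset.range M).powerset) (fun α => Finset.univ.image α) (by
      intro α hα
      simp only [Finset.coe_filter, mem_ofPred_eq, Fintype.mem_piFinset] at hα
      simp only [Finset.coe_powerset, mem_preimage, mem_powerset_iff, Finset.coe_image,
        image_subset_iff]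
      exact fun i _ => hα.1 i) (by
      intro α hα β hβ hαβ
      simp only [Finset.coe_filter, mem_ofPred_eq] at hα hβ
      refine (hα.2.range_inj hβ.2).1 ?_
      have := congrArg (fun s : Finset ℕ => (s : Set ℕ)) hαβ
      simpa using this)
  simpa using h

theorem wegb_line {σ q : ℝ} {r : ℕ} (hσ : 0 < σ) (hq : 100 ≤ q) (hq' : 2 / σ ≤ q) (hr : 2 ≤ r)
    (hrq : (r : ℝ) ≤ q)
    (hsep : ∀ (ξ s : ℝ) (α β : ℕ), Pair q (vs (q ^ 100) (ξ, s)) α β → ∀ t : Fin (r + 1) → ℝ,
      (∀ i, Pair q (vs (q ^ 100) (ξ, t i)) α β) →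
      (∀ i, |t i - s| ≤ 3 / Phi (vs (q ^ 100) (ξ, s)) α β) →
      (∀ i j, i < j → t i + σ / r * (3 / Phi (vs (q ^ 100) (ξ, s)) α β) ≤ t j) → False)
    {N : ℕ} {α β : Fin (N + 1) → ℕ} (hα : StrictMono α) (hβ : StrictMono β) (ξ : ℝ) :
    volume {s : ℝ | s ∈ Ico (0 : ℝ) 1 ∧ ∀ i, Pair q (vs (q ^ 100) (ξ, s)) (α i) (β i)} ≤
      ENNReal.ofReal (7 * (10 * σ) ^ N) := by
  have hq1 : 1 ≤ q := by linarith
  have hr0 : (0 : ℝ) < r := by exact_mod_cast (by omega : 0 < r)
  have h := porous {s : ℝ | s ∈ Ico (0 : ℝ) 1 ∧ ∀ i, Pair q (vs (q ^ 100) (ξ, s)) (α i) (β i)}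
    (fun s hs => hs.1) N r (γ := σ / r) (by positivity)
    (fun i s => if h : i < N + 1 then 3 / Phi (vs (q ^ 100) (ξ, s)) (α ⟨i, h⟩) (β ⟨i, h⟩) else 1)
    (by
      intro i hi x hx
      have h1 := (hx.2 ⟨i, by omega⟩).one_le_Phi hq1
      simp only [dif_pos (show i < N + 1 by omega)]
      exact ⟨by positivity, by rw [div_le_iff₀ (by linarith)]; linarith⟩)
    (by
      intro i hi x hx x' hx' hd
      simp only [dif_pos (show i < N + 1 by omega), dif_pos (show i + 1 < N + 1 by omega)] at hd ⊢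
      have h1 := (hx.2 ⟨i, by omega⟩).one_le_Phi hq1
      have h2 := (hx'.2 ⟨i + 1, by omega⟩).phi_grow hq1 (α := α ⟨i, by omega⟩) (β := β ⟨i, by omega⟩)
        (hα (by simp [Fin.lt_def])) (hβ (by simp [Fin.lt_def]))
      have h3 := (hx.2 ⟨i, by omega⟩).phi_stab hq (s' := x')
        (by rwa [le_div_iff₀ (by linarith)] at hd)
      have h4 := (hx'.2 ⟨i + 1, by omega⟩).one_le_Phi hq1
      set A := Phi (vs (q ^ 100) (ξ, x)) (α ⟨i, by omega⟩) (β ⟨i, by omega⟩)
      set B := Phi (vs (q ^ 100) (ξ, x')) (α ⟨i, by omega⟩) (β ⟨i, by omega⟩)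
      set C := Phi (vs (q ^ 100) (ξ, x')) (α ⟨i + 1, by omega⟩) (β ⟨i + 1, by omega⟩)
      have h5 : q ^ 2 ≤ q ^ 90 := pow_le_pow_right₀ hq1 (by norm_num)
      have h6 : 2 ≤ σ * q := by rwa [div_le_iff₀ hσ, mul_comm] at hq'
      have h7 : r * A ≤ σ * C := by
        have hB : 0 ≤ B := by linarith
        calc r * A ≤ q * (2 * B) := mul_le_mul hrq (by linarith) (by linarith) (by linarith)
          _ = 2 * (q * B) := by ring
          _ ≤ σ * q * (q * B) := mul_le_mul_of_nonneg_right h6 (by positivity)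
          _ = σ * (q ^ 2 * B) := by ring
          _ ≤ σ * C := mul_le_mul_of_nonneg_left
              ((mul_le_mul_of_nonneg_right h5 hB).trans h2) hσ.le
      rw [div_mul_div_comm, div_le_div_iff₀ (by linarith) (by positivity)]
      linarith)
    (by
      intro i hi x hx t ht h1 h2
      simp only [dif_pos (show i < N + 1 by omega)] at h1 h2
      exact hsep ξ x _ _ (hx.2 _) t (fun k => (ht k).2 _) h1 h2)
  have e : 10 * (r : ℝ) * (σ / r) = 10 * σ := by field_simp
  rwa [e] at h

/-- For fixed `α, β` and `ξ`, apply `porous` to `E = {s ∈ [0, 1) | ∀ i, Pair q (vs k (ξ, s)) (α i) (β i)}` with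
`l i s = 3 / Phi (vs k (ξ, s)) (α i) (β i)` (any extension of `α, β` to `ℕ`), `γ = σ / r`, `r` from `line_sep`:
`h0` by `one_le_Phi`, `h1` by `phi_grow`, `phi_stab` and `r ≤ q`, `q ^ (-89) / 0.99 ≤ σ`; `h2` by `line_sep`.
Then `nu_apply`, Fubini (`Measure.prod_apply`) and the union bound. -/
theorem wegner {σ : ℝ} (hσ : 0 < σ) (hσ' : σ ≤ 1) : ∃ q₀ : ℝ, 100 ≤ q₀ ∧ ∀ q, q₀ ≤ q → ∀ N M : ℕ,
    (nu (q ^ 100)).real (Pairs q N M) ≤ 4 ^ M * (7 * (10 * σ) ^ N) := by
  obtain ⟨q₀, h0, hq₀⟩ := line_sep hσ hσ'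
  refine ⟨max q₀ (2 / σ), le_max_of_le_left h0, fun q hq N M => ?_⟩
  have hq1 : q₀ ≤ q := (le_max_left _ _).trans hq
  obtain ⟨r, hr, hrq, hsep⟩ := hq₀ q hq1
  obtain ⟨S, hS, hS'⟩ := card_strictMono N M
  set A : (Fin (N + 1) → ℕ) × (Fin (N + 1) → ℕ) → Set (ℤ → ℝ) := fun p =>
    {v | (StrictMono p.1 ∧ StrictMono p.2) ∧ ∀ i, Pair q v (p.1 i) (p.2 i)} with hA
  have hAm : ∀ p, MeasurableSet (A p) := by
    intro p
    simp only [hA, ofPred_and, ofPred_forall]
    exact ((MeasurableSet.const _).inter (MeasurableSet.const _)).inter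
      (MeasurableSet.iInter fun s => measurableSet_pair q _ _)
  have hb : ∀ p, nu (q ^ 100) (A p) ≤ ENNReal.ofReal (7 * (10 * σ) ^ N) := by
    intro p
    by_cases hp : StrictMono p.1 ∧ StrictMono p.2
    swap
    · have : A p = ∅ := by
        ext v
        simp [hA, hp]
      simp [this]
    rw [nu_apply _ (hAm p), Measure.volume_eq_prod, Measure.prod_apply
      ((measurable_vs _ (hAm p)).inter (measurableSet_Ico.prod measurableSet_Ico))]
    calc _ ≤ ∫⁻ ξ, (Ico (0 : ℝ) 1).indicator (fun _ => ENNReal.ofReal (7 * (10 * σ) ^ N)) ξ := by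
          refine lintegral_mono fun ξ => ?_
          by_cases hξ : ξ ∈ Ico (0 : ℝ) 1
          · rw [indicator_of_mem hξ]
            refine le_trans (measure_mono ?_) (wegb_line hσ (h0.trans hq1)
              ((le_max_right _ _).trans hq) hr hrq hsep hp.1 hp.2 ξ)
            exact fun s hs => ⟨hs.2.2, hs.1.2⟩
          · rw [indicator_of_notMem hξ]
            refine le_of_eq (measure_mono_null (fun s hs => hξ hs.2.1) (t := ∅) measure_empty)
      _ = _ := by
          rw [lintegral_indicator_const measurableSet_Ico]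
          simp
  have hsub : Pairs q N M ⊆ ⋃ p ∈ S ×ˢ S, A p := by
    rintro v ⟨α, β, h1, h2, h3, h4⟩
    exact mem_iUnion₂.2 ⟨(α, β), Finset.mem_product.2
      ⟨hS' α h1 fun s => (h3 s).1, hS' β h2 fun s => (h3 s).2⟩, ⟨h1, h2⟩, h4⟩
  have hpos : 0 ≤ 7 * (10 * σ) ^ N := by positivity
  refine ENNReal.toReal_le_of_le_ofReal (by positivity) ?_
  calc nu (q ^ 100) (Pairs q N M) ≤ ∑ p ∈ S ×ˢ S, nu (q ^ 100) (A p) :=
        (measure_mono hsub).trans (measure_biUnion_finset_le _ _)
    _ ≤ ∑ _p ∈ S ×ˢ S, ENNReal.ofReal (7 * (10 * σ) ^ N) := Finset.sum_le_sum fun p _ => hb p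
    _ = ENNReal.ofReal (((S ×ˢ S).card : ℝ) * (7 * (10 * σ) ^ N)) := by
        rw [Finset.sum_const, nsmul_eq_mul, ENNReal.ofReal_mul (Nat.cast_nonneg _),
          ENNReal.ofReal_natCast]
    _ ≤ _ := by
        refine ENNReal.ofReal_le_ofReal (mul_le_mul_of_nonneg_right ?_ hpos)
        rw [Finset.card_product]
        have : S.card * S.card ≤ 4 ^ M := by
          calc S.card * S.card ≤ 2 ^ M * 2 ^ M := Nat.mul_le_mul hS hS
            _ = 4 ^ M := by rw [← mul_pow]; norm_num
        exact_mod_cast this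

end Crest.Agent.R128
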