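import Crest.Agent.R128.Mass
import Crest.Agent.R128.Hier3
import Crest.Agent.R128.Dec2
import Crest.Agent.R128.Ext
import Crest.Agent.R128.WegB

/-!
# Row 128, Prob2: the density inequalities that use decoupling and the Wegner estimate.
Keep the statements; add auxiliary lemmas freely (prefix `prob2_`).
-/

set_option autoImplicit false

noncomputable section

open scoped Classical
open MeasureTheory Set

namespace Crest.Agent.R128

theorem prob2_re {q t : ℝ} {v v' : ℤ → ℝ} {j : ℕ} {x y e : ℤ}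
    (h : Agree (bits q t v) (bits q t v') (j + 1) x y) (hx : x + 2 * nn j + 1 ≤ e)
    (hy : e + 2 * nn j + 1 ≤ y) (hv : RE (B1 j (hi q t v j)) e) : RE (B1 j (hi q t v' j)) e :=
  ⟨(local_b1 h j (by omega) e (by omega) (by omega)).1 hv.1,
    fun h' => hv.2 ((local_b1 h j (by omega) (e + 1) (by omega) (by omega)).2 h')⟩

theorem prob2_le {q t : ℝ} {v v' : ℤ → ℝ} {j : ℕ} {x y e : ℤ}
    (h : Agree (bits q t v) (bits q t v') (j + 1) x y) (hx : x + 2 * nn j + 1 ≤ e)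
    (hy : e + 2 * nn j + 1 ≤ y) (hv : LE (B1 j (hi q t v j)) e) : LE (B1 j (hi q t v' j)) e :=
  ⟨(local_b1 h j (by omega) e (by omega) (by omega)).1 hv.1,
    fun h' => hv.2 ((local_b1 h j (by omega) (e - 1) (by omega) (by omega)).2 h')⟩

theorem prob2_cnt {q t : ℝ} {v v' : ℤ → ℝ} {j : ℕ} {x y a b : ℤ}
    (h : Agree (bits q t v) (bits q t v') (j + 1) x y) (hx : x + nn j ≤ a) (hy : b + nn j ≤ y) :
    cnt (hi q t v j).D a b = cnt (hi q t v' j).D a b :=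
  cnt_congr fun i h1 h2 => (local_hier h j (by omega) i (by omega) (by omega)).2

theorem prob2_am_nonneg (ν : Measure (ℤ → ℝ)) (q t : ℝ) (j : ℕ) : 0 ≤ am ν q t j :=
  measureReal_nonneg

theorem prob2_meas_cnt (q t : ℝ) (j : ℕ) (M a b : ℤ) :
    MeasurableSet {v | M ≤ 800 * cnt (hi q t v j).D a b} :=
  ((cov_D q t j).measurable_cnt a b) (MeasurableSet.of_discrete (s := {c : ℤ | M ≤ 800 * c}))

theorem prob2_real_re (k q t : ℝ) (j : ℕ) (e : ℤ) :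
    (nu k).real {v | RE (B1 j (hi q t v j)) e} = e1 (nu k) q t j :=
  pr_at (inv_nu k) (cov_B1 q t j).re e

theorem prob2_real_le (k q t : ℝ) (j : ℕ) (e : ℤ) :
    (nu k).real {v | LE (B1 j (hi q t v j)) e} = e1 (nu k) q t j :=
  (pr_at (inv_nu k) (cov_B1 q t j).le e).trans (pr_le_eq_re (inv_nu k) (cov_B1 q t j))

theorem prob2_real_cnt (k q t : ℝ) (j : ℕ) {a b : ℤ} (hab : a ≤ b) (h : b - a ≤ 2200 * de j) :
    (nu k).real {v | nn (j + 1) ≤ 800 * cnt (hi q t v j).D a b} ≤ 880 * dD (nu k) q t j := by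
  have hn : (1 : ℝ) ≤ nn j := by exact_mod_cast nn_pos j
  have hs : (nn (j + 1) : ℝ) = 10 ^ 15 * nn j := by exact_mod_cast nn_succ j
  have hM : (0 : ℝ) < (nn (j + 1) : ℝ) / 800 := by rw [hs]; positivity
  have h1 := real_cnt_le (ν := nu k) (inv_nu k) (cov_D q t j) hab hM
  have e : {v | nn (j + 1) ≤ 800 * cnt (hi q t v j).D a b} =
      {v | (nn (j + 1) : ℝ) / 800 ≤ (cnt (hi q t v j).D a b : ℝ)} := by
    ext v
    simp only [mem_ofPred_eq]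
    rw [div_le_iff₀ (by norm_num : (0 : ℝ) < 800), mul_comm]
    exact_mod_cast Iff.rfl
  rw [e]
  refine h1.trans ?_
  have hd : 0 ≤ dD (nu k) q t j := pr_nonneg _ _
  have h2 : ((b - a : ℤ) : ℝ) ≤ 2200 * (5 * 10 ^ 11 * nn j) := by
    unfold de at h
    exact_mod_cast h
  rw [div_le_iff₀ hM, hs]
  change ((b - a : ℤ) : ℝ) * dD (nu k) q t j ≤ _
  calc _ ≤ 2200 * (5 * 10 ^ 11 * nn j) * dD (nu k) q t j := mul_le_mul_of_nonneg_right h2 hd
    _ = _ := by ring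

theorem prob2_gap {q t : ℝ} (hq : 100 ≤ q) (ht : 1 ≤ t) (j : ℕ) {G : ℤ} (h1 : gg j + 2 ≤ G)
    (h2 : G ≤ gg (j + 1) + 1) :
    (nu (q ^ 100)).real {v | RE (B1 j (hi q t v j)) 0 ∧ LE (B1 j (hi q t v j)) (0 + G) ∧
      Free (hi q t v (j + 1)).B (0 + 1) (0 + G)} ≤
      10 ^ 4 * (e1 (nu (q ^ 100)) q t j + am (nu (q ^ 100)) q t j) ^ 2 := by
  have hn := nn_pos j
  have hn' := nn_pos (j + 1)
  have hg : gg j = 10 ^ 10 * nn j := rfl
  have hg' : gg (j + 1) = 10 ^ 10 * nn (j + 1) := rfl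
  have hl : la j = 10 ^ 8 * nn j := rfl
  norm_num at hg hg' hl
  have hU := (cov_B1 q t j).re.1 0
  have hS := (cov_B1 q t j).le.1 (0 + G)
  have hF := (cov_B q t (j + 1)).free.1 (0 + 1) (0 + G)
  have := dec2 hq ht j (x₀ := 0) (z := 7 * la j) (x₁ := 0 + G) (by omega) (by omega) (by omega)
    (E := {v | RE (B1 j (hi q t v j)) 0 ∧ LE (B1 j (hi q t v j)) (0 + G) ∧
      Free (hi q t v (j + 1)).B (0 + 1) (0 + G)}) (hU.inter (hS.inter hF)) hU hS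
    (fun v hv => hv.2.2)
    (fun v hv v' h => prob2_re h (by omega) (by omega) hv.1)
    (fun v hv v' h => prob2_le h (by omega) (by omega) hv.2.1)
  rw [prob2_real_re, prob2_real_le] at this
  rw [sq]; exact this

theorem prob2_right {q t : ℝ} (hq : 100 ≤ q) (ht : 1 ≤ t) (j : ℕ) (e : ℤ) {i : ℤ} (h1 : 2 ≤ i)
    (h2 : i < 2200) :
    (nu (q ^ 100)).real {v | RE (B1 j (hi q t v j)) e ∧ Free (hi q t v (j + 1)).B (e + 1) (e + i * de j) ∧
      nn (j + 1) ≤ 800 * cnt (hi q t v j).D (e + de j) (e + i * de j)} ≤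
      10 ^ 4 * 880 * ((e1 (nu (q ^ 100)) q t j + am (nu (q ^ 100)) q t j) *
        (dD (nu (q ^ 100)) q t j + am (nu (q ^ 100)) q t j)) := by
  have hn := nn_pos j
  have hn' := nn_succ j
  have hg' : gg (j + 1) = 10 ^ 10 * nn (j + 1) := rfl
  have hl : la j = 10 ^ 8 * nn j := rfl
  have hd : de j = 5 * 10 ^ 11 * nn j := rfl
  norm_num at hn' hg' hl hd
  have hd0 : 0 ≤ de j := by omega
  have i1 : 2 * de j ≤ i * de j := mul_le_mul_of_nonneg_right h1 hd0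
  have i2 : i * de j ≤ 2200 * de j := mul_le_mul_of_nonneg_right h2.le hd0
  obtain ⟨I, hI⟩ : ∃ I, I = i * de j := ⟨_, rfl⟩
  rw [← hI] at i1 i2 ⊢
  have hU := (cov_B1 q t j).re.1 e
  have hS := prob2_meas_cnt q t j (nn (j + 1)) (e + de j) (e + I)
  have hF := (cov_B q t (j + 1)).free.1 (e + 1) (e + I)
  have := dec2 hq ht j (x₀ := e) (z := e + 7 * la j) (x₁ := e + I) (by omega) (by omega) (by omega)
    (E := {v | RE (B1 j (hi q t v j)) e ∧ Free (hi q t v (j + 1)).B (e + 1) (e + I) ∧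
      nn (j + 1) ≤ 800 * cnt (hi q t v j).D (e + de j) (e + I)}) (hU.inter (hF.inter hS)) hU hS
    (fun v hv => hv.2.1)
    (fun v hv v' h => prob2_re h (by omega) (by omega) hv.1)
    (fun v hv v' h => by
      have := hv.2.2
      rwa [prob2_cnt h (by omega) (by omega)] at this)
  rw [prob2_real_re] at this
  refine this.trans ?_
  have h3 := prob2_real_cnt (q ^ 100) q t j (a := e + de j) (b := e + I) (by omega) (by omega)
  have ha := prob2_am_nonneg (nu (q ^ 100)) q t j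
  have he : 0 ≤ e1 (nu (q ^ 100)) q t j := pr_nonneg _ _
  rw [mul_assoc, mul_left_comm (880 : ℝ)]
  refine mul_le_mul_of_nonneg_left (mul_le_mul_of_nonneg_left ?_ (add_nonneg he ha)) (by norm_num)
  linarith

theorem prob2_left {q t : ℝ} (hq : 100 ≤ q) (ht : 1 ≤ t) (j : ℕ) (e : ℤ) {i : ℤ} (h1 : 2 ≤ i)
    (h2 : i < 2200) :
    (nu (q ^ 100)).real {v | LE (B1 j (hi q t v j)) e ∧ Free (hi q t v (j + 1)).B (e - i * de j + 1) e ∧
      nn (j + 1) ≤ 800 * cnt (hi q t v j).D (e - i * de j + 1) (e - de j + 1)} ≤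
      10 ^ 4 * 880 * ((e1 (nu (q ^ 100)) q t j + am (nu (q ^ 100)) q t j) *
        (dD (nu (q ^ 100)) q t j + am (nu (q ^ 100)) q t j)) := by
  have hn := nn_pos j
  have hn' := nn_succ j
  have hg' : gg (j + 1) = 10 ^ 10 * nn (j + 1) := rfl
  have hl : la j = 10 ^ 8 * nn j := rfl
  have hd : de j = 5 * 10 ^ 11 * nn j := rfl
  norm_num at hn' hg' hl hd
  have hd0 : 0 ≤ de j := by omega
  have i1 : 2 * de j ≤ i * de j := mul_le_mul_of_nonneg_right h1 hd0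
  have i2 : i * de j ≤ 2200 * de j := mul_le_mul_of_nonneg_right h2.le hd0
  obtain ⟨I, hI⟩ : ∃ I, I = i * de j := ⟨_, rfl⟩
  rw [← hI] at i1 i2 ⊢
  have hS := (cov_B1 q t j).le.1 e
  have hU := prob2_meas_cnt q t j (nn (j + 1)) (e - I + 1) (e - de j + 1)
  have hF := (cov_B q t (j + 1)).free.1 (e - I + 1) e
  have := dec2 hq ht j (x₀ := e - I) (z := e - 8 * la j) (x₁ := e) (by omega) (by omega) (by omega)
    (E := {v | LE (B1 j (hi q t v j)) e ∧ Free (hi q t v (j + 1)).B (e - I + 1) e ∧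
      nn (j + 1) ≤ 800 * cnt (hi q t v j).D (e - I + 1) (e - de j + 1)}) (hS.inter (hF.inter hU)) hU hS
    (fun v hv => hv.2.1)
    (fun v hv v' h => by
      have := hv.2.2
      rwa [prob2_cnt h (by omega) (by omega)] at this)
    (fun v hv v' h => prob2_le h (by omega) (by omega) hv.1)
  rw [prob2_real_le] at this
  refine this.trans ?_
  have h3 := prob2_real_cnt (q ^ 100) q t j (a := e - I + 1) (b := e - de j + 1) (by omega) (by omega)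
  have ha := prob2_am_nonneg (nu (q ^ 100)) q t j
  have he : 0 ≤ e1 (nu (q ^ 100)) q t j := pr_nonneg _ _
  rw [mul_assoc, mul_left_comm (880 : ℝ), mul_comm (_ + am _ _ _ _)]
  refine mul_le_mul_of_nonneg_left (mul_le_mul_of_nonneg_left ?_ (add_nonneg he ha)) (by norm_num)
  linarith

theorem prob2_res {σ : ℝ} (hσ : 0 < σ) (hσ' : σ ≤ 1) : ∃ q₀ : ℝ, ∀ q, q₀ ≤ q → ∀ t, 1 ≤ t → t ≤ 2 → ∀ j,
    dR (nu (q ^ 100)) q t j ≤ 14 * (4 ^ 704 * (10 * σ) ^ 99) ^ ((10 ^ 15) ^ j : ℕ) := by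
  obtain ⟨q₀, h0, hw⟩ := wegner hσ hσ'
  refine ⟨q₀, fun q hq t ht ht' j => ?_⟩
  have hq' : 100 ≤ q := h0.trans hq
  have h1 := hw q hq (99 * (10 ^ 15) ^ j) (704 * (10 ^ 15) ^ j)
  obtain ⟨P, hP⟩ : ∃ P, P = Pairs q (99 * (10 ^ 15) ^ j) (704 * (10 ^ 15) ^ j) := ⟨_, rfl⟩
  have hPm : MeasurableSet P := hP ▸ measurableSet_pairs _ _ _
  have hsub : {v | Res (bits q t v) j 0} ⊆ {v | ¬ Bdd q v} ∪ (P ∪ sh 1 ⁻¹' P) := by
    intro v hv
    by_cases hb : Bdd q v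
    · right
      rw [hP]
      exact pairs_of_res hq' ht ht' hb j hv
    · exact Or.inl hb
  have h2 : (nu (q ^ 100)).real {v | ¬ Bdd q v} = 0 := by
    rw [measureReal_def, nu_not_bdd hq']; rfl
  have h3 : (nu (q ^ 100)).real (sh 1 ⁻¹' P) = (nu (q ^ 100)).real P := by
    rw [measureReal_def, inv_nu _ 1 P hPm]; rfl
  have h4 := measureReal_mono (μ := nu (q ^ 100)) hsub
  have h5 := measureReal_union_le (μ := nu (q ^ 100)) {v | ¬ Bdd q v} (P ∪ sh 1 ⁻¹' P)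
  have h6 := measureReal_union_le (μ := nu (q ^ 100)) P (sh 1 ⁻¹' P)
  rw [← hP, pow_mul, pow_mul] at h1
  rw [mul_pow]
  generalize ((4 : ℝ) ^ 704) ^ ((10 ^ 15) ^ j : ℕ) = A at h1 ⊢
  generalize ((10 * σ) ^ 99) ^ ((10 ^ 15) ^ j : ℕ) = B at h1 ⊢
  change (nu (q ^ 100)).real {v | Res (bits q t v) j 0} ≤ _
  linarith

theorem prob2_small {K δ : ℝ} (hK : 1 ≤ K) (hδ : 0 < δ) (hδ' : δ ≤ 1) :
    ∃ σ : ℝ, 0 < σ ∧ σ ≤ 1 ∧ 0 ≤ K * (10 * σ) ^ 99 ∧ K * (10 * σ) ^ 99 ≤ δ := by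
  have hK0 : 0 < K := by linarith
  have h1 : δ / K ≤ 1 := by rw [div_le_one hK0]; linarith
  have h0 : 0 < δ / K := div_pos hδ hK0
  refine ⟨δ / K / 10, by positivity, by linarith, by positivity, ?_⟩
  have e : 10 * (δ / K / 10) = δ / K := by ring
  rw [e]
  calc K * (δ / K) ^ 99 ≤ K * (δ / K) :=
        mul_le_mul_of_nonneg_left (pow_le_of_le_one h0.le h1 (by norm_num)) hK0.le
    _ = δ := by field_simp

theorem prob2_pow {ρ : ℝ} (h0 : 0 ≤ ρ) (h1 : ρ ≤ 1 / 4) {m j : ℕ} (hm : j + 1 ≤ m) :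
    (m : ℝ) * ρ ^ m ≤ 2 * ρ * (1 / 2) ^ j := by
  have h2 : (m : ℝ) ≤ 2 ^ m := by exact_mod_cast (Nat.lt_two_pow_self (n := m)).le
  calc (m : ℝ) * ρ ^ m ≤ 2 ^ m * ρ ^ m := mul_le_mul_of_nonneg_right h2 (pow_nonneg h0 _)
    _ = (2 * ρ) ^ m := (mul_pow _ _ _).symm
    _ ≤ (2 * ρ) ^ (j + 1) := pow_le_pow_of_le_one (by positivity) (by linarith) hm
    _ = 2 * ρ * (2 * ρ) ^ j := by ring
    _ ≤ _ := mul_le_mul_of_nonneg_left (pow_le_pow_left₀ (by positivity) (by linarith) _) (by positivity)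

/-- `gap_step`; for each `G ∈ [gg j + 2, gg (j+1) + 1]` use `dec2` with `x₀ = 0`, `z = 7 la j`, `x₁ = G`,
`U = {RE (B1 j (hi q t v j)) 0}`, `S = {LE (B1 j (hi q t v j)) G}` (`local_b1`, `pr_at`, `pr_le_eq_re`). -/
theorem ineq10 {q t : ℝ} (hq : 100 ≤ q) (ht : 1 ≤ t) (j : ℕ) :
    dG (nu (q ^ 100)) q t (j + 1) ≤
      10 ^ 15 * ((nn (j + 1) : ℝ) * (e1 (nu (q ^ 100)) q t j + am (nu (q ^ 100)) q t j) ^ 2) := by
  have hsub : {v | Gap (j + 1) (hi q t v (j + 1)) 0} ⊆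
      ⋃ G ∈ Finset.Icc (gg j + 2) (gg (j + 1) + 1), {v | RE (B1 j (hi q t v j)) 0 ∧
        LE (B1 j (hi q t v j)) (0 + G) ∧ Free (hi q t v (j + 1)).B (0 + 1) (0 + G)} := by
    intro v hv
    obtain ⟨G, h1, h2, h3⟩ := gap_step (ω := bits q t v) (s := hi q t v j) hv
    exact mem_iUnion₂.2 ⟨G, Finset.mem_Icc.2 ⟨h1, h2⟩, h3⟩
  have hn := nn_pos j
  have hn' := nn_succ j
  have hg : gg j = 10 ^ 10 * nn j := rfl
  have hg' : gg (j + 1) = 10 ^ 10 * nn (j + 1) := rfl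
  norm_num at hn' hg hg'
  have hc : (((Finset.Icc (gg j + 2) (gg (j + 1) + 1)).card : ℤ) : ℝ) ≤
      ((10 ^ 11 * nn (j + 1) : ℤ) : ℝ) := by
    rw [Int.cast_le, Int.card_Icc]
    norm_num
    omega
  push_cast at hc
  change (nu (q ^ 100)).real {v | Gap (j + 1) (hi q t v (j + 1)) 0} ≤ _
  refine (measureReal_mono hsub (measure_ne_top _ _)).trans ((measureReal_biUnion_finset_le _ _).trans ?_)
  refine (Finset.sum_le_card_nsmul _ _ _ fun G hG =>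
    prob2_gap hq ht j (Finset.mem_Icc.1 hG).1 (Finset.mem_Icc.1 hG).2).trans ?_
  rw [nsmul_eq_mul]
  refine (mul_le_mul_of_nonneg_right hc (by positivity)).trans (le_of_eq ?_)
  ring

/-- `anchor`; for each of the `4 N * 2200 * 2` choices of `(e, i, side)` use `dec2`.  Right side: `x₀ = e`,
`z = e + 7 la j`, `x₁ = e + i de`, `U = {RE (B1 j …) e}`, `S = {N ≤ 800 cnt D (e + de) (e + i de)}` (`local_hier`,
`cnt_congr`), `ν S ≤ 800 (i - 1) de dD / N ≤ 880 dD` (`real_cnt_le`).  Left side: `x₀ = e - i de`, `x₁ = e`,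
`z = e - 8 la j`.  `4 * 2200 * 2 * 10 ^ 4 * 880 ≤ 10 ^ 15`. -/
theorem ineq9 {q t : ℝ} (hq : 100 ≤ q) (ht : 1 ≤ t) (j : ℕ) :
    dA (nu (q ^ 100)) q t (j + 1) ≤
      10 ^ 15 * ((nn (j + 1) : ℝ) * ((e1 (nu (q ^ 100)) q t j + am (nu (q ^ 100)) q t j) *
        (dD (nu (q ^ 100)) q t j + am (nu (q ^ 100)) q t j))) := by
  have hsub : {v | Abs (j + 1) (hi q t v (j + 1)) 0} ⊆
      ⋃ p ∈ Finset.Ico (0 - 2 * nn (j + 1)) (0 + 2 * nn (j + 1)) ×ˢ Finset.Ico (2 : ℤ) 2200,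
        ({v | RE (B1 j (hi q t v j)) p.1 ∧ Free (hi q t v (j + 1)).B (p.1 + 1) (p.1 + p.2 * de j) ∧
          nn (j + 1) ≤ 800 * cnt (hi q t v j).D (p.1 + de j) (p.1 + p.2 * de j)} ∪
        {v | LE (B1 j (hi q t v j)) p.1 ∧ Free (hi q t v (j + 1)).B (p.1 - p.2 * de j + 1) p.1 ∧
          nn (j + 1) ≤ 800 * cnt (hi q t v j).D (p.1 - p.2 * de j + 1) (p.1 - de j + 1)}) := by
    intro v hv
    obtain ⟨e, i, h1, h2, h3, h4, h5⟩ := anchor (ω := bits q t v) (s := hi q t v j) hv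
    exact mem_iUnion₂.2 ⟨(e, i),
      Finset.mem_product.2 ⟨Finset.mem_Ico.2 ⟨h1, h2⟩, Finset.mem_Ico.2 ⟨h3, h4⟩⟩, h5⟩
  have hn := nn_pos (j + 1)
  have hc : (((Finset.Ico (0 - 2 * nn (j + 1)) (0 + 2 * nn (j + 1)) ×ˢ
      Finset.Ico (2 : ℤ) 2200).card : ℤ) : ℝ) ≤ ((10 ^ 4 * nn (j + 1) : ℤ) : ℝ) := by
    rw [Int.cast_le, Finset.card_product, Int.card_Ico, Int.card_Ico]
    have : ((2200 : ℤ) - 2).toNat = 2198 := rfl
    rw [this]
    norm_num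
    omega
  push_cast at hc
  have ha := prob2_am_nonneg (nu (q ^ 100)) q t j
  have he : 0 ≤ e1 (nu (q ^ 100)) q t j := pr_nonneg _ _
  have hd : 0 ≤ dD (nu (q ^ 100)) q t j := pr_nonneg _ _
  change (nu (q ^ 100)).real {v | Abs (j + 1) (hi q t v (j + 1)) 0} ≤ _
  refine (measureReal_mono hsub (measure_ne_top _ _)).trans ((measureReal_biUnion_finset_le _ _).trans ?_)
  refine (Finset.sum_le_card_nsmul _ _ _ fun p hp =>
    (measureReal_union_le _ _).trans (add_le_add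
      (prob2_right hq ht j p.1 (Finset.mem_Ico.1 (Finset.mem_product.1 hp).2).1
        (Finset.mem_Ico.1 (Finset.mem_product.1 hp).2).2)
      (prob2_left hq ht j p.1 (Finset.mem_Ico.1 (Finset.mem_product.1 hp).2).1
        (Finset.mem_Ico.1 (Finset.mem_product.1 hp).2).2))).trans ?_
  rw [nsmul_eq_mul]
  refine (mul_le_mul_of_nonneg_right hc (by positivity)).trans ?_
  have hn' : (0 : ℝ) ≤ nn (j + 1) := by exact_mod_cast (by omega : (0 : ℤ) ≤ nn (j + 1))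
  have hX : 0 ≤ (nn (j + 1) : ℝ) * ((e1 (nu (q ^ 100)) q t j + am (nu (q ^ 100)) q t j) *
      (dD (nu (q ^ 100)) q t j + am (nu (q ^ 100)) q t j)) := by positivity
  generalize (e1 (nu (q ^ 100)) q t j + am (nu (q ^ 100)) q t j) *
      (dD (nu (q ^ 100)) q t j + am (nu (q ^ 100)) q t j) = X at hX ⊢
  generalize (nn (j + 1) : ℝ) = N at hX ⊢
  nlinarith

/-- `pairs_of_res`, `nu_not_bdd`, `inv_nu`, `wegner`: `dR j ≤ 2 * 4 ^ (704 n) * 7 * (10 σ) ^ (99 n) = 14 ρ ^ n`,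
`ρ = 4 ^ 704 (10 σ) ^ 99`, `n = nn j ≥ j + 1`.  Choose `σ` so small that `ρ ≤ 1 / 4` and `14 * 10 ^ 15 * 2 ρ ≤ ε / 2`;
`n ρ ^ n ≤ (2 ρ) ^ n ≤ (2 ρ) ^ (j+1) ≤ 2 ρ / 2 ^ j`. -/
theorem ineq13 {ε : ℝ} (hε : 0 < ε) : ∃ q₀ : ℝ, ∀ q, q₀ ≤ q → ∀ t, 1 ≤ t → t ≤ 2 → ∀ J,
    ∑ j ∈ Finset.range J, (nn (j + 1) : ℝ) * dR (nu (q ^ 100)) q t j ≤ ε := by
  obtain ⟨σ, hσ, hσ', h0, h1⟩ := prob2_small (K := 4 ^ 704) (δ := min (1 / 4) (ε / (56 * 10 ^ 15)))
    (one_le_pow₀ (by norm_num)) (lt_min (by norm_num) (by positivity))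
    ((min_le_left _ _).trans (by norm_num))
  obtain ⟨q₀, hq₀⟩ := prob2_res hσ hσ'
  refine ⟨q₀, fun q hq t ht ht' J => ?_⟩
  have h2 := hq₀ q hq t ht ht'
  generalize (4 : ℝ) ^ 704 * (10 * σ) ^ 99 = ρ at h0 h1 h2
  have h3 : ρ ≤ 1 / 4 := h1.trans (min_le_left _ _)
  have h4 : ρ ≤ ε / (56 * 10 ^ 15) := h1.trans (min_le_right _ _)
  rw [le_div_iff₀ (by positivity)] at h4
  have h5 : ∀ j : ℕ, (nn (j + 1) : ℝ) * dR (nu (q ^ 100)) q t j ≤ 28 * 10 ^ 15 * ρ * (1 / 2) ^ j := by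
    intro j
    have e : (nn (j + 1) : ℝ) = 10 ^ 15 * (((10 ^ 15) ^ j : ℕ) : ℝ) := by
      unfold nn
      push_cast
      ring
    have hm : j + 1 ≤ (10 ^ 15) ^ j := Nat.lt_pow_self (by norm_num)
    have h6 := prob2_pow h0 h3 hm
    have h7 := h2 j
    rw [e]
    generalize ((10 ^ 15) ^ j : ℕ) = m at h6 h7 ⊢
    calc 10 ^ 15 * (m : ℝ) * dR (nu (q ^ 100)) q t j ≤ 10 ^ 15 * (m : ℝ) * (14 * ρ ^ m) :=
          mul_le_mul_of_nonneg_left h7 (by positivity)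
      _ = 14 * 10 ^ 15 * ((m : ℝ) * ρ ^ m) := by ring
      _ ≤ 14 * 10 ^ 15 * (2 * ρ * (1 / 2) ^ j) := mul_le_mul_of_nonneg_left h6 (by positivity)
      _ = _ := by ring
  calc _ ≤ ∑ j ∈ Finset.range J, 28 * 10 ^ 15 * ρ * (1 / 2) ^ j := Finset.sum_le_sum fun j _ => h5 j
    _ = 28 * 10 ^ 15 * ρ * ∑ j ∈ Finset.range J, (1 / 2 : ℝ) ^ j := by rw [Finset.mul_sum]
    _ ≤ 28 * 10 ^ 15 * ρ * 2 := mul_le_mul_of_nonneg_left (sum_geometric_two_le J) (by positivity)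
    _ ≤ ε := by linarith

end Crest.Agent.R128
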