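import Crest.Agent.R128.Defs

/-!
# Row 128, Rec: the recursion for the densities (real sequences only).
-/

set_option autoImplicit false

noncomputable section

open scoped Classical
open MeasureTheory Set

namespace Crest.Agent.R128

/-- `K = 10 ^ 15`, `n j = K ^ j`, `S J = ∑ j < J, n j * e j`, `Y J = K * S J + ε`, `X j = n (j+1) * (e j + a j)`, so
`∑ j < J, X j ≤ Y J`.  `D j ≤ K S j`; for `j < J`: `A (j+1) ≤ K X j Y J`, `n (j+1) G (j+1) ≤ K X j Y J`.  Hence
`∑ j ≤ J, A j ≤ K Y²`, `∑ j ≤ J, n j G j ≤ ε + K Y²`, `∑ j ≤ J, F j ≤ Z := K ε + (1 + 2K) K Y²`,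
`b (J+1) + ∑ j ≤ J, h j ≤ ε + Z`.  From `h1, h2`: `e j ≤ eb (J+1) + ∑ i ∈ [j, J], (H i + G i + 3 ea i)`, and
`∑ j ≤ i, n j ≤ 2 n i`, so `S (J+1) ≤ 2 n J eb (J+1) + 2 ∑ i ≤ J, n i (H i + G i + 3 ea i)`, with
`n J eb (J+1) ≤ b (J+1) + ε`, `∑ n i H i ≤ K ∑ h i + ε`.  So `S (J+1) ≤ C (ε + Y J ^ 2)`, `C = 10 K ^ 3`-ish, and by
induction `S J ≤ 2 C ε` if `ε` is small.  Finally `n J eb J ≤ S (J+1) + A J`. -/
theorem recursion : ∃ ε : ℝ, 0 < ε ∧ ∀ (b D A h F G R eb e ea H a : ℕ → ℝ),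
    (∀ j, 0 ≤ b j) → (∀ j, 0 ≤ D j) → (∀ j, 0 ≤ A j) → (∀ j, 0 ≤ h j) → (∀ j, 0 ≤ F j) → (∀ j, 0 ≤ G j) →
    (∀ j, 0 ≤ R j) → (∀ j, 0 ≤ eb j) → (∀ j, 0 ≤ e j) → (∀ j, 0 ≤ ea j) → (∀ j, 0 ≤ H j) → (∀ j, 0 ≤ a j) →
    (∀ j, e j ≤ eb (j + 1) + H j + G j + 2 * ea j) →
    (∀ j, eb j ≤ e j + ea j) →
    (∀ j, (nn j : ℝ) * eb (j + 1) ≤ b (j + 1) + nn j * R j) →
    (∀ j, (nn j : ℝ) * H (j + 1) ≤ h (j + 1) + nn j * R j) → H 0 ≤ h 0 →
    (∀ j, b (j + 1) + h j ≤ b j + F j) →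
    (∀ j, F j ≤ A j + 10 ^ 15 * ((nn j : ℝ) * (G j + ea j))) →
    (∀ j, (nn j : ℝ) * ea j ≤ A j) →
    A 0 = 0 → (∀ j, A (j + 1) ≤ 10 ^ 15 * ((nn (j + 1) : ℝ) * ((e j + a j) * (D j + a j)))) →
    G 0 ≤ b 0 → (∀ j, G (j + 1) ≤ 10 ^ 15 * ((nn (j + 1) : ℝ) * (e j + a j) ^ 2)) →
    D 0 = 0 → (∀ j, D (j + 1) ≤ D j + 10 ^ 15 * ((nn j : ℝ) * e j)) →
    b 0 ≤ ε → (∀ J, ∑ j ∈ Finset.range J, (nn (j + 1) : ℝ) * a j ≤ ε) →
    (∀ J, ∑ j ∈ Finset.range J, (nn (j + 1) : ℝ) * R j ≤ ε) →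
    ∀ J, b J + nn J * eb J ≤ 1 / 2 := by
  refine ⟨1 / 10 ^ 110, by positivity, ?_⟩
  intro b D A h F G R eb e ea H a b0 D0 A0 h0 F0 G0 R0 eb0 e0 ea0 H0 a0 i1 i2 i4 i5 i5z i6 i7 i8 i9z i9 i10z i10
    i11z i11 hb ha hR
  set ε : ℝ := 1 / 10 ^ 110 with hε
  obtain ⟨n, hn⟩ : ∃ n : ℕ → ℝ, ∀ j, (nn j : ℝ) = n j := ⟨_, fun _ => rfl⟩
  have hns : ∀ j, n (j + 1) = 10 ^ 15 * n j := fun j => by
    rw [← hn, ← hn]; unfold nn; push_cast; ring
  have hn0 : n 0 = 1 := by rw [← hn]; unfold nn; push_cast; ring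
  have hn1 : ∀ j, 1 ≤ n j := fun j => by
    induction j with
    | zero => rw [hn0]
    | succ j ih => rw [hns]; linarith
  have hnn : ∀ j, 0 ≤ n j := fun j => (zero_le_one.trans (hn1 j))
  simp only [hn] at i4 i5 i7 i8 i9 i10 i11 ha hR ⊢
  set S : ℕ → ℝ := fun J => ∑ j ∈ Finset.range J, n j * e j with hS
  have Ssucc : ∀ J, S (J + 1) = S J + n J * e J := fun J => Finset.sum_range_succ _ _
  have Smono : Monotone S := monotone_nat_of_le_succ fun J => by
    rw [Ssucc]; nlinarith [hnn J, e0 J]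
  have hD : ∀ j, D j ≤ 10 ^ 15 * S j := fun j => by
    induction j with
    | zero => simp [hS, i11z]
    | succ j ih => rw [Ssucc]; linarith [i11 j]
  have single : ∀ (f : ℕ → ℝ), (∀ j, 0 ≤ f j) → ∀ j J, j < J → f j ≤ ∑ i ∈ Finset.range J, f i :=
    fun f hf j J hj => Finset.single_le_sum (fun i _ => hf i) (Finset.mem_range.2 hj)
  have haε : ∀ j, a j ≤ ε := fun j => by
    have := (single (fun j => n (j + 1) * a j) (fun j => mul_nonneg (hnn _) (a0 _)) j (j + 1) (by omega)).trans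
      (ha _)
    nlinarith [hn1 (j + 1), a0 j]
  have hRε : ∀ j, n j * R j ≤ ε := fun j => by
    have := (single (fun j => n (j + 1) * R j) (fun j => mul_nonneg (hnn _) (R0 _)) j (j + 1) (by omega)).trans
      (hR _)
    rw [hns] at this
    nlinarith [mul_nonneg (hnn j) (R0 j)]
  set T : ℕ → ℝ := fun J => ∑ j ∈ Finset.range J, n j with hT
  have Tsucc : ∀ J, T (J + 1) = T J + n J := fun J => Finset.sum_range_succ _ _
  have T2 : ∀ J, T (J + 1) ≤ 2 * n J := fun J => by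
    induction J with
    | zero => simp [hT, hn0]
    | succ J ih => rw [Tsucc, hns]; linarith [hnn J]
  have T0 : ∀ J, 0 ≤ T J := fun J => Finset.sum_nonneg fun j _ => hnn j
  have hST : ∀ J, S J ≤ T J * eb J + ∑ i ∈ Finset.range J, T (i + 1) * (H i + G i + 3 * ea i) := fun J => by
    induction J with
    | zero => simp [hS, hT]
    | succ J ih =>
      rw [Ssucc, Finset.sum_range_succ]
      have u1 : T J * eb J ≤ T J * (e J + ea J) := mul_le_mul_of_nonneg_left (i2 J) (T0 J)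
      have u2 : T (J + 1) * e J ≤ T (J + 1) * (eb (J + 1) + H J + G J + 2 * ea J) :=
        mul_le_mul_of_nonneg_left (i1 J) (T0 _)
      have u3 : 0 ≤ n J * ea J := mul_nonneg (hnn J) (ea0 J)
      rw [Tsucc] at u2 ⊢
      nlinarith
  have hbh : ∀ J, b J + ∑ j ∈ Finset.range J, h j ≤ b 0 + ∑ j ∈ Finset.range J, F j := fun J => by
    induction J with
    | zero => simp
    | succ J ih => rw [Finset.sum_range_succ, Finset.sum_range_succ]; linarith [i6 J]
  have hHh : ∀ J, ∑ i ∈ Finset.range (J + 1), n i * H i ≤ 10 ^ 15 * ∑ i ∈ Finset.range (J + 1), h i +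
      ∑ i ∈ Finset.range J, n (i + 1) * R i := fun J => by
    induction J with
    | zero => simp [hn0]; linarith [h0 0]
    | succ J ih =>
      rw [Finset.sum_range_succ, Finset.sum_range_succ h (J + 1), Finset.sum_range_succ (fun i => n (i + 1) * R i) J,
        hns J]
      linarith [i5 J]
  have step : ∀ J, S J ≤ 4 / 10 ^ 80 → S (J + 1) ≤ 4 / 10 ^ 80 ∧ b (J + 1) ≤ 1 / 10 ∧ A J ≤ 1 / 10 := by
    intro J hJ
    set Y : ℝ := 5 / 10 ^ 65 with hY
    set X : ℕ → ℝ := fun j => n (j + 1) * (e j + a j) with hX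
    have X0 : ∀ j, 0 ≤ X j := fun j => mul_nonneg (hnn _) (add_nonneg (e0 _) (a0 _))
    have hXs : ∑ j ∈ Finset.range J, X j ≤ Y := by
      have : ∑ j ∈ Finset.range J, X j = 10 ^ 15 * S J + ∑ j ∈ Finset.range J, n (j + 1) * a j := by
        simp only [hS, hX]
        rw [Finset.mul_sum, ← Finset.sum_add_distrib]
        exact Finset.sum_congr rfl fun j _ => by rw [hns]; ring
      rw [this]
      have := ha J
      rw [hY]; rw [hε] at this
      norm_num at hJ this ⊢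
      linarith
    have hA1 : ∀ j ∈ Finset.range J, A (j + 1) ≤ 10 ^ 15 * Y * X j := fun j hj => by
      have u1 : D j + a j ≤ Y := by
        have := (hD j).trans (mul_le_mul_of_nonneg_left
          ((Smono (Finset.mem_range.1 hj).le).trans hJ) (by positivity))
        have u := haε j
        rw [hY]; rw [hε] at u
        norm_num at this u ⊢
        linarith
      have u2 := mul_le_mul_of_nonneg_left u1 (X0 j)
      have u3 := i9 j
      simp only [hX] at u2 ⊢
      nlinarith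
    have hG1 : ∀ j ∈ Finset.range J, n (j + 1) * G (j + 1) ≤ 10 ^ 15 * Y * X j := fun j hj => by
      have u1 : X j ≤ Y := (single X X0 j J (Finset.mem_range.1 hj)).trans hXs
      have u2 := mul_le_mul_of_nonneg_left u1 (X0 j)
      have u3 := mul_le_mul_of_nonneg_left (i10 j) (hnn (j + 1))
      simp only [hX] at u2 ⊢
      nlinarith
    have hYY : 10 ^ 15 * Y * ∑ j ∈ Finset.range J, X j ≤ 25 / 10 ^ 115 := by
      have := mul_le_mul_of_nonneg_left hXs (show 0 ≤ 10 ^ 15 * Y by positivity)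
      refine this.trans ?_
      rw [hY]; norm_num
    have sA : ∑ j ∈ Finset.range (J + 1), A j ≤ 25 / 10 ^ 115 := by
      rw [Finset.sum_range_succ', i9z, add_zero]
      refine (Finset.sum_le_sum hA1).trans ?_
      rwa [← Finset.mul_sum]
    have sG : ∑ j ∈ Finset.range (J + 1), n j * G j ≤ 25 / 10 ^ 115 + ε := by
      rw [Finset.sum_range_succ', hn0, one_mul]
      refine add_le_add ((Finset.sum_le_sum hG1).trans ?_) (i10z.trans hb)
      rwa [← Finset.mul_sum]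
    have sea : ∑ j ∈ Finset.range (J + 1), n j * ea j ≤ 25 / 10 ^ 115 :=
      (Finset.sum_le_sum fun j _ => i8 j).trans sA
    have sF : ∑ j ∈ Finset.range (J + 1), F j ≤ ∑ j ∈ Finset.range (J + 1), A j +
        10 ^ 15 * (∑ j ∈ Finset.range (J + 1), n j * G j + ∑ j ∈ Finset.range (J + 1), n j * ea j) := by
      rw [← Finset.sum_add_distrib, Finset.mul_sum, ← Finset.sum_add_distrib]
      exact Finset.sum_le_sum fun j _ => by linarith [i7 j]
    have s1 := hbh (J + 1)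
    have s2 := hHh J
    have s3 := hR J
    have s4 := hST (J + 1)
    have s5 : ∑ i ∈ Finset.range (J + 1), T (i + 1) * (H i + G i + 3 * ea i) ≤
        2 * (∑ i ∈ Finset.range (J + 1), n i * H i + ∑ i ∈ Finset.range (J + 1), n i * G i +
          3 * ∑ i ∈ Finset.range (J + 1), n i * ea i) := by
      rw [Finset.mul_sum, ← Finset.sum_add_distrib, ← Finset.sum_add_distrib, Finset.mul_sum]
      refine Finset.sum_le_sum fun i _ => ?_
      have := mul_le_mul_of_nonneg_right (T2 i) (show 0 ≤ H i + G i + 3 * ea i by linarith [H0 i, G0 i, ea0 i])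
      linarith
    have s6 : T (J + 1) * eb (J + 1) ≤ 2 * (b (J + 1) + ε) := by
      have := mul_le_mul_of_nonneg_right (T2 J) (eb0 (J + 1))
      linarith [i4 J, hRε J]
    have s7 : 0 ≤ ∑ j ∈ Finset.range (J + 1), h j := Finset.sum_nonneg fun j _ => h0 j
    have s8 := b0 (J + 1)
    have s9 := single A A0 J (J + 1) (by omega)
    have hε' : ε ≤ 1 / 10 ^ 110 := hε.le
    have t1 : ∑ j ∈ Finset.range (J + 1), F j ≤ 11 / 10 ^ 96 := by
      refine sF.trans ((add_le_add sA (mul_le_mul_of_nonneg_left (add_le_add sG sea) (by positivity))).trans ?_)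
      rw [hε]; norm_num
    have t2 : b (J + 1) + ∑ j ∈ Finset.range (J + 1), h j ≤ 12 / 10 ^ 96 := by
      refine s1.trans ((add_le_add hb t1).trans ?_)
      rw [hε]; norm_num
    have t3 : ∑ i ∈ Finset.range (J + 1), n i * H i ≤ 13 / 10 ^ 81 := by
      have : ∑ j ∈ Finset.range (J + 1), h j ≤ 12 / 10 ^ 96 := by linarith only [t2, s8]
      refine s2.trans ((add_le_add (mul_le_mul_of_nonneg_left this (by positivity)) s3).trans ?_)
      rw [hε]; norm_num
    have t4 : b (J + 1) ≤ 12 / 10 ^ 96 := by linarith only [t2, s7]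
    refine ⟨?_, t4.trans (by norm_num), s9.trans (sA.trans (by norm_num))⟩
    refine s4.trans ((add_le_add (s6.trans (mul_le_mul_of_nonneg_left (add_le_add t4 le_rfl) (by norm_num)))
      (s5.trans (mul_le_mul_of_nonneg_left (add_le_add (add_le_add t3 sG)
        (mul_le_mul_of_nonneg_left sea (by norm_num))) (by norm_num)))).trans ?_)
    rw [hε]; norm_num
  have hall : ∀ J, S J ≤ 4 / 10 ^ 80 := fun J => by
    induction J with
    | zero => simp only [hS, Finset.range_zero, Finset.sum_empty]; positivity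
    | succ J ih => exact (step J ih).1
  intro J
  have f1 : b J ≤ 1 / 10 := by
    rcases J with _ | J
    · rw [hε] at hb; norm_num at hb ⊢; linarith
    · exact (step J (hall J)).2.1
  have f2 := (step J (hall J)).2.2
  have f3 := hall (J + 1)
  have f4 : 0 ≤ S J := Finset.sum_nonneg fun j _ => mul_nonneg (hnn j) (e0 j)
  have f5 := mul_le_mul_of_nonneg_left (i2 J) (hnn J)
  rw [Ssucc] at f3
  have f6 := i8 J
  norm_num at f3
  linarith

end Crest.Agent.R128
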