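import Crest.Agent.R128.Sens

/-!
# Row 128, Thr: choice of the threshold by averaging.
Keep the statements; add auxiliary lemmas freely (prefix `thr_`).
-/

set_option autoImplicit false

noncomputable section

open scoped Classical
open MeasureTheory Set

namespace Crest.Agent.R128

theorem thr_meas (ν : Measure (ℤ → ℝ)) [IsProbabilityMeasure ν] {Z : (ℤ → ℝ) → ℝ} (hZ : Measurable Z)
    (η : ℝ) : Measurable (fun t : ℝ => ν {v | |Z v - t| ≤ η}) ∧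
      ∫⁻ t in Icc (1 : ℝ) 2, ν {v | |Z v - t| ≤ η} ≤ ENNReal.ofReal (2 * η) := by
  have hS : MeasurableSet {p : ℝ × (ℤ → ℝ) | |Z p.2 - p.1| ≤ η} :=
    measurableSet_le (by fun_prop) measurable_const
  refine ⟨measurable_measure_prodMk_left hS, ?_⟩
  have h1 := Measure.prod_apply (μ := volume.restrict (Icc (1 : ℝ) 2)) (ν := ν) hS
  have h2 := Measure.prod_apply_symm (μ := volume.restrict (Icc (1 : ℝ) 2)) (ν := ν) hS
  have h3 : ∫⁻ t in Icc (1 : ℝ) 2, ν {v | |Z v - t| ≤ η} =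
      ∫⁻ v, (volume.restrict (Icc (1 : ℝ) 2))
        ((fun t => (t, v)) ⁻¹' {p : ℝ × (ℤ → ℝ) | |Z p.2 - p.1| ≤ η}) ∂ν := h1.symm.trans h2
  rw [h3]
  calc _ ≤ ∫⁻ _, ENNReal.ofReal (2 * η) ∂ν := by
        refine lintegral_mono fun v => ?_
        refine (Measure.restrict_le_self _).trans ?_
        have : ((fun t => (t, v)) ⁻¹' {p : ℝ × (ℤ → ℝ) | |Z p.2 - p.1| ≤ η}) =
            Icc (Z v - η) (Z v + η) := by
          ext t
          simp only [mem_preimage, Set.mem_ofPred_eq, mem_Icc, abs_le]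
          constructor <;> rintro ⟨h, h'⟩ <;> constructor <;> linarith
        rw [this, Real.volume_Icc]
        exact le_of_eq (by congr 1; ring)
    _ = _ := by simp

/-- the union bound -/
def thrF (ν : Measure (ℤ → ℝ)) (q : ℝ) (j : ℕ) (y : ℤ) (t : ℝ) : ENNReal :=
  ∑ i ∈ Finset.Icc 0 y, ν {v | |Z0 q v i - t| ≤ q ^ (-gg j)} +
    ∑ x ∈ Finset.range (j + 1) ×ˢ Finset.Icc 0 y ×ˢ Finset.Icc 0 y ×ˢ Finset.Icc 0 y,
      ν {v | |Z1 q v x.1 x.2.1 x.2.2.1 x.2.2.2 - t| ≤ q ^ (-gg j)}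

theorem thr_amb_le (ν : Measure (ℤ → ℝ)) (q : ℝ) (j : ℕ) (y : ℤ) (t : ℝ) :
    ν (Amb q t j 0 y) ≤ thrF ν q j y t := by
  unfold thrF
  refine le_trans (measure_mono ?_) ((measure_union_le _ _).trans
    (add_le_add (measure_biUnion_finset_le _ _) (measure_biUnion_finset_le _ _)))
  rintro v (⟨i, h1, h2, h3⟩ | ⟨j', a, m, b, h1, h2, h3, h4, h5, -, h7⟩)
  · left
    simp only [mem_iUnion]
    exact ⟨i, Finset.mem_Icc.2 ⟨h1, h2⟩, h3⟩
  · right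
    simp only [mem_iUnion]
    refine ⟨(j', a, m, b), ?_, h7⟩
    simp only [Finset.mem_product, Finset.mem_range, Finset.mem_Icc]
    omega

theorem thr_F (ν : Measure (ℤ → ℝ)) [IsProbabilityMeasure ν] (q : ℝ) (j : ℕ) (L : ℕ) :
    Measurable (thrF ν q j (L - 1)) ∧ ∫⁻ t in Icc (1 : ℝ) 2, thrF ν q j (L - 1) t ≤
      ((L + (j + 1) * L ^ 3 : ℕ) : ENNReal) * ENNReal.ofReal (2 * q ^ (-gg j)) := by
  have m0 := fun i => thr_meas ν (measurable_Z0 q i) (q ^ (-gg j))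
  have m1 := fun x : ℕ × ℤ × ℤ × ℤ => thr_meas ν (measurable_Z1 q x.1 x.2.1 x.2.2.1 x.2.2.2) (q ^ (-gg j))
  have hc : (Finset.Icc (0 : ℤ) (L - 1)).card = L := by simp
  unfold thrF
  refine ⟨(Finset.measurable_sum _ fun i _ => (m0 i).1).add (Finset.measurable_sum _ fun x _ => (m1 x).1), ?_⟩
  rw [lintegral_add_left (Finset.measurable_sum _ fun i _ => (m0 i).1),
    lintegral_finsetSum _ fun i _ => (m0 i).1, lintegral_finsetSum _ fun x _ => (m1 x).1]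
  refine (add_le_add (Finset.sum_le_sum fun i _ => (m0 i).2) (Finset.sum_le_sum fun x _ => (m1 x).2)).trans
    (le_of_eq ?_)
  simp only [Finset.sum_const, Finset.card_product, hc, Finset.card_range, nsmul_eq_mul]
  push_cast
  ring

theorem thr_num {ε q : ℝ} (hε : 0 < ε) (hq : 2 ≤ q) (hq' : 1 / ε ≤ q) {j N : ℕ} (hN : j + 1 ≤ N) :
    (10 ^ 15 * N : ℝ) * (((3 * 10 ^ 25 * N + 1 + (j + 1) * (3 * 10 ^ 25 * N + 1) ^ 3 : ℕ) : ℝ) *
      (2 * q ^ (-(10 ^ 10 * (N : ℤ))))) ≤ ε / 2 / 2 ^ j := by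
  have hq0 : 0 < q := by linarith
  have hN1 : (1 : ℝ) ≤ N := by exact_mod_cast (by omega : 1 ≤ N)
  have hjN : (j : ℝ) + 1 ≤ N := by exact_mod_cast hN
  have h1 : ((3 * 10 ^ 25 * N + 1 + (j + 1) * (3 * 10 ^ 25 * N + 1) ^ 3 : ℕ) : ℝ) ≤
      2 * N * (4 * 10 ^ 25 * N) ^ 3 := by
    rw [show ((3 * 10 ^ 25 * N + 1 + (j + 1) * (3 * 10 ^ 25 * N + 1) ^ 3 : ℕ) : ℝ) =
      3 * 10 ^ 25 * N + 1 + (j + 1) * (3 * 10 ^ 25 * N + 1) ^ 3 by push_cast; ring]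
    have a1 : (3 * 10 ^ 25 * N + 1 : ℝ) ≤ 4 * 10 ^ 25 * N := by linarith
    have a2 : (3 * 10 ^ 25 * N + 1 : ℝ) ^ 3 ≤ (4 * 10 ^ 25 * N) ^ 3 := pow_le_pow_left₀ (by positivity) a1 3
    have a3 : (4 * 10 ^ 25 * N : ℝ) ≤ (4 * 10 ^ 25 * N) ^ 3 := le_self_pow₀ (by linarith) (by norm_num)
    have a4 : ((j : ℝ) + 1) * (3 * 10 ^ 25 * N + 1) ^ 3 ≤ N * (4 * 10 ^ 25 * N) ^ 3 :=
      mul_le_mul hjN a2 (by positivity) (by positivity)
    have a5 : (4 * 10 ^ 25 * N : ℝ) ^ 3 ≤ N * (4 * 10 ^ 25 * N) ^ 3 :=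
      le_mul_of_one_le_left (by positivity) hN1
    calc _ ≤ N * (4 * 10 ^ 25 * N : ℝ) ^ 3 + N * (4 * 10 ^ 25 * N) ^ 3 :=
          add_le_add (a1.trans (a3.trans a5)) a4
      _ = _ := by ring
  have h2 : q ^ (-(10 ^ 10 * (N : ℤ))) ≤ q ^ (-((314 * N + 1 : ℕ) : ℤ)) :=
    zpow_le_zpow_right₀ (by linarith) (by push_cast; omega)
  have h3 : q ^ (-((314 * N + 1 : ℕ) : ℤ)) ≤ ε / (2 ^ N) ^ 314 := by
    rw [zpow_neg, zpow_natCast, pow_succ, ← pow_mul, mul_comm N 314, mul_inv, mul_comm, div_eq_mul_inv]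
    refine mul_le_mul ?_ (inv_anti₀ (by positivity) (pow_le_pow_left₀ (by norm_num) hq _))
      (by positivity) hε.le
    rw [one_div] at hq'
    exact inv_le_of_inv_le₀ hε hq'
  obtain ⟨T, hT⟩ : ∃ T : ℝ, T = 2 ^ N := ⟨_, rfl⟩
  rw [← hT] at h3
  have t1 : (N : ℝ) ≤ T := by rw [hT]; exact_mod_cast Nat.lt_two_pow_self.le
  have t2 : 2 * 2 ^ j ≤ T := by
    rw [hT, ← pow_succ']; exact pow_le_pow_right₀ (by norm_num) hN
  have t3 : (2 : ℝ) ≤ T := by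
    rw [hT]; exact le_self_pow₀ (by norm_num) (by omega)
  have t0 : 0 < T := by linarith
  have t4 : (256 * 10 ^ 90 : ℝ) ≤ T ^ 308 :=
    calc (256 * 10 ^ 90 : ℝ) ≤ 2 ^ 154 * 2 ^ 154 := by norm_num
      _ ≤ T ^ 154 * T ^ 154 := by gcongr
      _ = T ^ 308 := by rw [← pow_add]
  have t5 : (N : ℝ) ^ 5 ≤ T ^ 5 := pow_le_pow_left₀ (by positivity) t1 5
  calc _ ≤ (10 ^ 15 * N : ℝ) * (2 * N * (4 * 10 ^ 25 * N) ^ 3 * (2 * (ε / T ^ 314))) := by
        refine mul_le_mul_of_nonneg_left (mul_le_mul h1 ?_ (by positivity) (by positivity)) (by positivity)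
        linarith [h2.trans h3]
    _ = (256 * 10 ^ 90 * N ^ 5) * (ε / T ^ 314) := by ring
    _ ≤ (T ^ 308 * T ^ 5) * (ε / T ^ 314) :=
        mul_le_mul_of_nonneg_right (mul_le_mul t4 t5 (by positivity) (by positivity)) (by positivity)
    _ = ε / T := by field_simp
    _ ≤ ε / (2 * 2 ^ j) := div_le_div_of_nonneg_left hε.le (by positivity) t2
    _ = _ := by rw [div_div]

/-- Averaging over the threshold.  For a measurable `Z`, `∫ t in [1, 2], ν {|Z - t| ≤ η} ≤ 2 η` (Tonelli).  The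
window `[0, 3 gg (j+1)]` carries at most `(j + 2) * (3 gg (j+1) + 1) ^ 3` tests of level `≤ j`, and
`nn (j+1) * (j + 2) * (3 gg (j+1) + 1) ^ 3 * 2 q ^ (-gg j) ≤ ε / 2 ^ (j+1)` for `q ≥ max 2 (1 / ε)`-ish, using
`j + 1 ≤ nn j` (crudely `n ^ 5 * 10 ^ 100 ≤ 2 ^ (10 ^ 9 n)`).  Integrate the `tsum` in `ℝ≥0∞` over `t ∈ [1, 2]`
and pick `t` below the average (`exists_le_setLIntegral`-type lemma or by contradiction). -/
theorem exists_t {ε : ℝ} (hε : 0 < ε) : ∃ q₀ : ℝ, ∀ q, q₀ ≤ q → ∀ (ν : Measure (ℤ → ℝ)) [IsProbabilityMeasure ν],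
    ∃ t, 1 ≤ t ∧ t ≤ 2 ∧ ∀ J, ∑ j ∈ Finset.range J, (nn (j + 1) : ℝ) * am ν q t j ≤ ε := by
  refine ⟨max 2 (1 / ε), fun q hq ν _ => ?_⟩
  have hq2 : 2 ≤ q := (le_max_left _ _).trans hq
  have hq' : 1 / ε ≤ q := (le_max_right _ _).trans hq
  have hq0 : 0 < q := by linarith
  have hNn : ∀ j, nn j = (((10 ^ 15) ^ j : ℕ) : ℤ) := fun j => by unfold nn; push_cast; rfl
  have key : ∀ j : ℕ, ∃ G : ℝ → ENNReal, Measurable G ∧
      (∀ t, ENNReal.ofReal ((nn (j + 1) : ℝ) * am ν q t j) ≤ G t) ∧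
      ∫⁻ t in Icc (1 : ℝ) 2, G t ≤ ENNReal.ofReal (ε / 2 / 2 ^ j) := by
    intro j
    obtain ⟨N, hN⟩ : ∃ N : ℕ, nn j = N := ⟨_, hNn j⟩
    have hjN : j + 1 ≤ N := by have := nn_ge j; omega
    have e1 : (nn (j + 1) : ℝ) = 10 ^ 15 * N := by rw [nn_succ, hN]; push_cast; ring
    have e2 : 3 * gg (j + 1) = ((3 * 10 ^ 25 * N + 1 : ℕ) : ℤ) - 1 := by
      unfold gg; rw [nn_succ, hN]; push_cast; ring
    obtain ⟨m1, m2⟩ := thr_F ν q j (3 * 10 ^ 25 * N + 1)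
    refine ⟨fun t => ENNReal.ofReal (10 ^ 15 * N) * thrF ν q j (((3 * 10 ^ 25 * N + 1 : ℕ) : ℤ) - 1) t,
      m1.const_mul _, fun t => ?_, ?_⟩
    · rw [e1, ENNReal.ofReal_mul (by positivity)]
      refine mul_le_mul_right ?_ _
      unfold am
      rw [e2, ofReal_measureReal (measure_ne_top _ _)]
      exact thr_amb_le _ _ _ _ _
    · rw [lintegral_const_mul _ m1]
      refine (mul_le_mul_right m2 _).trans ?_
      rw [← ENNReal.ofReal_natCast, ← ENNReal.ofReal_mul (Nat.cast_nonneg _),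
        ← ENNReal.ofReal_mul (by positivity)]
      refine ENNReal.ofReal_le_ofReal ?_
      have := thr_num hε hq2 hq' hjN
      unfold gg
      rwa [hN]
  choose G hG1 hG2 hG3 using key
  have : IsProbabilityMeasure (volume.restrict (Icc (1 : ℝ) 2)) :=
    ⟨by simp; norm_num⟩
  obtain ⟨t, ht, hle⟩ := exists_notMem_null_le_lintegral (μ := volume.restrict (Icc (1 : ℝ) 2))
    (f := fun t => ∑' j, G j t) (N := (Icc (1 : ℝ) 2)ᶜ) (Measurable.tsum hG1).aemeasurable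
    (by rw [Measure.restrict_apply measurableSet_Icc.compl]; simp)
  rw [notMem_compl_iff] at ht
  refine ⟨t, ht.1, ht.2, fun J => ?_⟩
  rw [lintegral_tsum fun j => (hG1 j).aemeasurable] at hle
  have h1 : ∑' j, ∫⁻ t in Icc (1 : ℝ) 2, G j t ≤ ENNReal.ofReal ε := by
    refine (ENNReal.tsum_le_tsum hG3).trans (le_of_eq ?_)
    rw [← ENNReal.ofReal_tsum_of_nonneg (fun j => by positivity) (summable_geometric_two' ε),
      tsum_geometric_two']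
  have h0 : ∀ j, 0 ≤ (nn (j + 1) : ℝ) * am ν q t j := fun j =>
    mul_nonneg (by have := nn_pos (j + 1); exact_mod_cast (by omega : 0 ≤ nn (j + 1))) measureReal_nonneg
  rw [← ENNReal.ofReal_le_ofReal_iff hε.le, ENNReal.ofReal_sum_of_nonneg fun j _ => h0 j]
  exact (Finset.sum_le_sum fun j _ => hG2 j t).trans ((ENNReal.sum_le_tsum _).trans (hle.trans h1))

end Crest.Agent.R128
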