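import Crest.Agent.R128.Prob1
import Crest.Agent.R128.Prob2
import Crest.Agent.R128.Rec
import Crest.Agent.R128.Thr
import Crest.Agent.R128.Fin

/-!
# Row 128, Main: assembly.
-/

set_option autoImplicit false

noncomputable section

open scoped Classical
open MeasureTheory Set

namespace Crest.Agent.R128

open Crest.AnalysisR.StandardFamily

theorem exists_free : ∃ q₀ : ℝ, 100 ≤ q₀ ∧ ∀ q, q₀ ≤ q → ∃ t, 1 ≤ t ∧ ∀ J,
    (nu (q ^ 100)).real {v | ¬ Free (hi q t v J).B 1 (nn J + 1)} ≤ 1 / 2 := by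
  obtain ⟨ε, hε, hrec⟩ := recursion
  obtain ⟨q₁, h₁⟩ := exists_t hε
  obtain ⟨q₂, h₂⟩ := ineq13 hε
  refine ⟨max (max 100 (2 / ε)) (max q₁ q₂), by simp, fun q hq => ?_⟩
  have hq100 : 100 ≤ q := le_trans (by simp) hq
  have hqε : 2 / ε ≤ q := le_trans (by simp) hq
  have hq1 : q₁ ≤ q := le_trans (by simp) hq
  have hq2 : q₂ ≤ q := le_trans (by simp) hq
  obtain ⟨t, ht1, ht2, ham⟩ := h₁ q hq1 (nu (q ^ 100))
  refine ⟨t, ht1, fun J => ?_⟩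
  have hν := inv_nu (q ^ 100)
  refine (ineq12 hν q t J).trans ?_
  refine hrec (dB (nu (q ^ 100)) q t) (dD (nu (q ^ 100)) q t) (dA (nu (q ^ 100)) q t) (dH (nu (q ^ 100)) q t)
    (dF (nu (q ^ 100)) q t) (dG (nu (q ^ 100)) q t) (dR (nu (q ^ 100)) q t) (eB (nu (q ^ 100)) q t)
    (e1 (nu (q ^ 100)) q t) (eA (nu (q ^ 100)) q t) (eH (nu (q ^ 100)) q t) (am (nu (q ^ 100)) q t)
    (fun _ => pr_nonneg _ _) (fun _ => pr_nonneg _ _) (fun _ => pr_nonneg _ _) (fun _ => pr_nonneg _ _)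
    (fun _ => pr_nonneg _ _) (fun _ => pr_nonneg _ _) (fun _ => pr_nonneg _ _) (fun _ => pr_nonneg _ _)
    (fun _ => pr_nonneg _ _) (fun _ => pr_nonneg _ _) (fun _ => pr_nonneg _ _) (fun _ => measureReal_nonneg)
    (ineq1 hν q t) (ineq2 hν q t) (ineq4 hν q t) (ineq5 hν q t) (ineq5_zero q t) (ineq6 q t) (ineq7 hν q t)
    (ineq8 hν q t) (ineq9_zero q t) (ineq9 hq100 ht1) (ineq10_zero q t) (ineq10 hq100 ht1) (ineq11_zero q t)
    (ineq11 hν q t) ((defect_le hq100 ht2).trans ?_) ham (h₂ q hq2 t ht1 ht2) J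
  rw [div_le_iff₀ (by linarith)]
  rw [div_le_iff₀ hε] at hqε
  linarith

theorem main : ∃ k₀ : ℝ, 0 < k₀ ∧ ∀ k : ℝ, k₀ ≤ k →
      0 < volume ({p : ℝ × ℝ | ∃ c : ℝ, 0 < c ∧
          ∃ᶠ n : ℕ in Filter.atTop, c * n ≤ Real.log ‖fderiv ℝ (standardMapLift k)^[n] p‖} ∩
        Set.Ico (0 : ℝ) 1 ×ˢ Set.Ico (0 : ℝ) 1) := by
  obtain ⟨q₀, hq₀, h⟩ := exists_free
  refine ⟨q₀ ^ 100, by positivity, fun k hk => ?_⟩
  have hk0 : 0 ≤ k := le_trans (by positivity) hk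
  obtain ⟨q, hq0, rfl⟩ : ∃ q : ℝ, 0 ≤ q ∧ q ^ 100 = k :=
    ⟨k ^ ((100 : ℕ) : ℝ)⁻¹, Real.rpow_nonneg hk0 _, Real.rpow_inv_natCast_pow hk0 (by norm_num)⟩
  have hq : q₀ ≤ q := le_of_pow_le_pow_left₀ (by norm_num) hq0 hk
  have hq100 : 100 ≤ q := hq₀.trans hq
  obtain ⟨t, ht, hfree⟩ := h q hq
  set A : ℕ → Set (ℤ → ℝ) := fun J => {v | Free (hi q t v J).B 1 (nn J + 1)} with hA
  obtain ⟨hm, hpos⟩ := half_le_frequently (nu (q ^ 100)) A (fun J => (cov_B q t J).free.1 _ _) hfree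
  rw [← volume_Lm _ hm] at hpos
  refine hpos.trans_le (measure_mono ?_)
  rintro p ⟨hp, hp'⟩
  refine ⟨⟨1, one_pos, ?_⟩, hp'⟩
  rw [Filter.frequently_atTop]
  intro N
  have hp2 : ∃ᶠ J in Filter.atTop, sh 1 (vs (q ^ 100) (Lm p)) ∈ A J := hp
  rw [Filter.frequently_atTop] at hp2
  obtain ⟨J, hJ, hJA⟩ := hp2 (N + 1)
  obtain ⟨j, rfl⟩ : ∃ j, J = j + 1 := ⟨J - 1, by omega⟩
  obtain ⟨u, hu, hu0, hg⟩ := grow (by linarith) ht ((bdd_vs hq100 _).sh 1) j hJA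
  obtain ⟨n, hn⟩ : ∃ n : ℕ, nn (j + 1) = n := ⟨(nn (j + 1)).toNat, by have := nn_pos (j + 1); omega⟩
  have hnj : j + 2 ≤ n := by have := nn_ge (j + 1); push_cast at this; omega
  refine ⟨n + 1, by omega, ?_⟩
  have h1 := norm_fderiv_ge (q ^ 100) p n hu
  rw [hn] at hg
  have h2 : q ^ (80 * (n : ℤ)) ≤ 4 * ‖fderiv ℝ (standardMapLift (q ^ 100))^[n + 1] p‖ :=
    le_of_mul_le_mul_right (hg.trans h1) hu0
  have h3 : 4 * Real.exp (n + 1 : ℕ) ≤ q ^ (80 * (n : ℤ)) := by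
    have e1 : Real.exp (n + 1 : ℕ) ≤ 3 ^ (n + 1) := by
      rw [← Real.exp_one_pow]
      exact pow_le_pow_left₀ (Real.exp_pos _).le Real.exp_one_lt_three.le _
    have e2 : q ^ (80 * (n : ℤ)) = q ^ (80 * n) := by
      rw [← zpow_natCast]; push_cast; rfl
    have e3 : (4 : ℝ) * 3 ^ (n + 1) ≤ 100 ^ (n + 2) := by
      have : (3 : ℝ) ^ (n + 1) ≤ 100 ^ (n + 1) := pow_le_pow_left₀ (by norm_num) (by norm_num) _
      have h100 : (0 : ℝ) ≤ 100 ^ (n + 1) := by positivity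
      calc (4 : ℝ) * 3 ^ (n + 1) ≤ 100 * 100 ^ (n + 1) := by nlinarith
        _ = 100 ^ (n + 2) := by ring
    have e4 : (100 : ℝ) ^ (n + 2) ≤ q ^ (80 * n) :=
      (pow_le_pow_left₀ (by norm_num) hq100 _).trans (pow_le_pow_right₀ (by linarith) (by omega))
    rw [e2]
    linarith
  rw [one_mul]
  have h4 : Real.exp (n + 1 : ℕ) ≤ ‖fderiv ℝ (standardMapLift (q ^ 100))^[n + 1] p‖ := by linarith
  exact (Real.le_log_iff_exp_le ((Real.exp_pos _).trans_le h4)).2 h4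

end Crest.Agent.R128
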