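import Crest.Agent.R128.Hier2

/-!
# Row 128, Mass: densities of stationary predicates (mass transport).
Keep the statements; add auxiliary lemmas freely (prefix `mass_`).
-/

set_option autoImplicit false

noncomputable section

open scoped Classical
open MeasureTheory Set

namespace Crest.Agent.R128

variable {ν : Measure (ℤ → ℝ)} [IsProbabilityMeasure ν] {p p' : (ℤ → ℝ) → ℤ → Prop}

theorem pr_nonneg (ν : Measure (ℤ → ℝ)) (p : (ℤ → ℝ) → ℤ → Prop) : 0 ≤ pr ν p := measureReal_nonneg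

theorem mass_card {x y : ℤ} (hxy : x ≤ y) : ((Finset.Ico x y).card : ℝ) = ((y - x : ℤ) : ℝ) := by
  rw [← Int.card_Ico_of_le x y hxy, Int.cast_natCast]

theorem pr_at (hν : Inv ν) (h : Cov p) (y : ℤ) : ν.real {v | p v y} = pr ν p := by
  have e : {v | p v y} = sh y ⁻¹' {v | p v 0} := by
    ext v
    simp only [mem_preimage, mem_ofPred_eq, h.2, zero_add]
  rw [e, pr, Measure.real, Measure.real, hν y _ (h.1 0)]

theorem pr_mono (h : ∀ v, p v 0 → p' v 0) : pr ν p ≤ pr ν p' :=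
  measureReal_mono (fun v hv => h v hv)

theorem pr_or : (pr ν fun v y => p v y ∨ p' v y) ≤ pr ν p + pr ν p' :=
  measureReal_union_le {v | p v 0} {v | p' v 0}

theorem pr_shift (hν : Inv ν) (h : Cov p) (c : ℤ) : (pr ν fun v y => p v (y + c)) = pr ν p := by
  rw [← pr_at hν h c, pr]
  simp only [zero_add]

/-- union bound -/
theorem real_exists_le (hν : Inv ν) (h : Cov p) {x y : ℤ} (hxy : x ≤ y) :
    ν.real {v | ∃ i, x ≤ i ∧ i < y ∧ p v i} ≤ ((y - x : ℤ) : ℝ) * pr ν p := by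
  have e : {v | ∃ i, x ≤ i ∧ i < y ∧ p v i} = ⋃ i ∈ Finset.Ico x y, {v | p v i} := by
    ext v
    simp only [mem_ofPred_eq, mem_iUnion, Finset.mem_Ico, exists_prop, and_assoc]
  rw [e]
  refine (measureReal_biUnion_finset_le _ _).trans (le_of_eq ?_)
  simp only [pr_at hν h, Finset.sum_const, nsmul_eq_mul, mass_card hxy]

/-- disjoint union -/
theorem pr_split (h : Cov p) (h' : Cov p') :
    pr ν p = (pr ν fun v y => p v y ∧ p' v y) + pr ν fun v y => p v y ∧ ¬ p' v y :=
  (measureReal_inter_add_sdiff (μ := ν) (s := {v | p v 0}) (h'.1 0)).symm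

/-- both are `pr p - pr (p y ∧ p (y+1))` -/
theorem pr_le_eq_re (hν : Inv ν) (h : Cov p) : (pr ν fun v => LE (p v)) = pr ν fun v => RE (p v) := by
  have c1 : Cov fun v y => p v (y - 1) :=
    ⟨fun y => h.1 _, fun v s y => (h.2 v s (y - 1)).trans (by rw [sub_add_eq_add_sub])⟩
  have c2 : Cov fun v y => p v (y + 1) :=
    ⟨fun y => h.1 _, fun v s y => (h.2 v s (y + 1)).trans (by rw [add_right_comm])⟩
  have c3 : Cov fun v y => p v y ∧ p v (y - 1) :=
    ⟨fun y => (h.1 _).inter (h.1 _), fun v s y => and_congr (h.2 _ _ _) (c1.2 _ _ _)⟩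
  have e1 := pr_split (ν := ν) h c1
  have e2 := pr_split (ν := ν) h c2
  have e3 := pr_shift hν c3 1
  have e4 : (pr ν fun v y => p v (y + 1) ∧ p v (y + 1 - 1)) = pr ν fun v y => p v y ∧ p v (y + 1) := by
    simp only [add_sub_cancel_right, and_comm]
  have e5 : (pr ν fun v => LE (p v)) = pr ν fun v y => p v y ∧ ¬ p v (y - 1) := rfl
  have e6 : (pr ν fun v => RE (p v)) = pr ν fun v y => p v y ∧ ¬ p v (y + 1) := rfl
  linarith

/-- Stacking: the events `p v i`, `0 ≤ i < n`, are disjoint and contained in `p' v 0`. -/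
theorem pr_stack (hν : Inv ν) (h : Cov p) (h' : Cov p') {n : ℤ} (hn : 0 ≤ n)
    (h1 : ∀ v y i, p v y → y - n < i → i ≤ y → p' v i) (h2 : ∀ v y, p v y → ¬ p' v (y + 1)) :
    (n : ℝ) * pr ν p ≤ pr ν p' := by
  have key : ∀ v i j, 0 ≤ i → i < j → j < n → p v i → p v j → False := fun v i j a b c hi hj =>
    h2 v i hi (h1 v j (i + 1) hj (by omega) (by omega))
  have e := measureReal_biUnion_finset (μ := ν) (s := Finset.Ico 0 n) (f := fun i => {v | p v i})
    (fun i hi j hj hij => Set.disjoint_left.2 fun v a b => by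
      have hi' := Finset.mem_Ico.1 hi
      have hj' := Finset.mem_Ico.1 hj
      rcases lt_or_gt_of_ne hij with c | c
      · exact key v i j hi'.1 c hj'.2 a b
      · exact key v j i hj'.1 c hi'.2 b a)
    (fun i _ => h.1 i)
  simp only [pr_at hν h, Finset.sum_const, nsmul_eq_mul, mass_card hn, sub_zero] at e
  rw [← e]
  refine measureReal_mono (iUnion₂_subset fun i hi v hv => ?_)
  have hi' := Finset.mem_Ico.1 hi
  exact h1 v i 0 hv (by omega) hi'.1

/-- Transport along an injective relation: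
`pr p ≤ ∑' d, ν {R v 0 d} = ∑' d, ν {R v (-d) 0} = ν (⋃ d, {R v (-d) 0}) ≤ pr p'`. -/
theorem pr_transport (hν : Inv ν) {R : (ℤ → ℝ) → ℤ → ℤ → Prop} (hR : Cov2 R)
    (inj : ∀ v y₁ y₂ y', R v y₁ y' → R v y₂ y' → y₁ = y₂) (h1 : ∀ v, p v 0 → ∃ y', R v 0 y')
    (h2 : ∀ v y, R v y 0 → p' v 0) : pr ν p ≤ pr ν p' := by
  refine ENNReal.toReal_mono (measure_ne_top _ _) ?_
  have e : ∀ d : ℤ, ν {v | R v 0 d} = ν {v | R v (-d) 0} := fun d => by
    rw [← hν d _ (hR.1 (-d) 0)]
    congr 1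
    ext v
    simp only [mem_preimage, mem_ofPred_eq, hR.2, neg_add_cancel, zero_add]
  calc ν {v | p v 0} ≤ ν (⋃ d : ℤ, {v | R v 0 d}) := measure_mono fun v hv => mem_iUnion.2 (h1 v hv)
    _ ≤ ∑' d : ℤ, ν {v | R v 0 d} := measure_iUnion_le _
    _ = ∑' d : ℤ, ν {v | R v (-d) 0} := tsum_congr e
    _ = ν (⋃ d : ℤ, {v | R v (-d) 0}) := by
      refine (measure_iUnion (fun i j hij => Set.disjoint_left.2 fun v a b => hij ?_)
        fun d => hR.1 _ _).symm
      exact neg_injective (inj v _ _ _ a b)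
    _ ≤ ν {v | p' v 0} := measure_mono (iUnion_subset fun d v hv => h2 v _ hv)

/-- Markov inequality for a count -/
theorem real_cnt_le (hν : Inv ν) (h : Cov p) {x y : ℤ} (hxy : x ≤ y) {M : ℝ} (hM : 0 < M) :
    ν.real {v | M ≤ (cnt (p v) x y : ℝ)} ≤ ((y - x : ℤ) : ℝ) * pr ν p / M := by
  have e : ∀ v, (cnt (p v) x y : ℝ) = ∑ i ∈ Finset.Ico x y, {v | p v i}.indicator (fun _ => (1 : ℝ)) v := by
    intro v
    rw [cnt, Finset.card_filter]
    push_cast
    refine Finset.sum_congr rfl fun i _ => ?_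
    by_cases hi : p v i
    · rw [if_pos hi, indicator_of_mem (show v ∈ {v | p v i} from hi)]
    · rw [if_neg hi, indicator_of_notMem (show v ∉ {v | p v i} from hi)]
  have hi : ∀ i ∈ Finset.Ico x y, Integrable ({v | p v i}.indicator fun _ => (1 : ℝ)) ν := fun i _ =>
    (integrable_const 1).indicator (h.1 i)
  have h1 := mul_meas_ge_le_integral_of_nonneg (μ := ν)
    (f := fun v => ∑ i ∈ Finset.Ico x y, {v | p v i}.indicator (fun _ => (1 : ℝ)) v)
    (.of_forall fun v => Finset.sum_nonneg fun i _ => indicator_nonneg (fun _ _ => zero_le_one) v)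
    (integrable_finsetSum _ hi) M
  rw [integral_finsetSum _ hi] at h1
  simp only [integral_indicator_const _ (h.1 _), smul_eq_mul, mul_one, pr_at hν h, Finset.sum_const,
    nsmul_eq_mul, mass_card hxy] at h1
  rw [le_div_iff₀ hM, mul_comm]
  simpa only [e] using h1

end Crest.Agent.R128
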