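import Crest.Agent.R128.Trig

/-!
# Row 128, OrbA: two-sided orbits (algebraic part).
Keep the statements; add auxiliary lemmas freely (prefix `orba_`).
-/

set_option autoImplicit false

noncomputable section

open scoped Classical
open MeasureTheory Set

namespace Crest.Agent.R128

theorem xo_zero (k : ℝ) (p : ℝ × ℝ) : xo k p 0 = p.1 := by
  rfl

theorem xo_one (k : ℝ) (p : ℝ × ℝ) : xo k p 1 = p.2 := by
  rfl

theorem orba_succ (k ξ s : ℝ) (n : ℕ) :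
    obR k ξ s (n + 2) = gR k (obR k ξ s (n + 1)) - obR k ξ s n := rfl

theorem orba_nat (k : ℝ) (p : ℝ × ℝ) (n : ℕ) : xo k p n = obR k p.1 p.2 n := by
  simp [xo]

theorem orba_neg (k : ℝ) (p : ℝ × ℝ) (n : ℕ) : xo k p (1 - n) = obR k p.2 p.1 n := by
  match n with
  | 0 => rfl
  | 1 => rfl
  | n + 2 =>
    unfold xo
    rw [if_neg (by omega)]
    congr 1
    omega

theorem xo_rec (k : ℝ) (p : ℝ × ℝ) (i : ℤ) : xo k p (i + 1) + xo k p (i - 1) = gR k (xo k p i) := by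
  rcases le_or_gt 1 i with hi | hi
  · obtain ⟨n, rfl⟩ : ∃ n : ℕ, i = ((n + 1 : ℕ) : ℤ) := ⟨(i - 1).toNat, by omega⟩
    rw [show ((n + 1 : ℕ) : ℤ) + 1 = ((n + 2 : ℕ) : ℤ) by omega,
      show ((n + 1 : ℕ) : ℤ) - 1 = (n : ℤ) by omega, orba_nat, orba_nat, orba_nat, orba_succ]
    ring
  · obtain ⟨n, rfl⟩ : ∃ n : ℕ, i = 1 - ((n + 1 : ℕ) : ℤ) := ⟨(-i).toNat, by omega⟩
    rw [show 1 - ((n + 1 : ℕ) : ℤ) + 1 = 1 - (n : ℤ) by omega,
      show 1 - ((n + 1 : ℕ) : ℤ) - 1 = 1 - ((n + 2 : ℕ) : ℤ) by omega, orba_neg, orba_neg, orba_neg,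
      orba_succ]
    ring

theorem orba_fwd {k : ℝ} {x : ℤ → ℝ} (h : ∀ i, x (i + 1) + x (i - 1) = gR k (x i)) (a : ℤ) (n : ℕ) :
    x (a + n) = obR k (x a) (x (a + 1)) n := by
  induction n using Nat.twoStepInduction with
  | zero => simp [obR]
  | one => simp [obR]
  | more n ih1 ih2 =>
    rw [orba_succ, ← ih1, ← ih2, ← h, show a + ((n + 1 : ℕ) : ℤ) + 1 = a + ((n + 2 : ℕ) : ℤ) by omega,
      show a + ((n + 1 : ℕ) : ℤ) - 1 = a + (n : ℤ) by omega]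
    ring

theorem orba_bwd {k : ℝ} {x : ℤ → ℝ} (h : ∀ i, x (i + 1) + x (i - 1) = gR k (x i)) (a : ℤ) (n : ℕ) :
    x (a - n) = obR k (x a) (x (a - 1)) n := by
  induction n using Nat.twoStepInduction with
  | zero => simp [obR]
  | one => simp [obR]
  | more n ih1 ih2 =>
    rw [orba_succ, ← ih1, ← ih2, ← h, show a - ((n + 1 : ℕ) : ℤ) + 1 = a - (n : ℤ) by omega,
      show a - ((n + 1 : ℕ) : ℤ) - 1 = a - ((n + 2 : ℕ) : ℤ) by omega]
    ring

/-- an orbit is determined by two consecutive values -/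
theorem xo_unique {k : ℝ} {x : ℤ → ℝ} (h : ∀ i, x (i + 1) + x (i - 1) = gR k (x i)) (a i : ℤ) :
    xo k (x a, x (a + 1)) i = x (i + a) := by
  rcases le_or_gt 0 i with hi | hi
  · obtain ⟨n, rfl⟩ : ∃ n : ℕ, i = (n : ℤ) := ⟨i.toNat, by omega⟩
    rw [orba_nat, add_comm (n : ℤ) a, orba_fwd h a n]
  · obtain ⟨n, rfl⟩ : ∃ n : ℕ, i = 1 - (n : ℤ) := ⟨(1 - i).toNat, by omega⟩
    rw [orba_neg, show 1 - (n : ℤ) + a = a + 1 - n by ring, orba_bwd h (a + 1) n, add_sub_cancel_right]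

theorem xo_Tm (k : ℝ) (s : ℤ) (p : ℝ × ℝ) (i : ℤ) : xo k (Tm k s p) i = xo k p (i + s) := by
  exact xo_unique (xo_rec k p) s i

theorem vs_Tm (k : ℝ) (s : ℤ) (p : ℝ × ℝ) : vs k (Tm k s p) = sh s (vs k p) := by
  funext i
  simp only [vs, sh, xo_Tm]

theorem xo_fwd (k : ℝ) (p : ℝ × ℝ) (a : ℤ) (n : ℕ) : xo k p (a + n) = obR k (xo k p a) (xo k p (a + 1)) n := by
  exact orba_fwd (xo_rec k p) a n

theorem xo_bwd (k : ℝ) (p : ℝ × ℝ) (a : ℤ) (n : ℕ) : xo k p (a - n) = obR k (xo k p a) (xo k p (a - 1)) n := by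
  exact orba_bwd (xo_rec k p) a n

theorem ph_vs_fwd (k : ℝ) (p : ℝ × ℝ) (a : ℤ) (n : ℕ) :
    ph (vs k p) a (a + n) = jR k (xo k p a) (xo k p (a + 1)) 0 1 n := by
  rw [ph_nat]
  simp only [jR, vs, xo_fwd]

theorem ph_vs_bwd (k : ℝ) (p : ℝ × ℝ) (a : ℤ) (n : ℕ) :
    ph (vs k p) a (a - n) = -jR k (xo k p a) (xo k p (a - 1)) 0 1 n := by
  rw [ph_nat']
  simp only [jR, vs, xo_bwd]

/-- `Th` on the line `x 0 = ξ` (`η = -ph v 1` has `η 0 = 1`, `η 1 = 0`, `η (-1) = v 0`; `IsSol.eq_lin`,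
`lin_decomp`) -/
theorem th_vs (k ξ s : ℝ) (α β : ℕ) (h : jR k ξ (gR k ξ - s) 0 1 α ≠ 0) :
    Th (vs k (ξ, s)) α β = jR k ξ s 1 0 β / jR k ξ s 0 1 β +
      jR k ξ (gR k ξ - s) 1 0 α / jR k ξ (gR k ξ - s) 0 1 α + VR k ξ := by
  have hm : xo k (ξ, s) (0 - 1) = gR k ξ - s := by
    have := xo_rec k (ξ, s) 0
    rw [zero_add, xo_one, xo_zero] at this
    simp only at this
    linarith
  have h1 : ph (vs k (ξ, s)) 0 β = jR k ξ s 0 1 β := by
    have := ph_vs_fwd k (ξ, s) 0 β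
    rwa [zero_add, zero_add, xo_zero, xo_one] at this
  have h2 : ph (vs k (ξ, s)) 0 (-α) = -jR k ξ (gR k ξ - s) 0 1 α := by
    have := ph_vs_bwd k (ξ, s) 0 α
    rwa [hm, zero_sub, xo_zero] at this
  have hs := isSol_ph (vs k (ξ, s)) 1
  have u0 : ph (vs k (ξ, s)) 1 0 = -1 := ph_pred (vs k (ξ, s)) 1
  have u1 : ph (vs k (ξ, s)) 1 (0 + 1) = 0 := ph_self (vs k (ξ, s)) 1
  have v0 : vs k (ξ, s) 0 = VR k ξ := rfl
  have u2 : ph (vs k (ξ, s)) 1 (0 - 1) = -VR k ξ := by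
    have := hs 0
    rw [u0, u1, v0] at this
    linarith
  have w1 : (fun m : ℕ => vs k (ξ, s) (0 + m)) = fun n => VR k (obR k ξ s n) := by
    funext m
    rw [vs, xo_fwd, zero_add, xo_zero, xo_one]
  have w2 : (fun m : ℕ => vs k (ξ, s) (0 - m)) = fun n => VR k (obR k ξ (gR k ξ - s) n) := by
    funext m
    rw [vs, xo_bwd, hm, xo_zero]
  have h3 : ph (vs k (ξ, s)) 1 β = -jR k ξ s 1 0 β := by
    have := (hs.eq_lin 0 β).1
    rw [u0, u1, w1, zero_add, lin_decomp] at this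
    rw [this, jR]
    ring
  have h4 : ph (vs k (ξ, s)) 1 (-α) =
      -jR k ξ (gR k ξ - s) 1 0 α - VR k ξ * jR k ξ (gR k ξ - s) 0 1 α := by
    have := (hs.eq_lin 0 α).2
    rw [u0, u2, w2, zero_sub, lin_decomp] at this
    rw [this, jR, jR]
    ring
  rw [Th, h1, h2, h3, h4]
  field_simp
  ring

/-- two orbits separate at most at the crude rate (`gR_lip`) -/
theorem xo_crude {q : ℝ} (hq : 100 ≤ q) (p p' : ℝ × ℝ) (a i : ℤ) :
    nb (fun n => xo (q ^ 100) p' n - xo (q ^ 100) p n) i ≤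
      q ^ (101 * |i - a|) * nb (fun n => xo (q ^ 100) p' n - xo (q ^ 100) p n) a := by
  set u : ℤ → ℝ := fun n => xo (q ^ 100) p' n - xo (q ^ 100) p n with hu
  set v : ℤ → ℝ := fun n => (gR (q ^ 100) (xo (q ^ 100) p' n) - gR (q ^ 100) (xo (q ^ 100) p n)) / u n
    with hv
  have hq1 : (1 : ℝ) ≤ q := by linarith
  have hQ : 0 ≤ q ^ 101 - 1 := sub_nonneg.2 (one_le_pow₀ hq1)
  have hs : IsSol v u := by
    intro n
    have h1 := xo_rec (q ^ 100) p n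
    have h2 := xo_rec (q ^ 100) p' n
    by_cases h0 : u n = 0
    · have h3 : xo (q ^ 100) p' n = xo (q ^ 100) p n := sub_eq_zero.1 h0
      rw [h0, mul_zero]
      rw [h3] at h2
      simp only [hu]
      linarith
    · simp only [hv]
      rw [div_mul_cancel₀ _ h0]
      simp only [hu]
      linarith
  have hb : Bdd q v := by
    intro n
    simp only [hv]
    rw [abs_div]
    exact div_le_of_le_mul₀ (abs_nonneg _) hQ (gR_lip hq _ _)
  exact nb_le hb hs hq1 a i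

theorem continuous_xo (k : ℝ) (i : ℤ) : Continuous fun p => xo k p i := by
  unfold xo
  split_ifs
  · exact (contDiff_obR k _).continuous
  · exact (contDiff_obR k _).continuous.comp continuous_swap

theorem measurable_vs (k : ℝ) : Measurable (vs k) := by
  refine measurable_pi_lambda _ fun i => Continuous.measurable ?_
  have h := continuous_xo k i
  unfold vs VR
  fun_prop

theorem bdd_vs {q : ℝ} (hq : 100 ≤ q) (p : ℝ × ℝ) : Bdd q (vs (q ^ 100) p) := fun _ => abs_VR_le hq _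

theorem orba_gR_int (k x : ℝ) (N : ℤ) : gR k (x + N) = gR k x + (2 * N : ℤ) := by
  unfold gR
  rw [show 2 * Real.pi * (x + N) = 2 * Real.pi * x + N * (2 * Real.pi) by ring,
    Real.sin_add_int_mul_two_pi]
  push_cast
  ring

theorem orba_VR_int (k x : ℝ) (N : ℤ) : VR k (x + N) = VR k x := by
  unfold VR
  rw [show 2 * Real.pi * (x + N) = 2 * Real.pi * x + N * (2 * Real.pi) by ring,
    Real.cos_add_int_mul_two_pi]

theorem orba_obR_int (k ξ s : ℝ) (m n : ℤ) (i : ℕ) :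
    ∃ N : ℤ, obR k (ξ + m) (s + n) i = obR k ξ s i + N := by
  induction i using Nat.twoStepInduction with
  | zero => exact ⟨m, rfl⟩
  | one => exact ⟨n, rfl⟩
  | more i ih1 ih2 =>
    obtain ⟨N1, h1⟩ := ih1
    obtain ⟨N2, h2⟩ := ih2
    refine ⟨2 * N2 - N1, ?_⟩
    rw [orba_succ, orba_succ, h1, h2, orba_gR_int]
    push_cast
    ring

/-- `xo k (p + (m, n)) i - xo k p i` is an integer -/
theorem vs_periodic (k : ℝ) (p : ℝ × ℝ) (m n : ℤ) : vs k (p.1 + m, p.2 + n) = vs k p := by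
  funext i
  unfold vs xo
  split_ifs
  · obtain ⟨N, hN⟩ := orba_obR_int k p.1 p.2 m n i.toNat
    rw [hN, orba_VR_int]
  · obtain ⟨N, hN⟩ := orba_obR_int k p.2 p.1 n m (1 - i).toNat
    rw [hN, orba_VR_int]

end Crest.Agent.R128
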