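import Crest.Agent.R128.Mass
import Crest.Agent.R128.Hier3

/-!
# Row 128, Prob1: the density inequalities that only use stationarity.
Keep the statements; add auxiliary lemmas freely (prefix `prob1_`).  Note `hi q t v (j+1) = step (bits q t v) j
(hi q t v j)` by `rfl`.
-/

set_option autoImplicit false

noncomputable section

open scoped Classical
open MeasureTheory Set

namespace Crest.Agent.R128

variable {ν : Measure (ℤ → ℝ)} [IsProbabilityMeasure ν] (hν : Inv ν) (q t : ℝ) (j : ℕ)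
include hν

omit hν in
theorem prob1_or {P Q R : (ℤ → ℝ) → Prop} (h : ∀ v, P v → Q v ∨ R v) :
    ν.real {v | P v} ≤ ν.real {v | Q v} + ν.real {v | R v} :=
  (measureReal_mono (s₂ := {v | Q v} ∪ {v | R v}) fun v hv => h v hv).trans
    (measureReal_union_le _ _)

theorem prob1_stack {p : (ℤ → ℝ) → ℤ → Prop} (hp : Cov p) {n : ℤ} (hn : 0 ≤ n)
    {E : (ℤ → ℝ) → Prop}
    (h : ∀ v, RE (p v) 0 → (∀ i, 0 - n < i → i ≤ 0 → p v i) ∨ E v) :
    (n : ℝ) * (pr ν fun v => RE (p v)) ≤ pr ν p + n * ν.real {v | E v} := by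
  have h1 : (pr ν fun v => RE (p v)) ≤
      (pr ν fun v y => RE (p v) y ∧ ∀ i, y - n < i → i ≤ y → p v i) + ν.real {v | E v} :=
    prob1_or fun v hv => (h v hv).imp_left fun h' => ⟨hv, h'⟩
  have h2 := pr_stack hν (hp.re.and (hp.forall_window n)) hp hn
    (fun v y i hv => hv.2 i) fun v y hv => hv.1.2
  have h3 := mul_le_mul_of_nonneg_left h1 (show (0 : ℝ) ≤ n by exact_mod_cast hn)
  linarith

theorem prob1_next : (pr ν fun v y => RE (B1 j (hi q t v j)) y ∧ ∃ y', y < y' ∧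
    Free (B1 j (hi q t v j)) (y + 1) y' ∧ LE (Abs j (hi q t v j)) y') ≤ eA ν q t j := by
  refine (pr_transport (p' := fun v => LE (Abs j (hi q t v j))) hν (cov2_next q t j) ?_ ?_ ?_).trans
    (pr_le_eq_re hν (cov_Abs q t j)).le
  · rintro v y₁ y₂ y' ⟨a1, a2, a3, -⟩ ⟨b1, b2, b3, -⟩
    rcases lt_trichotomy y₁ y₂ with h | h | h
    · exact absurd b1.1 (a3 y₂ (by omega) b2)
    · exact h
    · exact absurd a1.1 (b3 y₁ (by omega) a2)
  · rintro v ⟨h1, y', h2⟩
    exact ⟨y', h1, h2⟩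
  · exact fun v y h => h.2.2.2

omit hν in
theorem prob1_nn : (1 : ℝ) ≤ nn j := by exact_mod_cast nn_pos j

/-- `case1`; the last case by `pr_transport` with `cov2_next` and `pr_le_eq_re` -/
theorem ineq1 : e1 ν q t j ≤ eB ν q t (j + 1) + eH ν q t j + dG ν q t j + 2 * eA ν q t j := by
  have h1 : e1 ν q t j ≤ eB ν q t (j + 1) + ν.real {v | RE (B1 j (hi q t v j)) 0 ∧
      ¬ RE (hi q t v (j + 1)).B 0} :=
    prob1_or fun v hv => (em _).imp_right fun h => ⟨hv, h⟩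
  have h2 : ν.real {v | RE (B1 j (hi q t v j)) 0 ∧ ¬ RE (hi q t v (j + 1)).B 0} ≤
      eH ν q t j + ν.real {v | Gap j (hi q t v j) 0 ∨ RE (Abs j (hi q t v j)) 0 ∨
        (RE (B1 j (hi q t v j)) 0 ∧ ∃ y', 0 < y' ∧ Free (B1 j (hi q t v j)) (0 + 1) y' ∧
          LE (Abs j (hi q t v j)) y')} :=
    prob1_or fun v hv => ((case1 (ω := bits q t v) hv.1).resolve_left hv.2).imp_right
      fun h => h.imp_right fun h => h.imp_right fun h => ⟨hv.1, h⟩
  have h3 : ν.real {v | Gap j (hi q t v j) 0 ∨ RE (Abs j (hi q t v j)) 0 ∨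
        (RE (B1 j (hi q t v j)) 0 ∧ ∃ y', 0 < y' ∧ Free (B1 j (hi q t v j)) (0 + 1) y' ∧
          LE (Abs j (hi q t v j)) y')} ≤ dG ν q t j + ν.real {v | RE (Abs j (hi q t v j)) 0 ∨
        (RE (B1 j (hi q t v j)) 0 ∧ ∃ y', 0 < y' ∧ Free (B1 j (hi q t v j)) (0 + 1) y' ∧
          LE (Abs j (hi q t v j)) y')} := prob1_or fun v hv => hv
  have h4 : ν.real {v | RE (Abs j (hi q t v j)) 0 ∨
        (RE (B1 j (hi q t v j)) 0 ∧ ∃ y', 0 < y' ∧ Free (B1 j (hi q t v j)) (0 + 1) y' ∧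
          LE (Abs j (hi q t v j)) y')} ≤ eA ν q t j + pr ν fun v y => RE (B1 j (hi q t v j)) y ∧
          ∃ y', y < y' ∧ Free (B1 j (hi q t v j)) (y + 1) y' ∧ LE (Abs j (hi q t v j)) y' :=
    prob1_or fun v hv => hv
  have h5 := prob1_next hν q t j
  linarith

/-- `case2`, `pr_shift`, `pr_le_eq_re` -/
theorem ineq2 : eB ν q t j ≤ e1 ν q t j + eA ν q t j := by
  have h1 : eB ν q t j ≤ e1 ν q t j + pr ν fun v y => LE (Abs j (hi q t v j)) (y + 1) :=
    prob1_or fun v hv => case2 hv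
  rwa [pr_shift hν (cov_Abs q t j).le 1, pr_le_eq_re hν (cov_Abs q t j)] at h1

/-- short resonant components: right ends are as dense as left ends (`pr_transport`, `cov2_res`, `Comp.sep`) -/
theorem ineq_res : (pr ν fun v y => ∃ l, Comp j (hi q t v j) l y ∧ ¬ Test (bits q t v) j (hi q t v j) l y) ≤
    dR ν q t j := by
  refine pr_transport hν (cov2_res q t j).swap ?_ (fun v h => h) fun v y h => ⟨y, h⟩
  rintro v y₁ y₂ y' ⟨h1, -⟩ ⟨h2, -⟩
  have a1 := h1.1
  have a2 := h2.1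
  have hn := nn_pos j
  rcases h1.sep h2 with h | h | h
  · exact h.2
  · unfold gg at h
    omega
  · unfold gg at h
    omega

/-- `case4`, `pr_stack` -/
theorem ineq4 : (nn j : ℝ) * eB ν q t (j + 1) ≤ dB ν q t (j + 1) + nn j * dR ν q t j := by
  have h1 := prob1_stack hν (cov_B q t (j + 1)) (n := nn j) (by have := nn_pos j; omega)
    fun v hv => case4 (ω := bits q t v) hv
  have h2 := mul_le_mul_of_nonneg_left (ineq_res hν q t j) (zero_le_one.trans (prob1_nn j))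
  exact h1.trans (add_le_add le_rfl h2)

/-- `case5`, `pr_stack` -/
theorem ineq5 : (nn j : ℝ) * eH ν q t (j + 1) ≤ dH ν q t (j + 1) + nn j * dR ν q t j := by
  have h1 := prob1_stack hν (cov_Hl q t (j + 1)) (n := nn j) (by have := nn_pos j; omega)
    fun v hv => case5 (ω := bits q t v) hv
  have h2 := mul_le_mul_of_nonneg_left (ineq_res hν q t j) (zero_le_one.trans (prob1_nn j))
  exact h1.trans (add_le_add le_rfl h2)

omit hν in
theorem ineq5_zero : eH ν q t 0 ≤ dH ν q t 0 :=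
  pr_mono fun _ h => h.1

omit hν in
/-- `B2` is the disjoint union of the next bad set and `Hl`, and of `B` and the rest (`pr_split`) -/
theorem ineq6 : dB ν q t (j + 1) + dH ν q t j ≤ dB ν q t j + dF ν q t j := by
  have h1 := pr_split (ν := ν) (cov_B2 q t j) (cov_Hl q t j)
  have h2 := pr_split (ν := ν) (cov_B2 q t j) (cov_B q t j)
  have h3 : dH ν q t j ≤ pr ν fun v y => B2 j (hi q t v j) y ∧ Hl (bits q t v) j (hi q t v j) y :=
    pr_mono fun _ h => ⟨h.b2, h⟩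
  have h4 : (pr ν fun v y => B2 j (hi q t v j) y ∧ (hi q t v j).B y) ≤ dB ν q t j :=
    pr_mono fun _ h => h.2
  have h5 : dB ν q t (j + 1) =
      pr ν fun v y => B2 j (hi q t v j) y ∧ ¬ Hl (bits q t v) j (hi q t v j) y := rfl
  have h6 : dF ν q t j = pr ν fun v y => B2 j (hi q t v j) y ∧ ¬ (hi q t v j).B y := rfl
  linarith

/-- `case7`, `real_exists_le` -/
theorem ineq7 : dF ν q t j ≤ dA ν q t j + 10 ^ 15 * ((nn j : ℝ) * (dG ν q t j + eA ν q t j)) := by
  have hn := nn_pos j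
  have hg : gg j = 10 ^ 10 * nn j := rfl
  have h1 : dF ν q t j ≤ dA ν q t j +
      ν.real {v | (∃ u, 0 - gg j ≤ u ∧ u < 0 ∧ Gap j (hi q t v j) u) ∨
        (∃ u, 0 - gg j ≤ u ∧ u < 0 ∧ RE (Abs j (hi q t v j)) u) ∨
        ∃ u, 0 + 1 ≤ u ∧ u < 0 + gg j + 1 ∧ LE (Abs j (hi q t v j)) u} :=
    prob1_or fun v hv => case7 hv.1 hv.2
  have h2 := prob1_or (ν := ν) (Q := fun v => ∃ u, 0 - gg j ≤ u ∧ u < 0 ∧ Gap j (hi q t v j) u)
    (R := fun v => (∃ u, 0 - gg j ≤ u ∧ u < 0 ∧ RE (Abs j (hi q t v j)) u) ∨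
        ∃ u, 0 + 1 ≤ u ∧ u < 0 + gg j + 1 ∧ LE (Abs j (hi q t v j)) u) fun v hv => hv
  have h3 := prob1_or (ν := ν)
    (Q := fun v => ∃ u, 0 - gg j ≤ u ∧ u < 0 ∧ RE (Abs j (hi q t v j)) u)
    (R := fun v => ∃ u, 0 + 1 ≤ u ∧ u < 0 + gg j + 1 ∧ LE (Abs j (hi q t v j)) u) fun v hv => hv
  have h4 := real_exists_le hν (cov_Gap q t j) (x := 0 - gg j) (y := 0) (by omega)
  have h5 := real_exists_le hν (cov_Abs q t j).re (x := 0 - gg j) (y := 0) (by omega)
  have h6 := real_exists_le hν (cov_Abs q t j).le (x := 0 + 1) (y := 0 + gg j + 1) (by omega)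
  rw [pr_le_eq_re hν (cov_Abs q t j)] at h6
  have e1 : ((0 - (0 - gg j) : ℤ) : ℝ) = 10 ^ 10 * nn j := by rw [hg]; push_cast; ring
  have e2 : ((0 + gg j + 1 - (0 + 1) : ℤ) : ℝ) = 10 ^ 10 * nn j := by rw [hg]; push_cast; ring
  rw [e1] at h4 h5
  rw [e2] at h6
  have p1 : 0 ≤ (nn j : ℝ) * dG ν q t j :=
    mul_nonneg (zero_le_one.trans (prob1_nn j)) (pr_nonneg _ _)
  have p2 : 0 ≤ (nn j : ℝ) * eA ν q t j :=
    mul_nonneg (zero_le_one.trans (prob1_nn j)) (pr_nonneg _ _)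
  unfold dG eA at *
  nlinarith

/-- `case8`, `pr_stack` -/
theorem ineq8 : (nn j : ℝ) * eA ν q t j ≤ dA ν q t j :=
  pr_stack hν (cov_Abs q t j).re (cov_Abs q t j) (by have := nn_pos j; omega)
    (fun _ _ i h => case8 h i) fun _ _ h => h.2

omit hν in
theorem ineq9_zero : dA ν q t 0 = 0 := by
  have : {v | Abs 0 (hi q t v 0) 0} = ∅ := by
    refine eq_empty_of_forall_notMem ?_
    rintro v ⟨w, -, -, -, h⟩
    rw [cnt_eq_zero (D := (hi q t v 0).D) fun i _ _ h => h] at h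
    have := nn_pos 0
    omega
  unfold dA pr
  rw [this, measureReal_empty]

omit hν in
theorem ineq10_zero : dG ν q t 0 ≤ dB ν q t 0 :=
  pr_mono fun _ ⟨_, _, _, h, _⟩ => h

omit hν in
theorem ineq11_zero : dD ν q t 0 = 0 := by
  have : {v | (hi q t v 0).D 0} = ∅ := eq_empty_of_forall_notMem fun v h => h
  unfold dD pr
  rw [this, measureReal_empty]

/-- `case11` -/
theorem ineq11 : dD ν q t (j + 1) ≤ dD ν q t j + 10 ^ 15 * ((nn j : ℝ) * e1 ν q t j) := by
  have hn := nn_pos j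
  have hd : dd j = 10 ^ 5 * nn j := rfl
  have h1 : dD ν q t (j + 1) ≤ dD ν q t j +
      ν.real {v | ∃ r, 0 - dd j ≤ r ∧ r < 0 + dd j + nn j ∧ RE (B1 j (hi q t v j)) r} :=
    prob1_or fun v hv => case11 (ω := bits q t v) hv
  have h2 := real_exists_le hν (cov_B1 q t j).re (x := 0 - dd j) (y := 0 + dd j + nn j) (by omega)
  have e : ((0 + dd j + nn j - (0 - dd j) : ℤ) : ℝ) = (2 * 10 ^ 5 + 1) * nn j := by
    rw [hd]; push_cast; ring
  rw [e] at h2
  have p1 : 0 ≤ (nn j : ℝ) * e1 ν q t j :=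
    mul_nonneg (zero_le_one.trans (prob1_nn j)) (pr_nonneg _ _)
  unfold e1 at *
  nlinarith

/-- `case12` -/
theorem ineq12 : ν.real {v | ¬ Free (hi q t v j).B 1 (nn j + 1)} ≤ dB ν q t j + nn j * eB ν q t j := by
  have hn := nn_pos j
  have h1 := prob1_or (ν := ν) (P := fun v => ¬ Free (hi q t v j).B 1 (nn j + 1))
    fun v hv => case12 hv
  have h2 := real_exists_le hν (cov_B q t j).re (x := 1) (y := nn j + 1) (by omega)
  rw [add_sub_cancel_right] at h2
  rw [pr_at hν (cov_B q t j)] at h1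
  exact h1.trans (add_le_add le_rfl h2)

end Crest.Agent.R128
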