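import Crest.Agent.R128.Trig0

/-!
# Row 128, Trig: the functions `g`, `V = g'`, their zeros and complex extensions.
Keep the statements; add auxiliary lemmas freely (prefix `trig_`).
-/

set_option autoImplicit false

noncomputable section

open scoped Classical
open MeasureTheory Set

namespace Crest.Agent.R128

theorem hasDerivAt_gR (k x : ℝ) : HasDerivAt (gR k) (VR k x) x := by

  have h := ((hasDerivAt_id x).const_mul 2).add (((hasDerivAt_id x).const_mul (2 * Real.pi)).sin.const_mul k)
  exact h.congr_deriv (by simp only [VR, id]; ring)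

theorem hasDerivAt_gC (k : ℝ) (z : ℂ) : HasDerivAt (gC k) (VC k z) z := by

  have h := ((hasDerivAt_id z).const_mul 2).add
    (((hasDerivAt_id z).const_mul (2 * Real.pi : ℂ)).csin.const_mul (k : ℂ))
  exact h.congr_deriv (by simp only [VC, id]; ring)

theorem differentiable_VC (k : ℝ) : Differentiable ℂ (VC k) := by

  unfold VC
  fun_prop

theorem gC_ofReal (k x : ℝ) : gC k x = gR k x := by

  simp [gC, gR]

theorem VC_ofReal (k x : ℝ) : VC k x = VR k x := by

  simp [VC, VR]

theorem VC_neg (k : ℝ) (z : ℂ) : VC k (-z) = VC k z := by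

  simp [VC]

theorem trig_cos (z : ℂ) : ‖Complex.cos z‖ ≤ Real.exp |z.im| := by
  have h1 : ‖Complex.exp (z * Complex.I)‖ ≤ Real.exp |z.im| := by
    rw [Complex.norm_exp]
    simpa using neg_le_abs _
  have h2 : ‖Complex.exp (-z * Complex.I)‖ ≤ Real.exp |z.im| := by
    rw [Complex.norm_exp]
    simpa using le_abs_self _
  rw [Complex.cos, norm_div, Complex.norm_ofNat]
  linarith [norm_add_le (Complex.exp (z * Complex.I)) (Complex.exp (-z * Complex.I))]

theorem trig_sin (z : ℂ) : ‖Complex.sin z‖ ≤ Real.exp |z.im| := by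
  simpa [Complex.cos_pi_div_two_sub] using trig_cos (Real.pi / 2 - z)

theorem trig_im (z : ℂ) : |(2 * Real.pi * z).im| = 2 * Real.pi * |z.im| := by
  rw [show (2 * Real.pi * z).im = 2 * Real.pi * z.im by simp, abs_mul, abs_of_pos (by positivity)]

theorem norm_VC_le {k : ℝ} (hk : 0 ≤ k) (z : ℂ) :
    ‖VC k z‖ ≤ 2 + 2 * Real.pi * k * Real.exp (2 * Real.pi * |z.im|) := by

  have h := trig_cos (2 * Real.pi * z)
  rw [trig_im] at h
  refine (norm_add_le _ _).trans (add_le_add (by simp) ?_)
  rw [norm_mul, show (2 * Real.pi * k : ℂ) = (2 * Real.pi * k : ℝ) by simp, Complex.norm_real,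
    Real.norm_of_nonneg (by positivity)]
  gcongr

/-- mean value inequality on the segment; `‖sin z‖ ≤ cosh (im z) ≤ exp |im z|` -/
theorem VC_lip {k : ℝ} (hk : 0 ≤ k) (x : ℝ) {δ : ℂ} (hδ : ‖δ‖ ≤ 1 / 100) :
    ‖VC k (x + δ) - VC k x‖ ≤ 50 * k * ‖δ‖ := by

  have h1 : ∀ z : ℂ, HasDerivAt (VC k) (-(4 * Real.pi ^ 2 * k : ℝ) * Complex.sin (2 * Real.pi * z)) z := fun z => by
    have h := (((hasDerivAt_id z).const_mul (2 * Real.pi : ℂ)).ccos.const_mul (2 * Real.pi * k : ℂ)).const_add 2
    exact h.congr_deriv (by simp only [id]; push_cast; ring)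
  have h2 := (convex_closedBall (x : ℂ) (1 / 100)).norm_image_sub_le_of_norm_hasDerivWithin_le (C := 50 * k)
    (fun z _ => (h1 z).hasDerivWithinAt) (fun z hz => ?_) (Metric.mem_closedBall_self (by norm_num))
    (y := x + δ) (by simpa using hδ)
  · simpa using h2
  have h3 : |z.im| ≤ 1 / 100 := by
    have h := Complex.abs_im_le_norm (z - x)
    rw [mem_closedBall_iff_norm] at hz
    simpa using h.trans hz
  have h4 := trig_sin (2 * Real.pi * z)
  have h5 := Real.pi_lt_d2
  have h6 := Real.pi_pos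
  have h7 : Real.exp (2 * Real.pi * |z.im|) ≤ 1 / (1 - 7 / 100) :=
    (Real.exp_le_exp.2 (by nlinarith [abs_nonneg z.im])).trans
      (Real.exp_bound_div_one_sub_of_interval (by norm_num) (by norm_num))
  rw [trig_im] at h4
  rw [norm_mul, norm_neg, Complex.norm_real, Real.norm_of_nonneg (by positivity)]
  calc _ ≤ 4 * 3.15 ^ 2 * k * (1 / (1 - 7 / 100)) := by
        gcongr
        exact h4.trans h7
    _ ≤ _ := by linarith

theorem gC_taylor {k : ℝ} (hk : 0 ≤ k) (x : ℝ) {δ : ℂ} (hδ : ‖δ‖ ≤ 1 / 100) :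
    ‖gC k (x + δ) - gC k x - VC k x * δ‖ ≤ 50 * k * ‖δ‖ ^ 2 := by

  have h1 : ∀ z : ℂ, HasDerivAt (fun z => gC k (x + z) - VC k x * z) (VC k (x + z) - VC k x) z := fun z => by
    simpa using ((hasDerivAt_gC k (x + z)).comp_const_add (x : ℂ) z).fun_sub ((hasDerivAt_id z).const_mul (VC k x))
  have h2 := (convex_closedBall (0 : ℂ) ‖δ‖).norm_image_sub_le_of_norm_hasDerivWithin_le (C := 50 * k * ‖δ‖)
    (fun z _ => (h1 z).hasDerivWithinAt) (fun z hz => ?_) (Metric.mem_closedBall_self (norm_nonneg _))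
    (y := δ) (by simp)
  · rw [sq, ← mul_assoc, sub_right_comm]
    simpa using h2
  rw [mem_closedBall_zero_iff] at hz
  exact (VC_lip hk x (hz.trans hδ)).trans (by gcongr)

theorem obC_ofReal (k ξ s : ℝ) (n : ℕ) : obC k ξ s n = obR k ξ s n := by

  induction n using Nat.twoStepInduction with
  | zero => rfl
  | one => rfl
  | more n h1 h2 => simp only [obC, obR, h1, h2, gC_ofReal, Complex.ofReal_sub]

theorem jC_ofReal (k ξ s α β : ℝ) (n : ℕ) : jC k ξ s α β n = jR k ξ s α β n := by

  simp only [jC, jR, obC_ofReal, VC_ofReal, lin_ofReal]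

theorem hasDerivAt_obC (k : ℝ) (ξ s : ℂ) (n : ℕ) : HasDerivAt (fun w => obC k ξ w n) (jC k ξ s 0 1 n) s := by

  induction n using Nat.twoStepInduction with
  | zero => exact hasDerivAt_const _ _
  | one => exact hasDerivAt_id _
  | more n h1 h2 => exact ((hasDerivAt_gC k _).comp s h2).sub h1

theorem hasDerivAt_obR (k ξ s : ℝ) (n : ℕ) : HasDerivAt (fun w => obR k ξ w n) (jR k ξ s 0 1 n) s := by

  induction n using Nat.twoStepInduction with
  | zero => exact hasDerivAt_const _ _
  | one => exact hasDerivAt_id _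
  | more n h1 h2 => exact ((hasDerivAt_gR k _).comp s h2).sub h1

theorem trig_lin (W : ℂ → ℕ → ℂ) (hW : ∀ n, Differentiable ℂ fun w => W w n) (α β : ℂ) (n : ℕ) :
    Differentiable ℂ fun w => lin (W w) α β n := by
  induction n using Nat.twoStepInduction with
  | zero => exact differentiable_const _
  | one => exact differentiable_const _
  | more n h1 h2 => exact ((hW _).mul h2).sub h1

theorem differentiable_jC (k : ℝ) (ξ α β : ℂ) (n : ℕ) : Differentiable ℂ fun w => jC k ξ w α β n := by

  exact trig_lin _ (fun n => (differentiable_VC k).comp fun w => (hasDerivAt_obC k ξ w n).differentiableAt) α β n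

/-- `lin` of entire potentials is entire -/
theorem differentiable_lin (W : ℂ → ℕ → ℂ) (hW : ∀ n, Differentiable ℂ fun w => W w n) (α β : ℂ) (n : ℕ) :
    Differentiable ℂ fun w => lin (W w) α β n := by

  exact trig_lin W hW α β n

theorem contDiff_obR (k : ℝ) (n : ℕ) : ContDiff ℝ ⊤ fun p : ℝ × ℝ => obR k p.1 p.2 n := by

  induction n using Nat.twoStepInduction with
  | zero => exact contDiff_fst
  | one => exact contDiff_snd
  | more n h1 h2 =>
    simp only [obR, gR]
    fun_prop

theorem contDiff_jR (k α β : ℝ) (n : ℕ) : ContDiff ℝ ⊤ fun p : ℝ × ℝ => jR k p.1 p.2 α β n := by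

  induction n using Nat.twoStepInduction with
  | zero => exact contDiff_const
  | one => exact contDiff_const
  | more n h1 h2 =>
    have h3 := contDiff_obR k (n + 1)
    refine (ContDiff.mul ?_ h2).sub h1
    simp only [VR]
    fun_prop

/-- the full derivative of the one-sided orbit -/
theorem hasFDerivAt_obR (k : ℝ) (n : ℕ) (p : ℝ × ℝ) :
    HasFDerivAt (fun p : ℝ × ℝ => obR k p.1 p.2 n)
      (jR k p.1 p.2 1 0 n • ContinuousLinearMap.fst ℝ ℝ ℝ + jR k p.1 p.2 0 1 n • ContinuousLinearMap.snd ℝ ℝ ℝ) p := by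

  induction n using Nat.twoStepInduction with
  | zero => simpa [obR, jR, lin] using hasFDerivAt_fst
  | one => simpa [obR, jR, lin] using hasFDerivAt_snd
  | more n h1 h2 =>
    refine (((hasDerivAt_gR k _).comp_hasFDerivAt p h2).sub h1).congr_fderiv ?_
    simp only [jR, lin_succ]
    module

end Crest.Agent.R128
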