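import Crest.Agent.R128.Lin1

/-!
# Row 128, Trig0: zeros of `V` and real Lipschitz bounds.
Keep the statements; add auxiliary lemmas freely (prefix `trig0_`).
-/

set_option autoImplicit false

noncomputable section

open scoped Classical
open MeasureTheory Set

namespace Crest.Agent.R128

/-- `arcsin x ≥ x`, and `arcsin x ≤ (π / 2) x` (Jordan, `Real.mul_le_sin`) -/
theorem dl_bounds {k : ℝ} (hk : 100 ≤ k) : 1 / (20 * k) ≤ dl k ∧ dl k ≤ 1 / 100 := by

  have h5 := Real.pi_lt_d2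
  have h6 := Real.pi_gt_three
  have h0 : 0 < 1 / (Real.pi * k) := by positivity
  have h1 : 1 / (Real.pi * k) ≤ 1 / 300 := one_div_le_one_div_of_le (by norm_num) (by nlinarith)
  have h2 := Real.sin_arcsin (x := 1 / (Real.pi * k)) (by linarith) (by linarith)
  have h3 := Real.sin_le (Real.arcsin_nonneg.2 h0.le)
  have h4 := Real.mul_le_sin (Real.arcsin_nonneg.2 h0.le) (Real.arcsin_le_pi_div_two _)
  rw [h2] at h3 h4
  rw [dl, le_div_iff₀ (by positivity), div_le_iff₀ (by positivity)]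
  constructor
  · refine le_trans ?_ h3
    rw [div_mul_eq_mul_div, div_le_div_iff₀ (by positivity) (by positivity)]
    nlinarith [mul_le_mul h5.le h5.le (by positivity) (by norm_num)]
  · rw [div_mul_eq_mul_div, div_le_iff₀ (by positivity)] at h4
    nlinarith

/-- Near its zero `ze k m`, `V` has the sign of `(-1) ^ m u` and slope at least `10 k`.
With `θ = 2 π dl`, `sin θ = 1 / (π k)`: `cos (2 π (ze m + u)) = (-1) ^ m sin (2 π u - (-1) ^ m θ)`, so
`V (ze m + u) = (-1) ^ m 2 π k (sin (2 π u - (-1)^m θ) - sin (-(-1)^m θ)) =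
(-1) ^ m 4 π k cos (π u - (-1)^m θ) sin (π u)`, with `cos ≥ 0.53`, `|sin (π u)| ≥ 0.85 π |u|` for `|u| ≤ 3 / 10`
(any cruder bounds with product `≥ 10` will do, e.g. `cos x ≥ 1 - x²/2`, `sin x ≥ 2 x / π`). -/
theorem VR_ze {k : ℝ} (hk : 100 ≤ k) (m : ℤ) {u : ℝ} (hu : |u| ≤ 3 / 10) :
    ∃ c, 10 * k ≤ c ∧ VR k (ze k m + u) = (-1) ^ m * c * u := by

  have h5 := Real.pi_lt_d2
  have h6 := Real.pi_gt_d2
  have h0 : 0 < 1 / (Real.pi * k) := by positivity
  have h1 : 1 / (Real.pi * k) ≤ 1 / 300 := one_div_le_one_div_of_le (by norm_num) (by nlinarith)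
  have h2 : Real.sin (2 * Real.pi * dl k) = 1 / (Real.pi * k) := by
    rw [dl, mul_div_cancel₀ _ (by positivity), Real.sin_arcsin (by linarith) (by linarith)]
  obtain ⟨d1, d2⟩ := dl_bounds hk
  have d0 : 0 ≤ dl k := le_trans (by positivity) d1
  obtain ⟨σ, hσ, hσ'⟩ : ∃ σ : ℝ, (-1 : ℝ) ^ m = σ ∧ (σ = 1 ∨ σ = -1) :=
    ⟨_, rfl, (Int.even_or_odd m).imp Even.neg_one_zpow Odd.neg_one_zpow⟩
  have h3 : VR k (ze k m + u) = σ * (4 * Real.pi * k * Real.cos (Real.pi * u - σ * (2 * Real.pi * dl k))) *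
      Real.sin (Real.pi * u) := by
    have e1 : 2 * Real.pi * (ze k m + u) = (2 * Real.pi * u - σ * (2 * Real.pi * dl k) - Real.pi / 2) + m * Real.pi := by
      rw [ze, hσ]
      ring
    have e2 := Real.sin_sub_sin (2 * Real.pi * u - σ * (2 * Real.pi * dl k)) (-(σ * (2 * Real.pi * dl k)))
    rw [show (2 * Real.pi * u - σ * (2 * Real.pi * dl k) - -(σ * (2 * Real.pi * dl k))) / 2 = Real.pi * u by ring,
      show (2 * Real.pi * u - σ * (2 * Real.pi * dl k) + -(σ * (2 * Real.pi * dl k))) / 2 =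
        Real.pi * u - σ * (2 * Real.pi * dl k) by ring] at e2
    have e3 : Real.pi * k * Real.sin (2 * Real.pi * dl k) = 1 := by
      rw [h2]
      field_simp
    rw [VR, e1, Real.cos_add_int_mul_pi, Real.cos_sub_pi_div_two, hσ]
    rcases hσ' with rfl | rfl
    · rw [one_mul, Real.sin_neg] at e2
      simp only [one_mul]
      linear_combination 2 * Real.pi * k * e2 - 2 * e3
    · rw [neg_one_mul, neg_neg] at e2
      simp only [neg_one_mul]
      linear_combination -2 * Real.pi * k * e2 - 2 * e3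
  have h4 : 49 / 100 ≤ Real.cos (Real.pi * u - σ * (2 * Real.pi * dl k)) := by
    refine le_trans ?_ Real.one_sub_sq_div_two_le_cos
    have : |Real.pi * u - σ * (2 * Real.pi * dl k)| ≤ 1.008 := by
      rw [abs_le] at hu ⊢
      rcases hσ' with rfl | rfl <;> constructor <;> nlinarith [hu.1, hu.2]
    nlinarith [sq_abs (Real.pi * u - σ * (2 * Real.pi * dl k)), abs_nonneg (Real.pi * u - σ * (2 * Real.pi * dl k))]
  obtain ⟨c, hc, hc'⟩ : ∃ c, 2 ≤ c ∧ Real.sin (Real.pi * u) = c * u := by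
    rcases eq_or_ne u 0 with rfl | h
    · exact ⟨2, le_rfl, by simp⟩
    refine ⟨Real.sin (Real.pi * u) / u, ?_, by field_simp⟩
    have e : ∀ u : ℝ, 0 < u → u ≤ 3 / 10 → 2 ≤ Real.sin (Real.pi * u) / u := fun u h1 h2 => by
      have := Real.mul_le_sin (x := Real.pi * u) (by positivity) (by nlinarith)
      rwa [le_div_iff₀ h1, show 2 * u = 2 / Real.pi * (Real.pi * u) by field_simp]
    rw [abs_le] at hu
    rcases h.lt_or_gt with h | h
    · simpa using e (-u) (by linarith) (by linarith [hu.1])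
    · exact e u h hu.2
  refine ⟨4 * Real.pi * k * Real.cos (Real.pi * u - σ * (2 * Real.pi * dl k)) * c, ?_, ?_⟩
  · calc 10 * k ≤ 4 * 3.14 * k * (49 / 100) * 2 := by linarith
      _ ≤ _ := by gcongr
  · rw [h3, hc', hσ]
    ring

theorem trig0_near {k : ℝ} (hk : 100 ≤ k) (m : ℤ) : |ze k m - (m / 2 - 1 / 4)| ≤ 1 / 100 := by
  obtain ⟨d1, d2⟩ := dl_bounds hk
  rw [ze, sub_sub_cancel_left, abs_neg, abs_mul, abs_zpow, abs_neg, abs_one, one_zpow, one_mul,
    abs_of_nonneg (le_trans (by positivity) d1)]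
  exact d2

theorem exists_ze {k : ℝ} (hk : 100 ≤ k) (y : ℝ) : ∃ m : ℤ, 10 * k * |y - ze k m| ≤ |VR k y| := by

  refine ⟨round (2 * y + 1 / 2), ?_⟩
  have h1 := abs_sub_round (2 * y + 1 / 2)
  have h2 := trig0_near hk (round (2 * y + 1 / 2))
  obtain ⟨c, hc, h⟩ := VR_ze hk (round (2 * y + 1 / 2)) (u := y - ze k (round (2 * y + 1 / 2))) (by
    rw [abs_le] at h1 h2 ⊢
    constructor <;> linarith [h1.1, h1.2, h2.1, h2.2])
  rw [add_sub_cancel] at h
  rw [h, abs_mul, abs_mul, abs_zpow, abs_neg, abs_one, one_zpow, one_mul]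
  exact mul_le_mul_of_nonneg_right (hc.trans (le_abs_self c)) (abs_nonneg _)

theorem ze_near {k : ℝ} (hk : 100 ≤ k) (m : ℤ) : |ze k m - (m / 2 - 1 / 4)| ≤ 1 / 100 := by

  exact trig0_near hk m

theorem VR_lip {k : ℝ} (hk : 0 ≤ k) (x y : ℝ) : |VR k x - VR k y| ≤ 40 * k * |x - y| := by

  have h5 := Real.pi_lt_d2
  have h6 := Real.pi_pos
  have h := Real.abs_cos_sub_cos_le (2 * Real.pi * x) (2 * Real.pi * y)
  rw [← mul_sub, abs_mul, abs_of_pos (a := 2 * Real.pi) (by positivity)] at h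
  rw [VR, VR, add_sub_add_left_eq_sub, ← mul_sub, abs_mul, abs_of_nonneg (by positivity)]
  calc _ ≤ 2 * 3.15 * k * (2 * 3.15 * |x - y|) := by
        gcongr
        exact h.trans (by gcongr)
    _ ≤ _ := by nlinarith [mul_nonneg hk (abs_nonneg (x - y))]

theorem trig0_q {q : ℝ} (hq : 100 ≤ q) : 2 + 2 * Real.pi * q ^ 100 ≤ q ^ 101 - 1 := by
  have h5 := Real.pi_lt_d2
  have h : 1 ≤ q ^ 100 := one_le_pow₀ (by linarith)
  rw [pow_succ q 100]
  nlinarith

theorem abs_VR_le {q : ℝ} (hq : 100 ≤ q) (x : ℝ) : |VR (q ^ 100) x| ≤ q ^ 101 - 1 := by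

  have h6 := Real.pi_pos
  have h0 : 0 < q := by linarith
  refine ((abs_add_le _ _).trans (add_le_add (by simp) ?_)).trans (trig0_q hq)
  rw [abs_mul, abs_of_pos (by positivity)]
  exact mul_le_of_le_one_right (by positivity) (Real.abs_cos_le_one _)

theorem gR_lip {q : ℝ} (hq : 100 ≤ q) (x y : ℝ) : |gR (q ^ 100) x - gR (q ^ 100) y| ≤ (q ^ 101 - 1) * |x - y| := by

  have h6 := Real.pi_pos
  have h0 : 0 < q := by linarith
  have h := Real.abs_sin_sub_sin_le (2 * Real.pi * x) (2 * Real.pi * y)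
  rw [← mul_sub, abs_mul, abs_of_pos (a := 2 * Real.pi) (by positivity)] at h
  rw [gR, gR, add_sub_add_comm, ← mul_sub, ← mul_sub]
  refine (abs_add_le _ _).trans (le_trans ?_ (mul_le_mul_of_nonneg_right (trig0_q hq) (abs_nonneg _)))
  rw [abs_mul, abs_mul, abs_two, abs_of_pos (pow_pos h0 _)]
  nlinarith [mul_le_mul_of_nonneg_left h (pow_pos h0 100).le]

end Crest.Agent.R128
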