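import Crest.Agent.R128.LocA
import Crest.Agent.R128.Dist2
import Crest.Agent.R128.Orb

/-!
# Row 128, WegA: good pairs on a line `x 0 = ξ`.
Keep the statements; add auxiliary lemmas freely (prefix `wega_`).
-/

set_option autoImplicit false

noncomputable section

open scoped Classical
open MeasureTheory Set

namespace Crest.Agent.R128

theorem wega_xo (k ξ s : ℝ) : xo k (ξ, s) (0 - 1) = gR k ξ - s := by
  have h := xo_rec k (ξ, s) 0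
  rw [zero_add, xo_one, xo_zero] at h
  simp only at h
  linarith

theorem wega_fwd (k ξ s : ℝ) (n : ℕ) : ph (vs k (ξ, s)) 0 n = jR k ξ s 0 1 n := by
  have h := ph_vs_fwd k (ξ, s) 0 n
  rwa [zero_add, zero_add, xo_one, xo_zero] at h

theorem wega_bwd (k ξ s : ℝ) (n : ℕ) : ph (vs k (ξ, s)) 0 (-n) = -jR k ξ (gR k ξ - s) 0 1 n := by
  have h := ph_vs_bwd k (ξ, s) 0 n
  rwa [wega_xo, zero_sub, xo_zero] at h

theorem wega_vfwd (k ξ s : ℝ) (n : ℕ) : vs k (ξ, s) n = VR k (obR k ξ s n) := by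
  have h := xo_fwd k (ξ, s) 0 n
  rw [zero_add, zero_add, xo_one, xo_zero] at h
  unfold vs
  rw [h]

theorem wega_vbwd (k ξ s : ℝ) (n : ℕ) : vs k (ξ, s) (-n) = VR k (obR k ξ (gR k ξ - s) n) := by
  have h := xo_bwd k (ξ, s) 0 n
  rw [wega_xo, zero_sub, xo_zero] at h
  unfold vs
  rw [h]

theorem wega_phi (k ξ s : ℝ) (α β : ℕ) :
    Phi (vs k (ξ, s)) α β = max |jR k ξ s 0 1 β| |jR k ξ (gR k ξ - s) 0 1 α| := by
  unfold Phi
  rw [wega_fwd, wega_bwd, abs_neg]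

/-- the two envelopes of a good pair (`ph_vs_fwd`, `ph_vs_bwd` with `a = 0`; `xo (-1) = gR k ξ - s`) -/
theorem Pair.env {q ξ s : ℝ} {α β : ℕ} (h : Pair q (vs (q ^ 100) (ξ, s)) α β) :
    Env q ξ s β ∧ Env q ξ (gR (q ^ 100) ξ - s) α := by
  obtain ⟨-, -, h1, h2, -⟩ := h
  refine ⟨fun i hi => ?_, fun i hi => ?_⟩
  · have := h1 i hi
    rwa [wega_fwd, wega_fwd] at this
  · have := h2 i hi
    rwa [wega_bwd, wega_bwd, abs_neg, abs_neg] at this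

theorem Pair.one_le_Phi {q : ℝ} {v : ℤ → ℝ} {α β : ℕ} (hq : 1 ≤ q) (h : Pair q v α β) : 1 ≤ Phi v α β := by
  obtain ⟨-, hβ, h1, -⟩ := h
  have h2 := h1 1 hβ
  have h3 := ph_succ v 0
  rw [zero_add] at h3
  rw [Nat.cast_one, h3, abs_one, mul_one] at h2
  refine le_trans (one_le_zpow₀ hq (by omega)) (h2.trans (le_max_left _ _))

theorem Pair.phi_grow {q : ℝ} {v : ℤ → ℝ} {α β α' β' : ℕ} (hq : 1 ≤ q) (h : Pair q v α' β') (hα : α < α')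
    (hβ : β < β') : q ^ 90 * Phi v α β ≤ Phi v α' β' := by
  obtain ⟨-, -, h1, h2, -⟩ := h
  have e : ∀ n : ℤ, 1 ≤ n → q ^ 90 ≤ q ^ (90 * n) := fun n hn => by
    rw [← zpow_natCast]
    exact zpow_le_zpow_right₀ hq (by push_cast; omega)
  unfold Phi
  rw [mul_max_of_nonneg _ _ (by positivity)]
  exact max_le_max
    ((mul_le_mul_of_nonneg_right (e _ (by omega)) (abs_nonneg _)).trans (h1 β hβ.le))
    ((mul_le_mul_of_nonneg_right (e _ (by omega)) (abs_nonneg _)).trans (h2 α hα.le))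

theorem wega_real {q ξ s s' : ℝ} {β : ℕ} (hq : 100 ≤ q) (h : Env q ξ s β)
    (hw : |s' - s| * |jR (q ^ 100) ξ s 0 1 β| ≤ 3) :
    99 / 100 * |jR (q ^ 100) ξ s 0 1 β| ≤ |jR (q ^ 100) ξ s' 0 1 β| ∧
      |jR (q ^ 100) ξ s' 0 1 β| ≤ 101 / 100 * |jR (q ^ 100) ξ s 0 1 β| := by
  have h1 := (dist_real hq h (s' := s')
    (hw.trans (le_trans (by linarith) (le_self_pow₀ (by linarith) (by norm_num)))) β le_rfl).2
  rw [sub_self, mul_zero, zpow_zero, mul_one] at h1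
  have h2 := abs_le.1 ((abs_abs_sub_abs_le_abs_sub _ _).trans h1)
  constructor <;> linarith [h2.1, h2.2]

theorem wega_both {q ξ s s' : ℝ} {α β : ℕ} (hq : 100 ≤ q) (h : Pair q (vs (q ^ 100) (ξ, s)) α β)
    (hs : |s' - s| * Phi (vs (q ^ 100) (ξ, s)) α β ≤ 3) :
    (99 / 100 * |jR (q ^ 100) ξ s 0 1 β| ≤ |jR (q ^ 100) ξ s' 0 1 β| ∧
      |jR (q ^ 100) ξ s' 0 1 β| ≤ 101 / 100 * |jR (q ^ 100) ξ s 0 1 β|) ∧
    (99 / 100 * |jR (q ^ 100) ξ (gR (q ^ 100) ξ - s) 0 1 α| ≤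
        |jR (q ^ 100) ξ (gR (q ^ 100) ξ - s') 0 1 α| ∧
      |jR (q ^ 100) ξ (gR (q ^ 100) ξ - s') 0 1 α| ≤
        101 / 100 * |jR (q ^ 100) ξ (gR (q ^ 100) ξ - s) 0 1 α|) := by
  rw [wega_phi] at hs
  refine ⟨wega_real hq h.env.1
    ((mul_le_mul_of_nonneg_left (le_max_left _ _) (abs_nonneg _)).trans hs),
    wega_real hq h.env.2 ?_⟩
  rw [sub_sub_sub_cancel_left, abs_sub_comm]
  exact (mul_le_mul_of_nonneg_left (le_max_right _ _) (abs_nonneg _)).trans hs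

/-- `dist_real` on both sides -/
theorem Pair.phi_stab {q ξ s s' : ℝ} {α β : ℕ} (hq : 100 ≤ q) (h : Pair q (vs (q ^ 100) (ξ, s)) α β)
    (hs : |s' - s| * Phi (vs (q ^ 100) (ξ, s)) α β ≤ 3) :
    99 / 100 * Phi (vs (q ^ 100) (ξ, s)) α β ≤ Phi (vs (q ^ 100) (ξ, s')) α β := by
  obtain ⟨h1, h2⟩ := wega_both hq h hs
  rw [wega_phi, wega_phi, mul_max_of_nonneg _ _ (by norm_num)]
  exact max_le_max h1.1 h2.1

/-- one of the two curves -/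
theorem wega_side {q ξ s c : ℝ} {β : ℕ} (hq : 100 ≤ q) (hβ : 1 ≤ β) (h : Env q ξ s β) (hc0 : c ≠ 0)
    (hc : |c| * |jR (q ^ 100) ξ s 0 1 β| ≤ 1) : ∃ z z' θ : ℂ → ℂ,
      (∀ w, HasDerivAt z (z' w) w) ∧ Differentiable ℂ z' ∧
      (∀ w, ‖w‖ ≤ q ^ 70 → ‖z' w - (|c| * |jR (q ^ 100) ξ s 0 1 β| : ℝ)‖ ≤
        |c| * |jR (q ^ 100) ξ s 0 1 β| / 100) ∧ (∀ x : ℝ, (z x).im = 0) ∧
      DifferentiableOn ℂ θ (Metric.closedBall 0 (q ^ 5)) ∧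
      (∀ t : Fin 3 → ℂ, Function.Injective t → (∀ i, ‖t i‖ ≤ q ^ 5) → ∀ w, ‖w‖ ≤ q ^ 5 →
        ‖θ w - lag t θ w‖ ≤ q ^ (-110 : ℤ) / jR (q ^ 100) ξ s 0 1 β ^ 2) ∧
      ∀ x : ℝ, VC (q ^ 100) (z x) = VR (q ^ 100) (obR (q ^ 100) ξ (s + c * x) β) ∧
        z' x ^ 2 = ((c * jR (q ^ 100) ξ (s + c * x) 0 1 β) ^ 2 : ℝ) ∧
        θ x = (jR (q ^ 100) ξ (s + c * x) 1 0 β / jR (q ^ 100) ξ (s + c * x) 0 1 β : ℝ) := by
  obtain ⟨ε, hε, hε'⟩ : ∃ ε : ℝ, (ε = 1 ∨ ε = -1) ∧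
      ε * (c * jR (q ^ 100) ξ s 0 1 β) = |c| * |jR (q ^ 100) ξ s 0 1 β| := by
    rw [← abs_mul]
    rcases le_total 0 (c * jR (q ^ 100) ξ s 0 1 β) with h0 | h0
    · exact ⟨1, Or.inl rfl, by rw [abs_of_nonneg h0, one_mul]⟩
    · exact ⟨-1, Or.inr rfl, by rw [abs_of_nonpos h0, neg_one_mul]⟩
  have hε1 : |ε| = 1 := by rcases hε with rfl | rfl <;> simp
  have hsc : ∀ (w : ℂ) (R : ℝ), ‖w‖ ≤ R → ‖(c : ℂ) * w‖ * |jR (q ^ 100) ξ s 0 1 β| ≤ R := by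
    intro w R hw
    rw [norm_mul, Complex.norm_real, Real.norm_eq_abs, mul_right_comm]
    exact (mul_le_of_le_one_left (norm_nonneg _) hc).trans hw
  have hlin : ∀ w : ℂ, HasDerivAt (fun w : ℂ => (s : ℂ) + c * w) c w := fun w => by
    simpa using ((hasDerivAt_id w).const_mul (c : ℂ)).const_add (s : ℂ)
  have hre : ∀ x : ℝ, (s : ℂ) + c * x = (s + c * x : ℝ) := fun x => by push_cast; rfl
  have hj : ∀ (x α' β' : ℝ), jC (q ^ 100) ξ ((s : ℂ) + c * x) α' β' β =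
      jR (q ^ 100) ξ (s + c * x) α' β' β := fun x α' β' => by rw [hre, jC_ofReal]
  refine ⟨fun w => ε * obC (q ^ 100) ξ (s + c * w) β,
    fun w => ε * (jC (q ^ 100) ξ (s + c * w) 0 1 β * c), fun w => sg (q ^ 100) ξ s β (c * w),
    fun w => (HasDerivAt.comp (h₂ := fun u => obC (q ^ 100) ξ u β) w
      (hasDerivAt_obC (q ^ 100) ξ (s + c * w) β) (hlin w)).const_mul (ε : ℂ), ?_,
    fun w hw => ?_, fun x => ?_, ?_, fun t ht htT w hw => ?_, fun x => ⟨?_, ?_, ?_⟩⟩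
  · exact ((((differentiable_jC (q ^ 100) ξ 0 1 β).comp
      fun w => (hlin w).differentiableAt).mul_const _).const_mul _)
  · have h1 := dist_jC hq h (hsc w _ hw) β le_rfl
    rw [sub_self, mul_zero, zpow_zero, mul_one] at h1
    rw [← hε']
    have e : (ε : ℂ) * (jC (q ^ 100) ξ (s + c * w) 0 1 β * c) -
        (ε * (c * jR (q ^ 100) ξ s 0 1 β) : ℝ) =
        (ε : ℂ) * (c * (jC (q ^ 100) ξ (s + c * w) 0 1 β - jR (q ^ 100) ξ s 0 1 β)) := by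
      push_cast; ring
    rw [e, norm_mul, norm_mul, Complex.norm_real, Complex.norm_real, Real.norm_eq_abs,
      Real.norm_eq_abs, hε1, one_mul, hε', mul_div_assoc]
    exact mul_le_mul_of_nonneg_left h1 (abs_nonneg _)
  · beta_reduce
    rw [hre, obC_ofReal, ← Complex.ofReal_mul, Complex.ofReal_im]
  · refine (differentiableOn_sg hq hβ h).comp (f := fun w : ℂ => (c : ℂ) * w)
      ((differentiable_id.const_mul _).differentiableOn) fun w hw => hsc w _ ?_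
    rw [Metric.mem_closedBall, dist_zero_right] at hw
    exact hw.trans (pow_le_pow_right₀ (by linarith) (by norm_num))
  · have hc' : (c : ℂ) ≠ 0 := Complex.ofReal_ne_zero.2 hc0
    rw [lag_comp_mul t _ hc']
    exact sg_quadratic hq hβ h (fun i j e => ht (mul_left_cancel₀ hc' e))
      (fun i => hsc _ _ (htT i)) (hsc _ _ hw)
  · beta_reduce
    rw [hre, obC_ofReal, ← VC_ofReal]
    rcases hε with rfl | rfl
    · rw [Complex.ofReal_one, one_mul]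
    · rw [Complex.ofReal_neg, Complex.ofReal_one, neg_one_mul, VC_neg]
  · have h1 := hj x 0 1
    rw [Complex.ofReal_zero, Complex.ofReal_one] at h1
    beta_reduce
    rw [h1]
    rcases hε with rfl | rfl <;> push_cast <;> ring
  · have h1 := hj x 0 1
    have h2 := hj x 1 0
    rw [Complex.ofReal_zero, Complex.ofReal_one] at h1 h2
    unfold sg
    beta_reduce
    rw [h1, h2, Complex.ofReal_div]

theorem wega_symm (q μ : ℝ) (y z y' z' Θ : ℂ → ℂ) (w : ℂ) :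
    Ph q μ y z y' z' Θ w = Ph q μ z y z' y' Θ w := by
  unfold Ph
  ring

/-- `k = q ^ 100`, `ŝ = gR k ξ - s`, `b = jR k ξ s 0 1 β`, `a = jR k ξ ŝ 0 1 α`, `Φ = max |a| |b|`, `m = min |a| |b|`,
`μ = m / Φ ∈ [q ^ (-55), 1]`.  Curves: `zR w = ε_b obC k ξ (s + w / Φ) β` with derivative `ε_b jC k ξ (s + w/Φ) 0 1 β / Φ`
and `zL w = -ε_a obC k ξ (ŝ - w / Φ) α` with derivative `ε_a jC k ξ (ŝ - w/Φ) 0 1 α / Φ` (`ε` = signs of `b`, `a`; `V` is even,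
`VC_neg`); `dist_jC` at the top index.  `(z, y) = (zR, zL)` if `|a| ≤ |b|`, else `(zL, zR)`; `Ph` is symmetric in the two
curves up to the order of the factors.  `Θ w = m ^ 2 (sg k ξ s β (w / Φ) + sg k ξ ŝ α (-w / Φ) + V ξ)`:
`differentiableOn_sg`, `sg_quadratic`, `lag_add`, `lag_mul`, `lag_const`, `lag_comp_mul`.  Nodes `(t i - s) Φ`; at a node,
`th_vs`, `jC_ofReal`, `obC_ofReal` identify `Θ = m ^ 2 Th` and `Ph = P / Φ ^ 2` (`P` the expression in `Pair`;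
`m ^ 2 / μ ^ 2 = Φ ^ 2`), and `dist_real` compares `max`, `min` at the node with `Φ ^ 2`, `m ^ 2`.  Apply `loc`. -/
theorem line_sep {σ : ℝ} (hσ : 0 < σ) (hσ' : σ ≤ 1) : ∃ q₀ : ℝ, 100 ≤ q₀ ∧ ∀ q, q₀ ≤ q → ∃ r : ℕ,
    2 ≤ r ∧ (r : ℝ) ≤ q ∧ ∀ (ξ s : ℝ) (α β : ℕ), Pair q (vs (q ^ 100) (ξ, s)) α β → ∀ t : Fin (r + 1) → ℝ,
      (∀ i, Pair q (vs (q ^ 100) (ξ, t i)) α β) → (∀ i, |t i - s| ≤ 3 / Phi (vs (q ^ 100) (ξ, s)) α β) →
      (∀ i j, i < j → t i + σ / r * (3 / Phi (vs (q ^ 100) (ξ, s)) α β) ≤ t j) → False := by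
  obtain ⟨q₀, hq₀, H⟩ := loc hσ hσ'
  refine ⟨q₀, hq₀, fun q hq => ?_⟩
  obtain ⟨r, hr, hrq, H⟩ := H q hq
  refine ⟨r, hr, hrq, fun ξ s α β hp t ht hts hsep => ?_⟩
  have hq' : 100 ≤ q := hq₀.trans hq
  have q0 : 0 < q := by linarith
  have hst : ∀ i, |t i - s| * Phi (vs (q ^ 100) (ξ, s)) α β ≤ 3 := fun i =>
    (le_div_iff₀ (lt_of_lt_of_le one_pos (hp.one_le_Phi (by linarith)))).1 (hts i)
  have hb := fun i => wega_both hq' hp (hst i)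
  have hΦ := wega_phi (q ^ 100) ξ s α β
  obtain ⟨eR, eL⟩ := hp.env
  obtain ⟨hα, hβ, -, -, hab, hba, -⟩ := hp
  rw [wega_fwd, wega_bwd, abs_neg] at hab hba
  have b1 := eR.one_le hq' hβ
  have a1 := eL.one_le hq' hα
  generalize Phi (vs (q ^ 100) (ξ, s)) α β = Φ at hts hsep hst hΦ
  have bΦ : |jR (q ^ 100) ξ s 0 1 β| ≤ Φ := hΦ ▸ le_max_left _ _
  have aΦ : |jR (q ^ 100) ξ (gR (q ^ 100) ξ - s) 0 1 α| ≤ Φ := hΦ ▸ le_max_right _ _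
  have Φ0 : 0 < Φ := by linarith
  have c1 : |Φ⁻¹| = Φ⁻¹ := abs_of_pos (inv_pos.2 Φ0)
  have c2 : |-Φ⁻¹| = Φ⁻¹ := by rw [abs_neg, c1]
  obtain ⟨zR, zR', θR, R1, R2, R3, R4, R5, R6, R7⟩ := wega_side (c := Φ⁻¹) hq' hβ eR
    (inv_pos.2 Φ0).ne' (by rw [c1]; exact (inv_mul_le_one₀ Φ0).2 bΦ)
  obtain ⟨zL, zL', θL, L1, L2, L3, L4, L5, L6, L7⟩ := wega_side (c := -Φ⁻¹) hq' hα eL
    (neg_ne_zero.2 (inv_pos.2 Φ0).ne') (by rw [c2]; exact (inv_mul_le_one₀ Φ0).2 aΦ)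
  rw [c1] at R3
  rw [c2] at L3
  generalize jR (q ^ 100) ξ s 0 1 β = b at *
  generalize jR (q ^ 100) ξ (gR (q ^ 100) ξ - s) 0 1 α = a at *
  obtain ⟨m, hm⟩ : ∃ m, m = min |b| |a| := ⟨_, rfl⟩
  have mb : m ≤ |b| := hm ▸ min_le_left _ _
  have ma : m ≤ |a| := hm ▸ min_le_right _ _
  have m0 : 0 < m := by rw [hm]; exact lt_min (by linarith) (by linarith)
  obtain ⟨Θ, hΘ⟩ : ∃ Θ : ℂ → ℂ, Θ = fun w => ((m ^ 2 : ℝ) : ℂ) * (θR w + θL w + VR (q ^ 100) ξ) :=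
    ⟨_, rfl⟩
  have T1 : DifferentiableOn ℂ Θ (Metric.closedBall 0 (q ^ 5)) := by
    rw [hΘ]
    exact ((R5.add L5).add_const _).const_mul _
  have T2 : ∀ s : Fin 3 → ℂ, Function.Injective s → (∀ i, ‖s i‖ ≤ q ^ 5) → ∀ w, ‖w‖ ≤ q ^ 5 →
      ‖Θ w - lag s Θ w‖ ≤ 2 * q ^ (-110 : ℤ) := by
    intro u hu huT w hw
    have e : Θ w - lag u Θ w =
        ((m ^ 2 : ℝ) : ℂ) * ((θR w - lag u θR w) + (θL w - lag u θL w)) := by
      rw [hΘ, lag_mul, lag_add u (fun w => θR w + θL w), lag_add, lag_const (r := 2) hu]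
      ring
    have e1 : ∀ x : ℝ, m ≤ |x| → m ^ 2 * (q ^ (-110 : ℤ) / x ^ 2) ≤ q ^ (-110 : ℤ) := by
      intro x hx
      have h1 : m ^ 2 ≤ x ^ 2 := by rw [← sq_abs x]; exact pow_le_pow_left₀ m0.le hx 2
      rw [mul_div_left_comm]
      exact mul_le_of_le_one_right (by positivity) (div_le_one_of_le₀ h1 (sq_nonneg _))
    rw [e, norm_mul, Complex.norm_real, Real.norm_of_nonneg (sq_nonneg _)]
    refine (mul_le_mul_of_nonneg_left ((norm_add_le _ _).trans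
      (add_le_add (R6 u hu huT w hw) (L6 u hu huT w hw))) (sq_nonneg _)).trans ?_
    rw [mul_add]
    linarith [e1 b mb, e1 a ma]
  have N1 : ∀ i, |(t i - s) * Φ| ≤ 3 := fun i => by rw [abs_mul, abs_of_pos Φ0]; exact hst i
  have N2 : ∀ i j, i < j → (t i - s) * Φ + 3 * σ / r ≤ (t j - s) * Φ := by
    intro i j hij
    have h1 := mul_le_mul_of_nonneg_right (hsep i j hij) Φ0.le
    have e : (t i + σ / r * (3 / Φ)) * Φ = t i * Φ + 3 * σ / r := by field_simp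
    rw [e] at h1
    linarith
  have n1 : ∀ i, s + Φ⁻¹ * ((t i - s) * Φ) = t i := fun i => by field_simp; ring
  have n2 : ∀ i, gR (q ^ 100) ξ - s + -Φ⁻¹ * ((t i - s) * Φ) = gR (q ^ 100) ξ - t i := fun i => by
    field_simp; ring
  have n3 : ∀ i, Θ ((t i - s) * Φ : ℝ) = (m ^ 2 * Th (vs (q ^ 100) (ξ, t i)) α β : ℝ) := by
    intro i
    have h1 := (ht i).env.2.one_le hq' hα
    rw [hΘ, th_vs _ _ _ _ _ (abs_pos.1 (lt_of_lt_of_le one_pos h1))]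
    simp only [(R7 _).2.2, (L7 _).2.2, n1, n2]
    push_cast
    ring
  have N3 : ∀ i, ‖Θ ((t i - s) * Φ : ℝ)‖ ≤ 2 * q ^ (-98 : ℤ) := by
    intro i
    have h1 := (ht i).2.2.2.2.2.2.2
    rw [wega_fwd, wega_bwd, neg_sq] at h1
    obtain ⟨⟨h2, -⟩, h3, -⟩ := hb i
    have e1 : ∀ x : ℝ, 99 / 100 * m ≤ |x| → m ^ 2 / 2 ≤ x ^ 2 := by
      intro x hx
      have := pow_le_pow_left₀ (by positivity) hx 2
      rw [sq_abs] at this
      nlinarith [sq_nonneg m]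
    have h4 := (mul_le_mul_of_nonneg_left (le_min (e1 _ (by linarith)) (e1 _ (by linarith)))
      (abs_nonneg _)).trans h1
    rw [n3, Complex.norm_real, Real.norm_eq_abs, abs_mul, abs_of_nonneg (sq_nonneg m)]
    linarith
  have N4 : ∀ i, ‖Ph q (Φ⁻¹ * m) zL zR zL' zR' Θ ((t i - s) * Φ : ℝ)‖ ≤ 2 * q ^ (-85 : ℤ) := by
    intro i
    have h1 := (ht i).2.2.2.2.2.2.1
    rw [wega_fwd, wega_bwd, neg_sq, wega_vfwd, wega_vbwd] at h1
    obtain ⟨⟨-, h2⟩, -, h3⟩ := hb i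
    have e1 : ∀ x : ℝ, |x| ≤ 101 / 100 * Φ → x ^ 2 ≤ 2 * Φ ^ 2 := by
      intro x hx
      have := pow_le_pow_left₀ (abs_nonneg _) hx 2
      rw [sq_abs] at this
      nlinarith [sq_nonneg Φ]
    have h4 := h1.trans (mul_le_mul_of_nonneg_left (max_le (e1 _ (by linarith)) (e1 _ (by linarith)))
      (by positivity))
    unfold Ph
    rw [n3, (R7 _).1, (R7 _).2.1, (L7 _).1, (L7 _).2.1, n1, n2]
    generalize Th (vs (q ^ 100) (ξ, t i)) α β = T at *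
    generalize jR (q ^ 100) ξ (t i) 0 1 β = b' at *
    generalize jR (q ^ 100) ξ (gR (q ^ 100) ξ - t i) 0 1 α = a' at *
    generalize VR (q ^ 100) (obR (q ^ 100) ξ (t i) β) = vb at *
    generalize VR (q ^ 100) (obR (q ^ 100) ξ (gR (q ^ 100) ξ - t i) α) = va at *
    generalize q ^ (-85 : ℤ) = δ at h4 ⊢
    norm_cast
    have e : m ^ 2 * T / (Φ⁻¹ * m) ^ 2 * (Φ⁻¹ * b') ^ 2 * (-Φ⁻¹ * a') ^ 2 * vb * va -
        (-Φ⁻¹ * a') ^ 2 * va - (Φ⁻¹ * b') ^ 2 * vb =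
        (T * b' ^ 2 * a' ^ 2 * vb * va - a' ^ 2 * va - b' ^ 2 * vb) / Φ ^ 2 := by
      field_simp
    rw [e, Real.norm_eq_abs, abs_div, abs_of_nonneg (sq_nonneg Φ), div_le_iff₀ (by positivity)]
    linarith
  have μ1 : Φ⁻¹ * m ≤ 1 := (inv_mul_le_one₀ Φ0).2 (mb.trans bΦ)
  have μ2 : ∀ x y : ℝ, 0 < x → x ≤ q ^ 55 * y → q ^ (-55 : ℤ) ≤ x⁻¹ * y := by
    intro x y hx h
    rw [zpow_neg, inv_mul_eq_div, le_div_iff₀ hx, inv_mul_le_iff₀ (by positivity)]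
    exact_mod_cast h
  rcases le_total |a| |b| with h | h
  · rw [max_eq_left h] at hΦ
    rw [min_eq_right h] at hm
    rw [← hΦ, inv_mul_cancel₀ Φ0.ne'] at R3
    rw [← hm] at L3
    refine H (Φ⁻¹ * m) zL zR zL' zR' Θ (fun i => (t i - s) * Φ)
      ⟨μ2 _ _ Φ0 (by rw [hΦ, hm]; exact hba), μ1, R1, L1, R2, L2, ?_, L3, R4, L4⟩ T1 T2 N1 N2 N3 N4
    simpa only [Complex.ofReal_one] using R3
  · rw [max_eq_right h] at hΦ
    rw [min_eq_left h] at hm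
    rw [← hΦ, inv_mul_cancel₀ Φ0.ne'] at L3
    rw [← hm] at R3
    refine H (Φ⁻¹ * m) zR zL zR' zL' Θ (fun i => (t i - s) * Φ)
      ⟨μ2 _ _ Φ0 (by rw [hΦ, hm]; exact hab), μ1, L1, R1, L2, R2, ?_, R3, L4, R4⟩ T1 T2 N1 N2 N3
      fun i => by rw [wega_symm]; exact N4 i
    simpa only [Complex.ofReal_one] using L3

end Crest.Agent.R128
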